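import Vale.Agent.Lib.P074S.Stab
import Vale.Agent.Lib.P074S.PotMain
import Vale.Agent.Lib.P074B.Final

/-!
# P074, exponent one third: definitions (finite labels, Laguerre cells)

Labels `j : Fin N`, sites `y j`, weights `c j`.  `lag K y c j` is the Laguerre cell of `j` in `K`.
-/

open MeasureTheory
open scoped ENNReal NNReal RealInnerProductSpace

namespace Vale.Agent.Lib.P074

variable {d N : ℕ}

/-- Laguerre cell of the label `j` in `K`, for the sites `y` and the weights `c`. -/
def lag (K : Set (E d)) (y : Fin N → E d) (c : Fin N → ℝ) (j : Fin N) : Set (E d) :=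
  {x | x ∈ K ∧ ∀ k, ⟪x, y k⟫ - c k ≤ ⟪x, y j⟫ - c j}

/-- Mass of the cell for the uniform probability measure of `K`. -/
noncomputable def lmass (K : Set (E d)) (y : Fin N → E d) (c : Fin N → ℝ) (j : Fin N) : ℝ :=
  ((unif K) (lag K y c j)).toReal

/-- First moment of the cell for the uniform probability measure of `K`. -/
noncomputable def lmom (K : Set (E d)) (y : Fin N → E d) (c : Fin N → ℝ) (j : Fin N) : E d :=
  ∫ x in lag K y c j, x ∂(unif K)

/-- The convex piecewise affine potential `max_j (<x, y j> - c j)`. -/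
noncomputable def lpot (y : Fin N → E d) (c : Fin N → ℝ) (x : E d) : ℝ :=
  ⨆ j, (⟪x, y j⟫ - c j)

/-- The finitely supported measure with sites `y` and masses `m`. -/
noncomputable def atom (y : Fin N → E d) (m : Fin N → ℝ) : Measure (E d) :=
  ∑ j, ENNReal.ofReal (m j) • Measure.dirac (y j)

/-- The Gaussian weight `exp (- lam |x|^2 / 2)`. -/
noncomputable def kap (lam : ℝ) (x : E d) : ℝ := Real.exp (-(lam * ‖x‖ ^ 2 / 2))

/-- Squared `L^2(m)` length of the displacement of the sites. -/
noncomputable def wsq (m : Fin N → ℝ) (y0 y1 : Fin N → E d) : ℝ :=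
  ∑ j, m j * ‖y1 j - y0 j‖ ^ 2

end Vale.Agent.Lib.P074
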