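import Vale.Agent.Lib.P074T.PLe
import Vale.Agent.Lib.P074T.Defs

/-! # P074T task D: the tilted Prekopa-Leindler inequality for one cell -/

open MeasureTheory Set
open scoped ENNReal NNReal RealInnerProductSpace

namespace Vale.Agent.Lib.P074

variable {d : ℕ}

theorem setIntegral_unif_of_subset_d1 {K S : Set (E d)} (hS : MeasurableSet S) (hSK : S ⊆ K)
    (f : E d → ℝ) :
    ∫ x in S, f x ∂(unif K) = (volume K).toReal⁻¹ * ∫ x in S, f x := by
  unfold unif
  rw [Measure.restrict_smul, Measure.restrict_restrict hS, inter_eq_left.mpr hSK,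
    integral_smul_measure, ENNReal.toReal_inv, smul_eq_mul]

theorem kap_pos_d1 (lam : ℝ) (x : E d) : 0 < kap lam x := Real.exp_pos _

theorem kap_le_one_d1 {lam : ℝ} (hlam : 0 < lam) (x : E d) : kap lam x ≤ 1 := by
  unfold kap
  rw [Real.exp_le_one_iff]
  have : 0 ≤ lam * ‖x‖ ^ 2 / 2 := by positivity
  linarith

theorem measurable_kap_d1 (lam : ℝ) : Measurable (kap lam : E d → ℝ) := by
  unfold kap
  fun_prop

theorem norm_mid_sq_d1 (x y : E d) :
    ‖(1 / 2 : ℝ) • x + (1 / 2 : ℝ) • y‖ ^ 2 = (‖x‖ ^ 2 + ‖y‖ ^ 2) / 2 - ‖x - y‖ ^ 2 / 4 := by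
  have h1 : (1 / 2 : ℝ) • x + (1 / 2 : ℝ) • y = (1 / 2 : ℝ) • (x + y) := by rw [smul_add]
  have h2 := parallelogram_law_with_norm ℝ x y
  rw [h1, norm_smul, Real.norm_eq_abs, abs_of_pos (by norm_num : (0 : ℝ) < 1 / 2)]
  nlinarith [h2]

/-- TASK D1.  `pl_sets` with `F = exp (a u) kap`, `G = exp (-a u) kap`,
`Hh = exp (a^2 L^2 / (2 lam)) kap`. -/
theorem cell_pl {K : Set (E d)} (hK : IsCompact K) (hint : (interior K).Nonempty)
    {A B D : Set (E d)} (hA : MeasurableSet A) (hB : MeasurableSet B) (hD : MeasurableSet D)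
    (hAK : A ⊆ K) (hBK : B ⊆ K) (hDK : D ⊆ K)
    (hmid : ∀ x ∈ A, ∀ y ∈ B, (1 / 2 : ℝ) • x + (1 / 2 : ℝ) • y ∈ D)
    {lam : ℝ} (hlam : 0 < lam) (u : E d → ℝ) (hu : Measurable u) {L Cu : ℝ} (hL : 0 ≤ L)
    (hLip : ∀ x ∈ K, ∀ y ∈ K, |u x - u y| ≤ L * ‖x - y‖) (hub : ∀ x ∈ K, |u x| ≤ Cu) (a : ℝ) :
    (∫ x in A, Real.exp (a * u x) * kap lam x ∂(unif K)) *
      (∫ x in B, Real.exp (-(a * u x)) * kap lam x ∂(unif K))
      ≤ (Real.exp (a ^ 2 * L ^ 2 / (2 * lam)) * ∫ x in D, kap lam x ∂(unif K)) ^ 2 := by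
  have hKm : MeasurableSet K := hK.measurableSet
  obtain ⟨M, hM⟩ := hK.isBounded.exists_norm_le
  set F : E d → ℝ := fun x => Real.exp (a * u x) * kap lam x with hF
  set G : E d → ℝ := fun x => Real.exp (-(a * u x)) * kap lam x with hG
  set c0 : ℝ := Real.exp (a ^ 2 * L ^ 2 / (2 * lam)) with hc0
  set Hh : E d → ℝ := fun x => c0 * kap lam x with hHh
  have hFm : Measurable F := ((hu.const_mul a).exp).mul (measurable_kap_d1 lam)
  have hGm : Measurable G := ((hu.const_mul a).neg.exp).mul (measurable_kap_d1 lam)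
  have hHm : Measurable Hh := (measurable_kap_d1 lam).const_mul c0
  set C : ℝ := max (Real.exp (|a| * Cu)) c0 with hC
  have hC0 : 0 ≤ C := le_trans (Real.exp_pos _).le (le_max_left _ _)
  have hau : ∀ x ∈ K, |a * u x| ≤ |a| * Cu := fun x hx => by
    rw [abs_mul]; exact mul_le_mul_of_nonneg_left (hub x hx) (abs_nonneg a)
  have hFb : ∀ x ∈ K, F x ≤ C := fun x hx => by
    have h1 : Real.exp (a * u x) ≤ Real.exp (|a| * Cu) :=
      Real.exp_le_exp.mpr ((le_abs_self _).trans (hau x hx))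
    calc F x ≤ Real.exp (|a| * Cu) * 1 :=
          mul_le_mul h1 (kap_le_one_d1 hlam x) (kap_pos_d1 lam x).le (Real.exp_pos _).le
      _ ≤ C := by rw [mul_one]; exact le_max_left _ _
  have hGb : ∀ x ∈ K, G x ≤ C := fun x hx => by
    have h1 : Real.exp (-(a * u x)) ≤ Real.exp (|a| * Cu) :=
      Real.exp_le_exp.mpr ((neg_le_abs _).trans (hau x hx))
    calc G x ≤ Real.exp (|a| * Cu) * 1 :=
          mul_le_mul h1 (kap_le_one_d1 hlam x) (kap_pos_d1 lam x).le (Real.exp_pos _).le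
      _ ≤ C := by rw [mul_one]; exact le_max_left _ _
  have hF0 : ∀ x, 0 ≤ F x := fun x => (mul_pos (Real.exp_pos _) (kap_pos_d1 lam x)).le
  have hG0 : ∀ x, 0 ≤ G x := fun x => (mul_pos (Real.exp_pos _) (kap_pos_d1 lam x)).le
  have hH0 : ∀ x, 0 ≤ Hh x := fun x => (mul_pos (Real.exp_pos _) (kap_pos_d1 lam x)).le
  have hHb : ∀ x, Hh x ≤ C := fun x => by
    calc Hh x ≤ c0 * 1 := mul_le_mul_of_nonneg_left (kap_le_one_d1 hlam x) (Real.exp_pos _).le
      _ ≤ C := by rw [mul_one]; exact le_max_right _ _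
  have key := pl_sets d (K.indicator F) (K.indicator G) Hh (hFm.indicator hKm)
    (hGm.indicator hKm) hHm A B D hA hB hD C M
    (fun x hx => hM x (hAK hx)) (fun x hx => hM x (hBK hx)) (fun x hx => hM x (hDK hx))
    (fun x => indicator_nonneg (fun x _ => hF0 x) x)
    (fun x => indicator_nonneg (fun x _ => hG0 x) x) hH0
    (fun x => by
      by_cases hx : x ∈ K
      · rw [indicator_of_mem hx]; exact hFb x hx
      · rw [indicator_of_notMem hx]; exact hC0)
    (fun x => by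
      by_cases hx : x ∈ K
      · rw [indicator_of_mem hx]; exact hGb x hx
      · rw [indicator_of_notMem hx]; exact hC0)
    hHb hmid
    (fun x hx y hy => by
      rw [indicator_of_mem (hAK hx), indicator_of_mem (hBK hy)]
      simp only [hF, hG, hHh, hc0, kap]
      rw [← Real.exp_add, ← Real.exp_add, ← Real.exp_add, ← Real.exp_add, ← Real.exp_nat_mul]
      apply Real.exp_le_exp.mpr
      rw [norm_mid_sq_d1]
      have h1 : a * (u x - u y) ≤ |a| * (L * ‖x - y‖) := by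
        calc a * (u x - u y) ≤ |a * (u x - u y)| := le_abs_self _
          _ = |a| * |u x - u y| := abs_mul _ _
          _ ≤ |a| * (L * ‖x - y‖) :=
            mul_le_mul_of_nonneg_left (hLip x (hAK hx) y (hBK hy)) (abs_nonneg a)
      have h2 : |a| * (L * ‖x - y‖) ≤ a ^ 2 * L ^ 2 / lam + lam * ‖x - y‖ ^ 2 / 4 := by
        have h3 : 0 ≤ (|a| * L - lam * ‖x - y‖ / 2) ^ 2 / lam := by positivity
        have h4 : (|a| * L - lam * ‖x - y‖ / 2) ^ 2 / lam
            = a ^ 2 * L ^ 2 / lam + lam * ‖x - y‖ ^ 2 / 4 - |a| * (L * ‖x - y‖) := by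
          have : |a| ^ 2 = a ^ 2 := sq_abs a
          field_simp
          nlinarith [this]
        linarith
      have h5 : a ^ 2 * L ^ 2 / (2 * lam) = a ^ 2 * L ^ 2 / lam / 2 := by
        field_simp
      rw [h5]
      push_cast
      nlinarith [h1, h2])
  have eA : ∫ x in A, K.indicator F x = ∫ x in A, F x :=
    setIntegral_congr_fun hA fun x hx => indicator_of_mem (hAK hx) F
  have eB : ∫ x in B, K.indicator G x = ∫ x in B, G x :=
    setIntegral_congr_fun hB fun x hx => indicator_of_mem (hBK hx) G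
  have eD : ∫ x in D, Hh x = c0 * ∫ x in D, kap lam x := integral_const_mul _ _
  rw [eA, eB, eD] at key
  rw [setIntegral_unif_of_subset_d1 hA hAK, setIntegral_unif_of_subset_d1 hB hBK,
    setIntegral_unif_of_subset_d1 hD hDK]
  have hv : 0 ≤ (volume K).toReal⁻¹ := by positivity
  calc (volume K).toReal⁻¹ * (∫ x in A, F x) * ((volume K).toReal⁻¹ * ∫ x in B, G x)
      = (volume K).toReal⁻¹ ^ 2 * ((∫ x in A, F x) * ∫ x in B, G x) := by ring
    _ ≤ (volume K).toReal⁻¹ ^ 2 * (c0 * ∫ x in D, kap lam x) ^ 2 :=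
        mul_le_mul_of_nonneg_left key (by positivity)
    _ = (c0 * ((volume K).toReal⁻¹ * ∫ x in D, kap lam x)) ^ 2 := by ring

end Vale.Agent.Lib.P074
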