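import Vale.Agent.Lib.P074T.Cell

/-! # P074T task D2: Jensen and optimisation of the tilt -/

open MeasureTheory Set
open scoped ENNReal NNReal RealInnerProductSpace

namespace Vale.Agent.Lib.P074

variable {d : ℕ}

theorem measurable_kap_cj (lam : ℝ) : Measurable (kap lam : E d → ℝ) := by
  unfold kap
  fun_prop

theorem kap_pos_cj (lam : ℝ) (x : E d) : 0 < kap lam x := Real.exp_pos _

theorem kap_le_one_cj {lam : ℝ} (hlam : 0 ≤ lam) (x : E d) : kap lam x ≤ 1 := by
  unfold kap
  rw [Real.exp_le_one_iff]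
  have : 0 ≤ lam * ‖x‖ ^ 2 / 2 := by positivity
  linarith

/-- Jensen in the form needed: `exp (a U / p) p ≤ ∫_S exp (a u) kap`. -/
theorem jensen_aux {K : Set (E d)} (hK : IsCompact K) (hint : (interior K).Nonempty)
    {S : Set (E d)} (hS : MeasurableSet S) (hSK : S ⊆ K) {lam : ℝ} (hlam : 0 < lam)
    (u : E d → ℝ) (hu : Measurable u) {Cu : ℝ} (hub : ∀ x ∈ K, |u x| ≤ Cu)
    (hp : 0 < ∫ x in S, kap lam x ∂(unif K)) (a : ℝ) :
    Real.exp (a * ((∫ x in S, u x * kap lam x ∂(unif K)) / (∫ x in S, kap lam x ∂(unif K)))) *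
      (∫ x in S, kap lam x ∂(unif K)) ≤ ∫ x in S, Real.exp (a * u x) * kap lam x ∂(unif K) := by
  have := isProbabilityMeasure_unif hK hint
  set p := ∫ x in S, kap lam x ∂(unif K) with hpdef
  set U := ∫ x in S, u x * kap lam x ∂(unif K) with hU
  have hmem : ∀ᵐ x ∂((unif K).restrict S), x ∈ S := ae_restrict_mem hS
  have hk := measurable_kap_cj (d := d) lam
  have i1 : Integrable (fun x => kap lam x) ((unif K).restrict S) := by
    refine Integrable.of_bound hk.aestronglyMeasurable 1 (Filter.Eventually.of_forall fun x => ?_)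
    rw [Real.norm_of_nonneg (kap_pos_cj lam x).le]
    exact kap_le_one_cj hlam.le x
  have i2 : Integrable (fun x => u x * kap lam x) ((unif K).restrict S) := by
    refine Integrable.of_bound (hu.mul hk).aestronglyMeasurable Cu ?_
    filter_upwards [hmem] with x hx
    rw [norm_mul, Real.norm_eq_abs, Real.norm_of_nonneg (kap_pos_cj lam x).le]
    have h1 := hub x (hSK hx)
    have h2 := kap_le_one_cj hlam.le x
    have h3 := (kap_pos_cj lam x).le
    have h4 := abs_nonneg (u x)
    nlinarith
  have i3 : Integrable (fun x => Real.exp (a * u x) * kap lam x) ((unif K).restrict S) := by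
    refine Integrable.of_bound (((hu.const_mul a).exp).mul hk).aestronglyMeasurable
      (Real.exp (|a| * Cu)) ?_
    filter_upwards [hmem] with x hx
    rw [norm_mul, Real.norm_of_nonneg (Real.exp_pos _).le, Real.norm_of_nonneg (kap_pos_cj lam x).le]
    have h1 := hub x (hSK hx)
    have h2 := kap_le_one_cj hlam.le x
    have h3 := (kap_pos_cj lam x).le
    have h5 : Real.exp (a * u x) ≤ Real.exp (|a| * Cu) := by
      apply Real.exp_le_exp.mpr
      calc a * u x ≤ |a * u x| := le_abs_self _
        _ = |a| * |u x| := abs_mul _ _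
        _ ≤ |a| * Cu := mul_le_mul_of_nonneg_left h1 (abs_nonneg _)
    calc Real.exp (a * u x) * kap lam x ≤ Real.exp (|a| * Cu) * 1 :=
          mul_le_mul h5 h2 h3 (Real.exp_pos _).le
      _ = Real.exp (|a| * Cu) := mul_one _
  set E0 := Real.exp (a * (U / p)) with hE0
  have i4 : Integrable (fun x => E0 * (kap lam x + a * (u x * kap lam x - U / p * kap lam x)))
      ((unif K).restrict S) :=
    (i1.add ((i2.sub (i1.const_mul (U / p))).const_mul a)).const_mul E0
  have hle : ∫ x in S, E0 * (kap lam x + a * (u x * kap lam x - U / p * kap lam x)) ∂(unif K) ≤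
      ∫ x in S, Real.exp (a * u x) * kap lam x ∂(unif K) := by
    refine integral_mono i4 i3 fun x => ?_
    have h1 : Real.exp (a * u x) = E0 * Real.exp (a * (u x - U / p)) := by
      rw [hE0, ← Real.exp_add]
      congr 1
      ring
    have h2 : a * (u x - U / p) + 1 ≤ Real.exp (a * (u x - U / p)) := Real.add_one_le_exp _
    have h3 := (kap_pos_cj lam x).le
    have h4 : 0 ≤ E0 := (Real.exp_pos _).le
    show E0 * (kap lam x + a * (u x * kap lam x - U / p * kap lam x)) ≤
      Real.exp (a * u x) * kap lam x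
    rw [h1]
    calc E0 * (kap lam x + a * (u x * kap lam x - U / p * kap lam x))
        = E0 * ((a * (u x - U / p) + 1) * kap lam x) := by ring
      _ ≤ E0 * (Real.exp (a * (u x - U / p)) * kap lam x) :=
          mul_le_mul_of_nonneg_left (mul_le_mul_of_nonneg_right h2 h3) h4
      _ = E0 * Real.exp (a * (u x - U / p)) * kap lam x := by ring
  have heq : ∫ x in S, E0 * (kap lam x + a * (u x * kap lam x - U / p * kap lam x)) ∂(unif K)
      = E0 * p := by
    have i7 : Integrable (fun x => U / p * kap lam x) ((unif K).restrict S) := i1.const_mul (U / p)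
    have i5 : Integrable (fun x => u x * kap lam x - U / p * kap lam x) ((unif K).restrict S) :=
      i2.sub i7
    have i6 : Integrable (fun x => a * (u x * kap lam x - U / p * kap lam x))
        ((unif K).restrict S) := i5.const_mul a
    rw [integral_const_mul, integral_add i1 i6, integral_const_mul, integral_sub i2 i7,
      integral_const_mul, ← hpdef, ← hU]
    have : U / p * p = U := div_mul_cancel₀ _ hp.ne'
    rw [this]
    ring
  rw [heq] at hle
  exact hle

/-- TASK D2. -/
theorem cell_jensen {K : Set (E d)} (hK : IsCompact K) (hint : (interior K).Nonempty)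
    {A B D : Set (E d)} (hA : MeasurableSet A) (hB : MeasurableSet B) (hD : MeasurableSet D)
    (hAK : A ⊆ K) (hBK : B ⊆ K) (hDK : D ⊆ K)
    (hmid : ∀ x ∈ A, ∀ y ∈ B, (1 / 2 : ℝ) • x + (1 / 2 : ℝ) • y ∈ D)
    {lam : ℝ} (hlam : 0 < lam) (u : E d → ℝ) (hu : Measurable u) {L Cu : ℝ} (hL : 0 < L)
    (hLip : ∀ x ∈ K, ∀ y ∈ K, |u x - u y| ≤ L * ‖x - y‖) (hub : ∀ x ∈ K, |u x| ≤ Cu)
    (hp : 0 < ∫ x in A, kap lam x ∂(unif K)) (hq : 0 < ∫ x in B, kap lam x ∂(unif K)) :
    Real.sqrt ((∫ x in A, kap lam x ∂(unif K)) * (∫ x in B, kap lam x ∂(unif K))) *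
      (1 + lam * ((∫ x in A, u x * kap lam x ∂(unif K)) / (∫ x in A, kap lam x ∂(unif K))
        - (∫ x in B, u x * kap lam x ∂(unif K)) / (∫ x in B, kap lam x ∂(unif K))) ^ 2
          / (8 * L ^ 2))
      ≤ ∫ x in D, kap lam x ∂(unif K) := by
  set p := ∫ x in A, kap lam x ∂(unif K) with hpdef
  set q := ∫ x in B, kap lam x ∂(unif K) with hqdef
  set U := ∫ x in A, u x * kap lam x ∂(unif K) with hU
  set V := ∫ x in B, u x * kap lam x ∂(unif K) with hV
  set g := ∫ x in D, kap lam x ∂(unif K) with hg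
  set δ := U / p - V / q with hδ
  have hg0 : 0 ≤ g := integral_nonneg fun x => (kap_pos_cj lam x).le
  set a := lam * δ / (2 * L ^ 2) with ha
  have hpl := cell_pl hK hint hA hB hD hAK hBK hDK hmid hlam u hu hL.le hLip hub a
  have hjA := jensen_aux hK hint hA hAK hlam u hu hub hp a
  have hjB := jensen_aux hK hint hB hBK hlam u hu hub hq (-a)
  have hBform : ∫ x in B, Real.exp (-a * u x) * kap lam x ∂(unif K)
      = ∫ x in B, Real.exp (-(a * u x)) * kap lam x ∂(unif K) := by
    refine integral_congr_ae (Filter.Eventually.of_forall fun x => ?_)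
    show Real.exp (-a * u x) * kap lam x = Real.exp (-(a * u x)) * kap lam x
    rw [neg_mul]
  rw [hBform] at hjB
  rw [← hpdef, ← hU] at hjA
  rw [← hqdef, ← hV] at hjB
  have hprod : (Real.exp (a * (U / p)) * p) * (Real.exp (-a * (V / q)) * q) ≤
      (Real.exp (a ^ 2 * L ^ 2 / (2 * lam)) * g) ^ 2 :=
    le_trans (mul_le_mul hjA hjB (by positivity) (le_trans (by positivity) hjA)) hpl
  set s := lam * δ ^ 2 / (8 * L ^ 2) with hs
  have hL2 : L ^ 2 ≠ 0 := by positivity
  have e1 : (Real.exp (a * (U / p)) * p) * (Real.exp (-a * (V / q)) * q)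
      = p * q * Real.exp (4 * s) := by
    have : Real.exp (a * (U / p)) * Real.exp (-a * (V / q)) = Real.exp (4 * s) := by
      rw [← Real.exp_add]
      congr 1
      rw [hs, ha]
      have : lam * δ / (2 * L ^ 2) * (U / p) + -(lam * δ / (2 * L ^ 2)) * (V / q)
          = lam * δ / (2 * L ^ 2) * δ := by rw [hδ]; ring
      rw [this]
      field_simp
      ring
    calc (Real.exp (a * (U / p)) * p) * (Real.exp (-a * (V / q)) * q)
        = p * q * (Real.exp (a * (U / p)) * Real.exp (-a * (V / q))) := by ring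
      _ = p * q * Real.exp (4 * s) := by rw [this]
  have e2 : (Real.exp (a ^ 2 * L ^ 2 / (2 * lam)) * g) ^ 2 = Real.exp (2 * s) * g ^ 2 := by
    rw [mul_pow, ← Real.exp_nat_mul]
    congr 2
    rw [hs, ha]
    push_cast
    field_simp
    ring
  rw [e1, e2] at hprod
  have h3 : p * q * Real.exp (2 * s) ≤ g ^ 2 := by
    have h4 : Real.exp (4 * s) = Real.exp (2 * s) * Real.exp (2 * s) := by
      rw [← Real.exp_add]
      congr 1
      ring
    rw [h4] at hprod
    have hpos : 0 < Real.exp (2 * s) := Real.exp_pos _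
    have : (p * q * Real.exp (2 * s)) * Real.exp (2 * s) ≤ g ^ 2 * Real.exp (2 * s) := by
      calc (p * q * Real.exp (2 * s)) * Real.exp (2 * s)
          = p * q * (Real.exp (2 * s) * Real.exp (2 * s)) := by ring
        _ ≤ Real.exp (2 * s) * g ^ 2 := hprod
        _ = g ^ 2 * Real.exp (2 * s) := by ring
    exact le_of_mul_le_mul_right this hpos
  have h5 : (Real.sqrt (p * q) * Real.exp s) ^ 2 ≤ g ^ 2 := by
    rw [mul_pow, Real.sq_sqrt (by positivity), ← Real.exp_nat_mul]
    push_cast
    exact h3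
  have h6 : Real.sqrt (p * q) * Real.exp s ≤ g :=
    (pow_le_pow_iff_left₀ (by positivity) hg0 (by norm_num)).mp h5
  refine le_trans ?_ h6
  apply mul_le_mul_of_nonneg_left _ (Real.sqrt_nonneg _)
  have := Real.add_one_le_exp s
  linarith

end Vale.Agent.Lib.P074
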