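import Vale.Agent.Lib.P074T.LagBasic

/-! # P074T task B2: the cells form a partition up to null sets -/

open MeasureTheory Set
open scoped ENNReal NNReal RealInnerProductSpace

namespace Vale.Agent.Lib.P074

variable {d N : ℕ}

/-- A hyperplane is Lebesgue null. -/
theorem volume_hyperplane (v : E d) (hv : v ≠ 0) (a : ℝ) :
    volume {x : E d | ⟪x, v⟫ = a} = 0 := by
  by_cases h : ∃ x0 : E d, ⟪x0, v⟫ = a
  · obtain ⟨x0, hx0⟩ := h
    have hS : (ℝ ∙ v)ᗮ ≠ ⊤ := by
      intro htop
      have hmem : v ∈ (ℝ ∙ v)ᗮ := htop ▸ Submodule.mem_top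
      rw [Submodule.mem_orthogonal_singleton_iff_inner_right] at hmem
      exact hv (inner_self_eq_zero.mp hmem)
    have e : {x : E d | ⟪x, v⟫ = a} = (fun x => x + (-x0)) ⁻¹' ((ℝ ∙ v)ᗮ : Set (E d)) := by
      ext x
      simp only [mem_preimage, SetLike.mem_coe, Submodule.mem_orthogonal_singleton_iff_inner_left,
        inner_add_left, inner_neg_left, hx0]
      constructor
      · intro hx
        have : ⟪x, v⟫ = a := hx
        rw [this, add_neg_cancel]
      · intro hx
        show ⟪x, v⟫ = a
        linarith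
    rw [e, measure_preimage_add_right]
    exact Measure.addHaar_submodule volume _ hS
  · have e : {x : E d | ⟪x, v⟫ = a} = ∅ := by
      ext x
      simp only [mem_empty_iff_false, iff_false]
      intro hx
      exact h ⟨x, hx⟩
    rw [e, measure_empty]

/-- TASK B2. Two different cells meet inside the hyperplane `<x, y j - y k> = c j - c k`, which is
Lebesgue null since `y j ≠ y k`. -/
theorem lag_inter_null {K : Set (E d)} (y : Fin N → E d) (hy : Function.Injective y)
    (c : Fin N → ℝ) {j k : Fin N} (hjk : j ≠ k) :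
    (unif K) (lag K y c j ∩ lag K y c k) = 0 := by
  have hv : y j - y k ≠ 0 := sub_ne_zero.mpr fun h => hjk (hy h)
  have hsub : lag K y c j ∩ lag K y c k ⊆ {x : E d | ⟪x, y j - y k⟫ = c j - c k} := by
    rintro x ⟨hj, hk⟩
    have h1 := hj.2 k
    have h2 := hk.2 j
    show ⟪x, y j - y k⟫ = c j - c k
    rw [inner_sub_right]
    linarith
  have h0 : volume (lag K y c j ∩ lag K y c k) = 0 :=
    measure_mono_null hsub (volume_hyperplane _ hv _)
  have hac : unif K ≪ volume := by
    unfold unif
    exact (Measure.restrict_le_self.absolutelyContinuous).smul_left _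
  exact hac h0

theorem iUnion_lag [NeZero N] (K : Set (E d)) (y : Fin N → E d) (c : Fin N → ℝ) :
    ⋃ j, lag K y c j = K := by
  ext x
  simp only [mem_iUnion]
  constructor
  · rintro ⟨j, hj⟩
    exact hj.1
  · intro hx
    exact exists_mem_lag K y c hx

/-- TASK B2. decomposition of integrals (real valued). -/
theorem integral_eq_sum_lag [NeZero N] {K : Set (E d)} (hK : IsCompact K) (y : Fin N → E d)
    (hy : Function.Injective y) (c : Fin N → ℝ) (g : E d → ℝ) (hg : Integrable g (unif K)) :
    ∫ x, g x ∂(unif K) = ∑ j, ∫ x in lag K y c j, g x ∂(unif K) := by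
  have h1 : ∫ x in ⋃ j, lag K y c j, g x ∂(unif K) = ∑' j, ∫ x in lag K y c j, g x ∂(unif K) := by
    refine integral_iUnion_ae (fun j => (measurableSet_lag hK y c j).nullMeasurableSet) ?_
      hg.integrableOn
    intro j k hjk
    exact lag_inter_null y hy c hjk
  rw [tsum_fintype, iUnion_lag] at h1
  rw [← h1, Measure.restrict_eq_self_of_ae_mem (ae_mem_unif hK)]

/-- TASK B2. `∫_{cell} 1 = mass`. -/
theorem setIntegral_one_lag {K : Set (E d)} (hK : IsCompact K) (hint : (interior K).Nonempty)
    (y : Fin N → E d) (c : Fin N → ℝ) (j : Fin N) (a : ℝ) :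
    ∫ _x in lag K y c j, a ∂(unif K) = lmass K y c j * a := by
  rw [setIntegral_const, smul_eq_mul]
  rfl

/-- TASK B2. the masses add up to one. -/
theorem sum_lmass [NeZero N] {K : Set (E d)} (hK : IsCompact K) (hint : (interior K).Nonempty)
    (y : Fin N → E d) (hy : Function.Injective y) (c : Fin N → ℝ) :
    ∑ j, lmass K y c j = 1 := by
  have := isProbabilityMeasure_unif hK hint
  have h := integral_eq_sum_lag hK y hy c (fun _ => (1 : ℝ)) (integrable_const _)
  simp only [setIntegral_one_lag hK hint, mul_one] at h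
  rw [← h]
  simp

theorem lmass_nonneg (K : Set (E d)) (y : Fin N → E d) (c : Fin N → ℝ) (j : Fin N) :
    0 ≤ lmass K y c j := ENNReal.toReal_nonneg

theorem integrableOn_id_lag {K : Set (E d)} (hK : IsCompact K) (hint : (interior K).Nonempty)
    (y : Fin N → E d) (c : Fin N → ℝ) (j : Fin N) :
    IntegrableOn (fun x : E d => x) (lag K y c j) (unif K) := by
  have := isProbabilityMeasure_unif hK hint
  obtain ⟨R, hR⟩ := hK.isBounded.exists_norm_le
  refine Integrable.of_bound measurable_id.aestronglyMeasurable R ?_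
  filter_upwards [ae_restrict_mem (measurableSet_lag hK y c j)] with x hx
  exact hR x hx.1

/-- TASK B2. `∫_{cell} <x, v> = <moment, v>`. -/
theorem setIntegral_inner_lag {K : Set (E d)} (hK : IsCompact K) (hint : (interior K).Nonempty)
    (y : Fin N → E d) (c : Fin N → ℝ) (j : Fin N) (v : E d) :
    ∫ x in lag K y c j, ⟪x, v⟫ ∂(unif K) = ⟪lmom K y c j, v⟫ := by
  have h := integral_inner (𝕜 := ℝ) (integrableOn_id_lag hK hint y c j) v
  rw [lmom, real_inner_comm, ← h]
  refine integral_congr_ae (Filter.Eventually.of_forall fun x => ?_)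
  exact real_inner_comm _ _

/-- TASK B2. the moment is at most `R` times the mass. -/
theorem norm_lmom_le {K : Set (E d)} (hK : IsCompact K) (hint : (interior K).Nonempty) {R : ℝ}
    (hR : ∀ x ∈ K, ‖x‖ ≤ R) (y : Fin N → E d) (c : Fin N → ℝ) (j : Fin N) :
    ‖lmom K y c j‖ ≤ R * lmass K y c j := by
  have := isProbabilityMeasure_unif hK hint
  exact norm_setIntegral_le_of_norm_le_const (measure_lt_top _ _) fun x hx => hR x hx.1

end Vale.Agent.Lib.P074
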