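import Vale.Agent.Lib.P074T.CellJ
import Vale.Agent.Lib.P074T.LagPart

/-! # P074T task E: summing the cell inequality over a tessellation -/

open MeasureTheory Set
open scoped ENNReal NNReal RealInnerProductSpace

namespace Vale.Agent.Lib.P074

variable {d N : ℕ}

/-- Gaussian mass of a cell. -/
noncomputable def gmass (K : Set (E d)) (lam : ℝ) (y : Fin N → E d) (c : Fin N → ℝ) (j : Fin N) :
    ℝ := ∫ x in lag K y c j, kap lam x ∂(unif K)

theorem continuous_kap (lam : ℝ) : Continuous (kap (d := d) lam) := by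
  unfold kap
  fun_prop

theorem integrable_kap {K : Set (E d)} (hK : IsCompact K) (hint : (interior K).Nonempty)
    {lam : ℝ} (hlam : 0 < lam) : Integrable (kap (d := d) lam) (unif K) := by
  have := isProbabilityMeasure_unif hK hint
  refine Integrable.of_bound (continuous_kap lam).aestronglyMeasurable 1 ?_
  refine Filter.Eventually.of_forall (fun x => ?_)
  unfold kap
  rw [Real.norm_eq_abs, abs_of_pos (Real.exp_pos _)]
  apply Real.exp_le_one_iff.2
  have : 0 ≤ lam * ‖x‖ ^ 2 / 2 := by positivity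
  linarith

/-- TASK E.  Apply `cell_jensen` to `A = lag K y c j`, `B = lag K y c' j`,
`D = lag K y ((c+c')/2) j` (`midpoint_mem_lag`) with the function `u j`, and sum over `j`:
by `integral_eq_sum_lag` the three families of Gaussian masses have the same sum `Z`, and
`Z - ∑ sqrt (p q) = (1/2) ∑ (sqrt p - sqrt q)^2`. -/
theorem core_sum [NeZero N] {K : Set (E d)} (hK : IsCompact K) (hc : Convex ℝ K)
    (hint : (interior K).Nonempty) (y : Fin N → E d) (hy : Function.Injective y)
    (c c' : Fin N → ℝ) {lam : ℝ} (hlam : 0 < lam) (u : Fin N → E d → ℝ)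
    (hu : ∀ j, Measurable (u j)) {L Cu : ℝ} (hL : 0 < L)
    (hLip : ∀ j, ∀ x ∈ K, ∀ y ∈ K, |u j x - u j y| ≤ L * ‖x - y‖)
    (hub : ∀ j, ∀ x ∈ K, |u j x| ≤ Cu)
    (hp : ∀ j, 0 < gmass K lam y c j) (hq : ∀ j, 0 < gmass K lam y c' j) :
    lam / (8 * L ^ 2) * ∑ j, Real.sqrt (gmass K lam y c j * gmass K lam y c' j) *
        ((∫ x in lag K y c j, u j x * kap lam x ∂(unif K)) / gmass K lam y c j
          - (∫ x in lag K y c' j, u j x * kap lam x ∂(unif K)) / gmass K lam y c' j) ^ 2
      ≤ 1 / 2 * ∑ j, (Real.sqrt (gmass K lam y c j) - Real.sqrt (gmass K lam y c' j)) ^ 2 := by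
  have hI := integrable_kap hK hint hlam
  have Zp : ∫ x, kap lam x ∂(unif K) = ∑ j, gmass K lam y c j :=
    integral_eq_sum_lag hK y hy c _ hI
  have Zq : ∫ x, kap lam x ∂(unif K) = ∑ j, gmass K lam y c' j :=
    integral_eq_sum_lag hK y hy c' _ hI
  have Zg : ∫ x, kap lam x ∂(unif K) = ∑ j, gmass K lam y (fun k => (c k + c' k) / 2) j :=
    integral_eq_sum_lag hK y hy _ _ hI
  have hj : ∀ j, Real.sqrt (gmass K lam y c j * gmass K lam y c' j) *
      (1 + lam * ((∫ x in lag K y c j, u j x * kap lam x ∂(unif K)) / gmass K lam y c j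
        - (∫ x in lag K y c' j, u j x * kap lam x ∂(unif K)) / gmass K lam y c' j) ^ 2
          / (8 * L ^ 2))
      ≤ gmass K lam y (fun k => (c k + c' k) / 2) j := by
    intro j
    exact cell_jensen hK hint (measurableSet_lag hK y c j) (measurableSet_lag hK y c' j)
      (measurableSet_lag hK y _ j) (lag_subset K y c j) (lag_subset K y c' j)
      (lag_subset K y _ j) (fun x hx x' hx' => midpoint_mem_lag hc y c c' j hx hx')
      hlam (u j) (hu j) hL (hLip j) (hub j) (hp j) (hq j)
  have hs := Finset.sum_le_sum (fun j (_ : j ∈ Finset.univ) => hj j)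
  rw [← Zg] at hs
  have hsq : ∀ j, (Real.sqrt (gmass K lam y c j) - Real.sqrt (gmass K lam y c' j)) ^ 2
      = gmass K lam y c j + gmass K lam y c' j
        - 2 * Real.sqrt (gmass K lam y c j * gmass K lam y c' j) := by
    intro j
    rw [Real.sqrt_mul (hp j).le]
    have h1 := Real.sq_sqrt (hp j).le
    have h2 := Real.sq_sqrt (hq j).le
    nlinarith [h1, h2]
  simp only [hsq]
  rw [Finset.sum_sub_distrib, Finset.sum_add_distrib, ← Zp, ← Zq, ← Finset.mul_sum]
  have e : ∑ j, Real.sqrt (gmass K lam y c j * gmass K lam y c' j) *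
      (1 + lam * ((∫ x in lag K y c j, u j x * kap lam x ∂(unif K)) / gmass K lam y c j
        - (∫ x in lag K y c' j, u j x * kap lam x ∂(unif K)) / gmass K lam y c' j) ^ 2
          / (8 * L ^ 2))
      = ∑ j, Real.sqrt (gmass K lam y c j * gmass K lam y c' j)
        + lam / (8 * L ^ 2) * ∑ j, Real.sqrt (gmass K lam y c j * gmass K lam y c' j) *
        ((∫ x in lag K y c j, u j x * kap lam x ∂(unif K)) / gmass K lam y c j
          - (∫ x in lag K y c' j, u j x * kap lam x ∂(unif K)) / gmass K lam y c' j) ^ 2 := by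
    rw [Finset.mul_sum, ← Finset.sum_add_distrib]
    refine Finset.sum_congr rfl (fun j _ => ?_)
    ring
  rw [e] at hs
  linarith

end Vale.Agent.Lib.P074
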