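import Vale.Agent.Lib.P074T.EAtom
import Vale.Agent.Lib.P074T.LagPart

/-! # P074T task E3: the cells of the weights have the right masses -/

open MeasureTheory Set
open scoped ENNReal NNReal RealInnerProductSpace

namespace Vale.Agent.Lib.P074

variable {d N : ℕ}

/-- TASK E3. -/
theorem lmass_eq_of_core [NeZero N] {K : Set (E d)} (hK : IsCompact K)
    (hint : (interior K).Nonempty) (y : Fin N → E d) (hy : Function.Injective y) (m : Fin N → ℝ)
    (hm : ∀ j, 0 < m j) {T : E d → E d} (hT : IsBrenierMap K (atom y m) T) (c : Fin N → ℝ)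
    (hc : ∀ᵐ x ∂(unif K), ∃ j, T x = y j ∧ x ∈ lag K y c j) (j : Fin N) :
    lmass K y c j = m j := by
  have := isProbabilityMeasure_unif hK hint
  obtain ⟨hTm, hmap, -⟩ := hT
  have hle : ∀ k, m k ≤ lmass K y c k := by
    intro k
    have h1 : ENNReal.ofReal (m k) = (unif K) (T ⁻¹' {y k}) := by
      rw [← atom_singleton y hy m k, ← hmap, Measure.map_apply hTm (measurableSet_singleton _)]
    have h2 : (unif K) (T ⁻¹' {y k}) ≤ (unif K) (lag K y c k) := by
      apply measure_mono_ae
      filter_upwards [hc] with x hx hxk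
      obtain ⟨i, hi, hxi⟩ := hx
      have hxk' : T x = y k := hxk
      have : i = k := hy (hi.symm.trans hxk')
      rw [← this]
      exact hxi
    have h3 : ENNReal.ofReal (m k) ≤ (unif K) (lag K y c k) := h1 ▸ h2
    have h4 := ENNReal.toReal_mono (measure_ne_top _ _) h3
    rwa [ENNReal.toReal_ofReal (hm k).le] at h4
  have hsum1 : ∑ k, lmass K y c k = 1 := sum_lmass hK hint y hy c
  have hsum2 : ∑ k, m k = 1 := by
    have h1 : ∑ k, ENNReal.ofReal (m k) = 1 := by
      rw [← atom_univ y m, ← hmap, Measure.map_apply hTm MeasurableSet.univ, preimage_univ,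
        measure_univ]
    rw [← ENNReal.ofReal_sum_of_nonneg (fun k _ => (hm k).le)] at h1
    have h2 := congrArg ENNReal.toReal h1
    rwa [ENNReal.toReal_ofReal (Finset.sum_nonneg (fun k _ => (hm k).le)),
      ENNReal.toReal_one] at h2
  have hiff := (Finset.sum_eq_sum_iff_of_le (s := Finset.univ) (fun k _ => hle k)).mp
    (hsum2.trans hsum1.symm)
  exact (hiff j (Finset.mem_univ j)).symm

end Vale.Agent.Lib.P074
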