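import Vale.Agent.Lib.P074T.LagBasic

/-! # P074T task E4: regularity of the piecewise affine potential -/

open MeasureTheory Set
open scoped ENNReal NNReal RealInnerProductSpace

namespace Vale.Agent.Lib.P074

variable {d N : ℕ}

/-- TASK E4. `LipschitzWith.of_le_add_mul`; `ciSup_le` + `le_lpot`; `real_inner_le_norm`
(compare P074S/Reg.lean). -/
theorem lipschitzWith_lpot [NeZero N] (y : Fin N → E d) (c : Fin N → ℝ) (L : ℝ≥0)
    (hL : ∀ j, ‖y j‖ ≤ L) : LipschitzWith L (lpot y c) := by
  apply LipschitzWith.of_le_add_mul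
  intro x x'
  apply ciSup_le
  intro j
  have h1 := le_lpot y c j x'
  have h2 : ⟪x - x', y j⟫ ≤ ‖x - x'‖ * ‖y j‖ := real_inner_le_norm _ _
  have h3 : ‖x - x'‖ * ‖y j‖ ≤ ‖x - x'‖ * L :=
    mul_le_mul_of_nonneg_left (hL j) (norm_nonneg _)
  rw [inner_sub_left] at h2
  rw [dist_eq_norm]
  nlinarith

/-- TASK E4. midpoint convexity: each affine piece satisfies it with equality. -/
theorem lpot_midpoint [NeZero N] (y : Fin N → E d) (c : Fin N → ℝ) (x v : E d) :
    2 * lpot y c x ≤ lpot y c (x + v) + lpot y c (x - v) := by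
  have h : lpot y c x ≤ (lpot y c (x + v) + lpot y c (x - v)) / 2 := by
    apply ciSup_le
    intro j
    have h1 := le_lpot y c j (x + v)
    have h2 := le_lpot y c j (x - v)
    rw [inner_add_left] at h1
    rw [inner_sub_left] at h2
    linarith
  linarith

/-- TASK E4. on the cell of `j` the site `y j` is a subgradient of `lpot`
(`lpot_eq_of_mem`, `le_lpot`). -/
theorem lpot_subgrad_of_mem [NeZero N] {K : Set (E d)} {y : Fin N → E d} {c : Fin N → ℝ}
    {j : Fin N} {x : E d} (hx : x ∈ lag K y c j) (x' : E d) :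
    lpot y c x + ⟪y j, x' - x⟫ ≤ lpot y c x' := by
  rw [lpot_eq_of_mem hx]
  have h1 := le_lpot y c j x'
  rw [inner_sub_right, real_inner_comm x' (y j), real_inner_comm x (y j)]
  linarith

end Vale.Agent.Lib.P074
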