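import Vale.Agent.Lib.P074T.ECore
import Vale.Agent.Lib.P074T.EMass
import Vale.Agent.Lib.P074T.LpotReg

/-! # P074T (e): existence of weights with prescribed masses -/

open MeasureTheory Set
open scoped ENNReal NNReal RealInnerProductSpace

namespace Vale.Agent.Lib.P074

variable {d N : ℕ}

/-- Weights of a Brenier map to a finitely supported measure. -/
theorem exists_weights_of_brenier [NeZero N] {K : Set (E d)} (hK : IsCompact K)
    (hint : (interior K).Nonempty) (y : Fin N → E d) (hy : Function.Injective y) (m : Fin N → ℝ)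
    (hm : ∀ j, 0 < m j) {T : E d → E d} (hT : IsBrenierMap K (atom y m) T) :
    ∃ c : Fin N → ℝ, (∀ j, lmass K y c j = m j) ∧
      (∀ᵐ x ∂(unif K), ∃ j, T x = y j ∧ x ∈ lag K y c j) ∧
      (∀ᵐ x ∂(unif K), ∀ x', lpot y c x + ⟪T x, x' - x⟫ ≤ lpot y c x') := by
  obtain ⟨c, hc⟩ := exists_weights_core hK hint y hy m hm hT
  refine ⟨c, fun j => lmass_eq_of_core hK hint y hy m hm hT c hc j, hc, ?_⟩
  filter_upwards [hc] with x hx x'
  obtain ⟨j, hj, hxj⟩ := hx
  rw [hj]
  exact lpot_subgrad_of_mem hxj x'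

/-- Existence of weights with prescribed positive masses. -/
theorem exists_weights [NeZero N] {K : Set (E d)} (hK : IsCompact K)
    (hint : (interior K).Nonempty) (y : Fin N → E d) (hy : Function.Injective y) (m : Fin N → ℝ)
    (hm : ∀ j, 0 < m j) (hsum : ∑ j, m j = 1) :
    ∃ c : Fin N → ℝ, ∀ j, lmass K y c j = m j := by
  haveI := isProbabilityMeasure_atom y m (fun j => (hm j).le) hsum
  obtain ⟨T, hT⟩ := exists_brenierMap hK hint (Set.finite_range y).isCompact
    (Set.range_nonempty y) (atom y m) (atom_compl_range y m)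
  obtain ⟨c, hc, -⟩ := exists_weights_of_brenier hK hint y hy m hm hT
  exact ⟨c, hc⟩

end Vale.Agent.Lib.P074
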