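import Vale.Agent.Lib.P074T.LagPart

/-! # P074T task C: the basic inequality (FY) -/

open MeasureTheory Set
open scoped ENNReal NNReal RealInnerProductSpace

namespace Vale.Agent.Lib.P074

variable {d N : ℕ}

/-- The integral over a cell of the affine function of a label. -/
theorem setIntegral_affine_lag {K : Set (E d)} (hK : IsCompact K) (hint : (interior K).Nonempty)
    (y : Fin N → E d) (c : Fin N → ℝ) (j : Fin N) (v : E d) (a : ℝ) :
    ∫ x in lag K y c j, (⟪x, v⟫ - a) ∂(unif K) = ⟪lmom K y c j, v⟫ - lmass K y c j * a := by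
  have h1 : Integrable (fun x : E d => ⟪x, v⟫) (unif K) :=
    integrable_unif_of_continuous hK (by fun_prop)
  have h2 : Integrable (fun _ : E d => a) (unif K) :=
    integrable_unif_of_continuous hK continuous_const
  rw [integral_sub h1.integrableOn h2.integrableOn, setIntegral_inner_lag hK hint,
    setIntegral_one_lag hK hint]

/-- TASK C.  `∫ lpot y' c' = ∑_j (<B'_j, y'_j> - m'_j c'_j)` (decompose along the cells of `(y',c')`,
`lpot_eq_of_mem`) and `≥ ∑_j (<B_j, y'_j> - m_j c'_j)` (decompose along the cells of `(y,c)`,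
`le_lpot`). -/
theorem fy [NeZero N] {K : Set (E d)} (hK : IsCompact K) (hint : (interior K).Nonempty)
    (y y' : Fin N → E d) (hy : Function.Injective y) (hy' : Function.Injective y')
    (c c' : Fin N → ℝ) :
    ∑ j, (lmass K y' c' j - lmass K y c j) * c' j
      ≤ ∑ j, ⟪lmom K y' c' j - lmom K y c j, y' j⟫ := by
  have hg : Integrable (lpot y' c') (unif K) :=
    integrable_unif_of_continuous hK (continuous_lpot y' c')
  have e1 : ∫ x, lpot y' c' x ∂(unif K)
      = ∑ j, (⟪lmom K y' c' j, y' j⟫ - lmass K y' c' j * c' j) := by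
    rw [integral_eq_sum_lag hK y' hy' c' _ hg]
    refine Finset.sum_congr rfl fun j _ => ?_
    rw [← setIntegral_affine_lag hK hint]
    exact setIntegral_congr_fun (measurableSet_lag hK y' c' j) fun x hx => lpot_eq_of_mem hx
  have e2 : ∑ j, (⟪lmom K y c j, y' j⟫ - lmass K y c j * c' j)
      ≤ ∫ x, lpot y' c' x ∂(unif K) := by
    rw [integral_eq_sum_lag hK y hy c _ hg]
    refine Finset.sum_le_sum fun j _ => ?_
    rw [← setIntegral_affine_lag hK hint]
    have h1 : Integrable (fun x : E d => ⟪x, y' j⟫ - c' j) (unif K) :=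
      integrable_unif_of_continuous hK (by fun_prop)
    exact setIntegral_mono h1.integrableOn hg.integrableOn fun x => le_lpot y' c' j x
  rw [e1] at e2
  have e3 : ∑ j, ⟪lmom K y' c' j - lmom K y c j, y' j⟫
      - ∑ j, (lmass K y' c' j - lmass K y c j) * c' j
      = ∑ j, (⟪lmom K y' c' j, y' j⟫ - lmass K y' c' j * c' j)
        - ∑ j, (⟪lmom K y c j, y' j⟫ - lmass K y c j * c' j) := by
    rw [← Finset.sum_sub_distrib, ← Finset.sum_sub_distrib]
    refine Finset.sum_congr rfl fun j _ => ?_
    rw [inner_sub_left]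
    ring
  linarith

end Vale.Agent.Lib.P074
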