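import Mathlib

/-!
# P074T: weighted Cauchy-Schwarz inequalities and the passage from mean zero tests to the variance
-/

open scoped RealInnerProductSpace

namespace Vale.Agent.Lib.P074T.Pre21

variable {V ι : Type*} [NormedAddCommGroup V] [InnerProductSpace ℝ V] [Fintype ι]

/-- weighted Cauchy-Schwarz: `∑ <X_j, D_j> ≤ sqrt (∑ |X_j|^2 / m_j) * sqrt (∑ m_j |D_j|^2)` -/
theorem sum_inner_le_sqrt (m : ι → ℝ) (hm : ∀ j, 0 < m j) (X D : ι → V) :
    ∑ j, ⟪X j, D j⟫ ≤ Real.sqrt (∑ j, ‖X j‖ ^ 2 / m j) * Real.sqrt (∑ j, m j * ‖D j‖ ^ 2) := by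
  have h1 : ∑ j, ⟪X j, D j⟫ ≤ ∑ j, (‖X j‖ / Real.sqrt (m j)) * (Real.sqrt (m j) * ‖D j‖) := by
    apply Finset.sum_le_sum
    intro j _
    have hs : 0 < Real.sqrt (m j) := Real.sqrt_pos.2 (hm j)
    have : (‖X j‖ / Real.sqrt (m j)) * (Real.sqrt (m j) * ‖D j‖) = ‖X j‖ * ‖D j‖ := by
      field_simp
    rw [this]
    exact real_inner_le_norm _ _
  refine h1.trans ?_
  have h2 := Real.sum_mul_le_sqrt_mul_sqrt Finset.univ (fun j => ‖X j‖ / Real.sqrt (m j))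
    (fun j => Real.sqrt (m j) * ‖D j‖)
  refine h2.trans (le_of_eq ?_)
  congr 2
  · apply Finset.sum_congr rfl
    intro j _
    rw [div_pow, Real.sq_sqrt (hm j).le]
  · apply Finset.sum_congr rfl
    intro j _
    rw [mul_pow, Real.sq_sqrt (hm j).le]

/-- if `|X_j| ≤ r m_j` and `∑ m_j = 1` then `∑ <X_j, D_j> ≤ r sqrt (∑ m_j |D_j|^2)` -/
theorem sum_inner_le_of_norm_le (m : ι → ℝ) (hm : ∀ j, 0 < m j) (hsum : ∑ j, m j = 1) (r : ℝ)
    (hr : 0 ≤ r) (X D : ι → V) (hX : ∀ j, ‖X j‖ ≤ r * m j) :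
    ∑ j, ⟪X j, D j⟫ ≤ r * Real.sqrt (∑ j, m j * ‖D j‖ ^ 2) := by
  refine (sum_inner_le_sqrt m hm X D).trans ?_
  apply mul_le_mul_of_nonneg_right _ (Real.sqrt_nonneg _)
  rw [show r = Real.sqrt (r ^ 2) from (Real.sqrt_sq hr).symm]
  apply Real.sqrt_le_sqrt
  calc ∑ j, ‖X j‖ ^ 2 / m j ≤ ∑ j, r ^ 2 * m j := by
        apply Finset.sum_le_sum
        intro j _
        rw [div_le_iff₀ (hm j)]
        have h0 : 0 ≤ ‖X j‖ := norm_nonneg _
        have := hX j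
        nlinarith [mul_nonneg hr (hm j).le]
    _ = r ^ 2 := by rw [← Finset.mul_sum, hsum, mul_one]

/-- From the bound on all mean zero tests to the variance.  If
`∑ m h δ ≤ C sqrt (∑ m h^2)` for all `h` with `∑ m h = 0`, then
`∑ m (δ - mean)^2 ≤ C^2`, `mean = ∑ m δ`. -/
theorem variance_le_of_tests (m : ι → ℝ) (hm : ∀ j, 0 ≤ m j) (hsum : ∑ j, m j = 1) (δ : ι → ℝ)
    (C : ℝ) (hC : 0 ≤ C)
    (H : ∀ h : ι → ℝ, ∑ j, m j * h j = 0 →
      ∑ j, m j * h j * δ j ≤ C * Real.sqrt (∑ j, m j * h j ^ 2)) :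
    ∑ j, m j * (δ j - ∑ k, m k * δ k) ^ 2 ≤ C ^ 2 := by
  set μ := ∑ k, m k * δ k with hμ
  have h0 : ∑ j, m j * (δ j - μ) = 0 := by
    simp only [mul_sub, Finset.sum_sub_distrib, ← Finset.sum_mul, hsum, one_mul]
    rw [← hμ]; ring
  have h1 := H (fun j => δ j - μ) h0
  set v := ∑ j, m j * (δ j - μ) ^ 2 with hv
  have hv0 : 0 ≤ v := Finset.sum_nonneg fun j _ => mul_nonneg (hm j) (sq_nonneg _)
  have h2 : ∑ j, m j * (δ j - μ) * δ j = v := by
    have : ∑ j, m j * (δ j - μ) * δ j = v + μ * ∑ j, m j * (δ j - μ) := by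
      rw [hv, Finset.mul_sum, ← Finset.sum_add_distrib]
      apply Finset.sum_congr rfl
      intro j _
      ring
    rw [this, h0, mul_zero, add_zero]
  rw [h2] at h1
  have h3 : Real.sqrt v * Real.sqrt v = v := Real.mul_self_sqrt hv0
  have h4 : 0 ≤ Real.sqrt v := Real.sqrt_nonneg v
  by_cases hz : Real.sqrt v = 0
  · have : v = 0 := by rw [← h3, hz, mul_zero]
    rw [this]; positivity
  · have hpos : 0 < Real.sqrt v := lt_of_le_of_ne h4 (Ne.symm hz)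
    have h5 : Real.sqrt v ≤ C := by
      have : Real.sqrt v * Real.sqrt v ≤ C * Real.sqrt v := by rw [h3]; exact h1
      exact le_of_mul_le_mul_right this hpos
    calc v = Real.sqrt v * Real.sqrt v := h3.symm
      _ ≤ C * C := mul_le_mul h5 h5 h4 hC
      _ = C ^ 2 := by ring

end Vale.Agent.Lib.P074T.Pre21
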