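import Mathlib

/-!
# P074T: the abstract chain lemma of the duality step (finite sums only)
-/

open scoped RealInnerProductSpace

namespace Vale.Agent.Lib.P074T.Pre21

/-- telescoping along a mesh, real sequences -/
theorem chain_real (s Nn Nt b bt : ℕ → ℝ) (mesh S : ℝ) :
    ∀ n : ℕ, (∀ i < n, s i < s (i + 1)) → (∀ i < n, s (i + 1) - s i ≤ mesh) →
      (∀ i < n, (s (i + 1) - s i) * b i ≤ Nn (i + 1) - Nn i) →
      (∀ i < n, Nn (i + 1) - Nn i ≤ (s (i + 1) - s i) * b (i + 1)) →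
      (∀ i < n, Nt (i + 1) - Nt i ≤ (s (i + 1) - s i) * bt (i + 1)) →
      (∀ i ≤ n, bt i - b i ≤ S) →
      (Nt n - Nn n) - (Nt 0 - Nn 0) ≤ S * (s n - s 0) + mesh * (b n - b 0)
  | 0, _, _, _, _, _, _ => by simp
  | n + 1, hs, hm, h1, h2, h3, he => by
    have ih := chain_real s Nn Nt b bt mesh S n (fun i hi => hs i (by omega))
      (fun i hi => hm i (by omega)) (fun i hi => h1 i (by omega)) (fun i hi => h2 i (by omega))
      (fun i hi => h3 i (by omega)) (fun i hi => he i (by omega))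
    have a1 := hs n (by omega)
    have a2 := hm n (by omega)
    have a3 := h1 n (by omega)
    have a4 := h2 n (by omega)
    have a5 := h3 n (by omega)
    have a6 := he (n + 1) le_rfl
    have hd : 0 < s (n + 1) - s n := by linarith
    have hmono : 0 ≤ b (n + 1) - b n := by
      have : (s (n + 1) - s n) * b n ≤ (s (n + 1) - s n) * b (n + 1) := le_trans a3 a4
      have := le_of_mul_le_mul_left this hd
      linarith
    have e1 : (s (n + 1) - s n) * (bt (n + 1) - b (n + 1)) ≤ (s (n + 1) - s n) * S :=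
      mul_le_mul_of_nonneg_left a6 hd.le
    have e2 : (s (n + 1) - s n) * (b (n + 1) - b n) ≤ mesh * (b (n + 1) - b n) :=
      mul_le_mul_of_nonneg_right a2 hmono
    nlinarith

variable {V ι : Type*} [NormedAddCommGroup V] [InnerProductSpace ℝ V] [Fintype ι]

/-- The chain lemma.  `B i`, `Bt i` are the moment vectors of two families of tessellations at the
mesh point `s i`, the sites being `y0 j + s i • D j`. -/
theorem chain (n : ℕ) (s : ℕ → ℝ) (mesh S T lo hi : ℝ) (h0 : s 0 = 0) (h1 : s n = 1)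
    (hmesh : 0 ≤ mesh)
    (hs : ∀ i < n, s i < s (i + 1)) (hm : ∀ i < n, s (i + 1) - s i ≤ mesh)
    (B Bt : ℕ → ι → V) (y0 D : ι → V)
    (ha : ∀ i ≤ n, ∀ k ≤ n, 0 ≤ ∑ j, ⟪B k j - B i j, y0 j + s k • D j⟫)
    (hb : ∀ i ≤ n, ∀ k ≤ n, 0 ≤ ∑ j, ⟪Bt k j - Bt i j, y0 j + s k • D j⟫)
    (hc : lo ≤ ∑ j, ⟪Bt n j - B n j, y0 j + s n • D j⟫)
    (hd : ∑ j, ⟪Bt 0 j - B 0 j, y0 j + s 0 • D j⟫ ≤ hi)
    (he : ∀ i ≤ n, ∑ j, ⟪Bt i j - B i j, D j⟫ ≤ S)
    (hf : ∑ j, ⟪B n j - B 0 j, D j⟫ ≤ T) :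
    lo - hi ≤ S + mesh * T := by
  have key : ∀ (A : ℕ → ι → V) (i k : ℕ),
      ∑ j, ⟪A k j - A i j, y0 j + s k • D j⟫
        = (∑ j, ⟪A k j, y0 j + s k • D j⟫) - (∑ j, ⟪A i j, y0 j + s i • D j⟫)
          - (s k - s i) * ∑ j, ⟪A i j, D j⟫ := by
    intro A i k
    rw [Finset.mul_sum, ← Finset.sum_sub_distrib, ← Finset.sum_sub_distrib]
    apply Finset.sum_congr rfl
    intro j _
    simp only [inner_sub_left, inner_add_right, inner_smul_right]
    ring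
  have lower : ∀ (A : ℕ → ι → V),
      (∀ i ≤ n, ∀ k ≤ n, 0 ≤ ∑ j, ⟪A k j - A i j, y0 j + s k • D j⟫) → ∀ i < n,
      (s (i + 1) - s i) * (∑ j, ⟪A i j, D j⟫)
        ≤ (∑ j, ⟪A (i + 1) j, y0 j + s (i + 1) • D j⟫) - (∑ j, ⟪A i j, y0 j + s i • D j⟫) := by
    intro A hA i hi
    have := hA i (by omega) (i + 1) (by omega)
    rw [key] at this
    linarith
  have upper : ∀ (A : ℕ → ι → V),
      (∀ i ≤ n, ∀ k ≤ n, 0 ≤ ∑ j, ⟪A k j - A i j, y0 j + s k • D j⟫) → ∀ i < n,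
      (∑ j, ⟪A (i + 1) j, y0 j + s (i + 1) • D j⟫) - (∑ j, ⟪A i j, y0 j + s i • D j⟫)
        ≤ (s (i + 1) - s i) * (∑ j, ⟪A (i + 1) j, D j⟫) := by
    intro A hA i hi
    have := hA (i + 1) (by omega) i (by omega)
    rw [key] at this
    linarith
  have main := chain_real s (fun i => ∑ j, ⟪B i j, y0 j + s i • D j⟫)
    (fun i => ∑ j, ⟪Bt i j, y0 j + s i • D j⟫) (fun i => ∑ j, ⟪B i j, D j⟫)
    (fun i => ∑ j, ⟪Bt i j, D j⟫) mesh S n hs hm (lower B ha) (upper B ha) (upper Bt hb)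
    (by
      intro i hi
      have := he i hi
      simp only [inner_sub_left, Finset.sum_sub_distrib] at this
      exact this)
  simp only [inner_sub_left, Finset.sum_sub_distrib] at hc hd hf
  rw [h0, h1] at main
  rw [h1] at hc
  rw [h0] at hd
  have : mesh * ((∑ j, ⟪B n j, D j⟫) - ∑ j, ⟪B 0 j, D j⟫) ≤ mesh * T :=
    mul_le_mul_of_nonneg_left hf hmesh
  linarith

end Vale.Agent.Lib.P074T.Pre21
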