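import Vale.Agent.Lib.P074T.LagPart

/-!
# P074T step (H): the difference of two piecewise affine potentials in `L^2`
-/

open MeasureTheory Set
open scoped ENNReal NNReal RealInnerProductSpace

namespace Vale.Agent.Lib.P074

variable {d N : ℕ}

/-- lower bound on the cell of the first tessellation -/
theorem potdiff_lower [NeZero N] {K : Set (E d)} (y0 y1 : Fin N → E d) (c0 c1 : Fin N → ℝ)
    {j : Fin N} {x : E d} (hx : x ∈ lag K y0 c0 j) :
    ⟪x, y1 j - y0 j⟫ - (c1 j - c0 j) ≤ lpot y1 c1 x - lpot y0 c0 x := by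
  rw [lpot_eq_of_mem hx]
  have := le_lpot y1 c1 j x
  rw [inner_sub_right]
  linarith

/-- upper bound on the cell of the second tessellation -/
theorem potdiff_upper [NeZero N] {K : Set (E d)} (y0 y1 : Fin N → E d) (c0 c1 : Fin N → ℝ)
    {k : Fin N} {x : E d} (hx : x ∈ lag K y1 c1 k) :
    lpot y1 c1 x - lpot y0 c0 x ≤ ⟪x, y1 k - y0 k⟫ - (c1 k - c0 k) := by
  rw [lpot_eq_of_mem hx]
  have := le_lpot y0 c0 k x
  rw [inner_sub_right]
  linarith

/-- bound of the affine pieces -/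
theorem affine_sq_le {R : ℝ} {x v : E d} (hx : ‖x‖ ≤ R) (b : ℝ) :
    (⟪x, v⟫ - b) ^ 2 ≤ 2 * R ^ 2 * ‖v‖ ^ 2 + 2 * b ^ 2 := by
  have h1 : |⟪x, v⟫| ≤ R * ‖v‖ :=
    (abs_real_inner_le_norm x v).trans (mul_le_mul_of_nonneg_right hx (norm_nonneg _))
  have h2 : ⟪x, v⟫ ^ 2 ≤ (R * ‖v‖) ^ 2 := by
    rw [← sq_abs]
    exact pow_le_pow_left₀ (abs_nonneg _) h1 2
  nlinarith [sq_nonneg (⟪x, v⟫ + b)]

/-- Step (H).  Two tessellations with the same masses `m`. -/
theorem potdiff_L2 [NeZero N] {K : Set (E d)} (hK : IsCompact K) (hint : (interior K).Nonempty)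
    {R : ℝ} (hR : ∀ x ∈ K, ‖x‖ ≤ R) (y0 y1 : Fin N → E d) (c0 c1 : Fin N → ℝ) (m : Fin N → ℝ)
    (hm0 : ∀ j, lmass K y0 c0 j = m j) (hm1 : ∀ j, lmass K y1 c1 j = m j) (a : ℝ) :
    ∫ x, (lpot y1 c1 x - lpot y0 c0 x - a) ^ 2 ∂(unif K)
      ≤ 4 * R ^ 2 * wsq m y0 y1 + 4 * ∑ j, m j * (c1 j - c0 j + a) ^ 2 := by
  have hP : IsProbabilityMeasure (unif K) := isProbabilityMeasure_unif hK hint
  set w : Fin N → ℝ := fun j => 2 * R ^ 2 * ‖y1 j - y0 j‖ ^ 2 + 2 * (c1 j - c0 j + a) ^ 2 with hw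
  have hw0 : ∀ j, 0 ≤ w j := fun j => by positivity
  set G : E d → ℝ := fun x => (∑ j, (lag K y0 c0 j).indicator (fun _ => w j) x)
    + ∑ j, (lag K y1 c1 j).indicator (fun _ => w j) x with hG
  have hpt : ∀ x ∈ K, (lpot y1 c1 x - lpot y0 c0 x - a) ^ 2 ≤ G x := by
    intro x hx
    obtain ⟨j, hj⟩ := exists_mem_lag K y0 c0 hx
    obtain ⟨k, hk⟩ := exists_mem_lag K y1 c1 hx
    have h1 := potdiff_lower y0 y1 c0 c1 hj
    have h2 := potdiff_upper y0 y1 c0 c1 hk
    have b1 := affine_sq_le (v := y1 j - y0 j) (hR x hx) (c1 j - c0 j + a)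
    have b2 := affine_sq_le (v := y1 k - y0 k) (hR x hx) (c1 k - c0 k + a)
    have g1 : w j ≤ ∑ i, (lag K y0 c0 i).indicator (fun _ => w i) x := by
      have := Finset.single_le_sum (f := fun i => (lag K y0 c0 i).indicator (fun _ => w i) x)
        (fun i _ => indicator_nonneg (fun _ _ => hw0 i) x) (Finset.mem_univ j)
      simpa [indicator_of_mem hj] using this
    have g2 : w k ≤ ∑ i, (lag K y1 c1 i).indicator (fun _ => w i) x := by
      have := Finset.single_le_sum (f := fun i => (lag K y1 c1 i).indicator (fun _ => w i) x)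
        (fun i _ => indicator_nonneg (fun _ _ => hw0 i) x) (Finset.mem_univ k)
      simpa [indicator_of_mem hk] using this
    have key : (lpot y1 c1 x - lpot y0 c0 x - a) ^ 2 ≤ w j + w k := by
      set t := lpot y1 c1 x - lpot y0 c0 x - a
      set lo := ⟪x, y1 j - y0 j⟫ - (c1 j - c0 j + a)
      set hi := ⟪x, y1 k - y0 k⟫ - (c1 k - c0 k + a)
      have l1 : lo ≤ t := by simp only [lo, t]; linarith
      have l2 : t ≤ hi := by simp only [hi, t]; linarith
      have : t ^ 2 ≤ lo ^ 2 + hi ^ 2 := by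
        rcases le_total 0 t with ht | ht
        · nlinarith [sq_nonneg lo]
        · nlinarith [sq_nonneg hi]
      calc t ^ 2 ≤ lo ^ 2 + hi ^ 2 := this
        _ ≤ w j + w k := add_le_add b1 b2
    calc _ ≤ w j + w k := key
      _ ≤ G x := add_le_add g1 g2
  have hint_ind : ∀ (y : Fin N → E d) (c : Fin N → ℝ) (j : Fin N),
      Integrable ((lag K y c j).indicator (fun _ => w j)) (unif K) := fun y c j =>
    (integrable_const (w j)).indicator (measurableSet_lag hK y c j)
  have hGint : Integrable G (unif K) :=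
    (integrable_finsetSum _ fun j _ => hint_ind y0 c0 j).add
      (integrable_finsetSum _ fun j _ => hint_ind y1 c1 j)
  have hval : ∀ (y : Fin N → E d) (c : Fin N → ℝ) (j : Fin N),
      ∫ x, (lag K y c j).indicator (fun _ => w j) x ∂(unif K) = lmass K y c j * w j := by
    intro y c j
    rw [integral_indicator (measurableSet_lag hK y c j)]
    exact setIntegral_one_lag hK hint y c j (w j)
  have hGval : ∫ x, G x ∂(unif K) = 2 * ∑ j, m j * w j := by
    simp only [hG]
    rw [integral_add (integrable_finsetSum _ fun j _ => hint_ind y0 c0 j)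
      (integrable_finsetSum _ fun j _ => hint_ind y1 c1 j),
      integral_finsetSum _ fun j _ => hint_ind y0 c0 j,
      integral_finsetSum _ fun j _ => hint_ind y1 c1 j]
    simp only [hval, hm0, hm1]
    ring
  have hmono : ∫ x, (lpot y1 c1 x - lpot y0 c0 x - a) ^ 2 ∂(unif K) ≤ ∫ x, G x ∂(unif K) := by
    apply integral_mono_of_nonneg (Filter.Eventually.of_forall fun x => sq_nonneg _) hGint
    filter_upwards [ae_mem_unif hK] with x hx
    exact hpt x hx
  refine hmono.trans (le_of_eq ?_)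
  rw [hGval]
  unfold wsq
  simp only [hw]
  rw [Finset.mul_sum, Finset.mul_sum, Finset.mul_sum, ← Finset.sum_add_distrib]
  apply Finset.sum_congr rfl
  intro j _
  ring

end Vale.Agent.Lib.P074
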