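import Vale.Agent.Lib.P074.Defs

/-! # P074T: a mesh of `[0,1]` avoiding the finitely many collision times of the moving sites -/

namespace Vale.Agent.Lib.P074

variable {d N : ℕ}

/-- The collision times of two moving sites form a subsingleton. -/
theorem collide_subsingleton (y0 D : Fin N → E d) (h0 : Function.Injective y0) {j k : Fin N}
    (hjk : j ≠ k) : {s : ℝ | y0 j + s • D j = y0 k + s • D k}.Subsingleton := by
  intro s hs s' hs'
  simp only [Set.mem_ofPred_eq] at hs hs'
  by_contra hne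
  have h1 : (s - s') • (D j - D k) = 0 := by
    have : (s - s') • (D j - D k)
        = (y0 j + s • D j) - (y0 k + s • D k) - ((y0 j + s' • D j) - (y0 k + s' • D k)) := by
      simp only [sub_smul, smul_sub]
      abel
    rw [this, hs, hs']
    simp
  have h2 : D j - D k = 0 := by
    rcases smul_eq_zero.mp h1 with h | h
    · exact absurd (sub_eq_zero.mp h) hne
    · exact h
  have h3 : D j = D k := sub_eq_zero.mp h2
  rw [h3] at hs
  exact hjk (h0 (add_right_cancel hs))

/-- The set of times at which the moving sites are not pairwise distinct is finite. -/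
theorem bad_finite (y0 D : Fin N → E d) (h0 : Function.Injective y0) :
    {s : ℝ | ¬ Function.Injective (fun j => y0 j + s • D j)}.Finite := by
  have hsub : {s : ℝ | ¬ Function.Injective (fun j => y0 j + s • D j)}
      ⊆ ⋃ p : {p : Fin N × Fin N // p.1 ≠ p.2},
        {s : ℝ | y0 p.1.1 + s • D p.1.1 = y0 p.1.2 + s • D p.1.2} := by
    intro s hs
    simp only [Set.mem_ofPred_eq, Function.Injective] at hs
    push Not at hs
    obtain ⟨j, k, hjk, hne⟩ := hs
    exact Set.mem_iUnion.mpr ⟨⟨(j, k), hne⟩, hjk⟩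
  refine Set.Finite.subset (Set.finite_iUnion fun p => ?_) hsub
  exact (collide_subsingleton y0 D h0 p.2).finite

/-- A strictly increasing mesh of `[0,1]` with steps at most `ε` avoiding a finite set. -/
theorem exists_mesh_avoid (Bd : Set ℝ) (hB : Bd.Finite) (h0 : (0 : ℝ) ∉ Bd) (h1 : (1 : ℝ) ∉ Bd)
    {ε : ℝ} (hε : 0 < ε) :
    ∃ (n : ℕ) (s : ℕ → ℝ), s 0 = 0 ∧ s n = 1 ∧ (∀ i < n, s i < s (i + 1)) ∧
      (∀ i < n, s (i + 1) - s i ≤ ε) ∧ (∀ i ≤ n, 0 ≤ s i ∧ s i ≤ 1) ∧ ∀ i ≤ n, s i ∉ Bd := by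
  obtain ⟨n0, hn0⟩ := exists_nat_gt (2 / ε)
  have hn0pos : (0 : ℝ) < n0 := lt_trans (by positivity) hn0
  have hn0ne : n0 ≠ 0 := by
    rintro rfl
    simp at hn0pos
  set δ : ℝ := 1 / (4 * n0) with hδ
  have hδpos : 0 < δ := by positivity
  have hex : ∀ i : ℕ, ∃ x : ℝ, |x - i / n0| < δ ∧ x ∉ Bd ∧ (i = 0 → x = 0) ∧ (i = n0 → x = 1) := by
    intro i
    by_cases hi0 : i = 0
    · subst hi0
      exact ⟨0, by simpa using hδpos, h0, fun _ => rfl, fun h => absurd h.symm hn0ne⟩
    by_cases hi1 : i = n0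
    · subst hi1
      refine ⟨1, ?_, h1, fun h => absurd h hi0, fun _ => rfl⟩
      rw [div_self hn0pos.ne']
      simpa using hδpos
    · have hinf : (Set.Ioo ((i : ℝ) / n0 - δ) ((i : ℝ) / n0 + δ)).Infinite :=
        Set.Ioo_infinite (by linarith)
      obtain ⟨x, hx, hxB⟩ := hinf.exists_notMem_finite hB
      refine ⟨x, ?_, hxB, fun h => absurd h hi0, fun h => absurd h hi1⟩
      rw [abs_lt]
      constructor <;> linarith [hx.1, hx.2]
  choose s hs using hex
  have hstep : ∀ i : ℕ, ((i + 1 : ℕ) : ℝ) / n0 - (i : ℝ) / n0 = 4 * δ := by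
    intro i
    rw [hδ]
    push_cast
    field_simp
    ring
  have hlt : ∀ i, s i < s (i + 1) := by
    intro i
    have a1 := abs_lt.mp (hs i).1
    have a2 := abs_lt.mp (hs (i + 1)).1
    have := hstep i
    linarith [a1.1, a1.2, a2.1, a2.2]
  have hmono : StrictMono s := strictMono_nat_of_lt_succ hlt
  have hs0 : s 0 = 0 := (hs 0).2.2.1 rfl
  have hs1 : s n0 = 1 := (hs n0).2.2.2 rfl
  refine ⟨n0, s, hs0, hs1, fun i _ => hlt i, ?_, ?_, fun i _ => (hs i).2.1⟩
  · intro i _
    have a1 := abs_lt.mp (hs i).1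
    have a2 := abs_lt.mp (hs (i + 1)).1
    have := hstep i
    have h6 : 6 * δ ≤ ε := by
      rw [hδ]
      have : 2 / ε < n0 := hn0
      rw [div_lt_iff₀ hε] at this
      rw [mul_one_div, div_le_iff₀ (by positivity)]
      nlinarith
    linarith [a1.1, a1.2, a2.1, a2.2]
  · intro i hi
    constructor
    · rw [← hs0]; exact hmono.monotone (Nat.zero_le i)
    · rw [← hs1]; exact hmono.monotone hi

/-- MESH LEMMA.  If the sites are pairwise distinct at the times `0` and `1`, there are meshes of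
`[0,1]` of arbitrarily small step at all of whose points the moving sites are pairwise distinct. -/
theorem exists_mesh (y0 D : Fin N → E d) (h0 : Function.Injective y0)
    (h1 : Function.Injective (fun j => y0 j + D j)) {ε : ℝ} (hε : 0 < ε) :
    ∃ (n : ℕ) (s : ℕ → ℝ), s 0 = 0 ∧ s n = 1 ∧ (∀ i < n, s i < s (i + 1)) ∧
      (∀ i < n, s (i + 1) - s i ≤ ε) ∧ (∀ i ≤ n, 0 ≤ s i ∧ s i ≤ 1) ∧
      ∀ i ≤ n, Function.Injective (fun j => y0 j + s i • D j) := by
  obtain ⟨n, s, a, b, c, e, f, g⟩ := exists_mesh_avoid _ (bad_finite y0 D h0)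
    (by simpa using h0) (by simpa using h1) hε
  exact ⟨n, s, a, b, c, e, f, fun i hi => by simpa using g i hi⟩

end Vale.Agent.Lib.P074
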