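import Vale.Agent.Lib.P074T.WFun
import Vale.Agent.Lib.P074T.LagPart

/-! # P074T task W5: mass accounting -/

open MeasureTheory Set
open scoped ENNReal NNReal RealInnerProductSpace

namespace Vale.Agent.Lib.P074

variable {d N : ℕ}

/-- TASK W5a.  The cells are a.e. disjoint (`lag_inter_null`) and measurable (`measurableSet_lag`):
`measure_biUnion_finset₀` (pairwise `AEDisjoint`, `NullMeasurableSet`), then `ENNReal.toReal_sum`
(finite measure: `isProbabilityMeasure_unif hK hint`). -/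
theorem sum_lmass_finset {K : Set (E d)} (hK : IsCompact K) (hint : (interior K).Nonempty)
    (y : Fin N → E d) (hy : Function.Injective y) (c : Fin N → ℝ) (S : Finset (Fin N)) :
    ∑ j ∈ S, lmass K y c j = ((unif K) (⋃ j ∈ S, lag K y c j)).toReal := by
  have := isProbabilityMeasure_unif hK hint
  rw [measure_biUnion_finset₀ (fun j _ k _ hjk => lag_inter_null y hy c hjk)
    (fun j _ => (measurableSet_lag hK y c j).nullMeasurableSet),
    ENNReal.toReal_sum (fun j _ => measure_ne_top _ _)]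
  rfl

/-- TASK W5b.  With `B` the band, `U = ⋃_{S} lag K y c j`, `U' = ⋃_{S} lag K y c' j`:
`B ∩ K ⊆ U` (`exists_mem_lag_of_fS_nonneg`), `U' ⊆ U` (`fS_ge_of_mem_gap` gives `fS ≥ g > 0`, and
`lag_subset`), `B ∩ U' = ∅` (`fS < g` against `fS ≥ g`), `unif K B = unif K (B ∩ K)`
(`ae_mem_unif`).  So `unif K B + unif K U' ≤ unif K U` (`measure_union` + `measure_mono`; `U'`
measurable).  Conclude with `sum_lmass_finset` and `Finset.sum_sub_distrib`. -/
theorem band_le_of_gap {K : Set (E d)} (hK : IsCompact K) (hint : (interior K).Nonempty)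
    (y : Fin N → E d) (hy : Function.Injective y) (c c' : Fin N → ℝ) (S : Finset (Fin N))
    (hS : S.Nonempty) (hSc : Sᶜ.Nonempty) {g : ℝ} (hg : 0 < g)
    (hgap : ∀ j ∈ S, ∀ k ∉ S, g ≤ (c' j - c j) - (c' k - c k)) :
    ((unif K) {x | 0 < fS y c S hS hSc x ∧ fS y c S hS hSc x < g}).toReal
      ≤ ∑ j ∈ S, (lmass K y c j - lmass K y c' j) := by
  have := isProbabilityMeasure_unif hK hint
  rw [Finset.sum_sub_distrib, sum_lmass_finset hK hint y hy c S,
    sum_lmass_finset hK hint y hy c' S, le_sub_iff_add_le,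
    ← ENNReal.toReal_add (measure_ne_top _ _) (measure_ne_top _ _)]
  refine ENNReal.toReal_mono (measure_ne_top _ _) ?_
  set B : Set (E d) := {x | 0 < fS y c S hS hSc x ∧ fS y c S hS hSc x < g} with hB
  have hU'm : MeasurableSet (⋃ j ∈ S, lag K y c' j) :=
    Finset.measurableSet_biUnion S fun j _ => measurableSet_lag hK y c' j
  have hBK : (unif K) B = (unif K) (B ∩ K) := by
    apply measure_congr
    filter_upwards [ae_mem_unif hK] with x hx
    apply propext
    exact ⟨fun h => ⟨h, hx⟩, fun h => h.1⟩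
  have hdisj : Disjoint (B ∩ K) (⋃ j ∈ S, lag K y c' j) := by
    rw [Set.disjoint_left]
    rintro x ⟨hxB, -⟩ hxU
    simp only [mem_iUnion] at hxU
    obtain ⟨j, hj, hxj⟩ := hxU
    exact absurd (fS_ge_of_mem_gap hS hSc hgap hj hxj) (not_le.mpr hxB.2)
  rw [hBK, ← measure_union hdisj hU'm]
  apply measure_mono
  rintro x (⟨hxB, hxK⟩ | hxU)
  · obtain ⟨j, hj, hxj⟩ := exists_mem_lag_of_fS_nonneg hS hSc hxK hxB.1.le
    simp only [mem_iUnion]
    exact ⟨j, hj, hxj⟩
  · simp only [mem_iUnion] at hxU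
    obtain ⟨j, hj, hxj⟩ := hxU
    have h1 := fS_ge_of_mem_gap hS hSc hgap hj hxj
    obtain ⟨j', hj', hxj'⟩ := exists_mem_lag_of_fS_nonneg hS hSc (lag_subset K y c' j hxj)
      (hg.le.trans h1)
    simp only [mem_iUnion]
    exact ⟨j', hj', hxj'⟩

end Vale.Agent.Lib.P074
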