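import Vale.Agent.Lib.P074T.WPts

/-! # P074T task W4: the band `0 < fS < g` has positive measure -/

open MeasureTheory Set
open scoped ENNReal NNReal RealInnerProductSpace

namespace Vale.Agent.Lib.P074

variable {d N : ℕ}

/-- TASK W4.  Pick `j ∈ S`, `k ∈ Sᶜ`; `exists_interior_mem_lag` + `fS_pos_of_mem` / `fS_neg_of_mem`
give `xp, xm ∈ interior K` with `fS xm < 0 < fS xp`.  `interior K` is convex (`Convex.interior`),
hence preconnected; `IsPreconnected.intermediate_value` with `continuous_fS` gives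
`z ∈ interior K` with `fS z = min g (fS xp) / 2 ∈ (0, g)`.  The set
`interior K ∩ fS ⁻¹' Ioo 0 g` is open and nonempty, so it has positive volume
(`IsOpen.measure_pos`), it lies in `K`, so its `unif K` measure is positive (unfold `unif`:
`(volume K)⁻¹ ≠ 0` as `volume K < ∞`). -/
theorem unif_band_pos {K : Set (E d)} (hK : IsCompact K) (hconv : Convex ℝ K)
    (y : Fin N → E d) (hy : Function.Injective y) (c : Fin N → ℝ)
    (hm : ∀ j, 0 < lmass K y c j) (S : Finset (Fin N)) (hS : S.Nonempty) (hSc : Sᶜ.Nonempty)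
    {g : ℝ} (hg : 0 < g) :
    0 < (unif K) {x | 0 < fS y c S hS hSc x ∧ fS y c S hS hSc x < g} := by
  obtain ⟨j, hj⟩ := hS
  obtain ⟨k, hk⟩ := hSc
  have hk' : k ∉ S := by simpa using hk
  have hS' : S.Nonempty := ⟨j, hj⟩
  have hSc' : Sᶜ.Nonempty := ⟨k, hk⟩
  obtain ⟨xp, hxpi, hxpl, hxpn⟩ := exists_interior_mem_lag hK hconv y hy c j (hm j)
  obtain ⟨xm, hxmi, hxml, hxmn⟩ := exists_interior_mem_lag hK hconv y hy c k (hm k)
  have hpos : 0 < fS y c S hS' hSc' xp :=
    fS_pos_of_mem hS' hSc' hj hxpl (fun l hl => hxpn l (fun h => hl (h ▸ hj)))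
  have hneg : fS y c S hS' hSc' xm < 0 :=
    fS_neg_of_mem hS' hSc' hk' hxml (fun l hl => hxmn l (fun h => hk' (h ▸ hl)))
  have hcont := continuous_fS y c S hS' hSc'
  set v : ℝ := min g (fS y c S hS' hSc' xp) / 2 with hv
  have hmin : 0 < min g (fS y c S hS' hSc' xp) := lt_min hg hpos
  have hv0 : 0 < v := by positivity
  have hvg : v < g := by
    have : min g (fS y c S hS' hSc' xp) ≤ g := min_le_left _ _
    rw [hv]; linarith
  have hvp : v ≤ fS y c S hS' hSc' xp := by
    have : min g (fS y c S hS' hSc' xp) ≤ fS y c S hS' hSc' xp := min_le_right _ _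
    rw [hv]; linarith
  have hpre : IsPreconnected (interior K) := hconv.interior.isPreconnected
  obtain ⟨z, hzi, hzv⟩ := hpre.intermediate_value hxmi hxpi hcont.continuousOn
    (show v ∈ Icc (fS y c S hS' hSc' xm) (fS y c S hS' hSc' xp) from ⟨by linarith, hvp⟩)
  set U : Set (E d) := interior K ∩ fS y c S hS' hSc' ⁻¹' Ioo 0 g with hU
  have hUo : IsOpen U := isOpen_interior.inter (isOpen_Ioo.preimage hcont)
  have hUne : U.Nonempty := ⟨z, hzi, by
    show fS y c S hS' hSc' z ∈ Ioo 0 g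
    rw [hzv]; exact ⟨hv0, hvg⟩⟩
  have hUpos : 0 < volume U := hUo.measure_pos volume hUne
  have hUK : U ⊆ K := fun x hx => interior_subset hx.1
  have hUsub : U ⊆ {x | 0 < fS y c S hS' hSc' x ∧ fS y c S hS' hSc' x < g} :=
    fun x hx => ⟨hx.2.1, hx.2.2⟩
  refine lt_of_lt_of_le ?_ (measure_mono hUsub)
  have hfin : volume K ≠ ∞ := hK.measure_lt_top.ne
  rw [unif, Measure.smul_apply, Measure.restrict_apply hUo.measurableSet,
    inter_eq_self_of_subset_left hUK, smul_eq_mul]
  exact ENNReal.mul_pos (ENNReal.inv_ne_zero.mpr hfin) hUpos.ne'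

end Vale.Agent.Lib.P074
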