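import Vale.Agent.Lib.P074T.WGap
import Vale.Agent.Lib.P074T.WPos
import Vale.Agent.Lib.P074T.WMass

/-! # P074T task W6: the weights depend continuously on the masses (lemma WC) -/

open MeasureTheory Set
open scoped ENNReal NNReal RealInnerProductSpace

namespace Vale.Agent.Lib.P074

variable {d N : ℕ}

/-- TASK W6 (lemma WC).  `g := ε / N`.  For a set of labels `S` put
`δ S := if h : S.Nonempty ∧ Sᶜ.Nonempty then (unif K band_S).toReal else 1`; `δ S > 0`
(`unif_band_pos`, `ENNReal.toReal_pos`, finite measure).  Let `δ0 > 0` be the minimum of `δ` over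
the finite type `Finset (Fin N)` (`Finite.exists_min` / `Finset.exists_min_image`), and
`t0 := δ0 / (2 N)`.  If `|(c' j - c j) - (c' k - c k)| > ε` for some `j k`, then, after swapping `j` and `k`
if necessary, `N * g < D j - D k` with `D = c' - c`; `exists_gap_set` gives `S`;
`band_le_of_gap` gives `δ S ≤ ∑_{S} (m - m') ≤ N t0 = δ0 / 2 < δ S`. Contradiction. -/
theorem weights_continuous [NeZero N] {K : Set (E d)} (hK : IsCompact K) (hconv : Convex ℝ K)
    (hint : (interior K).Nonempty) (y : Fin N → E d) (hy : Function.Injective y) (c : Fin N → ℝ)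
    (hm : ∀ j, 0 < lmass K y c j) {ε : ℝ} (hε : 0 < ε) :
    ∃ t0 : ℝ, 0 < t0 ∧ ∀ c' : Fin N → ℝ, (∀ j, |lmass K y c' j - lmass K y c j| ≤ t0) →
      ∀ j k, |(c' j - c j) - (c' k - c k)| ≤ ε := by
  have := isProbabilityMeasure_unif hK hint
  have hN : (0 : ℝ) < N := by exact_mod_cast Nat.pos_of_ne_zero (NeZero.ne N)
  set g : ℝ := ε / N with hgdef
  have hg : 0 < g := div_pos hε hN
  have hNg : (N : ℝ) * g = ε := by rw [hgdef]; field_simp
  let δ : Finset (Fin N) → ℝ := fun S =>
    if h : S.Nonempty ∧ Sᶜ.Nonempty then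
      ((unif K) {x | 0 < fS y c S h.1 h.2 x ∧ fS y c S h.1 h.2 x < g}).toReal
    else 1
  have hδ : ∀ S, 0 < δ S := by
    intro S
    by_cases h : S.Nonempty ∧ Sᶜ.Nonempty
    · simp only [δ, dif_pos h]
      exact ENNReal.toReal_pos (unif_band_pos hK hconv y hy c hm S h.1 h.2 hg).ne'
        (measure_ne_top _ _)
    · simp only [δ, dif_neg h]
      exact one_pos
  obtain ⟨S0, hS0⟩ := Finite.exists_min δ
  have hδ0 := hδ S0
  refine ⟨δ S0 / (2 * N), by positivity, ?_⟩
  intro c' hc'
  -- one-sided statement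
  have key : ∀ j k, (c' j - c j) - (c' k - c k) ≤ ε := by
    intro j k
    by_contra hcon
    push Not at hcon
    have hab : (N : ℝ) * g < (fun i => c' i - c i) j - (fun i => c' i - c i) k := by
      rw [hNg]; exact hcon
    obtain ⟨S, hjS, hkS, hgap⟩ := exists_gap_set (fun i => c' i - c i) hg hab
    have hSne : S.Nonempty := ⟨j, hjS⟩
    have hScne : Sᶜ.Nonempty := ⟨k, Finset.mem_compl.mpr hkS⟩
    have h1 := band_le_of_gap hK hint y hy c c' S hSne hScne hg hgap
    have h2 : δ S = ((unif K) {x | 0 < fS y c S hSne hScne x ∧ fS y c S hSne hScne x < g}).toReal := by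
      simp only [δ, dif_pos (⟨hSne, hScne⟩ : S.Nonempty ∧ Sᶜ.Nonempty)]
    have h3 : ∑ i ∈ S, (lmass K y c i - lmass K y c' i) ≤ ∑ _i ∈ S, δ S0 / (2 * N) := by
      apply Finset.sum_le_sum
      intro i _
      have := hc' i
      rw [abs_le] at this
      linarith [this.1]
    have h4 : ∑ _i ∈ S, δ S0 / (2 * N) ≤ N * (δ S0 / (2 * N)) := by
      rw [Finset.sum_const, nsmul_eq_mul]
      apply mul_le_mul_of_nonneg_right _ (by positivity)
      have : S.card ≤ N := by simpa using Finset.card_le_univ S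
      exact_mod_cast this
    have h5 : (N : ℝ) * (δ S0 / (2 * N)) = δ S0 / 2 := by field_simp
    have h6 := hS0 S
    rw [← h2] at h1
    linarith
  intro j k
  rw [abs_le]
  constructor
  · have := key k j
    linarith
  · exact key j k

end Vale.Agent.Lib.P074
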