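import Vale.Agent.Lib.P074T.Star
import Vale.Agent.Lib.P074T.FY
import Vale.Agent.Lib.P074T.EFinal
import Vale.Agent.Lib.P074T.WCont
import Vale.Agent.Lib.P074T.Pre21Chain
import Vale.Agent.Lib.P074T.Pre21Alg
import Vale.Agent.Lib.P074T.Pre28Mesh
import Vale.Agent.Lib.P074T.Pre21PotDiff

/-! # P074T: the duality step; the potentials are Lipschitz in the displacement of the sites -/

open MeasureTheory Set
open scoped ENNReal NNReal RealInnerProductSpace

namespace Vale.Agent.Lib.P074.Dual8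

variable {d N : ℕ}

/-- (STAR) in the form used along the chain. -/
theorem beta_diff [NeZero N] {K : Set (E d)} (hK : IsCompact K) (hc : Convex ℝ K)
    (hint : (interior K).Nonempty) {R : ℝ} (hR0 : 0 < R) (hR : ∀ x ∈ K, ‖x‖ ≤ R)
    (y D : Fin N → E d) (hy : Function.Injective y) (c c' : Fin N → ℝ) (m h : Fin N → ℝ) {t : ℝ}
    (ht : 0 < t) (hm : ∀ j, 0 < m j) (hth : ∀ j, |t * h j| ≤ 1 / 2)
    (hc1 : ∀ j, lmass K y c j = m j) (hc2 : ∀ j, lmass K y c' j = m j * (1 + t * h j)) :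
    ∑ j, ⟪lmom K y c' j - lmom K y c j, D j⟫
      ≤ 100 * R * t * Real.sqrt (∑ j, m j * h j ^ 2) * Real.sqrt (∑ j, m j * ‖D j‖ ^ 2) := by
  have h1 := Vale.Agent.Lib.P074T.Pre21.sum_inner_le_sqrt m hm
    (fun j => lmom K y c' j - lmom K y c j) D
  refine h1.trans ?_
  apply mul_le_mul_of_nonneg_right _ (Real.sqrt_nonneg _)
  have h2 := star hK hc hint hR0 hR y hy c c' (fun j => by rw [hc1]; exact hm j) (fun j => by
    rw [hc1, hc2]
    have : m j * (1 + t * h j) - m j = m j * (t * h j) := by ring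
    rw [this, abs_mul, abs_of_pos (hm j)]
    have := hth j
    have := hm j
    nlinarith)
  have h3 : ∑ j, ‖lmom K y c' j - lmom K y c j‖ ^ 2 / m j
      ≤ (100 * R * t) ^ 2 * ∑ j, m j * h j ^ 2 := by
    have e1 : ∑ j, ‖lmom K y c' j - lmom K y c j‖ ^ 2 / lmass K y c j
        = ∑ j, ‖lmom K y c' j - lmom K y c j‖ ^ 2 / m j :=
      Finset.sum_congr rfl fun j _ => by rw [hc1]
    have e2 : ∑ j, (lmass K y c' j - lmass K y c j) ^ 2 / lmass K y c j
        = t ^ 2 * ∑ j, m j * h j ^ 2 := by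
      rw [Finset.mul_sum]
      refine Finset.sum_congr rfl fun j _ => ?_
      rw [hc1, hc2]
      have := (hm j).ne'
      field_simp
      ring
    rw [e1, e2] at h2
    calc _ ≤ _ := h2
      _ = _ := by ring
  calc Real.sqrt (∑ j, ‖lmom K y c' j - lmom K y c j‖ ^ 2 / m j)
      ≤ Real.sqrt ((100 * R * t) ^ 2 * ∑ j, m j * h j ^ 2) := Real.sqrt_le_sqrt h3
    _ = 100 * R * t * Real.sqrt (∑ j, m j * h j ^ 2) := by
        rw [Real.sqrt_mul (by positivity), Real.sqrt_sq (by positivity)]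

/-- The chain inequality along a mesh of step at most `ε`. -/
theorem dual_mesh [NeZero N] {K : Set (E d)} (hK : IsCompact K) (hc : Convex ℝ K)
    (hint : (interior K).Nonempty) {R : ℝ} (hR0 : 0 < R) (hR : ∀ x ∈ K, ‖x‖ ≤ R)
    (y0 D : Fin N → E d) (hy0 : Function.Injective y0)
    (hy1 : Function.Injective fun j => y0 j + D j) (m h : Fin N → ℝ) (hm : ∀ j, 0 < m j)
    (hsum : ∑ j, m j = 1) (hh : ∑ j, m j * h j = 0) {t : ℝ} (ht : 0 < t)
    (hth : ∀ j, |t * h j| ≤ 1 / 2) (c0 c1 : Fin N → ℝ) (hc0 : ∀ j, lmass K y0 c0 j = m j)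
    (hc1 : ∀ j, lmass K (fun j => y0 j + D j) c1 j = m j * (1 + t * h j)) {ε : ℝ} (hε : 0 < ε) :
    t * ∑ j, m j * h j * (c1 j - c0 j)
      ≤ 100 * R * t * Real.sqrt (∑ j, m j * h j ^ 2) * Real.sqrt (∑ j, m j * ‖D j‖ ^ 2)
        + ε * (2 * R * Real.sqrt (∑ j, m j * ‖D j‖ ^ 2)) := by
  obtain ⟨n, s, hs0, hs1, hslt, hsm, -, hinj⟩ := exists_mesh y0 D hy0 hy1 hε
  set Y : ℕ → Fin N → E d := fun i j => y0 j + s i • D j with hY
  have hY0 : Y 0 = y0 := by funext j; simp [hY, hs0]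
  have hYn : Y n = fun j => y0 j + D j := by funext j; simp [hY, hs1]
  set mt : Fin N → ℝ := fun j => m j * (1 + t * h j) with hmt
  have hmt0 : ∀ j, 0 < mt j := by
    intro j
    have h1 := abs_le.1 (hth j)
    have := hm j
    simp only [hmt]
    apply mul_pos this
    linarith [h1.1]
  have hmtsum : ∑ j, mt j = 1 := by
    have : ∑ j, mt j = ∑ j, m j + t * ∑ j, m j * h j := by
      rw [Finset.mul_sum, ← Finset.sum_add_distrib]
      exact Finset.sum_congr rfl fun j _ => by simp only [hmt]; ring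
    rw [this, hsum, hh]; ring
  have H1 : ∀ i : ℕ, ∃ c : Fin N → ℝ, i ≤ n → ((∀ j, lmass K (Y i) c j = m j) ∧ (i = 0 → c = c0)) := by
    intro i
    by_cases hi : i ≤ n
    · by_cases h0 : i = 0
      · subst h0
        exact ⟨c0, fun _ => ⟨by rw [hY0]; exact hc0, fun _ => rfl⟩⟩
      · obtain ⟨c, hcc⟩ := exists_weights hK hint (Y i) (hinj i hi) m hm hsum
        exact ⟨c, fun _ => ⟨hcc, fun e => absurd e h0⟩⟩
    · exact ⟨0, fun e => absurd e hi⟩
  have H2 : ∀ i : ℕ, ∃ c : Fin N → ℝ, i ≤ n → ((∀ j, lmass K (Y i) c j = mt j) ∧ (i = n → c = c1)) := by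
    intro i
    by_cases hi : i ≤ n
    · by_cases h0 : i = n
      · subst h0
        exact ⟨c1, fun _ => ⟨by rw [hYn]; exact hc1, fun _ => rfl⟩⟩
      · obtain ⟨c, hcc⟩ := exists_weights hK hint (Y i) (hinj i hi) mt hmt0 hmtsum
        exact ⟨c, fun _ => ⟨hcc, fun e => absurd e h0⟩⟩
    · exact ⟨0, fun e => absurd e hi⟩
  choose cs hcs using H1
  choose ct hct using H2
  have hW0 : 0 ≤ Real.sqrt (∑ j, m j * ‖D j‖ ^ 2) := Real.sqrt_nonneg _
  have key := Vale.Agent.Lib.P074T.Pre21.chain n s ε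
    (100 * R * t * Real.sqrt (∑ j, m j * h j ^ 2) * Real.sqrt (∑ j, m j * ‖D j‖ ^ 2))
    (2 * R * Real.sqrt (∑ j, m j * ‖D j‖ ^ 2))
    (∑ j, (mt j - m j) * c1 j) (∑ j, (mt j - m j) * c0 j) hs0 hs1 hε.le hslt hsm
    (fun i j => lmom K (Y i) (cs i) j) (fun i j => lmom K (Y i) (ct i) j) y0 D
    (by
      intro i hi k hk
      have := fy hK hint (Y i) (Y k) (hinj i hi) (hinj k hk) (cs i) (cs k)
      refine le_trans (le_of_eq ?_) this
      symm
      apply Finset.sum_eq_zero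
      intro j _
      rw [(hcs k hk).1 j, (hcs i hi).1 j]; ring)
    (by
      intro i hi k hk
      have := fy hK hint (Y i) (Y k) (hinj i hi) (hinj k hk) (ct i) (ct k)
      refine le_trans (le_of_eq ?_) this
      symm
      apply Finset.sum_eq_zero
      intro j _
      rw [(hct k hk).1 j, (hct i hi).1 j]; ring)
    (by
      have := fy hK hint (Y n) (Y n) (hinj n le_rfl) (hinj n le_rfl) (cs n) (ct n)
      refine le_trans (le_of_eq ?_) this
      refine Finset.sum_congr rfl fun j _ => ?_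
      rw [(hct n le_rfl).1 j, (hcs n le_rfl).1 j, (hct n le_rfl).2 rfl])
    (by
      have := fy hK hint (Y 0) (Y 0) (hinj 0 (Nat.zero_le n)) (hinj 0 (Nat.zero_le n)) (ct 0) (cs 0)
      have e1 : ∑ j, (lmass K (Y 0) (cs 0) j - lmass K (Y 0) (ct 0) j) * cs 0 j
          = - ∑ j, (mt j - m j) * c0 j := by
        rw [← Finset.sum_neg_distrib]
        refine Finset.sum_congr rfl fun j _ => ?_
        rw [(hct 0 (Nat.zero_le n)).1 j, (hcs 0 (Nat.zero_le n)).1 j, (hcs 0 (Nat.zero_le n)).2 rfl]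
        ring
      have e2 : ∑ j, ⟪lmom K (Y 0) (cs 0) j - lmom K (Y 0) (ct 0) j, Y 0 j⟫
          = - ∑ j, ⟪lmom K (Y 0) (ct 0) j - lmom K (Y 0) (cs 0) j, y0 j + s 0 • D j⟫ := by
        rw [← Finset.sum_neg_distrib]
        refine Finset.sum_congr rfl fun j _ => ?_
        rw [← inner_neg_left, neg_sub]
      rw [e1, e2] at this
      linarith)
    (by
      intro i hi
      exact beta_diff hK hc hint hR0 hR (Y i) D (hinj i hi) (cs i) (ct i) m h ht hm hth
        (hcs i hi).1 (hct i hi).1)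
    (by
      apply Vale.Agent.Lib.P074T.Pre21.sum_inner_le_of_norm_le m hm hsum (2 * R) (by positivity)
      intro j
      have a1 := norm_lmom_le hK hint hR (Y n) (cs n) j
      have a2 := norm_lmom_le hK hint hR (Y 0) (cs 0) j
      rw [(hcs n le_rfl).1 j] at a1
      rw [(hcs 0 (Nat.zero_le n)).1 j] at a2
      calc _ ≤ ‖lmom K (Y n) (cs n) j‖ + ‖lmom K (Y 0) (cs 0) j‖ := norm_sub_le _ _
        _ ≤ 2 * R * m j := by linarith)
  refine le_trans (le_of_eq ?_) key
  rw [← Finset.sum_sub_distrib, Finset.mul_sum]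
  refine Finset.sum_congr rfl fun j _ => ?_
  simp only [hmt]
  ring

/-- Mesh to zero. -/
theorem dual_t [NeZero N] {K : Set (E d)} (hK : IsCompact K) (hc : Convex ℝ K)
    (hint : (interior K).Nonempty) {R : ℝ} (hR0 : 0 < R) (hR : ∀ x ∈ K, ‖x‖ ≤ R)
    (y0 D : Fin N → E d) (hy0 : Function.Injective y0)
    (hy1 : Function.Injective fun j => y0 j + D j) (m h : Fin N → ℝ) (hm : ∀ j, 0 < m j)
    (hsum : ∑ j, m j = 1) (hh : ∑ j, m j * h j = 0) {t : ℝ} (ht : 0 < t)
    (hth : ∀ j, |t * h j| ≤ 1 / 2) (c0 c1 : Fin N → ℝ) (hc0 : ∀ j, lmass K y0 c0 j = m j)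
    (hc1 : ∀ j, lmass K (fun j => y0 j + D j) c1 j = m j * (1 + t * h j)) :
    t * ∑ j, m j * h j * (c1 j - c0 j)
      ≤ 100 * R * t * Real.sqrt (∑ j, m j * h j ^ 2) * Real.sqrt (∑ j, m j * ‖D j‖ ^ 2) := by
  apply le_of_forall_pos_le_add
  intro ε hε
  have hW0 : 0 ≤ Real.sqrt (∑ j, m j * ‖D j‖ ^ 2) := Real.sqrt_nonneg _
  set T : ℝ := 2 * R * Real.sqrt (∑ j, m j * ‖D j‖ ^ 2) with hT
  have hT0 : 0 ≤ T := by positivity
  have key := dual_mesh hK hc hint hR0 hR y0 D hy0 hy1 m h hm hsum hh ht hth c0 c1 hc0 hc1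
    (ε := ε / (T + 1)) (by positivity)
  refine key.trans ?_
  have : ε / (T + 1) * T ≤ ε := by
    rw [div_mul_eq_mul_div, div_le_iff₀ (by positivity)]
    nlinarith
  linarith

/-- `t` to zero: the test inequality. -/
theorem dual_h [NeZero N] {K : Set (E d)} (hK : IsCompact K) (hc : Convex ℝ K)
    (hint : (interior K).Nonempty) {R : ℝ} (hR0 : 0 < R) (hR : ∀ x ∈ K, ‖x‖ ≤ R)
    (y0 D : Fin N → E d) (hy0 : Function.Injective y0)
    (hy1 : Function.Injective fun j => y0 j + D j) (m h : Fin N → ℝ) (hm : ∀ j, 0 < m j)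
    (hsum : ∑ j, m j = 1) (hh : ∑ j, m j * h j = 0) (c0 c1 : Fin N → ℝ)
    (hc0 : ∀ j, lmass K y0 c0 j = m j)
    (hc1 : ∀ j, lmass K (fun j => y0 j + D j) c1 j = m j) :
    ∑ j, m j * h j * (c1 j - c0 j)
      ≤ 100 * R * Real.sqrt (∑ j, m j * h j ^ 2) * Real.sqrt (∑ j, m j * ‖D j‖ ^ 2) := by
  apply le_of_forall_pos_le_add
  intro ε hε
  set A : ℝ := ∑ j, |h j| + 1 with hA
  have hsumabs : 0 ≤ ∑ j, |h j| := Finset.sum_nonneg fun j _ => abs_nonneg _
  have hA0 : 0 < A := by linarith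
  have hhA : ∀ j, |h j| ≤ A := by
    intro j
    have := Finset.single_le_sum (f := fun j => |h j|) (fun j _ => abs_nonneg _) (Finset.mem_univ j)
    linarith
  have hm1 : ∀ j, m j ≤ 1 := by
    intro j
    have := Finset.single_le_sum (f := m) (fun j _ => (hm j).le) (Finset.mem_univ j)
    linarith
  obtain ⟨t0, ht0, hcont⟩ := weights_continuous hK hc hint (fun j => y0 j + D j) hy1 c1
    (fun j => by rw [hc1]; exact hm j) (ε := ε / A) (by positivity)
  set t : ℝ := min (1 / (2 * A)) (t0 / A) with htdef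
  have ht : 0 < t := lt_min (by positivity) (by positivity)
  have htA1 : t * A ≤ 1 / 2 := by
    have : t ≤ 1 / (2 * A) := min_le_left _ _
    calc t * A ≤ 1 / (2 * A) * A := by gcongr
      _ = 1 / 2 := by field_simp
  have htA2 : t * A ≤ t0 := by
    have : t ≤ t0 / A := min_le_right _ _
    calc t * A ≤ t0 / A * A := by gcongr
      _ = t0 := by field_simp
  have hthj : ∀ j, |t * h j| ≤ t * A := by
    intro j
    rw [abs_mul, abs_of_pos ht]
    exact mul_le_mul_of_nonneg_left (hhA j) ht.le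
  have hth : ∀ j, |t * h j| ≤ 1 / 2 := fun j => (hthj j).trans htA1
  set mt : Fin N → ℝ := fun j => m j * (1 + t * h j) with hmt
  have hmt0 : ∀ j, 0 < mt j := by
    intro j
    have h1 := abs_le.1 (hth j)
    simp only [hmt]
    apply mul_pos (hm j)
    linarith [h1.1]
  have hmtsum : ∑ j, mt j = 1 := by
    have : ∑ j, mt j = ∑ j, m j + t * ∑ j, m j * h j := by
      rw [Finset.mul_sum, ← Finset.sum_add_distrib]
      exact Finset.sum_congr rfl fun j _ => by simp only [hmt]; ring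
    rw [this, hsum, hh]; ring
  obtain ⟨c1', hc1'⟩ := exists_weights hK hint (fun j => y0 j + D j) hy1 mt hmt0 hmtsum
  have hosc := hcont c1' (fun j => by
    rw [hc1', hc1]
    have : mt j - m j = m j * (t * h j) := by simp only [hmt]; ring
    rw [this, abs_mul, abs_of_pos (hm j)]
    calc m j * |t * h j| ≤ 1 * (t * A) :=
          mul_le_mul (hm1 j) (hthj j) (abs_nonneg _) (by norm_num)
      _ ≤ t0 := by linarith)
  have hdt := dual_t hK hc hint hR0 hR y0 D hy0 hy1 m h hm hsum hh ht hth c0 c1' hc0 hc1'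
  have hdt' : ∑ j, m j * h j * (c1' j - c0 j)
      ≤ 100 * R * Real.sqrt (∑ j, m j * h j ^ 2) * Real.sqrt (∑ j, m j * ‖D j‖ ^ 2) := by
    have e : 100 * R * t * Real.sqrt (∑ j, m j * h j ^ 2) * Real.sqrt (∑ j, m j * ‖D j‖ ^ 2)
        = t * (100 * R * Real.sqrt (∑ j, m j * h j ^ 2) * Real.sqrt (∑ j, m j * ‖D j‖ ^ 2)) := by
      ring
    rw [e] at hdt
    exact le_of_mul_le_mul_left hdt ht
  have herr : ∑ j, m j * h j * (c1 j - c1' j) ≤ ε := by
    have e : ∑ j, m j * h j * (c1 j - c1' j)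
        = ∑ j, m j * h j * (-((c1' j - c1 j) - (c1' 0 - c1 0))) := by
      have : ∑ j, m j * h j * (-((c1' j - c1 j) - (c1' 0 - c1 0)))
          = ∑ j, m j * h j * (c1 j - c1' j) + (∑ j, m j * h j) * (c1' 0 - c1 0) := by
        rw [Finset.sum_mul, ← Finset.sum_add_distrib]
        exact Finset.sum_congr rfl fun j _ => by ring
      rw [this, hh]; ring
    rw [e]
    calc ∑ j, m j * h j * (-((c1' j - c1 j) - (c1' 0 - c1 0)))
        ≤ ∑ j, |h j| * (ε / A) := by
          apply Finset.sum_le_sum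
          intro j _
          have b1 := hosc j 0
          have b2 : m j * h j * (-((c1' j - c1 j) - (c1' 0 - c1 0)))
              ≤ |m j * h j * (-((c1' j - c1 j) - (c1' 0 - c1 0)))| := le_abs_self _
          refine b2.trans ?_
          rw [abs_mul, abs_mul, abs_neg, abs_of_pos (hm j)]
          calc m j * |h j| * |c1' j - c1 j - (c1' 0 - c1 0)|
              ≤ 1 * |h j| * (ε / A) := by
                apply mul_le_mul _ b1 (abs_nonneg _) (by positivity)
                exact mul_le_mul_of_nonneg_right (hm1 j) (abs_nonneg _)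
            _ = |h j| * (ε / A) := by ring
      _ = (∑ j, |h j|) * (ε / A) := by rw [Finset.sum_mul]
      _ ≤ A * (ε / A) := by
          apply mul_le_mul_of_nonneg_right _ (by positivity)
          linarith
      _ = ε := by field_simp
  have hsplit : ∑ j, m j * h j * (c1 j - c0 j)
      = ∑ j, m j * h j * (c1' j - c0 j) + ∑ j, m j * h j * (c1 j - c1' j) := by
    rw [← Finset.sum_add_distrib]
    exact Finset.sum_congr rfl fun j _ => by ring
  rw [hsplit]
  linarith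

/-- The weights are Lipschitz in the displacement of the sites. -/
theorem weights_lipschitz [NeZero N] {K : Set (E d)} (hK : IsCompact K) (hc : Convex ℝ K)
    (hint : (interior K).Nonempty) {R : ℝ} (hR0 : 0 < R) (hR : ∀ x ∈ K, ‖x‖ ≤ R)
    (y0 y1 : Fin N → E d) (hy0 : Function.Injective y0) (hy1 : Function.Injective y1)
    (m : Fin N → ℝ) (hm : ∀ j, 0 < m j) (hsum : ∑ j, m j = 1) (c0 c1 : Fin N → ℝ)
    (hc0 : ∀ j, lmass K y0 c0 j = m j) (hc1 : ∀ j, lmass K y1 c1 j = m j) :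
    ∑ j, m j * ((c1 j - c0 j) - ∑ k, m k * (c1 k - c0 k)) ^ 2 ≤ (100 * R) ^ 2 * wsq m y0 y1 := by
  have hy : (fun j => y0 j + (y1 j - y0 j)) = y1 := by funext j; abel
  have hw0 : 0 ≤ wsq m y0 y1 := Finset.sum_nonneg fun j _ => by
    have := (hm j).le
    positivity
  have key := Vale.Agent.Lib.P074T.Pre21.variance_le_of_tests m (fun j => (hm j).le) hsum
    (fun j => c1 j - c0 j) (100 * R * Real.sqrt (wsq m y0 y1)) (by positivity) (by
      intro h hh
      have := dual_h hK hc hint hR0 hR y0 (fun j => y1 j - y0 j) hy0 (by rw [hy]; exact hy1) m h hm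
        hsum hh c0 c1 hc0 (by rw [hy]; exact hc1)
      refine this.trans (le_of_eq ?_)
      unfold wsq
      ring)
  refine key.trans (le_of_eq ?_)
  rw [mul_pow, Real.sq_sqrt hw0]

/-- KEY FACT: the potentials are Lipschitz, in `L^2 (unif K)` modulo constants, in the
`L^2 (m)` displacement of the sites. -/
theorem potential_lipschitz {K : Set (E d)} (hK : IsCompact K) (hc : Convex ℝ K)
    (hint : (interior K).Nonempty) :
    ∃ C : ℝ, 0 ≤ C ∧ ∀ (N : ℕ) [NeZero N] (y0 y1 : Fin N → E d), Function.Injective y0 →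
      Function.Injective y1 → ∀ m : Fin N → ℝ, (∀ j, 0 < m j) → ∑ j, m j = 1 →
      ∀ c0 c1 : Fin N → ℝ, (∀ j, lmass K y0 c0 j = m j) → (∀ j, lmass K y1 c1 j = m j) →
      ∃ a : ℝ, ∫ x, (lpot y1 c1 x - lpot y0 c0 x - a) ^ 2 ∂(unif K) ≤ C * wsq m y0 y1 := by
  obtain ⟨R0, hR0⟩ := hK.isBounded.exists_norm_le
  set R : ℝ := |R0| + 1 with hRdef
  have hRpos : 0 < R := by positivity
  have hR : ∀ x ∈ K, ‖x‖ ≤ R := fun x hx => (hR0 x hx).trans (by
    have := le_abs_self R0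
    linarith)
  refine ⟨4 * R ^ 2 + 4 * (100 * R) ^ 2, by positivity, ?_⟩
  intro N _ y0 y1 hy0 hy1 m hm hsum c0 c1 hc0 hc1
  refine ⟨-∑ k, m k * (c1 k - c0 k), ?_⟩
  have h1 := potdiff_L2 hK hint hR y0 y1 c0 c1 m hc0 hc1 (-∑ k, m k * (c1 k - c0 k))
  have h2 := weights_lipschitz hK hc hint hRpos hR y0 y1 hy0 hy1 m hm hsum c0 c1 hc0 hc1
  have h3 : ∑ j, m j * (c1 j - c0 j + -∑ k, m k * (c1 k - c0 k)) ^ 2
      = ∑ j, m j * ((c1 j - c0 j) - ∑ k, m k * (c1 k - c0 k)) ^ 2 :=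
    Finset.sum_congr rfl fun j _ => by ring
  rw [h3] at h1
  nlinarith

end Vale.Agent.Lib.P074.Dual8
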