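import Mathlib

/-!
# P074T: meshes of the unit interval avoiding a finite set; collisions of moving sites
-/

namespace Vale.Agent.Lib.P074T.Pre21

/-- a mesh of `[0,1]` with `n` steps of length at most `2 / n` avoiding a finite set -/
theorem exists_mesh (bad : Set ℝ) (hbad : bad.Finite) (h0 : (0 : ℝ) ∉ bad) (h1 : (1 : ℝ) ∉ bad)
    (n : ℕ) (hn : 0 < n) :
    ∃ s : ℕ → ℝ, s 0 = 0 ∧ s n = 1 ∧ (∀ i < n, s i < s (i + 1)) ∧
      (∀ i < n, s (i + 1) - s i ≤ 2 / n) ∧ ∀ i ≤ n, s i ∉ bad := by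
  have hn' : (0 : ℝ) < n := by exact_mod_cast hn
  have hex : ∀ i : ℕ, ∃ x : ℝ, x ∈ Set.Ioo ((i : ℝ) / n - 1 / (4 * n)) ((i : ℝ) / n + 1 / (4 * n))
      ∧ x ∉ bad := by
    intro i
    have hlt : (i : ℝ) / n - 1 / (4 * n) < (i : ℝ) / n + 1 / (4 * n) := by
      have : (0 : ℝ) < 1 / (4 * n) := by positivity
      linarith
    obtain ⟨x, hx⟩ := ((Set.Ioo_infinite hlt).sdiff hbad).nonempty
    exact ⟨x, hx.1, hx.2⟩
  choose f hf using hex
  set s : ℕ → ℝ := fun i => if i = 0 then 0 else if i = n then 1 else f i with hs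
  have hq : (0 : ℝ) < 1 / (4 * n) := by positivity
  have hbound : ∀ i ≤ n, (i : ℝ) / n - 1 / (4 * n) < s i ∧ s i < (i : ℝ) / n + 1 / (4 * n) := by
    intro i _
    simp only [hs]
    split_ifs with a b
    · subst a
      simp only [Nat.cast_zero, zero_div]
      constructor <;> linarith
    · subst b
      rw [div_self hn'.ne']
      constructor <;> linarith
    · exact (hf i).1
  have hstep : ∀ i : ℕ, ((i + 1 : ℕ) : ℝ) / n = (i : ℝ) / n + 4 * (1 / (4 * n)) := by
    intro i
    push_cast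
    field_simp
  have h2n : (2 : ℝ) / n = 8 * (1 / (4 * n)) := by
    field_simp
    norm_num
  refine ⟨s, by simp [hs], ?_, ?_, ?_, ?_⟩
  · simp only [hs]
    rw [if_neg hn.ne']
    simp
  · intro i hi
    have a := hbound i hi.le
    have b := hbound (i + 1) hi
    rw [hstep] at b
    linarith [a.2, b.1]
  · intro i hi
    have a := hbound i hi.le
    have b := hbound (i + 1) hi
    rw [hstep] at b
    rw [h2n]
    linarith [a.1, b.2]
  · intro i _
    simp only [hs]
    split_ifs with a b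
    · exact h0
    · exact h1
    · exact (hf i).2

variable {V ι : Type*} [AddCommGroup V] [Module ℝ V] [Finite ι]

/-- moving sites collide only at finitely many times -/
theorem collisions_finite (y0 D : ι → V) (hy : Function.Injective y0) :
    {s : ℝ | ¬ Function.Injective fun j => y0 j + s • D j}.Finite := by
  have hsub : {s : ℝ | ¬ Function.Injective fun j => y0 j + s • D j}
      ⊆ ⋃ p : ι × ι, {s : ℝ | p.1 ≠ p.2 ∧ y0 p.1 + s • D p.1 = y0 p.2 + s • D p.2} := by
    intro s hs
    simp only [Set.mem_ofPred_eq, Function.Injective, not_forall] at hs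
    obtain ⟨j, k, hjk, hne⟩ := hs
    exact Set.mem_iUnion.2 ⟨(j, k), hne, hjk⟩
  refine (Set.finite_iUnion fun p => ?_).subset hsub
  apply Set.Subsingleton.finite
  intro s hs t ht
  obtain ⟨hne, e1⟩ := hs
  obtain ⟨_, e2⟩ := ht
  by_contra hst
  have h3 : (s - t) • (D p.1 - D p.2) = 0 := by
    have : (s - t) • (D p.1 - D p.2)
        = (y0 p.1 + s • D p.1) - (y0 p.2 + s • D p.2) - ((y0 p.1 + t • D p.1) - (y0 p.2 + t • D p.2)) := by
      module
    rw [this, e1, e2]
    simp
  have h4 : D p.1 - D p.2 = 0 := by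
    rcases smul_eq_zero.1 h3 with h | h
    · exact absurd (sub_eq_zero.1 h) hst
    · exact h
  have h5 : D p.1 = D p.2 := sub_eq_zero.1 h4
  rw [h5] at e1
  exact hne (hy (add_right_cancel e1))

end Vale.Agent.Lib.P074T.Pre21
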