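import Vale.Agent.Lib.P074T.Star
import Vale.Agent.Lib.P074T.FY
import Vale.Agent.Lib.P074T.EFinal
import Vale.Agent.Lib.P074T.WCont
import Vale.Agent.Lib.P074T.Pre21Chain
import Vale.Agent.Lib.P074T.Pre21Alg
import Vale.Agent.Lib.P074T.Pre21Mesh

/-!
# P074T: the duality step.  The weights are Lipschitz functions of the sites in `L^2(m)`.
-/

open MeasureTheory Set
open scoped ENNReal NNReal RealInnerProductSpace
open Vale.Agent.Lib.P074T.Pre21

namespace Vale.Agent.Lib.P074.Dual21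

variable {d N : ℕ}

/-- the chain inequality along a mesh with `n` steps -/
theorem dual_mesh [NeZero N] {K : Set (E d)} (hK : IsCompact K) (hconv : Convex ℝ K)
    (hint : (interior K).Nonempty) {R : ℝ} (hR0 : 0 < R) (hR : ∀ x ∈ K, ‖x‖ ≤ R)
    (y0 y1 : Fin N → E d) (hy0 : Function.Injective y0) (hy1 : Function.Injective y1)
    (m mt : Fin N → ℝ) (hm : ∀ j, 0 < m j) (hsum : ∑ j, m j = 1) (hmt : ∀ j, 0 < mt j)
    (hsumt : ∑ j, mt j = 1) (hclose : ∀ j, |mt j - m j| ≤ m j / 2)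
    (c0 ct1 : Fin N → ℝ) (hc0 : ∀ j, lmass K y0 c0 j = m j) (hct1 : ∀ j, lmass K y1 ct1 j = mt j)
    (n : ℕ) (hn : 0 < n) :
    ∑ j, (mt j - m j) * ct1 j - ∑ j, (mt j - m j) * c0 j
      ≤ 100 * R * Real.sqrt (∑ j, (mt j - m j) ^ 2 / m j) * Real.sqrt (wsq m y0 y1)
        + 2 / n * (2 * R * Real.sqrt (wsq m y0 y1)) := by
  have hD0 : (fun j => y0 j + (0 : ℝ) • (y1 j - y0 j)) = y0 := by
    funext j; simp
  have hD1 : (fun j => y0 j + (1 : ℝ) • (y1 j - y0 j)) = y1 := by
    funext j; simp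
  obtain ⟨s, hs0, hsn, hsinc, hsstep, hsgood⟩ :=
    exists_mesh _ (collisions_finite y0 (fun j => y1 j - y0 j) hy0)
      (by
        intro hcon
        apply hcon
        show Function.Injective (fun j => y0 j + (0 : ℝ) • (y1 j - y0 j))
        rw [hD0]; exact hy0)
      (by
        intro hcon
        apply hcon
        show Function.Injective (fun j => y0 j + (1 : ℝ) • (y1 j - y0 j))
        rw [hD1]; exact hy1) n hn
  let ys : ℕ → Fin N → E d := fun i j => y0 j + s i • (y1 j - y0 j)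
  have hinj : ∀ i ≤ n, Function.Injective (ys i) := by
    intro i hi
    have := hsgood i hi
    by_contra hcon
    exact this hcon
  have hys0 : ys 0 = y0 := by
    show (fun j => y0 j + s 0 • (y1 j - y0 j)) = y0
    rw [hs0]; exact hD0
  have hysn : ys n = y1 := by
    show (fun j => y0 j + s n • (y1 j - y0 j)) = y1
    rw [hsn]; exact hD1
  have ex1 : ∀ i, ∃ c : Fin N → ℝ, (i ≤ n → ∀ j, lmass K (ys i) c j = m j) ∧ (i = 0 → c = c0) := by
    intro i
    by_cases hi0 : i = 0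
    · subst hi0
      exact ⟨c0, fun _ j => by rw [hys0]; exact hc0 j, fun _ => rfl⟩
    · by_cases hi : i ≤ n
      · obtain ⟨c, hc⟩ := exists_weights hK hint (ys i) (hinj i hi) m hm hsum
        exact ⟨c, fun _ => hc, fun h => absurd h hi0⟩
      · exact ⟨c0, fun h => absurd h hi, fun _ => rfl⟩
  have ex2 : ∀ i, ∃ c : Fin N → ℝ, (i ≤ n → ∀ j, lmass K (ys i) c j = mt j) ∧
      (i = n → c = ct1) := by
    intro i
    by_cases hi0 : i = n
    · subst hi0
      exact ⟨ct1, fun _ j => by rw [hysn]; exact hct1 j, fun _ => rfl⟩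
    · by_cases hi : i ≤ n
      · obtain ⟨c, hc⟩ := exists_weights hK hint (ys i) (hinj i hi) mt hmt hsumt
        exact ⟨c, fun _ => hc, fun h => absurd h hi0⟩
      · exact ⟨ct1, fun h => absurd h hi, fun _ => rfl⟩
  choose cw hcw1 hcw2 using ex1
  choose cv hcv1 hcv2 using ex2
  have hwsq : wsq m y0 y1 = ∑ j, m j * ‖y1 j - y0 j‖ ^ 2 := rfl
  refine chain n s (2 / n) _ _ _ _ hs0 hsn (by positivity) hsinc hsstep
    (fun i j => lmom K (ys i) (cw i) j) (fun i j => lmom K (ys i) (cv i) j) y0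
    (fun j => y1 j - y0 j) ?_ ?_ ?_ ?_ ?_ ?_
  · intro i hi k hk
    have := fy hK hint (ys i) (ys k) (hinj i hi) (hinj k hk) (cw i) (cw k)
    simp only [hcw1 k hk, hcw1 i hi, sub_self, zero_mul, Finset.sum_const_zero] at this
    exact this
  · intro i hi k hk
    have := fy hK hint (ys i) (ys k) (hinj i hi) (hinj k hk) (cv i) (cv k)
    simp only [hcv1 k hk, hcv1 i hi, sub_self, zero_mul, Finset.sum_const_zero] at this
    exact this
  · have := fy hK hint (ys n) (ys n) (hinj n le_rfl) (hinj n le_rfl) (cw n) (cv n)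
    simp only [hcv1 n le_rfl, hcw1 n le_rfl] at this
    rw [hcv2 n rfl] at this
    rw [hcv2 n rfl]
    exact this
  · have := fy hK hint (ys 0) (ys 0) (hinj 0 (Nat.zero_le n)) (hinj 0 (Nat.zero_le n)) (cv 0) (cw 0)
    simp only [hcv1 0 (Nat.zero_le n), hcw1 0 (Nat.zero_le n)] at this
    rw [hcw2 0 rfl] at this
    rw [hcw2 0 rfl]
    have e1 : ∑ j, ⟪lmom K (ys 0) (cv 0) j - lmom K (ys 0) c0 j, y0 j + s 0 • (y1 j - y0 j)⟫
        = - ∑ j, ⟪lmom K (ys 0) c0 j - lmom K (ys 0) (cv 0) j, ys 0 j⟫ := by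
      rw [← Finset.sum_neg_distrib]
      apply Finset.sum_congr rfl
      intro j _
      rw [← inner_neg_left, neg_sub]
    have e2 : ∑ j, (mt j - m j) * c0 j = - ∑ j, (m j - mt j) * c0 j := by
      rw [← Finset.sum_neg_distrib]
      apply Finset.sum_congr rfl
      intro j _
      ring
    rw [e1, e2]
    linarith
  · intro i hi
    have st := star hK hconv hint hR0 hR (ys i) (hinj i hi) (cw i) (cv i)
      (fun j => by rw [hcw1 i hi]; exact hm j)
      (fun j => by rw [hcw1 i hi, hcv1 i hi]; exact hclose j)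
    simp only [hcw1 i hi, hcv1 i hi] at st
    have cs := sum_inner_le_sqrt m hm
      (fun j => lmom K (ys i) (cv i) j - lmom K (ys i) (cw i) j) (fun j => y1 j - y0 j)
    refine cs.trans ?_
    rw [hwsq]
    apply mul_le_mul_of_nonneg_right _ (Real.sqrt_nonneg _)
    calc Real.sqrt (∑ j, ‖lmom K (ys i) (cv i) j - lmom K (ys i) (cw i) j‖ ^ 2 / m j)
        ≤ Real.sqrt ((100 * R) ^ 2 * ∑ j, (mt j - m j) ^ 2 / m j) := Real.sqrt_le_sqrt st
      _ = 100 * R * Real.sqrt (∑ j, (mt j - m j) ^ 2 / m j) := by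
        rw [Real.sqrt_mul (sq_nonneg _), Real.sqrt_sq (by positivity)]
  · rw [hwsq]
    apply sum_inner_le_of_norm_le m hm hsum (2 * R) (by positivity)
    intro j
    have a1 := norm_lmom_le hK hint hR (ys n) (cw n) j
    have a2 := norm_lmom_le hK hint hR (ys 0) (cw 0) j
    rw [hcw1 n le_rfl] at a1
    rw [hcw1 0 (Nat.zero_le n)] at a2
    calc ‖lmom K (ys n) (cw n) j - lmom K (ys 0) (cw 0) j‖
        ≤ ‖lmom K (ys n) (cw n) j‖ + ‖lmom K (ys 0) (cw 0) j‖ := norm_sub_le _ _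
      _ ≤ 2 * R * m j := by linarith

/-- the mesh size tends to zero -/
theorem dual_limit [NeZero N] {K : Set (E d)} (hK : IsCompact K) (hconv : Convex ℝ K)
    (hint : (interior K).Nonempty) {R : ℝ} (hR0 : 0 < R) (hR : ∀ x ∈ K, ‖x‖ ≤ R)
    (y0 y1 : Fin N → E d) (hy0 : Function.Injective y0) (hy1 : Function.Injective y1)
    (m mt : Fin N → ℝ) (hm : ∀ j, 0 < m j) (hsum : ∑ j, m j = 1) (hmt : ∀ j, 0 < mt j)
    (hsumt : ∑ j, mt j = 1) (hclose : ∀ j, |mt j - m j| ≤ m j / 2)
    (c0 ct1 : Fin N → ℝ) (hc0 : ∀ j, lmass K y0 c0 j = m j)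
    (hct1 : ∀ j, lmass K y1 ct1 j = mt j) :
    ∑ j, (mt j - m j) * ct1 j - ∑ j, (mt j - m j) * c0 j
      ≤ 100 * R * Real.sqrt (∑ j, (mt j - m j) ^ 2 / m j) * Real.sqrt (wsq m y0 y1) := by
  apply le_of_forall_pos_le_add
  intro ε hε
  set T := 2 * R * Real.sqrt (wsq m y0 y1) with hT
  have hT0 : 0 ≤ T := by positivity
  obtain ⟨n, hn⟩ := exists_nat_gt (2 * T / ε)
  have hn0 : (0 : ℝ) < n := lt_of_le_of_lt (by positivity) hn
  have hn1 : 0 < n := by exact_mod_cast hn0
  have := dual_mesh hK hconv hint hR0 hR y0 y1 hy0 hy1 m mt hm hsum hmt hsumt hclose c0 ct1 hc0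
    hct1 n hn1
  refine this.trans ?_
  have h2 : 2 / (n : ℝ) * T ≤ ε := by
    rw [div_lt_iff₀ hε] at hn
    rw [div_mul_eq_mul_div, div_le_iff₀ hn0]
    linarith
  linarith

/-- all mean zero tests -/
theorem dual_test [NeZero N] {K : Set (E d)} (hK : IsCompact K) (hconv : Convex ℝ K)
    (hint : (interior K).Nonempty) {R : ℝ} (hR0 : 0 < R) (hR : ∀ x ∈ K, ‖x‖ ≤ R)
    (y0 y1 : Fin N → E d) (hy0 : Function.Injective y0) (hy1 : Function.Injective y1)
    (m : Fin N → ℝ) (hm : ∀ j, 0 < m j) (hsum : ∑ j, m j = 1)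
    (c0 c1 : Fin N → ℝ) (hc0 : ∀ j, lmass K y0 c0 j = m j) (hc1 : ∀ j, lmass K y1 c1 j = m j)
    (h : Fin N → ℝ) (hh : ∑ j, m j * h j = 0) :
    ∑ j, m j * h j * (c1 j - c0 j)
      ≤ 100 * R * Real.sqrt (wsq m y0 y1) * Real.sqrt (∑ j, m j * h j ^ 2) := by
  apply le_of_forall_pos_le_add
  intro ε hε
  set H : ℝ := 1 + ∑ j, |h j| with hH
  have hsabs : 0 ≤ ∑ j, |h j| := Finset.sum_nonneg fun j _ => abs_nonneg _
  have hH1 : 1 ≤ H := by linarith
  have hH0 : 0 < H := by linarith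
  have hhH : ∀ j, |h j| ≤ H := by
    intro j
    have := Finset.single_le_sum (f := fun j => |h j|) (fun j _ => abs_nonneg _) (Finset.mem_univ j)
    linarith
  have hm1 : ∀ j, m j ≤ 1 := by
    intro j
    have := Finset.single_le_sum (f := m) (fun j _ => (hm j).le) (Finset.mem_univ j)
    linarith
  obtain ⟨t0, ht0, hwc⟩ := weights_continuous hK hconv hint y1 hy1 c1
    (fun j => by rw [hc1]; exact hm j) (ε := ε / H) (by positivity)
  set q : ℝ := min (1 / 2) t0 with hq
  have hq0 : 0 < q := lt_min (by norm_num) ht0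
  set t : ℝ := q / H with ht
  have ht0' : 0 < t := by positivity
  have hth : ∀ j, |t * h j| ≤ q := by
    intro j
    rw [abs_mul, abs_of_pos ht0', ht, div_mul_eq_mul_div, div_le_iff₀ hH0]
    exact mul_le_mul_of_nonneg_left (hhH j) hq0.le
  set mt : Fin N → ℝ := fun j => m j * (1 + t * h j) with hmtdef
  have hdiff : ∀ j, mt j - m j = t * (m j * h j) := by
    intro j
    simp only [hmtdef]; ring
  have hmt : ∀ j, 0 < mt j := by
    intro j
    apply mul_pos (hm j)
    have := (abs_le.1 ((hth j).trans (min_le_left _ _))).1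
    linarith
  have hsumt : ∑ j, mt j = 1 := by
    have : ∑ j, mt j = ∑ j, m j + t * ∑ j, m j * h j := by
      rw [Finset.mul_sum, ← Finset.sum_add_distrib]
      apply Finset.sum_congr rfl
      intro j _
      simp only [hmtdef]; ring
    rw [this, hsum, hh]; ring
  have habs : ∀ j, |mt j - m j| = m j * |t * h j| := by
    intro j
    rw [hdiff, show t * (m j * h j) = m j * (t * h j) by ring, abs_mul, abs_of_pos (hm j)]
  have hclose : ∀ j, |mt j - m j| ≤ m j / 2 := by
    intro j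
    rw [habs]
    have := (hth j).trans (min_le_left _ _)
    nlinarith [hm j]
  obtain ⟨ct1, hct1⟩ := exists_weights hK hint y1 hy1 mt hmt hsumt
  have key := dual_limit hK hconv hint hR0 hR y0 y1 hy0 hy1 m mt hm hsum hmt hsumt hclose c0 ct1
    hc0 hct1
  have e1 : ∑ j, (mt j - m j) * ct1 j - ∑ j, (mt j - m j) * c0 j
      = t * ∑ j, m j * h j * (ct1 j - c0 j) := by
    rw [← Finset.sum_sub_distrib, Finset.mul_sum]
    apply Finset.sum_congr rfl
    intro j _
    rw [hdiff]; ring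
  have e2 : ∑ j, (mt j - m j) ^ 2 / m j = t ^ 2 * ∑ j, m j * h j ^ 2 := by
    rw [Finset.mul_sum]
    apply Finset.sum_congr rfl
    intro j _
    rw [hdiff]
    have := (hm j).ne'
    field_simp
  rw [e1, e2, Real.sqrt_mul (sq_nonneg _), Real.sqrt_sq ht0'.le] at key
  have key2 : ∑ j, m j * h j * (ct1 j - c0 j)
      ≤ 100 * R * Real.sqrt (wsq m y0 y1) * Real.sqrt (∑ j, m j * h j ^ 2) := by
    have : t * ∑ j, m j * h j * (ct1 j - c0 j)
        ≤ t * (100 * R * Real.sqrt (wsq m y0 y1) * Real.sqrt (∑ j, m j * h j ^ 2)) := by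
      refine key.trans (le_of_eq ?_)
      ring
    exact le_of_mul_le_mul_left this ht0'
  have hw := hwc ct1 (fun j => by
    rw [hct1, hc1, habs]
    have a1 := (hth j).trans (min_le_right _ _)
    have a2 := abs_nonneg (t * h j)
    nlinarith [hm j, hm1 j])
  have e3 : ∑ j, m j * h j * (c1 j - ct1 j)
      = ∑ j, m j * h j * ((ct1 0 - c1 0) - (ct1 j - c1 j)) := by
    have : ∑ j, m j * h j * ((ct1 0 - c1 0) - (ct1 j - c1 j))
        = (ct1 0 - c1 0) * ∑ j, m j * h j + ∑ j, m j * h j * (c1 j - ct1 j) := by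
      rw [Finset.mul_sum, ← Finset.sum_add_distrib]
      apply Finset.sum_congr rfl
      intro j _
      ring
    rw [this, hh]; ring
  have e4 : ∑ j, m j * h j * (c1 j - ct1 j) ≤ ε := by
    rw [e3]
    calc ∑ j, m j * h j * ((ct1 0 - c1 0) - (ct1 j - c1 j))
        ≤ ∑ j, |h j| * (ε / H) := by
          apply Finset.sum_le_sum
          intro j _
          have b1 := hw 0 j
          have b2 : m j * h j * ((ct1 0 - c1 0) - (ct1 j - c1 j))
              ≤ |m j * h j * ((ct1 0 - c1 0) - (ct1 j - c1 j))| := le_abs_self _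
          rw [abs_mul, abs_mul, abs_of_pos (hm j)] at b2
          refine b2.trans ?_
          have b3 : m j * |h j| ≤ |h j| := by nlinarith [abs_nonneg (h j), hm1 j]
          exact mul_le_mul b3 b1 (abs_nonneg _) (abs_nonneg _)
      _ = (∑ j, |h j|) * (ε / H) := by rw [Finset.sum_mul]
      _ ≤ H * (ε / H) := by
          apply mul_le_mul_of_nonneg_right _ (by positivity)
          linarith
      _ = ε := by field_simp
  have e5 : ∑ j, m j * h j * (c1 j - c0 j)
      = ∑ j, m j * h j * (ct1 j - c0 j) + ∑ j, m j * h j * (c1 j - ct1 j) := by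
    rw [← Finset.sum_add_distrib]
    apply Finset.sum_congr rfl
    intro j _
    ring
  rw [e5]
  linarith

/-- DUALITY.  Two tessellations of `K` with the same masses `m`, sites `y0`, `y1`: the weights
differ, up to a constant, by at most `100 R` times the displacement of the sites in `L^2(m)`. -/
theorem duality [NeZero N] {K : Set (E d)} (hK : IsCompact K) (hconv : Convex ℝ K)
    (hint : (interior K).Nonempty) {R : ℝ} (hR0 : 0 < R) (hR : ∀ x ∈ K, ‖x‖ ≤ R)
    (y0 y1 : Fin N → E d) (hy0 : Function.Injective y0) (hy1 : Function.Injective y1)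
    (m : Fin N → ℝ) (hm : ∀ j, 0 < m j)
    (c0 c1 : Fin N → ℝ) (hc0 : ∀ j, lmass K y0 c0 j = m j) (hc1 : ∀ j, lmass K y1 c1 j = m j) :
    ∑ j, m j * ((c1 j - c0 j) - ∑ k, m k * (c1 k - c0 k)) ^ 2
      ≤ (100 * R) ^ 2 * wsq m y0 y1 := by
  have hsum : ∑ j, m j = 1 := by
    have := sum_lmass hK hint y0 hy0 c0
    simpa only [hc0] using this
  have hw0 : 0 ≤ wsq m y0 y1 :=
    Finset.sum_nonneg fun j _ => mul_nonneg (hm j).le (sq_nonneg _)
  have := variance_le_of_tests m (fun j => (hm j).le) hsum (fun j => c1 j - c0 j)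
    (100 * R * Real.sqrt (wsq m y0 y1)) (by positivity)
    (fun h hh => dual_test hK hconv hint hR0 hR y0 y1 hy0 hy1 m hm hsum c0 c1 hc0 hc1 h hh)
  refine this.trans (le_of_eq ?_)
  rw [mul_pow, Real.sq_sqrt hw0]

end Vale.Agent.Lib.P074.Dual21
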