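import Vale.Agent.Lib.P074T.Defs

/-! # P074T task E1: the finitely supported measure `atom y m` -/

open MeasureTheory Set
open scoped ENNReal NNReal RealInnerProductSpace

namespace Vale.Agent.Lib.P074

variable {d N : ℕ}

/-- TASK E1. unfold `atom`; `Measure.finsetSum_apply`, `Measure.smul_apply`, `Measure.dirac_apply'`,
`Set.indicator`; only the term `k = j` survives (`hy.eq_iff`), `Finset.sum_eq_single`. -/
theorem atom_singleton (y : Fin N → E d) (hy : Function.Injective y) (m : Fin N → ℝ) (j : Fin N) :
    atom y m {y j} = ENNReal.ofReal (m j) := by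
  classical
  unfold atom
  rw [Measure.finsetSum_apply, Finset.sum_eq_single j]
  · rw [Measure.smul_apply, Measure.dirac_apply' _ (measurableSet_singleton _)]
    simp
  · intro k _ hk
    rw [Measure.smul_apply, Measure.dirac_apply' _ (measurableSet_singleton _)]
    have : y k ∉ ({y j} : Set (E d)) := by
      rw [Set.mem_singleton_iff]
      exact fun h => hk (hy h)
    simp [this]
  · intro h
    exact absurd (Finset.mem_univ j) h

/-- TASK E1. -/
theorem atom_compl_range (y : Fin N → E d) (m : Fin N → ℝ) : atom y m (Set.range y)ᶜ = 0 := by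
  unfold atom
  have hm : MeasurableSet (Set.range y)ᶜ := (Set.finite_range y).measurableSet.compl
  rw [Measure.finsetSum_apply]
  refine Finset.sum_eq_zero fun k _ => ?_
  rw [Measure.smul_apply, Measure.dirac_apply' _ hm]
  simp

/-- TASK E1. -/
theorem atom_univ (y : Fin N → E d) (m : Fin N → ℝ) :
    atom y m Set.univ = ∑ j, ENNReal.ofReal (m j) := by
  unfold atom
  rw [Measure.finsetSum_apply]
  refine Finset.sum_congr rfl fun k _ => ?_
  rw [Measure.smul_apply, Measure.dirac_apply' _ MeasurableSet.univ]
  simp

/-- TASK E1. `atom_univ`, `ENNReal.ofReal_sum_of_nonneg`. -/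
theorem isProbabilityMeasure_atom (y : Fin N → E d) (m : Fin N → ℝ) (hm : ∀ j, 0 ≤ m j)
    (hsum : ∑ j, m j = 1) : IsProbabilityMeasure (atom y m) := by
  constructor
  rw [atom_univ, ← ENNReal.ofReal_sum_of_nonneg (fun j _ => hm j), hsum, ENNReal.ofReal_one]

end Vale.Agent.Lib.P074
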