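import Vale.Agent.Lib.P074T.Defs

/-! # P074T task B: basic facts on Laguerre cells -/

open MeasureTheory Set
open scoped ENNReal NNReal RealInnerProductSpace

namespace Vale.Agent.Lib.P074

variable {d N : ℕ}

theorem lag_subset (K : Set (E d)) (y : Fin N → E d) (c : Fin N → ℝ) (j : Fin N) :
    lag K y c j ⊆ K := fun _ hx => hx.1

/-- TASK B1. closed conditions. -/
theorem measurableSet_lag {K : Set (E d)} (hK : IsCompact K) (y : Fin N → E d) (c : Fin N → ℝ)
    (j : Fin N) : MeasurableSet (lag K y c j) := by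
  have h : lag K y c j = K ∩ ⋂ k, {x | ⟪x, y k⟫ - c k ≤ ⟪x, y j⟫ - c j} := by
    ext x
    simp [lag]
  rw [h]
  refine hK.measurableSet.inter (MeasurableSet.iInter fun k => ?_)
  apply IsClosed.measurableSet
  apply isClosed_le <;> fun_prop

/-- TASK B1. a finite family of reals has a largest element. -/
theorem exists_mem_lag [NeZero N] (K : Set (E d)) (y : Fin N → E d) (c : Fin N → ℝ) {x : E d}
    (hx : x ∈ K) : ∃ j, x ∈ lag K y c j := by
  obtain ⟨j, hj⟩ := Finite.exists_max (fun k : Fin N => ⟪x, y k⟫ - c k)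
  exact ⟨j, hx, hj⟩

theorem le_lpot [NeZero N] (y : Fin N → E d) (c : Fin N → ℝ) (j : Fin N) (x : E d) :
    ⟪x, y j⟫ - c j ≤ lpot y c x :=
  le_ciSup (f := fun k : Fin N => ⟪x, y k⟫ - c k) (Set.finite_range _).bddAbove j

/-- TASK B1. on its cell the potential is the affine function of the label. -/
theorem lpot_eq_of_mem [NeZero N] {K : Set (E d)} {y : Fin N → E d} {c : Fin N → ℝ} {j : Fin N}
    {x : E d} (hx : x ∈ lag K y c j) : lpot y c x = ⟪x, y j⟫ - c j :=
  le_antisymm (ciSup_le hx.2) (le_lpot y c j x)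

theorem continuous_lpot [NeZero N] (y : Fin N → E d) (c : Fin N → ℝ) : Continuous (lpot y c) := by
  have h : lpot y c = fun x => (Finset.univ : Finset (Fin N)).sup' Finset.univ_nonempty
      (fun j => ⟪x, y j⟫ - c j) := by
    funext x
    unfold lpot
    rw [Finset.sup'_univ_eq_ciSup]
  rw [h]
  apply Continuous.finset_sup'_apply
  intro j _
  fun_prop

/-- TASK B1. midpoint inclusion (needs `K` convex). -/
theorem midpoint_mem_lag {K : Set (E d)} (hc : Convex ℝ K) (y : Fin N → E d) (c c' : Fin N → ℝ)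
    (j : Fin N) {x x' : E d} (hx : x ∈ lag K y c j) (hx' : x' ∈ lag K y c' j) :
    (1 / 2 : ℝ) • x + (1 / 2 : ℝ) • x' ∈ lag K y (fun k => (c k + c' k) / 2) j := by
  refine ⟨hc hx.1 hx'.1 (by norm_num) (by norm_num) (by norm_num), fun k => ?_⟩
  have h1 := hx.2 k
  have h2 := hx'.2 k
  simp only [inner_add_left, real_inner_smul_left]
  linarith

end Vale.Agent.Lib.P074
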