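import Vale.Agent.Lib.P074T.EAtom
import Vale.Agent.Lib.P074T.LagBasic

/-! # P074T task E2: weights from a Brenier map -/

open MeasureTheory Set
open scoped ENNReal NNReal RealInnerProductSpace

namespace Vale.Agent.Lib.P074

variable {d N : ℕ}

/-- TASK E2.  Let `φ` be the potential of `T`, and `G` the set of `x ∈ K` with `T x ∈ range y` at which the
subgradient inequality `∀ x' ∈ K, φ x + <T x, x' - x> ≤ φ x'` holds.  `G` is conull (`ae_mem_unif hK`;
`T x ∈ range y` a.e. by `atom_compl_range` and `(unif K).map T = atom y m`, see `ae_map_of_ae` in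
P074S/Unif or `Measure.map_apply`).  `G_j := G ∩ T ⁻¹' {y j}` has measure `ofReal (m j) > 0`
(`atom_singleton`), so it is nonempty.  `c j := ⨅ x : G_j, (<x, y j> - φ x)`; bounded below: for `x' ∈ G_j` and a
fixed `x ∈ G`, the inequality at `x'` evaluated at `x` reads `<x, y j> - φ x ≤ <x', y j> - φ x'`.
Hence (1) `<x, y k> - c k ≤ φ x` for all `x ∈ G` and all `k` (`le_ciInf`), (2) `φ x ≤ <x, y j> - c j`
for `x ∈ G_j` (`ciInf_le`).  So `G_j ⊆ lag K y c j`. -/
theorem exists_weights_core [NeZero N] {K : Set (E d)} (hK : IsCompact K)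
    (hint : (interior K).Nonempty) (y : Fin N → E d) (hy : Function.Injective y) (m : Fin N → ℝ)
    (hm : ∀ j, 0 < m j) {T : E d → E d} (hT : IsBrenierMap K (atom y m) T) :
    ∃ c : Fin N → ℝ, ∀ᵐ x ∂(unif K), ∃ j, T x = y j ∧ x ∈ lag K y c j := by
  have := isProbabilityMeasure_unif hK hint
  obtain ⟨hTm, hTmap, φ, hφ⟩ := hT
  have hgood : ∀ᵐ x ∂(unif K), x ∈ K ∧ ∀ x' ∈ K, φ x + ⟪T x, x' - x⟫ ≤ φ x' := by
    filter_upwards [ae_mem_unif hK, hφ] with x h1 h2 using ⟨h1, h2⟩
  have hmass : ∀ j, (unif K) (T ⁻¹' {y j}) = ENNReal.ofReal (m j) := by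
    intro j
    rw [← Measure.map_apply hTm (measurableSet_singleton _), hTmap, atom_singleton y hy m j]
  have hrange : ∀ᵐ x ∂(unif K), T x ∈ range y := by
    have h0 : (unif K) (T ⁻¹' (range y)ᶜ) = 0 := by
      rw [← Measure.map_apply hTm (finite_range y).measurableSet.compl, hTmap,
        atom_compl_range y m]
    have := measure_eq_zero_iff_ae_notMem.1 h0
    filter_upwards [this] with x hx
    by_contra hne
    exact hx hne
  have hex : ∀ j, ∃ x, T x = y j ∧ x ∈ K ∧ ∀ x' ∈ K, φ x + ⟪T x, x' - x⟫ ≤ φ x' := by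
    intro j
    by_contra hne
    push Not at hne
    have h0 : (unif K) (T ⁻¹' {y j}) = 0 := by
      apply measure_mono_null _ (ae_iff.1 hgood)
      intro x hx hx2
      obtain ⟨x', hx', hlt⟩ := hne x hx hx2.1
      exact absurd (hx2.2 x' hx') (not_le.2 hlt)
    rw [hmass j] at h0
    exact absurd (ENNReal.ofReal_eq_zero.1 h0) (not_le.2 (hm j))
  choose p hpT hpK hpφ using hex
  refine ⟨fun j => ⟪p j, y j⟫ - φ (p j), ?_⟩
  filter_upwards [hgood, hrange] with x hx hxr
  obtain ⟨j, hj⟩ := hxr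
  have hxT' : T x = y j := hj.symm
  refine ⟨j, hxT', hx.1, fun k => ?_⟩
  have e1 := hpφ k x hx.1
  have e2 := hx.2 (p j) (hpK j)
  have e3 := hpφ j x hx.1
  rw [hpT k] at e1
  rw [hpT j] at e3
  rw [hxT'] at e2
  simp only [inner_sub_right] at *
  rw [real_inner_comm (y k) x, real_inner_comm (y k) (p k), real_inner_comm (y j) x,
    real_inner_comm (y j) (p j)]
  linarith

end Vale.Agent.Lib.P074
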