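import Vale.Agent.Lib.P074T.Pre25InterpOpt

/-!
# P074, step (I): the interpolation inequality in the shape of task I6b
-/

open MeasureTheory
open scoped ENNReal NNReal RealInnerProductSpace

namespace Vale.Agent.Lib.P074.Pre25

variable {d : ℕ}

theorem interp_bound_exists {K : Set (E d)} (hK : IsCompact K) (hconv : Convex ℝ K)
    (hint : (interior K).Nonempty) (L : ℝ≥0) :
    ∃ C : ℝ, 0 ≤ C ∧ ∀ (φ0 φ1 : E d → ℝ) (T0 T1 : E d → E d) (a : ℝ),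
      LipschitzWith L φ0 → LipschitzWith L φ1 →
      (∀ x v, 2 * φ0 x ≤ φ0 (x + v) + φ0 (x - v)) → (∀ x v, 2 * φ1 x ≤ φ1 (x + v) + φ1 (x - v)) →
      Measurable T0 → Measurable T1 →
      (∀ᵐ x ∂(unif K), ∀ x', φ0 x + ⟪T0 x, x' - x⟫ ≤ φ0 x') →
      (∀ᵐ x ∂(unif K), ∀ x', φ1 x + ⟪T1 x, x' - x⟫ ≤ φ1 x') →
      (∀ᵐ x ∂(unif K), ‖T0 x‖ ≤ L) → (∀ᵐ x ∂(unif K), ‖T1 x‖ ≤ L) →
      ∫ x, ‖T1 x - T0 x‖ ^ 2 ∂(unif K)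
        ≤ C * (∫ x, (φ1 x - φ0 x - a) ^ 2 ∂(unif K)) ^ (1 / 3 : ℝ) := by
  obtain ⟨x0, hx0⟩ := hint
  obtain ⟨r, hr, hball⟩ := Metric.nhds_basis_closedBall.mem_iff.mp (mem_interior_iff_mem_nhds.mp hx0)
  obtain ⟨R0, hR0⟩ := hK.isBounded.exists_norm_le
  set R : ℝ≥0 := Real.toNNReal R0 with hR
  have hKR : ∀ x ∈ K, ‖x‖ ≤ R := fun x hx => (hR0 x hx).trans (Real.le_coe_toNNReal R0)
  have hVc : 0 ≤ Vc K R := by unfold Vc; positivity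
  have hmin : 0 < min 1 r := lt_min one_pos hr
  refine ⟨8 * d + (16 * d * (L : ℝ) ^ 2 * Vc K R + 4 * (L : ℝ) ^ 2 * d / r)
          + 4 * (L : ℝ) ^ 2 / min 1 r, by positivity, ?_⟩
  intro φ0 φ1 T0 T1 a h0L h1L h0m h1m hT0 hT1 hs0 hs1 hb0 hb1
  have := interp_opt hK hconv hr hball R L hKR φ0 φ1 h0L h1L h0m h1m T0 T1 hT0 hT1 hs0 hs1 hb0 hb1 a
  simp only [norm_sub_rev (T1 _) (T0 _)]
  exact this

end Vale.Agent.Lib.P074.Pre25
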