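import Vale.Agent.Lib.P074T.LagPart
import Vale.Agent.Lib.P074T.EFinal

/-!
# P074, exponent one third: existence of the weights, and identification of the Brenier map
-/

open MeasureTheory Set
open scoped ENNReal NNReal RealInnerProductSpace

namespace Vale.Agent.Lib.P074

variable {d N : ℕ}

theorem W1_self (μ : Measure (E d)) : W1 μ μ = 0 := by
  have hm : Measurable (fun x : E d => (x, x)) := measurable_id.prodMk measurable_id
  have h1 : (μ.map (fun x : E d => (x, x))).map Prod.fst = μ := by
    rw [Measure.map_map measurable_fst hm]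
    exact Measure.map_id
  have h2 : (μ.map (fun x : E d => (x, x))).map Prod.snd = μ := by
    rw [Measure.map_map measurable_snd hm]
    exact Measure.map_id
  apply le_antisymm _ zero_le
  unfold W1
  refine (iInf_le _ ⟨μ.map (fun x : E d => (x, x)), h1, h2⟩).trans ?_
  show ∫⁻ p, ENNReal.ofReal ‖p.1 - p.2‖ ∂(μ.map (fun x : E d => (x, x))) ≤ 0
  rw [lintegral_map (by fun_prop) hm]
  simp

/-- The index of the first cell containing `x`. -/
noncomputable def lidx [NeZero N] (K : Set (E d)) (y : Fin N → E d) (c : Fin N → ℝ) (x : E d) :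
    Fin N :=
  open Classical in
  if h : ∃ j, x ∈ lag K y c j then (Finset.univ.filter (fun j => x ∈ lag K y c j)).min'
    (by obtain ⟨j, hj⟩ := h; exact ⟨j, by simp [hj]⟩) else 0

theorem lidx_mem [NeZero N] {K : Set (E d)} (y : Fin N → E d) (c : Fin N → ℝ) {x : E d}
    (hx : x ∈ K) : x ∈ lag K y c (lidx K y c x) := by
  classical
  have h : ∃ j, x ∈ lag K y c j := exists_mem_lag K y c hx
  unfold lidx
  rw [dif_pos h]
  have := Finset.min'_mem (Finset.univ.filter (fun j => x ∈ lag K y c j))
    (by obtain ⟨j, hj⟩ := h; exact ⟨j, by simp [hj]⟩)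
  simpa using this

theorem measurable_lidx [NeZero N] {K : Set (E d)} (hK : IsCompact K) (y : Fin N → E d)
    (c : Fin N → ℝ) : Measurable (lidx K y c) := by
  classical
  apply measurable_to_countable'
  intro j
  have hset : lidx K y c ⁻¹' {j} =
      ((lag K y c j \ ⋃ k ∈ {k : Fin N | k < j}, lag K y c k) ∪
        (if j = 0 then (⋃ k, lag K y c k)ᶜ else ∅)) := by
    ext x
    simp only [mem_preimage, mem_singleton_iff, mem_union, mem_sdiff, mem_iUnion, mem_ofPred_eq,
      exists_prop, not_exists, not_and]
    by_cases h : ∃ k, x ∈ lag K y c k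
    · have hne : (Finset.univ.filter (fun k => x ∈ lag K y c k)).Nonempty := by
        obtain ⟨k, hk⟩ := h; exact ⟨k, by simp [hk]⟩
      have hval : lidx K y c x = (Finset.univ.filter (fun k => x ∈ lag K y c k)).min' hne := by
        unfold lidx
        rw [dif_pos h]
      have hnot : x ∉ (if j = 0 then (⋃ k, lag K y c k)ᶜ else (∅ : Set (E d))) := by
        split_ifs
        · simpa using h
        · simp
      constructor
      · intro hj
        left
        constructor
        · rw [← hj, hval]
          have := Finset.min'_mem _ hne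
          simpa using this
        · intro k hk hxk
          have : (Finset.univ.filter (fun k => x ∈ lag K y c k)).min' hne ≤ k :=
            Finset.min'_le _ _ (by simp [hxk])
          rw [← hval, hj] at this
          exact absurd hk (not_lt.2 this)
      · rintro (⟨h1, h2⟩ | h3)
        · rw [hval]
          apply le_antisymm
          · exact Finset.min'_le _ _ (by simp [h1])
          · by_contra hlt
            rw [not_le] at hlt
            have := Finset.min'_mem _ hne
            exact h2 _ hlt (by simpa using this)
        · exact absurd h3 hnot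
    · have hval : lidx K y c x = 0 := by
        unfold lidx
        rw [dif_neg h]
      rw [hval]
      push Not at h
      constructor
      · intro hj
        right
        rw [if_pos hj.symm]
        simpa using h
      · rintro (⟨h1, _⟩ | h3)
        · exact absurd h1 (h j)
        · by_cases hj : j = 0
          · exact hj.symm
          · rw [if_neg hj] at h3
            exact absurd h3 (by simp)
  rw [hset]
  refine ((measurableSet_lag hK y c j).diff ?_).union ?_
  · exact MeasurableSet.biUnion (Set.to_countable _) fun k _ => measurableSet_lag hK y c k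
  · split_ifs
    · exact (MeasurableSet.iUnion fun k => measurableSet_lag hK y c k).compl
    · exact MeasurableSet.empty


/-- Almost every point lies in exactly one cell. -/
theorem ae_lidx_eq [NeZero N] {K : Set (E d)} (hK : IsCompact K) (y : Fin N → E d)
    (hy : Function.Injective y) (c : Fin N → ℝ) :
    ∀ᵐ x ∂(unif K), x ∈ K ∧ ∀ j, x ∈ lag K y c j → lidx K y c x = j := by
  have h1 : ∀ j k : Fin N, j ≠ k → ∀ᵐ x ∂(unif K), x ∉ lag K y c j ∩ lag K y c k := by
    intro j k hjk
    exact measure_eq_zero_iff_ae_notMem.1 (lag_inter_null y hy c hjk)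
  have h2 : ∀ᵐ x ∂(unif K), ∀ j k : Fin N, j ≠ k → x ∉ lag K y c j ∩ lag K y c k := by
    rw [ae_all_iff]; intro j
    rw [ae_all_iff]; intro k
    by_cases hjk : j = k
    · exact Filter.Eventually.of_forall fun x h => absurd hjk h
    · filter_upwards [h1 j k hjk] with x hx _ using hx
  filter_upwards [ae_mem_unif hK, h2] with x hxK hx
  refine ⟨hxK, fun j hj => ?_⟩
  by_contra hne
  exact hx _ _ hne ⟨lidx_mem y c hxK, hj⟩

theorem unif_lidx_preimage [NeZero N] {K : Set (E d)} (hK : IsCompact K) (y : Fin N → E d)
    (hy : Function.Injective y) (c : Fin N → ℝ) (j : Fin N) :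
    (unif K) (lidx K y c ⁻¹' {j}) = (unif K) (lag K y c j) := by
  apply measure_congr
  filter_upwards [ae_lidx_eq hK y hy c] with x hx
  apply propext
  constructor
  · intro h
    have h' : lidx K y c x = j := h
    rw [← h']
    exact lidx_mem y c hx.1
  · intro h
    exact hx.2 j h

/-- The site map of a tessellation with masses `m` is a Brenier map onto `atom y m`. -/
theorem isBrenierMap_site [NeZero N] {K : Set (E d)} (hK : IsCompact K)
    (hint : (interior K).Nonempty) (y : Fin N → E d) (hy : Function.Injective y)
    (m : Fin N → ℝ) (c : Fin N → ℝ) (hc : ∀ j, lmass K y c j = m j) :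
    IsBrenierMap K (atom y m) (fun x => y (lidx K y c x)) := by
  have := isProbabilityMeasure_unif hK hint
  have hym : Measurable y := Measurable.of_discrete
  have hlm := measurable_lidx hK y c
  refine ⟨hym.comp hlm, ?_, lpot y c, ?_⟩
  · have e1 : (unif K).map (fun x => y (lidx K y c x)) = ((unif K).map (lidx K y c)).map y :=
      (Measure.map_map hym hlm).symm
    rw [e1, ← Measure.sum_smul_dirac ((unif K).map (lidx K y c)), Measure.sum_fintype,
      ← Measure.mapₗ_apply_of_measurable hym, map_sum]
    unfold atom
    apply Finset.sum_congr rfl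
    intro j _
    rw [Measure.mapₗ_apply_of_measurable hym, Measure.map_smul, Measure.map_dirac' hym,
      Measure.map_apply hlm (measurableSet_singleton _), unif_lidx_preimage hK y hy c j, ← hc j]
    unfold lmass
    rw [ENNReal.ofReal_toReal (measure_ne_top _ _)]
  · filter_upwards [ae_mem_unif hK] with x hx x' _
    have h1 := lpot_eq_of_mem (lidx_mem y c hx)
    have h2 := le_lpot y c (lidx K y c x) x'
    rw [h1, inner_sub_right, real_inner_comm x' _, real_inner_comm x _]
    linarith

/-- Every Brenier map onto `atom y m` sends almost every point of a cell to its site. -/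
theorem ae_eq_site [NeZero N] {K : Set (E d)} (hK : IsCompact K)
    (hint : (interior K).Nonempty) (y : Fin N → E d) (hy : Function.Injective y)
    (m : Fin N → ℝ) (c : Fin N → ℝ) (hc : ∀ j, lmass K y c j = m j) {T : E d → E d}
    (hT : IsBrenierMap K (atom y m) T) :
    ∀ᵐ x ∂(unif K), ∀ j, x ∈ lag K y c j → T x = y j := by
  obtain ⟨C, hC⟩ := stab_W1 hK hint (finite_range y).isCompact
  have hS := isBrenierMap_site hK hint y hy m c hc
  have h0 := hC (atom y m) (atom y m) (atom_compl_range y m) (atom_compl_range y m) T _ hT hS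
  rw [W1_self, ENNReal.zero_rpow_of_pos (by norm_num), mul_zero] at h0
  have h1 : L2dist (unif K) T (fun x => y (lidx K y c x)) = 0 := le_antisymm h0 zero_le
  unfold L2dist at h1
  rw [ENNReal.rpow_eq_zero_iff_of_pos (by norm_num)] at h1
  have hmeas : Measurable (fun x => ENNReal.ofReal (‖T x - y (lidx K y c x)‖ ^ 2)) := by
    exact ((hT.1.sub hS.1).norm.pow_const 2).ennreal_ofReal
  rw [lintegral_eq_zero_iff hmeas] at h1
  filter_upwards [h1, ae_lidx_eq hK y hy c] with x hx hx2 j hj
  rw [hx2.2 j hj] at hx
  have h2 : ‖T x - y j‖ ^ 2 ≤ 0 := ENNReal.ofReal_eq_zero.1 hx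
  have h3 : ‖T x - y j‖ = 0 := by nlinarith [norm_nonneg (T x - y j)]
  exact sub_eq_zero.1 (norm_eq_zero.1 h3)

/-- Every Brenier map onto `atom y m` is almost everywhere a subgradient of `lpot y c`. -/
theorem ae_subgrad_lpot [NeZero N] {K : Set (E d)} (hK : IsCompact K)
    (hint : (interior K).Nonempty) (y : Fin N → E d) (hy : Function.Injective y)
    (m : Fin N → ℝ) (c : Fin N → ℝ) (hc : ∀ j, lmass K y c j = m j) {T : E d → E d}
    (hT : IsBrenierMap K (atom y m) T) :
    ∀ᵐ x ∂(unif K), ∀ x', lpot y c x + ⟪T x, x' - x⟫ ≤ lpot y c x' := by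
  filter_upwards [ae_eq_site hK hint y hy m c hc hT, ae_mem_unif hK] with x hx hxK x'
  have hmem := lidx_mem y c hxK
  rw [hx _ hmem]
  have h1 := lpot_eq_of_mem hmem
  have h2 := le_lpot y c (lidx K y c x) x'
  rw [h1, inner_sub_right, real_inner_comm x' _, real_inner_comm x _]
  linarith

end Vale.Agent.Lib.P074
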