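import Vale.Agent.Lib.P074T.Quant
import Vale.Agent.Lib.P074T.Weights
import Vale.Agent.Lib.P074T.Pre25InterpFinal

/-!
# P074, exponent one third: final assembly (from the Lipschitz stability of the potentials)
-/

open MeasureTheory Set Filter Topology
open scoped ENNReal NNReal RealInnerProductSpace

namespace Vale.Agent.Lib.P074.F13

variable {d : ℕ}

/-- Squared `L^2` distance. -/
noncomputable def Q (ρ : Measure (E d)) (T S : E d → E d) : ℝ≥0∞ :=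
  ∫⁻ x, ENNReal.ofReal (‖T x - S x‖ ^ 2) ∂ρ

theorem Q_comm (ρ : Measure (E d)) (T S : E d → E d) : Q ρ T S = Q ρ S T := by
  unfold Q
  simp only [norm_sub_rev]

theorem Q_eq (ρ : Measure (E d)) (T S : E d → E d) : Q ρ T S = L2dist ρ T S ^ (2 : ℝ) := by
  unfold Q L2dist
  rw [← ENNReal.rpow_mul]
  norm_num

theorem L2dist_eq (ρ : Measure (E d)) (T S : E d → E d) :
    L2dist ρ T S = Q ρ T S ^ (1 / 2 : ℝ) := rfl

theorem Q_triangle (ρ : Measure (E d)) {T A B S : E d → E d} (hT : Measurable T)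
    (hA : Measurable A) (hB : Measurable B) (hS : Measurable S) :
    Q ρ T S ≤ 3 * (Q ρ T A + Q ρ A B + Q ρ B S) := by
  have m1 : Measurable fun x => ENNReal.ofReal (‖T x - A x‖ ^ 2) :=
    ((hT.sub hA).norm.pow_const 2).ennreal_ofReal
  have m2 : Measurable fun x => ENNReal.ofReal (‖A x - B x‖ ^ 2) :=
    ((hA.sub hB).norm.pow_const 2).ennreal_ofReal
  have m3 : Measurable fun x => ENNReal.ofReal (‖B x - S x‖ ^ 2) :=
    ((hB.sub hS).norm.pow_const 2).ennreal_ofReal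
  have m12 : Measurable fun x => ENNReal.ofReal (‖T x - A x‖ ^ 2)
      + ENNReal.ofReal (‖A x - B x‖ ^ 2) := m1.add m2
  have m123 : Measurable fun x => ENNReal.ofReal (‖T x - A x‖ ^ 2)
      + ENNReal.ofReal (‖A x - B x‖ ^ 2) + ENNReal.ofReal (‖B x - S x‖ ^ 2) := m12.add m3
  unfold Q
  rw [← lintegral_add_left m1, ← lintegral_add_left m12, ← lintegral_const_mul _ m123]
  apply lintegral_mono
  intro x
  show ENNReal.ofReal (‖T x - S x‖ ^ 2) ≤ 3 * (ENNReal.ofReal (‖T x - A x‖ ^ 2)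
    + ENNReal.ofReal (‖A x - B x‖ ^ 2) + ENNReal.ofReal (‖B x - S x‖ ^ 2))
  rw [← ENNReal.ofReal_add (by positivity) (by positivity),
    ← ENNReal.ofReal_add (by positivity) (by positivity),
    show (3 : ℝ≥0∞) = ENNReal.ofReal 3 by simp, ← ENNReal.ofReal_mul (by norm_num)]
  apply ENNReal.ofReal_le_ofReal
  have h1 : ‖T x - S x‖ ≤ ‖T x - A x‖ + ‖A x - B x‖ + ‖B x - S x‖ := by
    calc ‖T x - S x‖ = ‖(T x - A x) + (A x - B x) + (B x - S x)‖ := by congr 1; abel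
      _ ≤ _ := norm_add₃_le
  have h2 : ‖T x - S x‖ ^ 2 ≤ (‖T x - A x‖ + ‖A x - B x‖ + ‖B x - S x‖) ^ 2 :=
    pow_le_pow_left₀ (norm_nonneg _) h1 2
  nlinarith [sq_nonneg (‖T x - A x‖ - ‖A x - B x‖), sq_nonneg (‖A x - B x‖ - ‖B x - S x‖),
    sq_nonneg (‖T x - A x‖ - ‖B x - S x‖)]

/-- The interface: Lipschitz stability of the potentials of finitely supported targets. -/
def PotLip (K : Set (E d)) (C : ℝ) : Prop :=
  ∀ (N : ℕ) [NeZero N] (y0 y1 : Fin N → E d) (m c0 c1 : Fin N → ℝ),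
    Function.Injective y0 → Function.Injective y1 → (∀ j, 0 < m j) → ∑ j, m j = 1 →
    (∀ j, lmass K y0 c0 j = m j) → (∀ j, lmass K y1 c1 j = m j) →
    ∃ a : ℝ, ∫ x, (lpot y1 c1 x - lpot y0 c0 x - a) ^ 2 ∂(unif K) ≤ C * wsq m y0 y1

/-- Finitely supported targets. -/
theorem Q_atoms {K : Set (E d)} (hK : IsCompact K) (hint : (interior K).Nonempty)
    {L : ℝ≥0} {CI CP : ℝ} (hCI0 : 0 ≤ CI)
    (hCI : ∀ (φ0 φ1 : E d → ℝ) (T0 T1 : E d → E d) (a : ℝ),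
      LipschitzWith L φ0 → LipschitzWith L φ1 →
      (∀ x v, 2 * φ0 x ≤ φ0 (x + v) + φ0 (x - v)) → (∀ x v, 2 * φ1 x ≤ φ1 (x + v) + φ1 (x - v)) →
      Measurable T0 → Measurable T1 →
      (∀ᵐ x ∂(unif K), ∀ x', φ0 x + ⟪T0 x, x' - x⟫ ≤ φ0 x') →
      (∀ᵐ x ∂(unif K), ∀ x', φ1 x + ⟪T1 x, x' - x⟫ ≤ φ1 x') →
      (∀ᵐ x ∂(unif K), ‖T0 x‖ ≤ L) → (∀ᵐ x ∂(unif K), ‖T1 x‖ ≤ L) →
      ∫ x, ‖T1 x - T0 x‖ ^ 2 ∂(unif K)
        ≤ CI * (∫ x, (φ1 x - φ0 x - a) ^ 2 ∂(unif K)) ^ (1 / 3 : ℝ))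
    (hCP : PotLip K CP) {N : ℕ} [NeZero N] (y0 y1 : Fin N → E d) (m : Fin N → ℝ)
    (hy0 : Function.Injective y0) (hy1 : Function.Injective y1) (hm : ∀ j, 0 < m j)
    (hsum : ∑ j, m j = 1) (hL0 : ∀ j, ‖y0 j‖ ≤ L) (hL1 : ∀ j, ‖y1 j‖ ≤ L) :
    ∃ T0 T1 : E d → E d, IsBrenierMap K (atom y0 m) T0 ∧ IsBrenierMap K (atom y1 m) T1 ∧
      Q (unif K) T0 T1 ≤ ENNReal.ofReal (CI * (CP * wsq m y0 y1) ^ (1 / 3 : ℝ)) := by
  have := isProbabilityMeasure_unif hK hint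
  obtain ⟨c0, hc0⟩ := exists_weights hK hint y0 hy0 m hm hsum
  obtain ⟨c1, hc1⟩ := exists_weights hK hint y1 hy1 m hm hsum
  have hB0 := isBrenierMap_site hK hint y0 hy0 m c0 hc0
  have hB1 := isBrenierMap_site hK hint y1 hy1 m c1 hc1
  refine ⟨_, _, hB0, hB1, ?_⟩
  obtain ⟨a, ha⟩ := hCP N y0 y1 m c0 c1 hy0 hy1 hm hsum hc0 hc1
  have hI := hCI (lpot y0 c0) (lpot y1 c1) _ _ a (lipschitzWith_lpot y0 c0 L hL0)
    (lipschitzWith_lpot y1 c1 L hL1) (lpot_midpoint y0 c0) (lpot_midpoint y1 c1) hB0.1 hB1.1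
    (ae_subgrad_lpot hK hint y0 hy0 m c0 hc0 hB0) (ae_subgrad_lpot hK hint y1 hy1 m c1 hc1 hB1)
    (Eventually.of_forall fun x => hL0 _) (Eventually.of_forall fun x => hL1 _)
  have hmeas : Measurable fun x => ‖y1 (lidx K y1 c1 x) - y0 (lidx K y0 c0 x)‖ ^ 2 :=
    (hB1.1.sub hB0.1).norm.pow_const 2
  have hintg : Integrable (fun x => ‖y1 (lidx K y1 c1 x) - y0 (lidx K y0 c0 x)‖ ^ 2) (unif K) := by
    refine Integrable.of_bound hmeas.aestronglyMeasurable ((2 * (L : ℝ)) ^ 2) ?_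
    refine Eventually.of_forall fun x => ?_
    rw [Real.norm_of_nonneg (by positivity)]
    apply pow_le_pow_left₀ (norm_nonneg _)
    calc _ ≤ ‖y1 (lidx K y1 c1 x)‖ + ‖y0 (lidx K y0 c0 x)‖ := norm_sub_le _ _
      _ ≤ _ := by linarith [hL0 (lidx K y0 c0 x), hL1 (lidx K y1 c1 x)]
  rw [Q_comm]
  unfold Q
  rw [← ofReal_integral_eq_lintegral_ofReal hintg (Eventually.of_forall fun x => by positivity)]
  apply ENNReal.ofReal_le_ofReal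
  refine hI.trans ?_
  apply mul_le_mul_of_nonneg_left _ hCI0
  apply Real.rpow_le_rpow _ ha (by norm_num)
  exact integral_nonneg fun x => by positivity


theorem wsq_nonneg {N : ℕ} (m : Fin N → ℝ) (hm : ∀ j, 0 < m j) (y0 y1 : Fin N → E d) :
    0 ≤ wsq m y0 y1 :=
  Finset.sum_nonneg fun j _ => mul_nonneg (hm j).le (by positivity)

theorem atom_compl_ball {N : ℕ} (y : Fin N → E d) (m : Fin N → ℝ) {r : ℝ} (hr : ∀ j, ‖y j‖ ≤ r) :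
    atom y m (Metric.closedBall (0 : E d) r)ᶜ = 0 := by
  apply measure_mono_null _ (atom_compl_range y m)
  apply compl_subset_compl.2
  rintro _ ⟨j, rfl⟩
  simpa using hr j

/-- One coupling, one quantisation step. -/
theorem Q_le_of_coupling [NeZero d] {K : Set (E d)} (hK : IsCompact K)
    (hint : (interior K).Nonempty) {Y : Set (E d)} (hY : IsCompact Y) {L0 : ℝ} (hL00 : 0 ≤ L0)
    (hL0 : ∀ y ∈ Y, ‖y‖ ≤ L0) {C4 : ℝ≥0}
    (hC4 : ∀ μ ν : Measure (E d), μ (Metric.closedBall (0 : E d) (L0 + 1))ᶜ = 0 →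
      ν (Metric.closedBall (0 : E d) (L0 + 1))ᶜ = 0 →
      ∀ T S : E d → E d, IsBrenierMap K μ T → IsBrenierMap K ν S →
        L2dist (unif K) T S ≤ C4 * W1 μ ν ^ (1 / 4 : ℝ))
    {CI CP : ℝ} (hCI0 : 0 ≤ CI)
    (hCI : ∀ (φ0 φ1 : E d → ℝ) (T0 T1 : E d → E d) (a : ℝ),
      LipschitzWith (L0 + 1).toNNReal φ0 → LipschitzWith (L0 + 1).toNNReal φ1 →
      (∀ x v, 2 * φ0 x ≤ φ0 (x + v) + φ0 (x - v)) → (∀ x v, 2 * φ1 x ≤ φ1 (x + v) + φ1 (x - v)) →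
      Measurable T0 → Measurable T1 →
      (∀ᵐ x ∂(unif K), ∀ x', φ0 x + ⟪T0 x, x' - x⟫ ≤ φ0 x') →
      (∀ᵐ x ∂(unif K), ∀ x', φ1 x + ⟪T1 x, x' - x⟫ ≤ φ1 x') →
      (∀ᵐ x ∂(unif K), ‖T0 x‖ ≤ (L0 + 1).toNNReal) →
      (∀ᵐ x ∂(unif K), ‖T1 x‖ ≤ (L0 + 1).toNNReal) →
      ∫ x, ‖T1 x - T0 x‖ ^ 2 ∂(unif K)
        ≤ CI * (∫ x, (φ1 x - φ0 x - a) ^ 2 ∂(unif K)) ^ (1 / 3 : ℝ))
    (hCP0 : 0 ≤ CP) (hCP : PotLip K CP)
    {μ ν : Measure (E d)} [IsProbabilityMeasure μ] (hμ : μ Yᶜ = 0) (hν : ν Yᶜ = 0)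
    {T S : E d → E d} (hT : IsBrenierMap K μ T) (hS : IsBrenierMap K ν S)
    (π : Measure (E d × E d)) (h1 : π.map Prod.fst = μ) (h2 : π.map Prod.snd = ν)
    {ε : ℝ} (hε : 0 < ε) (hε1 : ε ≤ 1) :
    Q (unif K) T S ≤ 3 * ((C4 * ENNReal.ofReal ε ^ (1 / 4 : ℝ)) ^ (2 : ℝ)
      + ENNReal.ofReal (CI * (CP * (Real.sqrt (∫ p, ‖p.1 - p.2‖ ^ 2 ∂π) + 2 * ε) ^ 2) ^ (1 / 3 : ℝ))
      + (C4 * ENNReal.ofReal ε ^ (1 / 4 : ℝ)) ^ (2 : ℝ)) := by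
  obtain ⟨N, hN, y0, y1, m, hy0, hy1, hm, hsum, hb0, hb1, hW0, hW1, hw⟩ :=
    exists_quantisation hY hL0 hμ hν π h1 h2 hε hε1
  have := hN
  have hcoe : (((L0 + 1).toNNReal : ℝ≥0) : ℝ) = L0 + 1 := Real.coe_toNNReal _ (by linarith)
  obtain ⟨T0, T1, hB0, hB1, hQ⟩ := Q_atoms hK hint hCI0 hCI hCP y0 y1 m hy0 hy1 hm hsum
    (fun j => by rw [hcoe]; exact hb0 j) (fun j => by rw [hcoe]; exact hb1 j)
  have hsub : (Metric.closedBall (0 : E d) (L0 + 1))ᶜ ⊆ Yᶜ := by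
    apply compl_subset_compl.2
    intro y hy
    have := hL0 y hy
    simp only [Metric.mem_closedBall, dist_zero_right]
    linarith
  have hμ' := measure_mono_null hsub hμ
  have hν' := measure_mono_null hsub hν
  have a1 : Q (unif K) T T0 ≤ (C4 * ENNReal.ofReal ε ^ (1 / 4 : ℝ)) ^ (2 : ℝ) := by
    rw [Q_eq]
    apply ENNReal.rpow_le_rpow _ (by norm_num)
    refine (hC4 μ (atom y0 m) hμ' (atom_compl_ball y0 m hb0) T T0 hT hB0).trans ?_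
    gcongr
  have a2 : Q (unif K) T1 S ≤ (C4 * ENNReal.ofReal ε ^ (1 / 4 : ℝ)) ^ (2 : ℝ) := by
    rw [Q_comm, Q_eq]
    apply ENNReal.rpow_le_rpow _ (by norm_num)
    refine (hC4 ν (atom y1 m) hν' (atom_compl_ball y1 m hb1) S T1 hS hB1).trans ?_
    gcongr
  have a3 : Q (unif K) T0 T1 ≤ ENNReal.ofReal
      (CI * (CP * (Real.sqrt (∫ p, ‖p.1 - p.2‖ ^ 2 ∂π) + 2 * ε) ^ 2) ^ (1 / 3 : ℝ)) := by
    refine hQ.trans (ENNReal.ofReal_le_ofReal (mul_le_mul_of_nonneg_left ?_ hCI0))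
    exact Real.rpow_le_rpow (mul_nonneg hCP0 (wsq_nonneg m hm y0 y1))
      (mul_le_mul_of_nonneg_left hw hCP0) (by norm_num)
  calc Q (unif K) T S ≤ 3 * (Q (unif K) T T0 + Q (unif K) T0 T1 + Q (unif K) T1 S) :=
        Q_triangle _ hT.1 hB0.1 hB1.1 hS.1
    _ ≤ _ := by gcongr

/-- Passage to the limit in the quantisation step. -/
theorem le_of_forall_small {X : ℝ≥0∞} {C4 : ℝ≥0} {CI CP A : ℝ} (hA : 0 ≤ A)
    (h : ∀ ε : ℝ, 0 < ε → ε ≤ 1 → X ≤ 3 * ((C4 * ENNReal.ofReal ε ^ (1 / 4 : ℝ)) ^ (2 : ℝ)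
      + ENNReal.ofReal (CI * (CP * (Real.sqrt A + 2 * ε) ^ 2) ^ (1 / 3 : ℝ))
      + (C4 * ENNReal.ofReal ε ^ (1 / 4 : ℝ)) ^ (2 : ℝ))) :
    X ≤ 3 * ENNReal.ofReal (CI * (CP * A) ^ (1 / 3 : ℝ)) := by
  set F : ℝ → ℝ≥0∞ := fun ε => 3 * ((C4 * ENNReal.ofReal ε ^ (1 / 4 : ℝ)) ^ (2 : ℝ)
      + ENNReal.ofReal (CI * (CP * (Real.sqrt A + 2 * ε) ^ 2) ^ (1 / 3 : ℝ))
      + (C4 * ENNReal.ofReal ε ^ (1 / 4 : ℝ)) ^ (2 : ℝ)) with hF
  have c1 : Continuous fun ε : ℝ => (C4 * ENNReal.ofReal ε ^ (1 / 4 : ℝ)) ^ (2 : ℝ) := by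
    refine ENNReal.continuous_rpow_const.comp ?_
    refine (ENNReal.continuous_const_mul ENNReal.coe_ne_top).comp ?_
    exact ENNReal.continuous_rpow_const.comp ENNReal.continuous_ofReal
  have c2 : Continuous fun ε : ℝ =>
      ENNReal.ofReal (CI * (CP * (Real.sqrt A + 2 * ε) ^ 2) ^ (1 / 3 : ℝ)) := by
    refine ENNReal.continuous_ofReal.comp ?_
    refine continuous_const.mul ?_
    refine Continuous.rpow_const (by fun_prop) ?_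
    intro x
    right
    norm_num
  have cF : Continuous F :=
    (ENNReal.continuous_const_mul (by norm_num)).comp ((c1.add c2).add c1)
  have hF0 : F 0 = 3 * ENNReal.ofReal (CI * (CP * A) ^ (1 / 3 : ℝ)) := by
    simp only [hF, ENNReal.ofReal_zero, mul_zero, add_zero, Real.sq_sqrt hA]
    rw [ENNReal.zero_rpow_of_pos (by norm_num), mul_zero, ENNReal.zero_rpow_of_pos (by norm_num)]
    simp
  rw [← hF0]
  refine ge_of_tendsto ((cF.tendsto 0).mono_left nhdsWithin_le_nhds) (?_ : ∀ᶠ ε in 𝓝[>] (0 : ℝ), X ≤ F ε)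
  filter_upwards [Ioc_mem_nhdsGT (show (0 : ℝ) < 1 by norm_num)] with ε hε
  exact h ε hε.1 hε.2


/-- The exponent one third is admissible, given the Lipschitz stability of the potentials. -/
theorem admissible_third [NeZero d]
    (hPL : ∀ K : Set (E d), IsCompact K → Convex ℝ K → (interior K).Nonempty →
      ∃ C : ℝ, 0 ≤ C ∧ PotLip K C) : Admissible d (1 / 3) := by
  intro K hK hconv hint Y hY _
  obtain ⟨L1, hL1⟩ := hY.isBounded.exists_norm_le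
  set L0 : ℝ := max L1 0 with hL0def
  have hL00 : 0 ≤ L0 := le_max_right _ _
  have hL0 : ∀ y ∈ Y, ‖y‖ ≤ L0 := fun y hy => (hL1 y hy).trans (le_max_left _ _)
  obtain ⟨C4, hC4⟩ := stab_W1 hK hint (isCompact_closedBall (0 : E d) (L0 + 1))
  obtain ⟨CI, hCI0, hCI⟩ := Pre25.interp_bound_exists hK hconv hint (L0 + 1).toNNReal
  obtain ⟨CP, hCP0, hCP⟩ := hPL K hK hconv hint
  set c : ℝ := 3 * (CI * CP ^ (1 / 3 : ℝ)) with hc
  have hc0 : 0 ≤ c := by positivity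
  refine ⟨c.toNNReal ^ (1 / 2 : ℝ) + 1, ?_⟩
  intro μ ν hμp _ hμ hν T S hT hS
  have hTB := IsOptMap.isBrenierMap hK hint hY hμ hT
  have hSB := IsOptMap.isBrenierMap hK hint hY hν hS
  unfold W2
  rw [← ENNReal.rpow_mul]
  refine le_mul_iInf_rpow _ _ _ (by positivity) (1 / 2 * (1 / 3)) (by norm_num) ?_
  rintro ⟨π, h1, h2⟩
  show L2dist (unif K) T S ≤ _ * (∫⁻ p, ENNReal.ofReal (‖p.1 - p.2‖ ^ 2) ∂π) ^ (1 / 2 * (1 / 3) : ℝ)
  set A : ℝ := ∫ p, ‖p.1 - p.2‖ ^ 2 ∂π with hA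
  have hA0 : 0 ≤ A := integral_nonneg fun p => by positivity
  have hlim : Q (unif K) T S ≤ 3 * ENNReal.ofReal (CI * (CP * A) ^ (1 / 3 : ℝ)) :=
    le_of_forall_small hA0 fun ε hε hε1 =>
      Q_le_of_coupling hK hint hY hL00 hL0 hC4 hCI0 hCI hCP0 hCP hμ hν hTB hSB π h1 h2 hε hε1
  have hAle : ENNReal.ofReal A ≤ ∫⁻ p, ENNReal.ofReal (‖p.1 - p.2‖ ^ 2) ∂π := by
    rw [hA, integral_eq_lintegral_of_nonneg_ae (Eventually.of_forall fun p => by positivity)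
      (by fun_prop)]
    exact ENNReal.ofReal_toReal_le
  have h3 : 3 * ENNReal.ofReal (CI * (CP * A) ^ (1 / 3 : ℝ))
      ≤ ENNReal.ofReal c * (∫⁻ p, ENNReal.ofReal (‖p.1 - p.2‖ ^ 2) ∂π) ^ (1 / 3 : ℝ) := by
    have e1 : (3 : ℝ≥0∞) * ENNReal.ofReal (CI * (CP * A) ^ (1 / 3 : ℝ))
        = ENNReal.ofReal c * ENNReal.ofReal A ^ (1 / 3 : ℝ) := by
      rw [ENNReal.ofReal_rpow_of_nonneg hA0 (by norm_num), ← ENNReal.ofReal_mul hc0,
        show (3 : ℝ≥0∞) = ENNReal.ofReal 3 by simp, ← ENNReal.ofReal_mul (by norm_num),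
        Real.mul_rpow hCP0 hA0, hc]
      congr 1
      ring
    rw [e1]
    gcongr
  rw [L2dist_eq]
  calc Q (unif K) T S ^ (1 / 2 : ℝ)
      ≤ (ENNReal.ofReal c * (∫⁻ p, ENNReal.ofReal (‖p.1 - p.2‖ ^ 2) ∂π) ^ (1 / 3 : ℝ))
          ^ (1 / 2 : ℝ) := ENNReal.rpow_le_rpow (hlim.trans h3) (by norm_num)
    _ = ENNReal.ofReal c ^ (1 / 2 : ℝ)
          * (∫⁻ p, ENNReal.ofReal (‖p.1 - p.2‖ ^ 2) ∂π) ^ (1 / 2 * (1 / 3) : ℝ) := by
        rw [ENNReal.mul_rpow_of_nonneg _ _ (by norm_num), ← ENNReal.rpow_mul]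
        congr 2
        ring
    _ ≤ _ := by
        gcongr
        rw [ENNReal.coe_add, ENNReal.coe_rpow_of_nonneg _ (by norm_num)]
        exact le_self_add

end Vale.Agent.Lib.P074.F13
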