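import Vale.Agent.Lib.P074S.Diff

/-! # P074T task I1: pointwise comparison of gradient difference and finite difference -/

open MeasureTheory Set
open scoped ENNReal NNReal RealInnerProductSpace

namespace Vale.Agent.Lib.P074

variable {d : ℕ}

/-- Second difference. -/
noncomputable def sdiff2 (φ : E d → ℝ) (v x : E d) : ℝ := φ (x + v) + φ (x - v) - 2 * φ x

/-- TASK I1. With `r_i v = φ_i (x+v) - φ_i x - ⟪t_i, v⟫` one has `0 ≤ r_i v`, `0 ≤ r_i (-v)` (subgradient
inequality at `x' = x ± v`) and `r_i v + r_i (-v) = sdiff2 φ_i v x`; the left side is `|r_1 v - r_0 v|`. -/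
theorem abs_inner_sub_le (φ0 φ1 : E d → ℝ) (x t0 t1 v : E d)
    (h0 : ∀ x', φ0 x + ⟪t0, x' - x⟫ ≤ φ0 x') (h1 : ∀ x', φ1 x + ⟪t1, x' - x⟫ ≤ φ1 x') :
    |⟪t1 - t0, v⟫ - ((φ1 (x + v) - φ0 (x + v)) - (φ1 x - φ0 x))|
      ≤ sdiff2 φ0 v x + sdiff2 φ1 v x := by
  have a0 := h0 (x + v)
  have b0 := h0 (x - v)
  have a1 := h1 (x + v)
  have b1 := h1 (x - v)
  have e1 : x + v - x = v := by abel
  have e2 : x - v - x = -v := by abel
  rw [e1] at a0 a1
  rw [e2, inner_neg_right] at b0 b1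
  rw [inner_sub_left]
  unfold sdiff2
  rw [abs_le]
  constructor <;> linarith

/-- TASK I1. `0 ≤ sdiff2 ≤ 2 L ‖v‖` pointwise, so `sdiff2 ^ 2 ≤ 2 L ‖v‖ sdiff2`; integrate with
`integral_second_diff_le` (file `P074S/Diff.lean`). The integrand is continuous, `K` compact. -/
theorem integral_sdiff2_sq_le (φ : E d → ℝ) (L : ℝ≥0) (hφ : LipschitzWith L φ)
    (hmid : ∀ x v, 2 * φ x ≤ φ (x + v) + φ (x - v)) (K : Set (E d)) (hK : IsCompact K)
    (R : ℝ) (hR : 0 ≤ R) (hKR : ∀ x ∈ K, ‖x‖ ≤ R) (v : E d) (hv : ‖v‖ ≤ 1) :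
    ∫ x in K, (sdiff2 φ v x) ^ 2
      ≤ 2 * (L : ℝ) ^ 2 * ‖v‖ ^ 3 * (volume (Metric.closedBall (0 : E d) (R + 2))).toReal := by
  have hφc : Continuous φ := hφ.continuous
  have hsc : Continuous (fun x => sdiff2 φ v x) := by
    unfold sdiff2
    fun_prop
  have h0 : ∀ x, 0 ≤ sdiff2 φ v x := by
    intro x
    unfold sdiff2
    linarith [hmid x v]
  have hub : ∀ x, sdiff2 φ v x ≤ 2 * L * ‖v‖ := by
    intro x
    have h1 : |φ (x + v) - φ x| ≤ L * ‖v‖ := by
      have := hφ.dist_le_mul (x + v) x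
      rw [Real.dist_eq, dist_eq_norm] at this
      simpa using this
    have h2 : |φ (x - v) - φ x| ≤ L * ‖v‖ := by
      have := hφ.dist_le_mul (x - v) x
      rw [Real.dist_eq, dist_eq_norm] at this
      simpa using this
    unfold sdiff2
    linarith [le_abs_self (φ (x + v) - φ x), le_abs_self (φ (x - v) - φ x)]
  have hmain := integral_second_diff_le φ L hφ hmid K hK.measurableSet R hR hKR v hv
  have hint1 : IntegrableOn (fun x => (sdiff2 φ v x) ^ 2) K :=
    (hsc.pow 2).continuousOn.integrableOn_compact hK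
  have hint2 : IntegrableOn (fun x => 2 * L * ‖v‖ * sdiff2 φ v x) K :=
    (continuous_const.mul hsc).continuousOn.integrableOn_compact hK
  calc ∫ x in K, (sdiff2 φ v x) ^ 2
      ≤ ∫ x in K, 2 * L * ‖v‖ * sdiff2 φ v x := by
        apply integral_mono hint1 hint2
        intro x
        show (sdiff2 φ v x) ^ 2 ≤ 2 * L * ‖v‖ * sdiff2 φ v x
        rw [sq]
        exact mul_le_mul_of_nonneg_right (hub x) (h0 x)
    _ = 2 * L * ‖v‖ * ∫ x in K, sdiff2 φ v x := by
        rw [integral_const_mul]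
    _ ≤ 2 * L * ‖v‖ * (L * ‖v‖ ^ 2 * (volume (Metric.closedBall (0 : E d) (R + 2))).toReal) := by
        apply mul_le_mul_of_nonneg_left _ (by positivity)
        exact hmain
    _ = 2 * (L : ℝ) ^ 2 * ‖v‖ ^ 3 * (volume (Metric.closedBall (0 : E d) (R + 2))).toReal := by
        ring

end Vale.Agent.Lib.P074
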