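import Vale.Agent.Lib.P074T.Defs

/-!
# P074, exponent one third: shrinking a convex body towards an interior point
-/

open MeasureTheory
open scoped ENNReal NNReal RealInnerProductSpace

namespace Vale.Agent.Lib.P074

variable {d : ℕ}

/-- The homothety of centre `x0` and ratio `1 - del`. -/
def shr (x0 : E d) (del : ℝ) (x : E d) : E d := x0 + (1 - del) • (x - x0)

/-- A shrunk point may be moved by `eta`, `‖eta‖ ≤ del * r`, without leaving `K`. -/
theorem shrink_add_mem {K : Set (E d)} (hK : Convex ℝ K) {x0 : E d} {r : ℝ} (hr : 0 < r)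
    (hB : Metric.closedBall x0 r ⊆ K) {del : ℝ} (h0 : 0 ≤ del) (h1 : del ≤ 1) {eta : E d}
    (heta : ‖eta‖ ≤ del * r) {x : E d} (hx : x ∈ K) : shr x0 del x + eta ∈ K := by
  rcases eq_or_lt_of_le h0 with h | hpos
  · have he : eta = 0 := by
      rw [← h, zero_mul] at heta
      exact norm_le_zero_iff.mp heta
    rw [he, add_zero, shr, ← h]
    simpa using hx
  · have hz : x0 + del⁻¹ • eta ∈ K := by
      apply hB
      rw [Metric.mem_closedBall, dist_eq_norm, add_sub_cancel_left, norm_smul, norm_inv,
        Real.norm_eq_abs, abs_of_pos hpos, inv_mul_le_iff₀ hpos]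
      exact heta
    have := hK hx hz (by linarith : 0 ≤ 1 - del) h0 (by ring)
    convert this using 1
    rw [shr, smul_add, smul_smul, mul_inv_cancel₀ hpos.ne', one_smul]
    module

theorem shrink_mem {K : Set (E d)} (hK : Convex ℝ K) {x0 : E d} (hx0 : x0 ∈ K) {del : ℝ}
    (h0 : 0 ≤ del) (h1 : del ≤ 1) {x : E d} (hx : x ∈ K) : shr x0 del x ∈ K := by
  have := hK hx hx0 (by linarith : 0 ≤ 1 - del) h0 (by ring)
  convert this using 1
  rw [shr]
  module

theorem shrink_subset {K : Set (E d)} (hK : Convex ℝ K) {x0 : E d} (hx0 : x0 ∈ K) {del : ℝ}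
    (h0 : 0 ≤ del) (h1 : del ≤ 1) : shr x0 del '' K ⊆ K := by
  rintro _ ⟨x, hx, rfl⟩
  exact shrink_mem hK hx0 h0 h1 hx

theorem continuous_shr (x0 : E d) (del : ℝ) : Continuous (shr x0 del) := by
  unfold shr
  fun_prop

theorem isCompact_shrink {K : Set (E d)} (hK : IsCompact K) (x0 : E d) (del : ℝ) :
    IsCompact (shr x0 del '' K) := hK.image (continuous_shr x0 del)

/-- The volume of the shrunk body. -/
theorem volume_shrink (K : Set (E d)) (x0 : E d) {del : ℝ} (h1 : del ≤ 1) :
    volume (shr x0 del '' K) = ENNReal.ofReal ((1 - del) ^ d) * volume K := by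
  have h : shr x0 del '' K = AffineMap.homothety x0 (1 - del) '' K := by
    apply Set.image_congr
    intro x _
    rw [shr, AffineMap.homothety_apply]
    simp [add_comm]
  rw [h, Measure.addHaar_image_homothety]
  congr 2
  rw [finrank_euclideanSpace, Fintype.card_fin, abs_of_nonneg (pow_nonneg (by linarith) d)]

/-- Bernoulli. -/
theorem one_sub_le_pow {del : ℝ} (_h0 : 0 ≤ del) (h1 : del ≤ 1) (d : ℕ) :
    1 - d * del ≤ (1 - del) ^ d := by
  have := one_add_mul_le_pow (by linarith : (-2 : ℝ) ≤ -del) d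
  calc 1 - d * del = 1 + d * -del := by ring
    _ ≤ (1 + -del) ^ d := this
    _ = (1 - del) ^ d := by ring

/-- The part of `K` outside the shrunk body has volume at most `d * del * |K|`. -/
theorem volume_diff_shrink {K : Set (E d)} (hKc : IsCompact K) (hK : Convex ℝ K) {x0 : E d}
    (hx0 : x0 ∈ K) {del : ℝ} (h0 : 0 ≤ del) (h1 : del ≤ 1) :
    volume (K \ shr x0 del '' K) ≤ ENNReal.ofReal (d * del) * volume K := by
  have hm : MeasurableSet (shr x0 del '' K) := (isCompact_shrink hKc x0 del).measurableSet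
  have hfin : volume (shr x0 del '' K) ≠ ⊤ := (isCompact_shrink hKc x0 del).measure_lt_top.ne
  rw [measure_sdiff (shrink_subset hK hx0 h0 h1) hm.nullMeasurableSet hfin, volume_shrink K x0 h1,
    tsub_le_iff_right, ← add_mul, ← ENNReal.ofReal_add (by positivity)
      (pow_nonneg (by linarith) d)]
  calc volume K = ENNReal.ofReal 1 * volume K := by simp
    _ ≤ ENNReal.ofReal (d * del + (1 - del) ^ d) * volume K := by
        refine mul_le_mul' (ENNReal.ofReal_le_ofReal ?_) le_rfl
        linarith [one_sub_le_pow h0 h1 d]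

/-- The same for the uniform probability measure. -/
theorem unif_diff_shrink {K : Set (E d)} (hKc : IsCompact K) (hK : Convex ℝ K)
    (hint : (interior K).Nonempty) {x0 : E d}
    (hx0 : x0 ∈ K) {del : ℝ} (h0 : 0 ≤ del) (h1 : del ≤ 1) :
    (unif K) (K \ shr x0 del '' K) ≤ ENNReal.ofReal (d * del) := by
  have hpos : volume K ≠ 0 :=
    ((isOpen_interior.measure_pos volume hint).trans_le (measure_mono interior_subset)).ne'
  have hfin : volume K ≠ ⊤ := hKc.measure_lt_top.ne
  have hm : MeasurableSet (K \ shr x0 del '' K) :=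
    hKc.measurableSet.diff (isCompact_shrink hKc x0 del).measurableSet
  rw [unif, Measure.smul_apply, Measure.restrict_apply hm, smul_eq_mul,
    Set.inter_eq_left.mpr Set.sdiff_subset]
  calc (volume K)⁻¹ * volume (K \ shr x0 del '' K)
      ≤ (volume K)⁻¹ * (ENNReal.ofReal (d * del) * volume K) :=
        mul_le_mul' le_rfl (volume_diff_shrink hKc hK hx0 h0 h1)
    _ = ENNReal.ofReal (d * del) := by
        rw [mul_comm (ENNReal.ofReal _), ← mul_assoc, ENNReal.inv_mul_cancel hpos hfin, one_mul]

end Vale.Agent.Lib.P074
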