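import Vale.Agent.Lib.P074S.Unif
import Vale.Agent.Lib.P074T.Pre22Shrink

/-! # P074T task I3: the boundary layer of a convex body has measure `O(h)` -/

open MeasureTheory Set
open scoped ENNReal NNReal RealInnerProductSpace

namespace Vale.Agent.Lib.P074

variable {d : ℕ}

/-- TASK I3. Let `closedBall x0 r ⊆ K`, `r > 0`. For `lam = h / r ≤ 1` the homothetic copy
`K' = x0 + (1 - lam) (K - x0)` satisfies `K' + closedBall 0 h ⊆ K` (convex combination
`(1 - lam) k + lam (x0 + v / lam)`) and `volume K' = (1 - lam)^d volume K`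
(`Measure.addHaar_image_homothety`), `1 - (1 - lam)^d ≤ d lam` (Bernoulli `one_add_mul_le_pow`).
For `h > r` the bound is trivial (`C = d / r + 1 / r`). -/
theorem boundary_layer {K : Set (E d)} (hK : IsCompact K) (hconv : Convex ℝ K)
    (hint : (interior K).Nonempty) :
    ∃ C : ℝ, 0 ≤ C ∧ ∀ h : ℝ, 0 < h →
      ((unif K) {x | ∃ v : E d, ‖v‖ ≤ h ∧ x + v ∉ K}).toReal ≤ C * h := by
  obtain ⟨x0, hx0⟩ := hint
  obtain ⟨r, hr, hB⟩ := Metric.nhds_basis_closedBall.mem_iff.mp (mem_interior_iff_mem_nhds.mp hx0)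
  have hx0K : x0 ∈ K := interior_subset hx0
  haveI : IsProbabilityMeasure (unif K) := isProbabilityMeasure_unif hK ⟨x0, hx0⟩
  refine ⟨d / r + 1 / r, by positivity, fun h hh => ?_⟩
  rcases le_or_gt h r with hle | hgt
  · have hδ0 : 0 ≤ h / r := by positivity
    have hδ1 : h / r ≤ 1 := (div_le_one hr).mpr hle
    have hsub : {x | ∃ v : E d, ‖v‖ ≤ h ∧ x + v ∉ K} ⊆ (K \ shr x0 (h / r) '' K) ∪ Kᶜ := by
      rintro x ⟨v, hv, hxv⟩
      by_cases hxK : x ∈ K
      · refine Or.inl ⟨hxK, ?_⟩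
        rintro ⟨x', hx', rfl⟩
        apply hxv
        refine shrink_add_mem hconv hr hB hδ0 hδ1 ?_ hx'
        rw [div_mul_cancel₀ _ hr.ne']
        exact hv
      · exact Or.inr hxK
    have hKc : (unif K) Kᶜ = 0 := by
      have := ae_mem_unif hK
      rw [ae_iff] at this
      exact this
    have h1 : (unif K) {x | ∃ v : E d, ‖v‖ ≤ h ∧ x + v ∉ K} ≤ ENNReal.ofReal (d * (h / r)) := by
      calc (unif K) {x | ∃ v : E d, ‖v‖ ≤ h ∧ x + v ∉ K}
          ≤ (unif K) ((K \ shr x0 (h / r) '' K) ∪ Kᶜ) := measure_mono hsub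
        _ ≤ (unif K) (K \ shr x0 (h / r) '' K) + (unif K) Kᶜ := measure_union_le _ _
        _ ≤ ENNReal.ofReal (d * (h / r)) := by
            rw [hKc, add_zero]
            exact unif_diff_shrink hK hconv ⟨x0, hx0⟩ hx0K hδ0 hδ1
    have h2 := ENNReal.toReal_mono ENNReal.ofReal_ne_top h1
    rw [ENNReal.toReal_ofReal (by positivity)] at h2
    refine h2.trans ?_
    have : (d / r + 1 / r) * h = d * (h / r) + h / r := by field_simp
    rw [this]
    linarith
  · have h1 : ((unif K) {x | ∃ v : E d, ‖v‖ ≤ h ∧ x + v ∉ K}).toReal ≤ 1 := by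
      have := ENNReal.toReal_mono ENNReal.one_ne_top
        (prob_le_one (μ := unif K) (s := {x | ∃ v : E d, ‖v‖ ≤ h ∧ x + v ∉ K}))
      simpa using this
    have h2 : 1 ≤ h / r := (one_le_div hr).mpr hgt.le
    have h3 : (d / r + 1 / r) * h = d * (h / r) + h / r := by field_simp
    rw [h3]
    have h4 : 0 ≤ (d : ℝ) * (h / r) := by positivity
    linarith

end Vale.Agent.Lib.P074
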