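import Vale.Agent.Lib.P074T.IPoint
import Vale.Agent.Lib.P074T.Layer
import Vale.Agent.Lib.P074S.Point

/-! # P074T task I5: the interpolation inequality at a fixed step `h` -/

open MeasureTheory Set
open scoped ENNReal NNReal RealInnerProductSpace

namespace Vale.Agent.Lib.P074

variable {d : ℕ}

/-- TASK I4. Translation: `∫_{K ∩ (K - v)} g (x + v) dx = ∫_{(K + v) ∩ K} g ≤ ∫_K g` for `g ≥ 0`. -/
theorem setIntegral_translate_le {K : Set (E d)} (hK : IsCompact K) (g : E d → ℝ)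
    (hg : Continuous g) (hg0 : ∀ x, 0 ≤ g x) (v : E d) :
    ∫ x in K ∩ {x | x + v ∈ K}, g (x + v) ≤ ∫ x in K, g x := by
  have hmp : MeasurePreserving (fun x : E d => x + v) volume volume :=
    measurePreserving_add_right volume v
  have hemb : MeasurableEmbedding (fun x : E d => x + v) := measurableEmbedding_addRight v
  have h1 := hmp.setIntegral_preimage_emb hemb g (K ∩ {y | y - v ∈ K})
  have hpre : (fun x : E d => x + v) ⁻¹' (K ∩ {y | y - v ∈ K}) = K ∩ {x | x + v ∈ K} := by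
    ext x
    simp only [mem_preimage, mem_inter_iff, mem_ofPred_eq, add_sub_cancel_right]
    tauto
  rw [hpre] at h1
  rw [h1]
  apply setIntegral_mono_set (hg.continuousOn.integrableOn_compact hK)
  · exact Filter.Eventually.of_forall hg0
  · exact Filter.Eventually.of_forall (fun x hx => hx.1)

theorem four_sq (A B C D : ℝ) : (A + B + C + D) ^ 2 ≤ 4 * (A ^ 2 + B ^ 2 + C ^ 2 + D ^ 2) := by
  nlinarith [sq_nonneg (A - B), sq_nonneg (A - C), sq_nonneg (A - D), sq_nonneg (B - C),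
    sq_nonneg (B - D), sq_nonneg (C - D)]

/-- pointwise bound for one coordinate -/
theorem coord_bound (φ0 φ1 : E d → ℝ) (x t0 t1 : E d) (a h : ℝ) (i : Fin d)
    (hm0 : ∀ x v, 2 * φ0 x ≤ φ0 (x + v) + φ0 (x - v))
    (hm1 : ∀ x v, 2 * φ1 x ≤ φ1 (x + v) + φ1 (x - v))
    (h0 : ∀ x', φ0 x + ⟪t0, x' - x⟫ ≤ φ0 x') (h1 : ∀ x', φ1 x + ⟪t1, x' - x⟫ ≤ φ1 x') :
    h ^ 2 * ((t1 - t0) i) ^ 2 ≤ 4 * ((φ1 (x + EuclideanSpace.single i h)
        - φ0 (x + EuclideanSpace.single i h) - a) ^ 2 + (φ1 x - φ0 x - a) ^ 2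
      + (sdiff2 φ0 (EuclideanSpace.single i h) x) ^ 2
      + (sdiff2 φ1 (EuclideanSpace.single i h) x) ^ 2) := by
  set w : E d := EuclideanSpace.single i h with hw
  have key := abs_inner_sub_le φ0 φ1 x t0 t1 w h0 h1
  have hin : ⟪t1 - t0, w⟫ = h * (t1 - t0) i := by
    rw [hw, EuclideanSpace.inner_single_right]; simp
  rw [hin] at key
  have s0 : 0 ≤ sdiff2 φ0 w x := by unfold sdiff2; linarith [hm0 x w]
  have s1 : 0 ≤ sdiff2 φ1 w x := by unfold sdiff2; linarith [hm1 x w]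
  set A := φ1 (x + w) - φ0 (x + w) - a
  set B := φ1 x - φ0 x - a
  have e : (φ1 (x + w) - φ0 (x + w)) - (φ1 x - φ0 x) = A - B := by ring
  rw [e] at key
  have hle : |h * (t1 - t0) i| ≤ |A| + |B| + sdiff2 φ0 w x + sdiff2 φ1 w x := by
    have h2 : |h * (t1 - t0) i| ≤ |h * (t1 - t0) i - (A - B)| + |A - B| := by
      have := abs_add_le (h * (t1 - t0) i - (A - B)) (A - B)
      simpa using this
    have h3 : |A - B| ≤ |A| + |B| := abs_sub _ _
    linarith
  have hsq : (h * (t1 - t0) i) ^ 2 ≤ (|A| + |B| + sdiff2 φ0 w x + sdiff2 φ1 w x) ^ 2 := by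
    rw [← sq_abs (h * (t1 - t0) i)]
    exact pow_le_pow_left₀ (abs_nonneg _) hle 2
  have h4 := four_sq |A| |B| (sdiff2 φ0 w x) (sdiff2 φ1 w x)
  rw [sq_abs, sq_abs] at h4
  calc h ^ 2 * ((t1 - t0) i) ^ 2 = (h * (t1 - t0) i) ^ 2 := by ring
    _ ≤ _ := hsq.trans h4

/-- TASK I5. Let `f = φ1 - φ0 - a`, `G = {x ∈ K | ∀ v, ‖v‖ ≤ h → x + v ∈ K}`. For a.e. `x ∈ G` and
every `i`, with `v = single i h`: `h |(T1 x - T0 x) i| ≤ |f (x + v)| + |f x| + sdiff2 φ0 v x + sdiff2 φ1 v x`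
(`abs_inner_sub_le`), so `h^2 ((T1 x - T0 x) i)^2 ≤ 4 (f (x+v)^2 + f x ^2 + sdiff2 φ0 ^2 + sdiff2 φ1 ^2)`.
Integrate over `G` (`setIntegral_translate_le`, `integral_sdiff2_sq_le`, `integral_unif`), sum over `i`
(`EuclideanSpace.norm_sq_eq`); on `K \ G` use `‖T1 x - T0 x‖^2 ≤ 4 L^2` and `boundary_layer`. -/
theorem interp_step {K : Set (E d)} (hK : IsCompact K) (hconv : Convex ℝ K)
    (hint : (interior K).Nonempty) (L : ℝ≥0) :
    ∃ C : ℝ, 0 ≤ C ∧ ∀ (φ0 φ1 : E d → ℝ) (T0 T1 : E d → E d) (a h : ℝ),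
      LipschitzWith L φ0 → LipschitzWith L φ1 →
      (∀ x v, 2 * φ0 x ≤ φ0 (x + v) + φ0 (x - v)) → (∀ x v, 2 * φ1 x ≤ φ1 (x + v) + φ1 (x - v)) →
      Measurable T0 → Measurable T1 →
      (∀ᵐ x ∂(unif K), ∀ x', φ0 x + ⟪T0 x, x' - x⟫ ≤ φ0 x') →
      (∀ᵐ x ∂(unif K), ∀ x', φ1 x + ⟪T1 x, x' - x⟫ ≤ φ1 x') →
      (∀ᵐ x ∂(unif K), ‖T0 x‖ ≤ L) → (∀ᵐ x ∂(unif K), ‖T1 x‖ ≤ L) →
      0 < h → h ≤ 1 →
      ∫ x, ‖T1 x - T0 x‖ ^ 2 ∂(unif K)
        ≤ C * ((∫ x, (φ1 x - φ0 x - a) ^ 2 ∂(unif K)) / h ^ 2 + h) := by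
  classical
  obtain ⟨R, hR0, hKR⟩ : ∃ R : ℝ, 0 ≤ R ∧ ∀ x ∈ K, ‖x‖ ≤ R := by
    obtain ⟨R, hR⟩ := hK.isBounded.exists_norm_le
    exact ⟨max R 0, le_max_right _ _, fun x hx => (hR x hx).trans (le_max_left _ _)⟩
  obtain ⟨Cb, hCb0, hCb⟩ := boundary_layer hK hconv hint
  have := isProbabilityMeasure_unif hK hint
  set V : ℝ := (volume K).toReal with hV
  have hVpos : 0 < V := ENNReal.toReal_pos (volume_pos_of_interior hint).ne' hK.measure_lt_top.ne
  set Vb : ℝ := (volume (Metric.closedBall (0 : E d) (R + 2))).toReal with hVb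
  have hVb0 : 0 ≤ Vb := ENNReal.toReal_nonneg
  refine ⟨8 * d + 4 * (L : ℝ) ^ 2 * Cb + 16 * d * (L : ℝ) ^ 2 * Vb / V, by positivity, ?_⟩
  intro φ0 φ1 T0 T1 a h hφ0 hφ1 hm0 hm1 hT0 hT1 hs0 hs1 hb0 hb1 hh0 hh1
  set f : E d → ℝ := fun x => φ1 x - φ0 x - a with hf
  have hfc : Continuous f := (hφ1.continuous.sub hφ0.continuous).sub continuous_const
  have hf2c : Continuous (fun x => (f x) ^ 2) := hfc.pow 2
  set Bad : Set (E d) := {x | ∃ v : E d, ‖v‖ ≤ h ∧ x + v ∉ K} with hBad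
  have hBadm : MeasurableSet Bad := by
    have : Bad = ⋃ v ∈ Metric.closedBall (0 : E d) h, (fun x : E d => x + v) ⁻¹' Kᶜ := by
      ext x
      simp [hBad]
    rw [this]
    exact (isOpen_biUnion fun v _ =>
      (hK.isClosed.isOpen_compl).preimage (continuous_id.add continuous_const)).measurableSet
  set w : Fin d → E d := fun i => EuclideanSpace.single i h with hw
  have hwn : ∀ i, ‖w i‖ = h := by
    intro i
    simp [hw, abs_of_pos hh0]
  set S : Fin d → Set (E d) := fun i => {x | x + w i ∈ K} with hS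
  have hSm : ∀ i, MeasurableSet (S i) := fun i =>
    (hK.isClosed.preimage (continuous_id.add continuous_const)).measurableSet
  set g2 : E d → ℝ := fun x => ∑ i, ((S i).indicator (fun x => (f (x + w i)) ^ 2) x + (f x) ^ 2
    + (sdiff2 φ0 (w i) x) ^ 2 + (sdiff2 φ1 (w i) x) ^ 2) with hg2
  set g1 : E d → ℝ := Bad.indicator (fun _ => 4 * (L : ℝ) ^ 2) with hg1
  have hg2nn : ∀ x, 0 ≤ g2 x := by
    intro x
    apply Finset.sum_nonneg
    intro i _
    have : 0 ≤ (S i).indicator (fun x => (f (x + w i)) ^ 2) x :=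
      indicator_nonneg (fun x _ => sq_nonneg _) x
    positivity
  -- pointwise bound
  have hpt : ∀ᵐ x ∂(unif K), ‖T1 x - T0 x‖ ^ 2 ≤ g1 x + 4 / h ^ 2 * g2 x := by
    filter_upwards [hs0, hs1, hb0, hb1] with x h0 h1 hx0 hx1
    by_cases hxB : x ∈ Bad
    · have e1 : g1 x = 4 * (L : ℝ) ^ 2 := by rw [hg1, indicator_of_mem hxB]
      have h2 : ‖T1 x - T0 x‖ ≤ 2 * L := by
        calc ‖T1 x - T0 x‖ ≤ ‖T1 x‖ + ‖T0 x‖ := norm_sub_le _ _
          _ ≤ 2 * L := by linarith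
      have h3 : ‖T1 x - T0 x‖ ^ 2 ≤ (2 * (L : ℝ)) ^ 2 := pow_le_pow_left₀ (norm_nonneg _) h2 2
      have h4 : 0 ≤ 4 / h ^ 2 * g2 x := mul_nonneg (by positivity) (hg2nn x)
      rw [e1]
      nlinarith
    · have e1 : g1 x = 0 := by rw [hg1, indicator_of_notMem hxB]
      have hxS : ∀ i, x ∈ S i := by
        intro i
        by_contra hc
        exact hxB ⟨w i, (hwn i).le, hc⟩
      have hsum : h ^ 2 * ‖T1 x - T0 x‖ ^ 2 ≤ 4 * g2 x := by
        rw [EuclideanSpace.norm_sq_eq, Finset.mul_sum, hg2, Finset.mul_sum]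
        apply Finset.sum_le_sum
        intro i _
        rw [indicator_of_mem (hxS i), Real.norm_eq_abs, sq_abs]
        exact coord_bound φ0 φ1 x (T0 x) (T1 x) a h i hm0 hm1 h0 h1
      rw [e1, zero_add, div_mul_eq_mul_div, le_div_iff₀ (by positivity)]
      linarith
  -- integrability
  have hunif_int : ∀ F : E d → ℝ, IntegrableOn F K volume → Integrable F (unif K) := by
    intro F hF
    unfold unif
    exact hF.smul_measure (ENNReal.inv_ne_top.2 (volume_pos_of_interior hint).ne')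
  have hcs : ∀ (φ : E d → ℝ), Continuous φ → ∀ v, Continuous (fun x => (sdiff2 φ v x) ^ 2) := by
    intro φ hφ v
    unfold sdiff2
    exact (((hφ.comp (continuous_id.add continuous_const)).add
      (hφ.comp (continuous_id.sub continuous_const))).sub (continuous_const.mul hφ)).pow 2
  have i1 : ∀ i, IntegrableOn ((S i).indicator (fun x => (f (x + w i)) ^ 2)) K volume := fun i =>
    ((hf2c.comp (continuous_id.add continuous_const)).continuousOn.integrableOn_compact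
      hK).indicator (hSm i)
  have i2 : IntegrableOn (fun x => (f x) ^ 2) K volume := hf2c.continuousOn.integrableOn_compact hK
  have i3 : ∀ i, IntegrableOn (fun x => (sdiff2 φ0 (w i) x) ^ 2) K volume := fun i =>
    (hcs φ0 hφ0.continuous (w i)).continuousOn.integrableOn_compact hK
  have i4 : ∀ i, IntegrableOn (fun x => (sdiff2 φ1 (w i) x) ^ 2) K volume := fun i =>
    (hcs φ1 hφ1.continuous (w i)).continuousOn.integrableOn_compact hK
  have i5 : ∀ i, IntegrableOn (fun x => (S i).indicator (fun x => (f (x + w i)) ^ 2) x + (f x) ^ 2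
    + (sdiff2 φ0 (w i) x) ^ 2 + (sdiff2 φ1 (w i) x) ^ 2) K volume := fun i =>
    (((i1 i).add i2).add (i3 i)).add (i4 i)
  have hg2i : IntegrableOn g2 K volume := integrable_finsetSum _ (fun i _ => i5 i)
  set J : ℝ := ∫ x in K, (f x) ^ 2 with hJ
  have hg2K : ∫ x in K, g2 x ≤ d * (2 * J + 4 * (L : ℝ) ^ 2 * h ^ 3 * Vb) := by
    rw [hg2, integral_finsetSum _ (fun i _ => i5 i)]
    calc _ ≤ ∑ _i : Fin d, (2 * J + 4 * (L : ℝ) ^ 2 * h ^ 3 * Vb) := by
          apply Finset.sum_le_sum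
          intro i _
          have j12 : IntegrableOn (fun x => (S i).indicator (fun x => (f (x + w i)) ^ 2) x
              + (f x) ^ 2) K volume := (i1 i).add i2
          have j123 : IntegrableOn (fun x => (S i).indicator (fun x => (f (x + w i)) ^ 2) x
              + (f x) ^ 2 + (sdiff2 φ0 (w i) x) ^ 2) K volume := j12.add (i3 i)
          rw [integral_add j123 (i4 i), integral_add j12 (i3 i), integral_add (i1 i) i2,
            setIntegral_indicator (hSm i)]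
          have a1 := setIntegral_translate_le hK (fun x => (f x) ^ 2) hf2c
            (fun x => sq_nonneg _) (w i)
          have a3 := integral_sdiff2_sq_le φ0 L hφ0 hm0 K hK R hR0 hKR (w i)
            (by rw [hwn]; exact hh1)
          have a4 := integral_sdiff2_sq_le φ1 L hφ1 hm1 K hK R hR0 hKR (w i)
            (by rw [hwn]; exact hh1)
          rw [hwn] at a3 a4
          linarith
      _ = d * (2 * J + 4 * (L : ℝ) ^ 2 * h ^ 3 * Vb) := by
          rw [Finset.sum_const, Finset.card_univ, Fintype.card_fin, nsmul_eq_mul]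
  have hg1i : Integrable g1 (unif K) := (integrable_const _).indicator hBadm
  have hg2u : Integrable (fun x => 4 / h ^ 2 * g2 x) (unif K) := (hunif_int g2 hg2i).const_mul _
  have hI : ∫ x, (φ1 x - φ0 x - a) ^ 2 ∂(unif K) = V⁻¹ * J := integral_unif _
  have hJ0 : 0 ≤ J := integral_nonneg (fun x => sq_nonneg _)
  have hB : ∫ x, g1 x ∂(unif K) ≤ 4 * (L : ℝ) ^ 2 * (Cb * h) := by
    rw [hg1, integral_indicator_const _ hBadm, smul_eq_mul, mul_comm]
    exact mul_le_mul_of_nonneg_left (hCb h hh0) (by positivity)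
  have hG : ∫ x, 4 / h ^ 2 * g2 x ∂(unif K)
      ≤ 4 / h ^ 2 * (V⁻¹ * (d * (2 * J + 4 * (L : ℝ) ^ 2 * h ^ 3 * Vb))) := by
    rw [integral_const_mul, integral_unif]
    gcongr
  calc ∫ x, ‖T1 x - T0 x‖ ^ 2 ∂(unif K)
      ≤ ∫ x, (g1 x + 4 / h ^ 2 * g2 x) ∂(unif K) :=
        integral_mono_of_nonneg (Filter.Eventually.of_forall (fun x => by positivity))
          (hg1i.add hg2u) hpt
    _ = ∫ x, g1 x ∂(unif K) + ∫ x, 4 / h ^ 2 * g2 x ∂(unif K) := integral_add hg1i hg2u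
    _ ≤ 4 * (L : ℝ) ^ 2 * (Cb * h)
        + 4 / h ^ 2 * (V⁻¹ * (d * (2 * J + 4 * (L : ℝ) ^ 2 * h ^ 3 * Vb))) := add_le_add hB hG
    _ ≤ _ := by
      rw [hI]
      have e : 4 * (L : ℝ) ^ 2 * (Cb * h)
          + 4 / h ^ 2 * (V⁻¹ * (d * (2 * J + 4 * (L : ℝ) ^ 2 * h ^ 3 * Vb)))
          = 8 * d * (V⁻¹ * J / h ^ 2) + (4 * (L : ℝ) ^ 2 * Cb + 16 * d * (L : ℝ) ^ 2 * Vb / V) * h := by
        field_simp
        ring
      rw [e]
      have hq : 0 ≤ V⁻¹ * J / h ^ 2 := by positivity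
      have hc1 : 0 ≤ 4 * (L : ℝ) ^ 2 * Cb + 16 * d * (L : ℝ) ^ 2 * Vb / V := by positivity
      have hc2 : (0 : ℝ) ≤ 8 * d := by positivity
      nlinarith [mul_nonneg hc1 hq, mul_nonneg hc2 hh0.le]

end Vale.Agent.Lib.P074
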