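import Vale.Agent.Lib.P074T.IStep

/-! # P074T task I6: the interpolation inequality -/

open MeasureTheory Set
open scoped ENNReal NNReal RealInnerProductSpace

namespace Vale.Agent.Lib.P074

variable {d : ℕ}

/-- TASK I6a. Pure real lemma: `h = F ^ (1/3)` if `0 < F ≤ 1`, `h → 0` if `F = 0`, trivial if `F > 1`. -/
theorem optimise_third (A F C c : ℝ) (hA : A ≤ c) (hc : 0 ≤ c) (hC : 0 ≤ C) (hF : 0 ≤ F)
    (h : ∀ s, 0 < s → s ≤ 1 → A ≤ C * (F / s ^ 2 + s)) :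
    A ≤ (2 * C + c) * F ^ (1 / 3 : ℝ) := by
  rcases hF.eq_or_lt with h0 | hpos
  · rw [← h0, Real.zero_rpow (by norm_num), mul_zero]
    by_contra hh
    have hA0 : 0 < A := not_le.1 hh
    have h1 := h 1 one_pos le_rfl
    rw [← h0] at h1
    have hCpos : 0 < C := by
      by_contra hC'
      have : C = 0 := le_antisymm (not_lt.1 hC') hC
      rw [this] at h1
      linarith
    have hs0 : 0 < min 1 (A / (2 * C)) := lt_min one_pos (by positivity)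
    have h2 := h _ hs0 (min_le_left _ _)
    rw [← h0] at h2
    have h3 : C * min 1 (A / (2 * C)) ≤ C * (A / (2 * C)) :=
      mul_le_mul_of_nonneg_left (min_le_right _ _) hC
    have h4 : C * (A / (2 * C)) = A / 2 := by
      field_simp
    simp only [zero_div, zero_add] at h2
    linarith
  · have hs0 : 0 < F ^ (1 / 3 : ℝ) := Real.rpow_pos_of_pos hpos _
    rcases le_or_gt F 1 with h1 | h1
    · have hs1 : F ^ (1 / 3 : ℝ) ≤ 1 := Real.rpow_le_one hF h1 (by norm_num)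
      have h2 := h _ hs0 hs1
      have h3 : (F ^ (1 / 3 : ℝ)) ^ 3 = F := by
        rw [← Real.rpow_natCast, ← Real.rpow_mul hF]
        norm_num
      have h4 : F / (F ^ (1 / 3 : ℝ)) ^ 2 = F ^ (1 / 3 : ℝ) := by
        rw [div_eq_iff (by positivity)]
        nlinarith [h3]
      rw [h4] at h2
      nlinarith [mul_nonneg hc hs0.le]
    · have hs1 : 1 ≤ F ^ (1 / 3 : ℝ) := Real.one_le_rpow h1.le (by norm_num)
      nlinarith [mul_nonneg hC hs0.le, mul_le_mul_of_nonneg_left hs1 hc]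

/-- TASK I6b. From `interp_step` and `optimise_third` (`A ≤ c = 4 L^2`). -/
theorem interp_bound {K : Set (E d)} (hK : IsCompact K) (hconv : Convex ℝ K)
    (hint : (interior K).Nonempty) (L : ℝ≥0) :
    ∃ C : ℝ, 0 ≤ C ∧ ∀ (φ0 φ1 : E d → ℝ) (T0 T1 : E d → E d) (a : ℝ),
      LipschitzWith L φ0 → LipschitzWith L φ1 →
      (∀ x v, 2 * φ0 x ≤ φ0 (x + v) + φ0 (x - v)) → (∀ x v, 2 * φ1 x ≤ φ1 (x + v) + φ1 (x - v)) →
      Measurable T0 → Measurable T1 →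
      (∀ᵐ x ∂(unif K), ∀ x', φ0 x + ⟪T0 x, x' - x⟫ ≤ φ0 x') →
      (∀ᵐ x ∂(unif K), ∀ x', φ1 x + ⟪T1 x, x' - x⟫ ≤ φ1 x') →
      (∀ᵐ x ∂(unif K), ‖T0 x‖ ≤ L) → (∀ᵐ x ∂(unif K), ‖T1 x‖ ≤ L) →
      ∫ x, ‖T1 x - T0 x‖ ^ 2 ∂(unif K)
        ≤ C * (∫ x, (φ1 x - φ0 x - a) ^ 2 ∂(unif K)) ^ (1 / 3 : ℝ) := by
  obtain ⟨C, hC, hstep⟩ := interp_step hK hconv hint L
  have := isProbabilityMeasure_unif hK hint
  refine ⟨2 * C + 4 * (L : ℝ) ^ 2, by positivity, ?_⟩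
  intro φ0 φ1 T0 T1 a l0 l1 c0 c1 m0 m1 s0 s1 b0 b1
  refine optimise_third _ _ C (4 * (L : ℝ) ^ 2) ?_ (by positivity) hC
    (integral_nonneg (fun x => sq_nonneg _)) ?_
  · have hb : ∀ᵐ x ∂(unif K), ‖T1 x - T0 x‖ ^ 2 ≤ 4 * (L : ℝ) ^ 2 := by
      filter_upwards [b0, b1] with x h0 h1
      have h2 : ‖T1 x - T0 x‖ ≤ 2 * (L : ℝ) := by
        calc ‖T1 x - T0 x‖ ≤ ‖T1 x‖ + ‖T0 x‖ := norm_sub_le _ _
          _ ≤ 2 * (L : ℝ) := by linarith
      nlinarith [norm_nonneg (T1 x - T0 x)]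
    calc ∫ x, ‖T1 x - T0 x‖ ^ 2 ∂(unif K) ≤ ∫ _x, 4 * (L : ℝ) ^ 2 ∂(unif K) :=
          integral_mono_of_nonneg (Filter.Eventually.of_forall (fun x => sq_nonneg _))
            (integrable_const _) hb
      _ = 4 * (L : ℝ) ^ 2 := by simp
  · intro s hs0 hs1
    exact hstep φ0 φ1 T0 T1 a s l0 l1 c0 c1 m0 m1 s0 s1 b0 b1 hs0 hs1

end Vale.Agent.Lib.P074
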