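import Vale.Agent.Lib.P074T.Defs

/-! # P074T task D3: Lipschitz constants of the two tilting functions on the ball of radius `R` -/

open scoped RealInnerProductSpace

namespace Vale.Agent.Lib.P074

variable {d : ℕ}

theorem abs_exp_sub_exp_le {a b M : ℝ} (ha : a ≤ M) (hb : b ≤ M) :
    |Real.exp a - Real.exp b| ≤ Real.exp M * |a - b| := by
  have key : ∀ {a b : ℝ}, a ≤ M → b ≤ a → |Real.exp a - Real.exp b| ≤ Real.exp M * |a - b| := by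
    intro a b ha hba
    have h1 : Real.exp b ≤ Real.exp a := Real.exp_le_exp.mpr hba
    rw [abs_of_nonneg (by linarith), abs_of_nonneg (by linarith)]
    have h2 : Real.exp b = Real.exp a * Real.exp (b - a) := by
      rw [← Real.exp_add]
      congr 1
      ring
    have h3 : (b - a) + 1 ≤ Real.exp (b - a) := Real.add_one_le_exp _
    have h4 : Real.exp a - Real.exp b ≤ Real.exp a * (a - b) := by
      rw [h2]
      have := mul_le_mul_of_nonneg_left h3 (Real.exp_pos a).le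
      nlinarith
    have h5 : Real.exp a * (a - b) ≤ Real.exp M * (a - b) :=
      mul_le_mul_of_nonneg_right (Real.exp_le_exp.mpr ha) (by linarith)
    linarith
  rcases le_total b a with h | h
  · exact key ha h
  · rw [abs_sub_comm, abs_sub_comm a b]
    exact key hb h

theorem inv_kap_eq (lam : ℝ) (x : E d) : (kap lam x)⁻¹ = Real.exp (lam * ‖x‖ ^ 2 / 2) := by
  unfold kap
  rw [← Real.exp_neg, neg_neg]

theorem half_sq_le {lam R : ℝ} (hlam : 0 < lam) {x : E d} (hx : ‖x‖ ≤ R) :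
    lam * ‖x‖ ^ 2 / 2 ≤ lam * R ^ 2 / 2 := by
  have h0 : 0 ≤ ‖x‖ := norm_nonneg x
  have h1 : ‖x‖ ^ 2 ≤ R ^ 2 := pow_le_pow_left₀ h0 hx 2
  have := mul_le_mul_of_nonneg_left h1 hlam.le
  linarith

/-- TASK D3. `|exp s - exp s'| ≤ exp (max s s') |s - s'|` and `| |x|^2 - |y|^2 | ≤ 2 R |x - y|`. -/
theorem lip_invkap {lam R : ℝ} (hlam : 0 < lam) (hR : 0 < R) {x y : E d} (hx : ‖x‖ ≤ R)
    (hy : ‖y‖ ≤ R) :
    |(kap lam x)⁻¹ - (kap lam y)⁻¹| ≤ (lam * R * Real.exp (lam * R ^ 2 / 2)) * ‖x - y‖ := by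
  rw [inv_kap_eq, inv_kap_eq]
  have h1 := abs_exp_sub_exp_le (half_sq_le hlam hx) (half_sq_le hlam hy)
  have h2 : |lam * ‖x‖ ^ 2 / 2 - lam * ‖y‖ ^ 2 / 2| ≤ lam * R * ‖x - y‖ := by
    have e : lam * ‖x‖ ^ 2 / 2 - lam * ‖y‖ ^ 2 / 2
        = (lam / 2) * ((‖x‖ + ‖y‖) * (‖x‖ - ‖y‖)) := by ring
    rw [e, abs_mul, abs_mul, abs_of_pos (by positivity : 0 < lam / 2),
      abs_of_nonneg (by positivity : 0 ≤ ‖x‖ + ‖y‖)]
    have h3 : |‖x‖ - ‖y‖| ≤ ‖x - y‖ := abs_norm_sub_norm_le x y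
    have h4 : (‖x‖ + ‖y‖) * |‖x‖ - ‖y‖| ≤ (2 * R) * ‖x - y‖ :=
      mul_le_mul (by linarith) h3 (abs_nonneg _) (by linarith)
    have := mul_le_mul_of_nonneg_left h4 (by positivity : 0 ≤ lam / 2)
    nlinarith
  have h5 := mul_le_mul_of_nonneg_left h2 (Real.exp_pos (lam * R ^ 2 / 2)).le
  nlinarith

theorem kap_pos (lam : ℝ) (x : E d) : 0 < kap lam x := Real.exp_pos _

/-- TASK D3. -/
theorem kap_le_one {lam : ℝ} (hlam : 0 < lam) (x : E d) : kap lam x ≤ 1 := by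
  unfold kap
  rw [Real.exp_le_one_iff]
  have : 0 ≤ lam * ‖x‖ ^ 2 / 2 := by positivity
  linarith

/-- TASK D3. -/
theorem inv_kap_le {lam R : ℝ} (hlam : 0 < lam) {x : E d} (hx : ‖x‖ ≤ R) :
    (kap lam x)⁻¹ ≤ Real.exp (lam * R ^ 2 / 2) := by
  rw [inv_kap_eq]
  exact Real.exp_le_exp.mpr (half_sq_le hlam hx)

/-- TASK D3. product rule. -/
theorem lip_inner_invkap {lam R : ℝ} (hlam : 0 < lam) (hR : 0 < R) {x y e : E d} (hx : ‖x‖ ≤ R)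
    (hy : ‖y‖ ≤ R) (he : ‖e‖ ≤ 1) :
    |⟪x, e⟫ * (kap lam x)⁻¹ - ⟪y, e⟫ * (kap lam y)⁻¹|
      ≤ ((1 + lam * R ^ 2) * Real.exp (lam * R ^ 2 / 2)) * ‖x - y‖ := by
  have e1 : ⟪x, e⟫ * (kap lam x)⁻¹ - ⟪y, e⟫ * (kap lam y)⁻¹
      = ⟪x - y, e⟫ * (kap lam x)⁻¹ + ⟪y, e⟫ * ((kap lam x)⁻¹ - (kap lam y)⁻¹) := by
    rw [inner_sub_left]
    ring
  rw [e1]
  have hk0 : 0 ≤ (kap lam x)⁻¹ := (inv_pos.mpr (kap_pos lam x)).le
  have h1 : |⟪x - y, e⟫ * (kap lam x)⁻¹| ≤ ‖x - y‖ * Real.exp (lam * R ^ 2 / 2) := by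
    rw [abs_mul, abs_of_nonneg hk0]
    have h2 : |⟪x - y, e⟫| ≤ ‖x - y‖ := by
      calc |⟪x - y, e⟫| ≤ ‖x - y‖ * ‖e‖ := abs_real_inner_le_norm _ _
        _ ≤ ‖x - y‖ * 1 := mul_le_mul_of_nonneg_left he (norm_nonneg _)
        _ = ‖x - y‖ := mul_one _
    exact mul_le_mul h2 (inv_kap_le hlam hx) hk0 (norm_nonneg _)
  have h3 : |⟪y, e⟫ * ((kap lam x)⁻¹ - (kap lam y)⁻¹)|
      ≤ R * ((lam * R * Real.exp (lam * R ^ 2 / 2)) * ‖x - y‖) := by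
    rw [abs_mul]
    have h4 : |⟪y, e⟫| ≤ R := by
      calc |⟪y, e⟫| ≤ ‖y‖ * ‖e‖ := abs_real_inner_le_norm _ _
        _ ≤ R * 1 := mul_le_mul hy he (norm_nonneg _) hR.le
        _ = R := mul_one _
    exact mul_le_mul h4 (lip_invkap hlam hR hx hy) (abs_nonneg _) hR.le
  calc |⟪x - y, e⟫ * (kap lam x)⁻¹ + ⟪y, e⟫ * ((kap lam x)⁻¹ - (kap lam y)⁻¹)|
      ≤ |⟪x - y, e⟫ * (kap lam x)⁻¹| + |⟪y, e⟫ * ((kap lam x)⁻¹ - (kap lam y)⁻¹)| :=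
        abs_add_le _ _
    _ ≤ ‖x - y‖ * Real.exp (lam * R ^ 2 / 2)
        + R * ((lam * R * Real.exp (lam * R ^ 2 / 2)) * ‖x - y‖) := add_le_add h1 h3
    _ = ((1 + lam * R ^ 2) * Real.exp (lam * R ^ 2 / 2)) * ‖x - y‖ := by ring

theorem measurable_kap (lam : ℝ) : Measurable (kap lam : E d → ℝ) := by
  unfold kap
  fun_prop

end Vale.Agent.Lib.P074
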