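import Vale.Agent.Lib.P227.PL

/-! # Prekopa-Leindler inequality in `ℝ^n` (from the one-dimensional bounded case) -/

namespace Vale.Agent.Lib.P074T.H28

open MeasureTheory Set
open scoped ENNReal

/-- monotone limits. -/
lemma iSup_rpow_mul_iSup_rpow_le {a b : ℕ → ℝ≥0∞} (ha : Monotone a) (hb : Monotone b) {s t : ℝ}
    (hs : 0 < s) (ht : 0 < t) {C : ℝ≥0∞} (H : ∀ k, a k ^ s * b k ^ t ≤ C) :
    (⨆ k, a k) ^ s * (⨆ k, b k) ^ t ≤ C := by
  have h1 : (⨆ k, a k) ^ s = ⨆ k, a k ^ s := (ENNReal.orderIsoRpow s hs).map_iSup a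
  have h2 : (⨆ k, b k) ^ t = ⨆ k, b k ^ t := (ENNReal.orderIsoRpow t ht).map_iSup b
  rw [h1, h2, ENNReal.iSup_mul]
  refine iSup_le fun i => ?_
  rw [ENNReal.mul_iSup]
  refine iSup_le fun j => ?_
  refine le_trans ?_ (H (max i j))
  exact mul_le_mul' (ENNReal.rpow_le_rpow (ha (le_max_left i j)) hs.le)
    (ENNReal.rpow_le_rpow (hb (le_max_right i j)) ht.le)

lemma lintegral_eq_iSup_min {α : Type*} [MeasurableSpace α] (μ : Measure α) (f : α → ℝ≥0∞)
    (hf : Measurable f) : ∫⁻ x, f x ∂μ = ⨆ k : ℕ, ∫⁻ x, min (f x) (k : ℝ≥0∞) ∂μ := by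
  rw [← lintegral_iSup (fun k => hf.min measurable_const)]
  · refine lintegral_congr fun x => ?_
    apply le_antisymm
    · by_cases hx : f x = ∞
      · rw [hx]
        simp only [le_top, inf_of_le_right]
        rw [ENNReal.iSup_natCast]
      · obtain ⟨k, hk⟩ := ENNReal.exists_nat_gt hx
        exact le_iSup_of_le k (by rw [min_eq_left hk.le])
    · exact iSup_le fun k => min_le_left _ _
  · intro i j hij x
    exact min_le_min le_rfl (by exact_mod_cast hij)

/-- One-dimensional Prekopa-Leindler inequality, arbitrary measurable functions. -/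
theorem pl1 (f g h : ℝ → ℝ≥0∞) (hf : Measurable f) (hg : Measurable g) (hh : Measurable h)
    {t : ℝ} (ht0 : 0 < t) (ht1 : t < 1)
    (H : ∀ x y, f x ^ (1 - t) * g y ^ t ≤ h ((1 - t) * x + t * y)) :
    (∫⁻ x, f x) ^ (1 - t) * (∫⁻ x, g x) ^ t ≤ ∫⁻ x, h x := by
  have hs : 0 < 1 - t := by linarith
  rw [lintegral_eq_iSup_min volume f hf, lintegral_eq_iSup_min volume g hg]
  refine iSup_rpow_mul_iSup_rpow_le ?_ ?_ hs ht0 ?_
  · intro i j hij
    exact lintegral_mono fun x => min_le_min le_rfl (by exact_mod_cast hij)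
  · intro i j hij
    exact lintegral_mono fun x => min_le_min le_rfl (by exact_mod_cast hij)
  · intro k
    refine Vale.Agent.Lib.P227.pl (fun x => min (f x) (k : ℝ≥0∞)) (fun x => min (g x) (k : ℝ≥0∞)) h
      (hf.min measurable_const) (hg.min measurable_const) hh ht0 ht1
      (ENNReal.natCast_ne_top k) (ENNReal.natCast_ne_top k)
      (fun x => min_le_right _ _) (fun x => min_le_right _ _) ?_
    intro x y
    refine le_trans ?_ (H x y)
    exact mul_le_mul' (ENNReal.rpow_le_rpow (min_le_left _ _) hs.le)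
      (ENNReal.rpow_le_rpow (min_le_left _ _) ht0.le)

/-- Fubini for `Fin (n+1) → ℝ`. -/
lemma lintegral_fin_succ (n : ℕ) (f : (Fin (n + 1) → ℝ) → ℝ≥0∞) (hf : Measurable f) :
    ∫⁻ x, f x = ∫⁻ z : ℝ, ∫⁻ y : Fin n → ℝ, f (Fin.cons z y) := by
  have hmp := volume_preserving_piFinSuccAbove (fun _ : Fin (n + 1) => ℝ) 0
  have e := hmp.symm.lintegral_comp hf
  have hm2 : Measurable (fun a : ℝ × (Fin n → ℝ) =>
      f ((MeasurableEquiv.piFinSuccAbove (fun _ : Fin (n + 1) => ℝ) 0).symm a)) :=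
    hf.comp hmp.symm.measurable
  rw [← e, Measure.volume_eq_prod, lintegral_prod _ hm2.aemeasurable]
  refine lintegral_congr fun z => lintegral_congr fun y => ?_
  congr 1
  ext i
  refine Fin.cases ?_ (fun j => ?_) i <;> simp [MeasurableEquiv.piFinSuccAbove]

lemma measurable_cons_fin (n : ℕ) :
    Measurable (fun p : ℝ × (Fin n → ℝ) => (Fin.cons p.1 p.2 : Fin (n + 1) → ℝ)) := by
  rw [measurable_pi_iff]
  intro i
  refine Fin.cases ?_ (fun j => ?_) i
  · simpa using measurable_fst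
  · have : Measurable (fun x : ℝ × (Fin n → ℝ) => x.2 j) := (measurable_pi_apply j).comp measurable_snd
    simpa using this

/-- Prekopa-Leindler inequality on `Fin n → ℝ`. -/
theorem pl_pi (n : ℕ) : ∀ (f g h : (Fin n → ℝ) → ℝ≥0∞), Measurable f → Measurable g →
    Measurable h → ∀ {t : ℝ}, 0 < t → t < 1 →
    (∀ x y, f x ^ (1 - t) * g y ^ t ≤ h ((1 - t) • x + t • y)) →
    (∫⁻ x, f x) ^ (1 - t) * (∫⁻ x, g x) ^ t ≤ ∫⁻ x, h x := by
  induction n with
  | zero =>
    intro f g h hf hg hh t ht0 ht1 H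
    have e : ∀ F : (Fin 0 → ℝ) → ℝ≥0∞, ∫⁻ x, F x = F 0 := by
      intro F
      rw [volume_pi, Measure.pi_of_empty (x := 0), lintegral_dirac]
    rw [e f, e g, e h]
    have := H 0 0
    simpa using this
  | succ n ih =>
    intro f g h hf hg hh t ht0 ht1 H
    rw [lintegral_fin_succ n f hf, lintegral_fin_succ n g hg, lintegral_fin_succ n h hh]
    have hm : ∀ F : (Fin (n + 1) → ℝ) → ℝ≥0∞, Measurable F →
        Measurable (fun z : ℝ => ∫⁻ y : Fin n → ℝ, F (Fin.cons z y)) := by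
      intro F hF
      exact (hF.comp (measurable_cons_fin n)).lintegral_prod_right'
    have hsec : ∀ (F : (Fin (n + 1) → ℝ) → ℝ≥0∞), Measurable F → ∀ z : ℝ,
        Measurable (fun y : Fin n → ℝ => F (Fin.cons z y)) := by
      intro F hF z
      exact (hF.comp (measurable_cons_fin n)).comp (measurable_const.prodMk measurable_id)
    refine pl1 _ _ _ (hm f hf) (hm g hg) (hm h hh) ht0 ht1 ?_
    intro z₁ z₂
    refine ih _ _ _ (hsec f hf z₁) (hsec g hg z₂) (hsec h hh _) ht0 ht1 ?_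
    intro y₁ y₂
    have := H (Fin.cons z₁ y₁) (Fin.cons z₂ y₂)
    have e : (1 - t) • (Fin.cons z₁ y₁ : Fin (n + 1) → ℝ) + t • (Fin.cons z₂ y₂ : Fin (n + 1) → ℝ)
        = Fin.cons ((1 - t) * z₁ + t * z₂) ((1 - t) • y₁ + t • y₂) := by
      ext i
      refine Fin.cases ?_ (fun j => ?_) i <;> simp
    rw [e] at this
    exact this

/-- Prekopa-Leindler inequality on Euclidean space. -/
theorem pl_E (d : ℕ) (f g h : EuclideanSpace ℝ (Fin d) → ℝ≥0∞) (hf : Measurable f)
    (hg : Measurable g) (hh : Measurable h) {t : ℝ} (ht0 : 0 < t) (ht1 : t < 1)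
    (H : ∀ x y, f x ^ (1 - t) * g y ^ t ≤ h ((1 - t) • x + t • y)) :
    (∫⁻ x, f x) ^ (1 - t) * (∫⁻ x, g x) ^ t ≤ ∫⁻ x, h x := by
  have hmp := PiLp.volume_preserving_toLp (Fin d)
  have ef := hmp.lintegral_comp hf
  have eg := hmp.lintegral_comp hg
  have eh := hmp.lintegral_comp hh
  rw [← ef, ← eg, ← eh]
  refine pl_pi d _ _ _ (hf.comp hmp.measurable) (hg.comp hmp.measurable) (hh.comp hmp.measurable)
    ht0 ht1 ?_
  intro x y
  have := H (WithLp.toLp 2 x) (WithLp.toLp 2 y)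
  exact this

end Vale.Agent.Lib.P074T.H28
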