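import Vale.Agent.Lib.P227.PL
import Vale.Agent.Lib.P074.Defs
import Vale.Agent.Lib.P074T.Pre19PL

/-! # P074T task A: Prekopa-Leindler in dimension `n` (midpoint form is all we need)

The proofs are in `Pre19PL.lean` (`pl1`, `pl_pi`, `pl_E` in the namespace `Vale.Agent.Lib.P074T`);
this file only restates them in the shapes used by the other files. -/

open MeasureTheory Set
open scoped ENNReal

namespace Vale.Agent.Lib.P074T

/-- Prekopa-Leindler on `EuclideanSpace ℝ (Fin d)` (another name for `pl_E`). -/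
theorem pl_euclid {d : ℕ} (f g h : EuclideanSpace ℝ (Fin d) → ℝ≥0∞) (hf : Measurable f)
    (hg : Measurable g) (hh : Measurable h) {t : ℝ} (ht0 : 0 < t) (ht1 : t < 1)
    (H : ∀ x y, f x ^ (1 - t) * g y ^ t ≤ h ((1 - t) • x + t • y)) :
    (∫⁻ x, f x) ^ (1 - t) * (∫⁻ x, g x) ^ t ≤ ∫⁻ x, h x :=
  pl_E d f g h hf hg hh ht0 ht1 H

end Vale.Agent.Lib.P074T

namespace Vale.Agent.Lib.P074

/-- TASK A1.  Prekopa-Leindler on `Fin n → ℝ` for bounded functions vanishing off a box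
(the boundedness and support hypotheses are not needed). -/
theorem pl_pi (n : ℕ) (f g h : (Fin n → ℝ) → ℝ≥0∞) (hf : Measurable f) (hg : Measurable g)
    (hh : Measurable h) {t : ℝ} (ht0 : 0 < t) (ht1 : t < 1) {C : ℝ≥0∞} (_hC : C ≠ ∞) (M : ℝ)
    (_hfb : ∀ x, f x ≤ C) (_hgb : ∀ x, g x ≤ C)
    (_hfs : ∀ x, f x ≠ 0 → ∀ i, |x i| ≤ M) (_hgs : ∀ x, g x ≠ 0 → ∀ i, |x i| ≤ M)
    (H : ∀ x y, f x ^ (1 - t) * g y ^ t ≤ h ((1 - t) • x + t • y)) :
    (∫⁻ x, f x) ^ (1 - t) * (∫⁻ x, g x) ^ t ≤ ∫⁻ x, h x :=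
  Vale.Agent.Lib.P074T.pl_pi n f g h hf hg hh ht0 ht1 H

end Vale.Agent.Lib.P074
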