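import Vale.Agent.Lib.P074.Defs
import Vale.Agent.Lib.P074T.PL28

/-! # P074T task A2: Prekopa-Leindler on `E d`, midpoint form -/

open MeasureTheory Set
open scoped ENNReal

namespace Vale.Agent.Lib.P074

/-- TASK A2.  Midpoint Prekopa-Leindler on `E d` (the boundedness and support hypotheses are not
needed).  The proof uses only the private copy `PL28.lean` of the general inequality, so that this
file does not depend on `PLd.lean`. -/
theorem pl_E (d : ℕ) (f g h : E d → ℝ≥0∞) (hf : Measurable f) (hg : Measurable g)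
    (hh : Measurable h) {C : ℝ≥0∞} (_hC : C ≠ ∞) (M : ℝ)
    (_hfb : ∀ x, f x ≤ C) (_hgb : ∀ x, g x ≤ C)
    (_hfs : ∀ x, f x ≠ 0 → ‖x‖ ≤ M) (_hgs : ∀ x, g x ≠ 0 → ‖x‖ ≤ M)
    (H : ∀ x y, f x ^ (1 / 2 : ℝ) * g y ^ (1 / 2 : ℝ) ≤ h ((1 / 2 : ℝ) • x + (1 / 2 : ℝ) • y)) :
    (∫⁻ x, f x) ^ (1 / 2 : ℝ) * (∫⁻ x, g x) ^ (1 / 2 : ℝ) ≤ ∫⁻ x, h x := by
  have e : (1 - 1 / 2 : ℝ) = 1 / 2 := by norm_num
  have key := Vale.Agent.Lib.P074T.H28.pl_E d f g h hf hg hh (t := 1 / 2) (by norm_num)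
    (by norm_num) (by rw [e]; exact H)
  rwa [e] at key

theorem lint_ind_eq (d : ℕ) (F : E d → ℝ) (hF : Measurable F) (A : Set (E d))
    (hA : MeasurableSet A) (C M : ℝ) (hAM : ∀ x ∈ A, ‖x‖ ≤ M) (hF0 : ∀ x, 0 ≤ F x)
    (hFC : ∀ x, F x ≤ C) :
    ∫⁻ x, A.indicator (fun x => ENNReal.ofReal (F x)) x = ENNReal.ofReal (∫ x in A, F x) := by
  have hfin : volume A ≠ ∞ := by
    have hsub : A ⊆ Metric.closedBall (0 : E d) M := fun x hx => by
      simpa [Metric.mem_closedBall, dist_zero_right] using hAM x hx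
    exact ((measure_mono hsub).trans_lt (Metric.isBounded_closedBall.measure_lt_top)).ne
  have hint : IntegrableOn F A volume :=
    Measure.integrableOn_of_bounded (M := C) hfin hF.aestronglyMeasurable
      (Filter.Eventually.of_forall fun x => by
        rw [Real.norm_eq_abs, abs_of_nonneg (hF0 x)]; exact hFC x)
  rw [lintegral_indicator hA, ofReal_integral_eq_lintegral_ofReal hint
    (Filter.Eventually.of_forall hF0)]

theorem pl_sets (d : ℕ) (F G Hh : E d → ℝ) (hF : Measurable F) (hG : Measurable G)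
    (hH : Measurable Hh) (A B D : Set (E d)) (hA : MeasurableSet A) (hB : MeasurableSet B)
    (hD : MeasurableSet D) (C M : ℝ)
    (hAM : ∀ x ∈ A, ‖x‖ ≤ M) (hBM : ∀ x ∈ B, ‖x‖ ≤ M) (hDM : ∀ x ∈ D, ‖x‖ ≤ M)
    (hF0 : ∀ x, 0 ≤ F x) (hG0 : ∀ x, 0 ≤ G x) (hH0 : ∀ x, 0 ≤ Hh x)
    (hFC : ∀ x, F x ≤ C) (hGC : ∀ x, G x ≤ C) (hHC : ∀ x, Hh x ≤ C)
    (hmid : ∀ x ∈ A, ∀ y ∈ B, (1 / 2 : ℝ) • x + (1 / 2 : ℝ) • y ∈ D)
    (hFG : ∀ x ∈ A, ∀ y ∈ B, F x * G y ≤ Hh ((1 / 2 : ℝ) • x + (1 / 2 : ℝ) • y) ^ 2) :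
    (∫ x in A, F x) * (∫ x in B, G x) ≤ (∫ x in D, Hh x) ^ 2 := by
  have key := pl_E d (A.indicator fun x => ENNReal.ofReal (F x))
    (B.indicator fun x => ENNReal.ofReal (G x)) (D.indicator fun x => ENNReal.ofReal (Hh x))
    (hF.ennreal_ofReal.indicator hA) (hG.ennreal_ofReal.indicator hB)
    (hH.ennreal_ofReal.indicator hD) (C := ENNReal.ofReal C) ENNReal.ofReal_ne_top M
    (fun x => by
      by_cases hx : x ∈ A
      · rw [indicator_of_mem hx]; exact ENNReal.ofReal_le_ofReal (hFC x)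
      · rw [indicator_of_notMem hx]; exact zero_le)
    (fun x => by
      by_cases hx : x ∈ B
      · rw [indicator_of_mem hx]; exact ENNReal.ofReal_le_ofReal (hGC x)
      · rw [indicator_of_notMem hx]; exact zero_le)
    (fun x hx => by
      by_cases hxA : x ∈ A
      · exact hAM x hxA
      · exact absurd (indicator_of_notMem hxA _) hx)
    (fun x hx => by
      by_cases hxA : x ∈ B
      · exact hBM x hxA
      · exact absurd (indicator_of_notMem hxA _) hx)
    (fun x y => by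
      by_cases hx : x ∈ A
      · by_cases hy : y ∈ B
        · rw [indicator_of_mem hx, indicator_of_mem hy, indicator_of_mem (hmid x hx y hy)]
          rw [ENNReal.ofReal_rpow_of_nonneg (hF0 x) (by norm_num),
            ENNReal.ofReal_rpow_of_nonneg (hG0 y) (by norm_num),
            ← ENNReal.ofReal_mul (Real.rpow_nonneg (hF0 x) _)]
          apply ENNReal.ofReal_le_ofReal
          rw [← Real.mul_rpow (hF0 x) (hG0 y), ← Real.sqrt_eq_rpow]
          exact Real.sqrt_le_iff.mpr ⟨hH0 _, hFG x hx y hy⟩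
        · rw [indicator_of_notMem hy, ENNReal.zero_rpow_of_pos (by norm_num), mul_zero]
          exact zero_le
      · rw [indicator_of_notMem hx, ENNReal.zero_rpow_of_pos (by norm_num), zero_mul]
        exact zero_le)
  rw [lint_ind_eq d F hF A hA C M hAM hF0 hFC, lint_ind_eq d G hG B hB C M hBM hG0 hGC,
    lint_ind_eq d Hh hH D hD C M hDM hH0 hHC] at key
  have ha : 0 ≤ ∫ x in A, F x := integral_nonneg hF0
  have hb : 0 ≤ ∫ x in B, G x := integral_nonneg hG0
  have hc : 0 ≤ ∫ x in D, Hh x := integral_nonneg hH0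
  rw [ENNReal.ofReal_rpow_of_nonneg ha (by norm_num),
    ENNReal.ofReal_rpow_of_nonneg hb (by norm_num),
    ← ENNReal.ofReal_mul (Real.rpow_nonneg ha _), ENNReal.ofReal_le_ofReal_iff hc,
    ← Real.mul_rpow ha hb, ← Real.sqrt_eq_rpow] at key
  exact (Real.sqrt_le_iff.mp key).2

end Vale.Agent.Lib.P074
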