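import Vale.Agent.Lib.P074T.Defs

/-! # P074T, step (J): atomic approximation of a coupling (grid quantisation) -/

open MeasureTheory Set
open scoped ENNReal NNReal RealInnerProductSpace

namespace Vale.Agent.Lib.P074

variable {d : ℕ}

namespace Atom14

section abstract

variable {Ω 𝓛 : Type*} [MeasurableSpace Ω] [Fintype 𝓛] [MeasurableSpace 𝓛]
  [MeasurableSingletonClass 𝓛]

/-- Push-forward through a finite label type. -/
theorem map_comp_label (π : Measure Ω) (Λ : Ω → 𝓛) (hΛ : Measurable Λ) (s : 𝓛 → E d) :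
    π.map (fun p => s (Λ p)) = ∑ ℓ, (π (Λ ⁻¹' {ℓ})) • Measure.dirac (s ℓ) := by
  have hs : Measurable s := Measurable.of_discrete
  have hm : Measurable (fun p => s (Λ p)) := hs.comp hΛ
  ext A hA
  rw [Measure.map_apply hm hA, Measure.finsetSum_apply]
  have h1 : (fun p => s (Λ p)) ⁻¹' A = Λ ⁻¹' (s ⁻¹' A) := rfl
  rw [h1, ← Measure.map_apply hΛ (hs hA), ← lintegral_indicator_one (hs hA), lintegral_fintype]
  refine Finset.sum_congr rfl fun ℓ _ => ?_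
  rw [Measure.smul_apply, Measure.dirac_apply' _ hA, Measure.map_apply hΛ (measurableSet_singleton ℓ),
    smul_eq_mul, mul_comm]
  rfl

/-- Integral of a function of the label. -/
theorem lintegral_comp_label (π : Measure Ω) (Λ : Ω → 𝓛) (hΛ : Measurable Λ) (F : 𝓛 → ℝ≥0∞) :
    ∫⁻ p, F (Λ p) ∂π = ∑ ℓ, F ℓ * π (Λ ⁻¹' {ℓ}) := by
  have hF : Measurable F := Measurable.of_discrete
  rw [← lintegral_map hF hΛ, lintegral_fintype]
  refine Finset.sum_congr rfl fun ℓ _ => ?_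
  rw [Measure.map_apply hΛ (measurableSet_singleton ℓ)]

omit [MeasurableSpace 𝓛] [MeasurableSingletonClass 𝓛] in
/-- Reindexing of a sum along the labels in a finite set outside of which the summand vanishes. -/
theorem sum_reindex {M : Type*} [AddCommMonoid M] [DecidableEq 𝓛] (S : Finset 𝓛) (F : 𝓛 → M)
    (hF : ∀ ℓ, ℓ ∉ S → F ℓ = 0) :
    ∑ ℓ, F ℓ = ∑ j : Fin S.card, F (S.equivFin.symm j) := by
  rw [Equiv.sum_comp S.equivFin.symm (fun i : S => F i), Finset.sum_coe_sort S F]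
  exact (Finset.sum_subset (Finset.subset_univ S) fun ℓ _ h => hF ℓ h).symm

end abstract

/-- Grid label of a point. -/
noncomputable def glab (L η : ℝ) (n : ℕ) [NeZero n] (x : E d) : Fin d → Fin n :=
  fun i => Fin.ofNat n ⌊(x i + L) / η⌋₊

theorem measurable_glab (L η : ℝ) (n : ℕ) [NeZero n] : Measurable (glab (d := d) L η n) := by
  refine measurable_pi_iff.2 fun i => ?_
  have hc : Continuous fun x : E d => x i := (EuclideanSpace.proj (𝕜 := ℝ) i).continuous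
  have h1 : Measurable fun x : E d => ⌊(x i + L) / η⌋₊ :=
    Nat.measurable_floor.comp ((hc.measurable.add_const L).div_const η)
  exact (Measurable.of_discrete (f := Fin.ofNat n)).comp h1

/-- Site of a pair of grid labels. -/
noncomputable def gsite (L η : ℝ) (n : ℕ) (ab : (Fin d → Fin n) × (Fin d → Fin n)) : E d :=
  WithLp.toLp 2 (fun i => η * (((ab.1 i : ℕ) : ℝ) + ((ab.2 i : ℕ) : ℝ) / n) - L)

theorem gsite_injective (L : ℝ) {η : ℝ} (hη : 0 < η) (n : ℕ) [NeZero n] :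
    Function.Injective (gsite (d := d) L η n) := by
  intro ab ab' h
  have hn : (0 : ℝ) < n := by exact_mod_cast Nat.pos_of_ne_zero (NeZero.ne n)
  have key : ∀ i, (ab.1 i, ab.2 i) = (ab'.1 i, ab'.2 i) := by
    intro i
    have h1 : (gsite L η n ab) i = (gsite L η n ab') i := by rw [h]
    simp only [gsite] at h1
    have h2 : ((ab.1 i : ℕ) : ℝ) + ((ab.2 i : ℕ) : ℝ) / n
        = ((ab'.1 i : ℕ) : ℝ) + ((ab'.2 i : ℕ) : ℝ) / n := by
      have := mul_left_cancel₀ hη.ne' (by linarith : η * (((ab.1 i : ℕ) : ℝ) + ((ab.2 i : ℕ) : ℝ) / n)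
        = η * (((ab'.1 i : ℕ) : ℝ) + ((ab'.2 i : ℕ) : ℝ) / n))
      exact this
    have h3 : ((ab.2 i : ℕ) : ℝ) + n * ((ab.1 i : ℕ) : ℝ)
        = ((ab'.2 i : ℕ) : ℝ) + n * ((ab'.1 i : ℕ) : ℝ) := by
      field_simp at h2
      linarith
    have h4 : (ab.2 i : ℕ) + n * (ab.1 i : ℕ) = (ab'.2 i : ℕ) + n * (ab'.1 i : ℕ) := by
      exact_mod_cast h3
    apply finProdFinEquiv.injective
    apply Fin.ext
    simpa [finProdFinEquiv_apply_val] using h4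
  apply Prod.ext
  · funext i
    exact (Prod.ext_iff.1 (key i)).1
  · funext i
    exact (Prod.ext_iff.1 (key i)).2

theorem norm_gsite_sub_le {L η δ : ℝ} (hη : 0 < η) (n : ℕ) [NeZero n] (hn : 2 * L < n * η)
    (hδ : 0 ≤ δ) (hdδ : d * η ^ 2 ≤ δ ^ 2) {x : E d} (hx : ‖x‖ ≤ L) (b : Fin d → Fin n) :
    ‖gsite L η n (glab L η n x, b) - x‖ ≤ δ := by
  have hn0 : (0 : ℝ) < n := by exact_mod_cast Nat.pos_of_ne_zero (NeZero.ne n)
  have hco : ∀ i, ‖(gsite L η n (glab L η n x, b) - x) i‖ ^ 2 ≤ η ^ 2 := by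
    intro i
    have hxi : |x i| ≤ L := le_trans (by simpa using PiLp.norm_apply_le x i) hx
    obtain ⟨hx1, hx2⟩ := abs_le.1 hxi
    set t : ℝ := (x i + L) / η with ht
    have ht0 : 0 ≤ t := div_nonneg (by linarith) hη.le
    have htn : t < n := by
      rw [ht, div_lt_iff₀ hη]
      linarith
    have hk1 : (⌊t⌋₊ : ℝ) ≤ t := Nat.floor_le ht0
    have hk2 : t < ⌊t⌋₊ + 1 := Nat.lt_floor_add_one t
    have hk3 : ⌊t⌋₊ < n := (Nat.floor_lt ht0).2 htn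
    have hval : ((glab L η n x i : Fin n) : ℕ) = ⌊t⌋₊ := by
      simp only [glab, Fin.val_ofNat]
      exact Nat.mod_eq_of_lt hk3
    have hb0 : (0 : ℝ) ≤ ((b i : ℕ) : ℝ) / n := by positivity
    have hb1 : ((b i : ℕ) : ℝ) / n ≤ 1 := by
      rw [div_le_one hn0]
      exact_mod_cast (b i).2.le
    have hxe : x i = η * t - L := by
      rw [ht]; field_simp; ring
    have he : (gsite L η n (glab L η n x, b) - x) i
        = η * ((⌊t⌋₊ : ℝ) + ((b i : ℕ) : ℝ) / n - t) := by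
      simp only [gsite, PiLp.sub_apply, hval]
      rw [hxe]; ring
    rw [he, Real.norm_eq_abs, sq_abs, mul_pow]
    have : ((⌊t⌋₊ : ℝ) + ((b i : ℕ) : ℝ) / n - t) ^ 2 ≤ 1 := by
      rw [sq_le_one_iff_abs_le_one, abs_le]
      constructor <;> linarith
    nlinarith [sq_nonneg η]
  have hsq : ‖gsite L η n (glab L η n x, b) - x‖ ^ 2 ≤ δ ^ 2 := by
    rw [EuclideanSpace.norm_sq_eq]
    refine le_trans (Finset.sum_le_sum fun i _ => hco i) ?_
    simpa using hdδ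
  by_contra hcon
  push Not at hcon
  nlinarith [norm_nonneg (gsite L η n (glab L η n x, b) - x)]


theorem W2_map_le {Ω : Type*} [MeasurableSpace Ω] (π : Measure Ω) [IsProbabilityMeasure π]
    (f g : Ω → E d) (hf : Measurable f) (hg : Measurable g) {ε : ℝ} (hε : 0 ≤ ε)
    (h : ∀ᵐ p ∂π, ‖f p - g p‖ ≤ ε) : W2 (π.map f) (π.map g) ≤ ENNReal.ofReal ε := by
  have hfg : Measurable fun p => (f p, g p) := hf.prodMk hg
  have h1 : (π.map fun p => (f p, g p)).map Prod.fst = π.map f := by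
    rw [Measure.map_map measurable_fst hfg]; rfl
  have h2 : (π.map fun p => (f p, g p)).map Prod.snd = π.map g := by
    rw [Measure.map_map measurable_snd hfg]; rfl
  unfold W2
  refine le_trans (ENNReal.rpow_le_rpow (iInf_le _ ⟨π.map fun p => (f p, g p), h1, h2⟩)
    (by norm_num)) ?_
  have hm : Measurable fun q : E d × E d => ENNReal.ofReal (‖q.1 - q.2‖ ^ 2) := by fun_prop
  simp only
  rw [lintegral_map hm hfg]
  have h3 : ∫⁻ p, ENNReal.ofReal (‖f p - g p‖ ^ 2) ∂π ≤ ENNReal.ofReal (ε ^ 2) := by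
    calc ∫⁻ p, ENNReal.ofReal (‖f p - g p‖ ^ 2) ∂π ≤ ∫⁻ _p, ENNReal.ofReal (ε ^ 2) ∂π := by
          refine lintegral_mono_ae ?_
          filter_upwards [h] with p hp
          exact ENNReal.ofReal_le_ofReal (pow_le_pow_left₀ (norm_nonneg _) hp 2)
      _ = ENNReal.ofReal (ε ^ 2) := by simp
  refine le_trans (ENNReal.rpow_le_rpow h3 (by norm_num)) ?_
  rw [ENNReal.ofReal_rpow_of_nonneg (sq_nonneg ε) (by norm_num), ← Real.sqrt_eq_rpow,
    Real.sqrt_sq hε]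

section enum

variable {Ω 𝓛 : Type*} [MeasurableSpace Ω] [Fintype 𝓛] [DecidableEq 𝓛] [MeasurableSpace 𝓛]
  [MeasurableSingletonClass 𝓛]

/-- The labels of positive mass. -/
noncomputable def lS (π : Measure Ω) (Λ : Ω → 𝓛) : Finset 𝓛 :=
  Finset.univ.filter (fun ℓ => π (Λ ⁻¹' {ℓ}) ≠ 0)

/-- Enumeration of the labels of positive mass. -/
noncomputable def lidx (π : Measure Ω) (Λ : Ω → 𝓛) (j : Fin (lS π Λ).card) : 𝓛 :=
  ((lS π Λ).equivFin.symm j : 𝓛)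

/-- The masses of the labels of positive mass. -/
noncomputable def lm (π : Measure Ω) (Λ : Ω → 𝓛) (j : Fin (lS π Λ).card) : ℝ :=
  (π (Λ ⁻¹' {lidx π Λ j})).toReal

omit [MeasurableSingletonClass 𝓛] [MeasurableSpace 𝓛] [DecidableEq 𝓛] in
theorem lidx_injective (π : Measure Ω) (Λ : Ω → 𝓛) : Function.Injective (lidx π Λ) :=
  Subtype.val_injective.comp (lS π Λ).equivFin.symm.injective

omit [MeasurableSingletonClass 𝓛] [MeasurableSpace 𝓛] [DecidableEq 𝓛] in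
theorem mem_lS (π : Measure Ω) (Λ : Ω → 𝓛) (ℓ : 𝓛) : ℓ ∈ lS π Λ ↔ π (Λ ⁻¹' {ℓ}) ≠ 0 := by
  simp [lS]

omit [MeasurableSingletonClass 𝓛] [MeasurableSpace 𝓛] [DecidableEq 𝓛] in
theorem lw_lidx_ne_zero (π : Measure Ω) (Λ : Ω → 𝓛) (j : Fin (lS π Λ).card) :
    π (Λ ⁻¹' {lidx π Λ j}) ≠ 0 :=
  (mem_lS π Λ _).1 ((lS π Λ).equivFin.symm j).2

omit [MeasurableSingletonClass 𝓛] [MeasurableSpace 𝓛] in
theorem sum_lidx {M : Type*} [AddCommMonoid M] (π : Measure Ω) (Λ : Ω → 𝓛) (F : 𝓛 → M)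
    (hF : ∀ ℓ, π (Λ ⁻¹' {ℓ}) = 0 → F ℓ = 0) : ∑ ℓ, F ℓ = ∑ j, F (lidx π Λ j) :=
  sum_reindex (lS π Λ) F fun ℓ h => hF ℓ (by simpa [lS] using h)

omit [DecidableEq 𝓛] in
theorem sum_lw (π : Measure Ω) [IsProbabilityMeasure π] (Λ : Ω → 𝓛) (hΛ : Measurable Λ) :
    ∑ ℓ, π (Λ ⁻¹' {ℓ}) = 1 := by
  have := lintegral_comp_label π Λ hΛ (fun _ => 1)
  simpa using this.symm

theorem card_lS_ne_zero (π : Measure Ω) [IsProbabilityMeasure π] (Λ : Ω → 𝓛) (hΛ : Measurable Λ) :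
    (lS π Λ).card ≠ 0 := by
  intro h0
  have h3 := sum_lidx π Λ (fun ℓ => π (Λ ⁻¹' {ℓ})) (fun _ h => h)
  rw [sum_lw π Λ hΛ] at h3
  have : IsEmpty (Fin (lS π Λ).card) := by rw [h0]; infer_instance
  rw [Finset.sum_of_isEmpty] at h3
  exact one_ne_zero h3

omit [MeasurableSingletonClass 𝓛] [MeasurableSpace 𝓛] in
theorem lm_pos (π : Measure Ω) [IsFiniteMeasure π] (Λ : Ω → 𝓛) (j : Fin (lS π Λ).card) :
    0 < lm π Λ j :=
  ENNReal.toReal_pos (lw_lidx_ne_zero π Λ j) (measure_ne_top π _)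

theorem sum_lm (π : Measure Ω) [IsProbabilityMeasure π] (Λ : Ω → 𝓛) (hΛ : Measurable Λ) :
    ∑ j, lm π Λ j = 1 := by
  unfold lm
  rw [← ENNReal.toReal_sum (fun j _ => measure_ne_top π _),
    ← sum_lidx π Λ (fun ℓ => π (Λ ⁻¹' {ℓ})) (fun _ h => h), sum_lw π Λ hΛ]
  simp

theorem atom_lidx (π : Measure Ω) [IsFiniteMeasure π] (Λ : Ω → 𝓛) (hΛ : Measurable Λ)
    (s : 𝓛 → E d) :
    atom (fun j => s (lidx π Λ j)) (lm π Λ) = π.map (fun p => s (Λ p)) := by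
  rw [map_comp_label π Λ hΛ s, sum_lidx π Λ (fun ℓ => π (Λ ⁻¹' {ℓ}) • Measure.dirac (s ℓ))
    (fun ℓ h => by simp [h])]
  unfold atom lm
  refine Finset.sum_congr rfl fun j _ => ?_
  rw [ENNReal.ofReal_toReal (measure_ne_top π _)]

theorem wsq_lidx (π : Measure Ω) [IsFiniteMeasure π] (Λ : Ω → 𝓛) (hΛ : Measurable Λ)
    (s0 s1 : 𝓛 → E d) :
    ENNReal.ofReal (wsq (lm π Λ) (fun j => s0 (lidx π Λ j)) (fun j => s1 (lidx π Λ j)))
      = ∫⁻ p, ENNReal.ofReal (‖s1 (Λ p) - s0 (Λ p)‖ ^ 2) ∂π := by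
  rw [lintegral_comp_label π Λ hΛ (fun ℓ => ENNReal.ofReal (‖s1 ℓ - s0 ℓ‖ ^ 2)),
    sum_lidx π Λ (fun ℓ => ENNReal.ofReal (‖s1 ℓ - s0 ℓ‖ ^ 2) * π (Λ ⁻¹' {ℓ}))
      (fun ℓ h => by simp [h])]
  unfold wsq
  rw [ENNReal.ofReal_sum_of_nonneg (fun j _ => mul_nonneg (lm_pos π Λ j).le (by positivity))]
  refine Finset.sum_congr rfl fun j _ => ?_
  rw [ENNReal.ofReal_mul (lm_pos π Λ j).le, mul_comm]
  unfold lm
  rw [ENNReal.ofReal_toReal (measure_ne_top π _)]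

omit [MeasurableSingletonClass 𝓛] [MeasurableSpace 𝓛] in
theorem exists_good (π : Measure Ω) (Λ : Ω → 𝓛) {P : Ω → Prop} (hP : ∀ᵐ p ∂π, P p)
    (j : Fin (lS π Λ).card) : ∃ p, Λ p = lidx π Λ j ∧ P p := by
  by_contra hcon
  push Not at hcon
  apply lw_lidx_ne_zero π Λ j
  refine measure_mono_null ?_ (ae_iff.1 hP)
  intro p hp
  exact hcon p hp

end enum

/-- The abstract form of the atomic approximation: finite label type, label map `Λ`, two injective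
families of sites. -/
theorem atomic_of_labels {𝓛 : Type*} [Fintype 𝓛] [DecidableEq 𝓛] [MeasurableSpace 𝓛]
    [MeasurableSingletonClass 𝓛] (π : Measure (E d × E d)) [IsProbabilityMeasure π]
    (Λ : E d × E d → 𝓛) (hΛ : Measurable Λ) (s0 s1 : 𝓛 → E d) (hs0 : Function.Injective s0)
    (hs1 : Function.Injective s1) {L δ ε : ℝ}
    (h1 : ∀ᵐ p ∂π, ‖p.1‖ ≤ L) (h2 : ∀ᵐ p ∂π, ‖p.2‖ ≤ L)
    (hd0 : ∀ p : E d × E d, ‖p.1‖ ≤ L → ‖s0 (Λ p) - p.1‖ ≤ δ)
    (hd1 : ∀ p : E d × E d, ‖p.2‖ ≤ L → ‖s1 (Λ p) - p.2‖ ≤ δ)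
    (hδ0 : 0 ≤ δ) (hε : 0 < ε) (hδε : δ ≤ ε) (hδ2 : 8 * L * δ + 4 * δ ^ 2 ≤ ε) :
    ∃ (N : ℕ) (_ : NeZero N) (y0 y1 : Fin N → E d) (m : Fin N → ℝ),
      Function.Injective y0 ∧ Function.Injective y1 ∧ (∀ j, 0 < m j) ∧ ∑ j, m j = 1 ∧
      (∀ j, ‖y0 j‖ ≤ L + ε) ∧ (∀ j, ‖y1 j‖ ≤ L + ε) ∧
      W2 (π.map Prod.fst) (atom y0 m) ≤ ENNReal.ofReal ε ∧
      W2 (π.map Prod.snd) (atom y1 m) ≤ ENNReal.ofReal ε ∧
      ENNReal.ofReal (wsq m y0 y1)
        ≤ ∫⁻ p, ENNReal.ofReal (‖p.1 - p.2‖ ^ 2) ∂π + ENNReal.ofReal ε := by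
  have hmeas : ∀ s : 𝓛 → E d, Measurable fun p => s (Λ p) :=
    fun s => (Measurable.of_discrete (f := s)).comp hΛ
  refine ⟨(lS π Λ).card, ⟨card_lS_ne_zero π Λ hΛ⟩, fun j => s0 (lidx π Λ j),
    fun j => s1 (lidx π Λ j), lm π Λ, hs0.comp (lidx_injective π Λ),
    hs1.comp (lidx_injective π Λ), lm_pos π Λ, sum_lm π Λ hΛ, ?_, ?_, ?_, ?_, ?_⟩
  · intro j
    obtain ⟨p, hp, hp1⟩ := exists_good π Λ h1 j
    have h3 := hd0 p hp1
    rw [hp] at h3
    have h4 := norm_le_norm_add_norm_sub' (s0 (lidx π Λ j)) p.1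
    linarith
  · intro j
    obtain ⟨p, hp, hp1⟩ := exists_good π Λ h2 j
    have h3 := hd1 p hp1
    rw [hp] at h3
    have h4 := norm_le_norm_add_norm_sub' (s1 (lidx π Λ j)) p.2
    linarith
  · rw [atom_lidx π Λ hΛ s0]
    refine W2_map_le π Prod.fst _ measurable_fst (hmeas _) hε.le ?_
    filter_upwards [h1] with p hp
    rw [norm_sub_rev]
    exact le_trans (hd0 p hp) hδε
  · rw [atom_lidx π Λ hΛ s1]
    refine W2_map_le π Prod.snd _ measurable_snd (hmeas _) hε.le ?_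
    filter_upwards [h2] with p hp
    rw [norm_sub_rev]
    exact le_trans (hd1 p hp) hδε
  · rw [wsq_lidx π Λ hΛ s0 s1]
    have e2 : ∫⁻ p, ENNReal.ofReal (‖p.1 - p.2‖ ^ 2) ∂π + ENNReal.ofReal ε
        = ∫⁻ p, (ENNReal.ofReal (‖p.1 - p.2‖ ^ 2) + ENNReal.ofReal ε) ∂π := by
      rw [lintegral_add_right _ measurable_const]
      simp
    rw [e2]
    refine lintegral_mono_ae ?_
    filter_upwards [h1, h2] with p hp1 hp2
    rw [← ENNReal.ofReal_add (by positivity) hε.le]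
    refine ENNReal.ofReal_le_ofReal ?_
    have ha : ‖p.1 - p.2‖ ≤ 2 * L := by
      have := norm_sub_le p.1 p.2
      linarith
    have hb : ‖s1 (Λ p) - s0 (Λ p)‖ ≤ ‖p.1 - p.2‖ + 2 * δ := by
      have h3 : s1 (Λ p) - s0 (Λ p)
          = (s1 (Λ p) - p.2) - (s0 (Λ p) - p.1) - (p.1 - p.2) := by abel
      rw [h3]
      have h4 := norm_sub_le ((s1 (Λ p) - p.2) - (s0 (Λ p) - p.1)) (p.1 - p.2)
      have h5 := norm_sub_le (s1 (Λ p) - p.2) (s0 (Λ p) - p.1)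
      have h6 := hd0 p hp1
      have h7 := hd1 p hp2
      linarith
    have hc : ‖s1 (Λ p) - s0 (Λ p)‖ ^ 2 ≤ (‖p.1 - p.2‖ + 2 * δ) ^ 2 :=
      pow_le_pow_left₀ (norm_nonneg _) hb 2
    have hn1 := norm_nonneg (p.1 - p.2)
    nlinarith

end Atom14

open Atom14 in
/-- **Atomic approximation of a coupling.**  Every coupling `π` of two measures carried by the ball
of radius `L` is approximated by a finite family of labels `j` with masses `m j > 0`, and two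
injective families of sites `y0`, `y1`: the two marginals are `ε`-close in `W2` to the atomic
measures, and the `m`-weighted squared displacement of the sites is at most the cost of `π`
plus `ε`. -/
theorem atomic_approx {L : ℝ} (hL : 0 ≤ L) (π : Measure (E d × E d)) [IsProbabilityMeasure π]
    (h1 : ∀ᵐ p ∂π, ‖p.1‖ ≤ L) (h2 : ∀ᵐ p ∂π, ‖p.2‖ ≤ L) {ε : ℝ} (hε : 0 < ε) :
    ∃ (N : ℕ) (_ : NeZero N) (y0 y1 : Fin N → E d) (m : Fin N → ℝ),
      Function.Injective y0 ∧ Function.Injective y1 ∧ (∀ j, 0 < m j) ∧ ∑ j, m j = 1 ∧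
      (∀ j, ‖y0 j‖ ≤ L + ε) ∧ (∀ j, ‖y1 j‖ ≤ L + ε) ∧
      W2 (π.map Prod.fst) (atom y0 m) ≤ ENNReal.ofReal ε ∧
      W2 (π.map Prod.snd) (atom y1 m) ≤ ENNReal.ofReal ε ∧
      ENNReal.ofReal (wsq m y0 y1)
        ≤ ∫⁻ p, ENNReal.ofReal (‖p.1 - p.2‖ ^ 2) ∂π + ENNReal.ofReal ε := by
  classical
  have hden : 0 < 8 * L + 5 := by linarith
  obtain ⟨δ, hδ0, hδ1, hδ2⟩ : ∃ δ : ℝ, 0 < δ ∧ δ ≤ 1 ∧ δ * (8 * L + 5) ≤ ε := by
    refine ⟨min 1 (ε / (8 * L + 5)), lt_min one_pos (div_pos hε hden), min_le_left _ _, ?_⟩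
    have := min_le_right 1 (ε / (8 * L + 5))
    rwa [le_div_iff₀ hden] at this
  have hδε : δ ≤ ε := by nlinarith
  have hδ3 : 8 * L * δ + 4 * δ ^ 2 ≤ ε := by nlinarith
  have hd1 : (0 : ℝ) < d + 1 := by positivity
  obtain ⟨η, hη, hdδ⟩ : ∃ η : ℝ, 0 < η ∧ d * η ^ 2 ≤ δ ^ 2 := by
    refine ⟨δ / (d + 1), div_pos hδ0 hd1, ?_⟩
    rw [div_pow, ← mul_div_assoc, div_le_iff₀ (by positivity)]
    nlinarith [mul_nonneg (sq_nonneg δ) (by positivity : (0 : ℝ) ≤ (d : ℝ) ^ 2 + d + 1)]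
  obtain ⟨n, hn0, hn⟩ : ∃ n : ℕ, n ≠ 0 ∧ 2 * L < n * η := by
    refine ⟨⌈2 * L / η⌉₊ + 1, Nat.succ_ne_zero _, ?_⟩
    have := Nat.le_ceil (2 * L / η)
    rw [div_le_iff₀ hη] at this
    push_cast
    nlinarith
  have : NeZero n := ⟨hn0⟩
  exact atomic_of_labels π (fun p => (glab L η n p.1, glab L η n p.2))
    (((measurable_glab L η n).comp measurable_fst).prodMk
      ((measurable_glab L η n).comp measurable_snd))
    (gsite L η n) (fun ℓ => gsite L η n ℓ.swap) (gsite_injective L hη n)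
    ((gsite_injective L hη n).comp Prod.swap_injective) h1 h2
    (fun p hp => norm_gsite_sub_le hη n hn hδ0.le hdδ hp _)
    (fun p hp => norm_gsite_sub_le hη n hn hδ0.le hdδ hp _) hδ0.le hε hδε hδ3

end Vale.Agent.Lib.P074
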