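import Mathlib

/-! Abstract algebra of the step STAR: from the Hellinger type inequalities for the Gaussian
masses to the chi-square type inequalities for the Lebesgue masses and moments. -/

namespace Vale.Agent.Lib.P074T.Pre15

open Finset

theorem sq_add_le (x y : ℝ) : (x + y) ^ 2 ≤ 2 * x ^ 2 + 2 * y ^ 2 := by
  nlinarith [sq_nonneg (x - y)]

/-- pointwise estimate for (A) -/
theorem point_A {p q m m2 th : ℝ} (hp : 0 < p) (hq : 0 < q) (hpm : p ≤ m) (hmp : m ≤ th * p)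
    (hqm : q ≤ m2) (hmq : m2 ≤ th * q) (hth : th ≤ 1.01) (hmm : |m2 - m| ≤ m / 2) :
    (Real.sqrt p - Real.sqrt q) ^ 2 ≤
      2 * ((m2 - m) ^ 2 / m) + Real.sqrt (p * q) * (m / p - m2 / q) ^ 2 := by
  obtain ⟨h1, h2⟩ := abs_le.mp hmm
  set a := Real.sqrt p with ha
  set b := Real.sqrt q with hb
  have ha0 : 0 < a := Real.sqrt_pos.mpr hp
  have hb0 : 0 < b := Real.sqrt_pos.mpr hq
  have hpa : p = a ^ 2 := (Real.sq_sqrt hp.le).symm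
  have hqb : q = b ^ 2 := (Real.sq_sqrt hq.le).symm
  have hab : Real.sqrt (p * q) = a * b := Real.sqrt_mul hp.le q
  rw [hab]
  have hm0 : 0 < m := lt_of_lt_of_le hp hpm
  set r := m / p with hr
  set r2 := m2 / q with hr2
  have hmr : m = r * a ^ 2 := by rw [hr, ← hpa]; field_simp
  have hm2r : m2 = r2 * b ^ 2 := by rw [hr2, ← hqb]; field_simp
  have hr1 : 1 ≤ r := by rw [hr, le_div_iff₀ hp]; linarith
  set δ := m2 - m with hδ
  set ρ := r - r2 with hρ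
  have hid : r * ((a + b) * (b - a)) = δ + ρ * b ^ 2 := by
    rw [hδ, hρ, hmr, hm2r]; ring
  have hmp' : m ≤ 1.01 * p := hmp.trans (mul_le_mul_of_nonneg_right hth hp.le)
  have hmq' : m2 ≤ 1.01 * q := hmq.trans (mul_le_mul_of_nonneg_right hth hq.le)
  have hma : m ≤ 1.01 * a ^ 2 := by rw [← hpa]; exact hmp'
  have hb_lo : a ^ 2 ≤ 2.02 * b ^ 2 := by
    rw [← hpa, ← hqb]; linarith
  have hb_hi : b ^ 2 ≤ 1.515 * a ^ 2 := by
    rw [← hqb, ← hpa]; linarith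
  have hS : m ≤ (a + b) ^ 2 := by nlinarith [mul_pos ha0 hb0]
  have hcube : 2 * b ^ 4 ≤ (a + b) ^ 2 * (a * b) := by
    have e1 : 2 * b ^ 3 ≤ a * (a + b) ^ 2 := by
      nlinarith [mul_pos ha0 hb0, sq_nonneg (a - b), mul_pos (mul_pos ha0 ha0) hb0,
        mul_le_mul_of_nonneg_left hb_hi hb0.le]
    nlinarith [mul_le_mul_of_nonneg_left e1 hb0.le]
  have hpos : 0 < (a + b) ^ 2 := by positivity
  have hkey : (a + b) ^ 2 * (a - b) ^ 2 ≤ (a + b) ^ 2 * (2 * (δ ^ 2 / m) + a * b * ρ ^ 2) := by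
    have e1 : (a + b) ^ 2 * (a - b) ^ 2 ≤ (r * ((a + b) * (b - a))) ^ 2 := by
      have : (r * ((a + b) * (b - a))) ^ 2 = r ^ 2 * ((a + b) ^ 2 * (a - b) ^ 2) := by ring
      rw [this]
      exact le_mul_of_one_le_left (by positivity) (one_le_pow₀ hr1)
    have e2 : (δ + ρ * b ^ 2) ^ 2 ≤ 2 * δ ^ 2 + 2 * (ρ * b ^ 2) ^ 2 := sq_add_le _ _
    have e3 : 2 * δ ^ 2 ≤ (a + b) ^ 2 * (2 * (δ ^ 2 / m)) := by
      have h0 : 0 ≤ δ ^ 2 / m := by positivity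
      have h1 : δ ^ 2 = m * (δ ^ 2 / m) := by field_simp
      have h2 := mul_le_mul_of_nonneg_right hS h0
      calc 2 * δ ^ 2 = 2 * (m * (δ ^ 2 / m)) := by rw [← h1]
        _ ≤ 2 * ((a + b) ^ 2 * (δ ^ 2 / m)) := by linarith
        _ = (a + b) ^ 2 * (2 * (δ ^ 2 / m)) := by ring
    have e4 : 2 * (ρ * b ^ 2) ^ 2 ≤ (a + b) ^ 2 * (a * b * ρ ^ 2) := by
      have h2 := mul_le_mul_of_nonneg_left hcube (sq_nonneg ρ)
      calc 2 * (ρ * b ^ 2) ^ 2 = ρ ^ 2 * (2 * b ^ 4) := by ring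
        _ ≤ ρ ^ 2 * ((a + b) ^ 2 * (a * b)) := h2
        _ = (a + b) ^ 2 * (a * b * ρ ^ 2) := by ring
    rw [hid] at e1
    calc (a + b) ^ 2 * (a - b) ^ 2 ≤ (δ + ρ * b ^ 2) ^ 2 := e1
      _ ≤ 2 * δ ^ 2 + 2 * (ρ * b ^ 2) ^ 2 := e2
      _ ≤ (a + b) ^ 2 * (2 * (δ ^ 2 / m)) + (a + b) ^ 2 * (a * b * ρ ^ 2) := add_le_add e3 e4
      _ = (a + b) ^ 2 * (2 * (δ ^ 2 / m) + a * b * ρ ^ 2) := by ring
  exact le_of_mul_le_mul_left hkey hpos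

/-- pointwise estimate for (B) -/
theorem point_B {p q m m2 th B B2 R : ℝ} (hp : 0 < p) (hq : 0 < q) (hpm : p ≤ m)
    (hmp : m ≤ th * p) (hqm : q ≤ m2) (hmq : m2 ≤ th * q) (hth : th ≤ 1.01)
    (hmm : |m2 - m| ≤ m / 2) (hB2 : |B2| ≤ R * m2) :
    (B2 - B) ^ 2 / m ≤ 3 * (Real.sqrt (p * q) * (B / p - B2 / q) ^ 2)
      + 11 * R ^ 2 * (Real.sqrt p - Real.sqrt q) ^ 2 := by
  obtain ⟨h1, h2⟩ := abs_le.mp hmm
  set a := Real.sqrt p with ha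
  set b := Real.sqrt q with hb
  have ha0 : 0 < a := Real.sqrt_pos.mpr hp
  have hb0 : 0 < b := Real.sqrt_pos.mpr hq
  have hpa : p = a ^ 2 := (Real.sq_sqrt hp.le).symm
  have hqb : q = b ^ 2 := (Real.sq_sqrt hq.le).symm
  have hab : Real.sqrt (p * q) = a * b := Real.sqrt_mul hp.le q
  rw [hab]
  have hm0 : 0 < m := lt_of_lt_of_le hp hpm
  have hm20 : 0 < m2 := lt_of_lt_of_le hq hqm
  have hR : 0 ≤ R := by
    by_contra hcon
    have : R * m2 < 0 := mul_neg_of_neg_of_pos (not_le.mp hcon) hm20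
    linarith [abs_nonneg B2]
  have hmp' : m ≤ 1.01 * p := hmp.trans (mul_le_mul_of_nonneg_right hth hp.le)
  have hmq' : m2 ≤ 1.01 * q := hmq.trans (mul_le_mul_of_nonneg_right hth hq.le)
  have hma : m ≤ 1.01 * a ^ 2 := by rw [← hpa]; exact hmp'
  have hb_lo : a ^ 2 ≤ 2.02 * b ^ 2 := by
    rw [← hpa, ← hqb]; linarith
  have hb_hi : b ^ 2 ≤ 1.515 * a ^ 2 := by
    rw [← hqb, ← hpa]; linarith
  set w := B / p - B2 / q with hw
  set k := B2 / q with hk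
  have hid : B2 - B = -(p * w) - k * (p - q) := by
    rw [hw, hk]; field_simp; ring
  have hk2 : k ^ 2 ≤ 1.0201 * R ^ 2 := by
    have hkabs : |k| ≤ 1.01 * R := by
      rw [hk, abs_div, abs_of_pos hq, div_le_iff₀ hq]
      calc |B2| ≤ R * m2 := hB2
        _ ≤ R * (1.01 * q) := mul_le_mul_of_nonneg_left hmq' hR
        _ = 1.01 * R * q := by ring
    have := sq_le_sq' (by linarith [(abs_le.mp hkabs).1]) (abs_le.mp hkabs).2
    calc k ^ 2 ≤ (1.01 * R) ^ 2 := this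
      _ = 1.0201 * R ^ 2 := by ring
  have hab15 : a ≤ 1.5 * b := by
    by_contra hcon
    have h3 : 1.5 * b < a := not_le.mp hcon
    nlinarith
  have hsum : (a + b) ^ 2 ≤ 5 * a ^ 2 := by nlinarith [sq_nonneg (1.23 * a - b)]
  rw [div_le_iff₀ hm0, hid]
  have e0 : (-(p * w) - k * (p - q)) ^ 2 ≤ 2 * (p * w) ^ 2 + 2 * (k * (p - q)) ^ 2 := by
    have := sq_add_le (-(p * w)) (-(k * (p - q)))
    calc (-(p * w) - k * (p - q)) ^ 2 = (-(p * w) + -(k * (p - q))) ^ 2 := by ring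
      _ ≤ 2 * (-(p * w)) ^ 2 + 2 * (-(k * (p - q))) ^ 2 := this
      _ = _ := by ring
  have e1 : 2 * (p * w) ^ 2 ≤ 3 * (a * b * w ^ 2) * m := by
    have h3 : 2 * p ≤ 3 * (a * b) := by
      rw [hpa]; nlinarith
    have h4 : 0 ≤ w ^ 2 := sq_nonneg w
    have h5 : 2 * p * p ≤ 3 * (a * b) * m :=
      mul_le_mul h3 hpm hp.le (by positivity)
    calc 2 * (p * w) ^ 2 = (2 * p * p) * w ^ 2 := by ring
      _ ≤ (3 * (a * b) * m) * w ^ 2 := mul_le_mul_of_nonneg_right h5 h4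
      _ = _ := by ring
  have e2 : 2 * (k * (p - q)) ^ 2 ≤ 11 * R ^ 2 * (a - b) ^ 2 * m := by
    have h3 : (p - q) ^ 2 = (a - b) ^ 2 * (a + b) ^ 2 := by rw [hpa, hqb]; ring
    have h4 : (a + b) ^ 2 ≤ 5 * m := by rw [hpa] at hpm; linarith
    have h5 : 0 ≤ (a - b) ^ 2 := sq_nonneg _
    have h6 : k ^ 2 * (a + b) ^ 2 ≤ (1.0201 * R ^ 2) * (5 * m) :=
      mul_le_mul hk2 h4 (by positivity) (by positivity)
    have h7 : 2 * (k ^ 2 * (a + b) ^ 2) ≤ 11 * R ^ 2 * m := by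
      have h8 : (1.0201 * R ^ 2) * (5 * m) = 5.1005 * (R ^ 2 * m) := by ring
      have h9 : 0 ≤ R ^ 2 * m := by positivity
      linarith
    calc 2 * (k * (p - q)) ^ 2 = 2 * (k ^ 2 * (a + b) ^ 2) * (a - b) ^ 2 := by
          rw [mul_pow, h3]; ring
      _ ≤ (11 * R ^ 2 * m) * (a - b) ^ 2 := mul_le_mul_of_nonneg_right h7 h5
      _ = 11 * R ^ 2 * (a - b) ^ 2 * m := by ring
  calc (-(p * w) - k * (p - q)) ^ 2 ≤ 2 * (p * w) ^ 2 + 2 * (k * (p - q)) ^ 2 := e0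
    _ ≤ 3 * (a * b * w ^ 2) * m + 11 * R ^ 2 * (a - b) ^ 2 * m := add_le_add e1 e2
    _ = _ := by ring

variable {ι : Type*} [Fintype ι]

/-- (A): the Hellinger distance of the Gaussian masses is controlled by the chi-square distance of
the Lebesgue masses. -/
theorem hellinger_le (p q m m2 : ι → ℝ) {th eps : ℝ} (hp : ∀ j, 0 < p j) (hq : ∀ j, 0 < q j)
    (hpm : ∀ j, p j ≤ m j) (hmp : ∀ j, m j ≤ th * p j) (hqm : ∀ j, q j ≤ m2 j)
    (hmq : ∀ j, m2 j ≤ th * q j) (hth : th ≤ 1.01) (hmm : ∀ j, |m2 j - m j| ≤ m j / 2)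
    (heps : eps ≤ 1 / 20)
    (hE : ∑ j, Real.sqrt (p j * q j) * (m j / p j - m2 j / q j) ^ 2
      ≤ eps * ∑ j, (Real.sqrt (p j) - Real.sqrt (q j)) ^ 2) :
    ∑ j, (Real.sqrt (p j) - Real.sqrt (q j)) ^ 2 ≤ 3 * ∑ j, (m2 j - m j) ^ 2 / m j := by
  have h1 : ∑ j, (Real.sqrt (p j) - Real.sqrt (q j)) ^ 2 ≤
      2 * ∑ j, (m2 j - m j) ^ 2 / m j
        + ∑ j, Real.sqrt (p j * q j) * (m j / p j - m2 j / q j) ^ 2 := by
    rw [Finset.mul_sum, ← Finset.sum_add_distrib]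
    exact Finset.sum_le_sum fun j _ =>
      point_A (hp j) (hq j) (hpm j) (hmp j) (hqm j) (hmq j) hth (hmm j)
  have hS : 0 ≤ ∑ j, (Real.sqrt (p j) - Real.sqrt (q j)) ^ 2 :=
    Finset.sum_nonneg fun j _ => sq_nonneg _
  have hX : 0 ≤ ∑ j, (m2 j - m j) ^ 2 / m j :=
    Finset.sum_nonneg fun j _ => div_nonneg (sq_nonneg _) ((hp j).le.trans (hpm j))
  nlinarith

/-- (B): the chi-square type bound for a moment. -/
theorem moment_le (p q m m2 b b2 : ι → ℝ) {th eps e1 R : ℝ} (hp : ∀ j, 0 < p j)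
    (hq : ∀ j, 0 < q j)
    (hpm : ∀ j, p j ≤ m j) (hmp : ∀ j, m j ≤ th * p j) (hqm : ∀ j, q j ≤ m2 j)
    (hmq : ∀ j, m2 j ≤ th * q j) (hth : th ≤ 1.01) (hmm : ∀ j, |m2 j - m j| ≤ m j / 2)
    (heps : eps ≤ 1 / 20)
    (hE : ∑ j, Real.sqrt (p j * q j) * (m j / p j - m2 j / q j) ^ 2
      ≤ eps * ∑ j, (Real.sqrt (p j) - Real.sqrt (q j)) ^ 2)
    (he1 : 0 ≤ e1) (hb2 : ∀ j, |b2 j| ≤ R * m2 j)
    (hE1 : ∑ j, Real.sqrt (p j * q j) * (b j / p j - b2 j / q j) ^ 2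
      ≤ e1 * ∑ j, (Real.sqrt (p j) - Real.sqrt (q j)) ^ 2) :
    ∑ j, (b2 j - b j) ^ 2 / m j ≤ 3 * (3 * e1 + 11 * R ^ 2) * ∑ j, (m2 j - m j) ^ 2 / m j := by
  have hA := hellinger_le p q m m2 hp hq hpm hmp hqm hmq hth hmm heps hE
  have h1 : ∑ j, (b2 j - b j) ^ 2 / m j ≤
      3 * ∑ j, Real.sqrt (p j * q j) * (b j / p j - b2 j / q j) ^ 2
        + 11 * R ^ 2 * ∑ j, (Real.sqrt (p j) - Real.sqrt (q j)) ^ 2 := by
    rw [Finset.mul_sum, Finset.mul_sum, ← Finset.sum_add_distrib]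
    exact Finset.sum_le_sum fun j _ =>
      point_B (hp j) (hq j) (hpm j) (hmp j) (hqm j) (hmq j) hth (hmm j) (hb2 j)
  have hc : 0 ≤ 3 * e1 + 11 * R ^ 2 := by positivity
  calc ∑ j, (b2 j - b j) ^ 2 / m j
      ≤ (3 * e1 + 11 * R ^ 2) * ∑ j, (Real.sqrt (p j) - Real.sqrt (q j)) ^ 2 := by nlinarith
    _ ≤ (3 * e1 + 11 * R ^ 2) * (3 * ∑ j, (m2 j - m j) ^ 2 / m j) :=
        mul_le_mul_of_nonneg_left hA hc
    _ = _ := by ring

end Vale.Agent.Lib.P074T.Pre15
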