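import Vale.Agent.Lib.P074.Defs

/-! # P074T: the finite-sum algebra behind the inequality STAR -/

open scoped RealInnerProductSpace

namespace Vale.Agent.Lib.P074

/-- scalar facts for one cell -/
theorem star_cell_scalar (p q s m mt : ℝ) (hp : 0 < p) (hq : 0 < q) (hs0 : 0 ≤ s)
    (hs : s ^ 2 = p * q) (hpm : p ≤ m) (hmp : m ≤ 101 / 100 * p) (hqm : q ≤ mt)
    (hcl : |mt - m| ≤ m / 2) :
    q ^ 2 ≤ 188 / 100 * s * p ∧ p + q - 2 * s ≤ (p - q) ^ 2 / p ∧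
    (p - q) ^ 2 / p ≤ 202 / 100 * ((mt - m) ^ 2 / m) + 376 / 100 * (s * (m / p - mt / q) ^ 2) := by
  have hm : 0 < m := lt_of_lt_of_le hp hpm
  have hcl' := abs_le.mp hcl
  have hq1 : q ≤ 1515 / 1000 * p := by nlinarith [hcl'.1, hcl'.2]
  have hA : q ^ 2 ≤ 188 / 100 * s * p := by
    have h0 : 0 ≤ 188 / 100 * s * p := by positivity
    have h1 : (q ^ 2) ^ 2 ≤ (188 / 100 * s * p) ^ 2 := by
      have e : (188 / 100 * s * p) ^ 2 = (188 / 100) ^ 2 * (p * q) * p ^ 2 := by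
        rw [← hs]; ring
      rw [e]
      have h3 : q ^ 3 ≤ (1515 / 1000 * p) ^ 3 := pow_le_pow_left₀ hq.le hq1 3
      have h4 : (q ^ 2) ^ 2 = q * q ^ 3 := by ring
      rw [h4]
      have h5 : q * q ^ 3 ≤ q * (1515 / 1000 * p) ^ 3 := mul_le_mul_of_nonneg_left h3 hq.le
      have h6 : q * (1515 / 1000 * p) ^ 3 ≤ (188 / 100) ^ 2 * (p * q) * p ^ 2 := by
        have h7 : 0 ≤ q * p ^ 3 := by positivity
        nlinarith [h7]
      linarith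
    exact (pow_le_pow_iff_left₀ (by positivity) h0 (by norm_num)).mp h1
  have hB : p + q - 2 * s ≤ (p - q) ^ 2 / p := by
    rw [le_div_iff₀ hp]
    have h1 : 0 ≤ p + q - 2 * s := by nlinarith [sq_nonneg (p - q), sq_nonneg (p + q - 2 * s)]
    have h2 : (p + q - 2 * s) * (p + q + 2 * s) = (p - q) ^ 2 := by
      have : (p + q - 2 * s) * (p + q + 2 * s) = (p + q) ^ 2 - 4 * s ^ 2 := by ring
      rw [this, hs]; ring
    rw [← h2]
    exact mul_le_mul_of_nonneg_left (by linarith) h1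
  refine ⟨hA, hB, ?_⟩
  set th : ℝ := m / p with hth
  set tt : ℝ := mt / q with htt
  have hth1 : 1 ≤ th := by rw [hth, le_div_iff₀ hp]; linarith
  have hm_eq : m = th * p := by rw [hth]; field_simp
  have hmt_eq : mt = tt * q := by rw [htt]; field_simp
  have h1 : th * (p - q) = (m - mt) + (tt - th) * q := by rw [hm_eq, hmt_eq]; ring
  have h2 : (p - q) ^ 2 ≤ 2 * (mt - m) ^ 2 + 2 * (q ^ 2 * (th - tt) ^ 2) := by
    have h3 : (p - q) ^ 2 ≤ (th * (p - q)) ^ 2 := by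
      have : (th * (p - q)) ^ 2 = th ^ 2 * (p - q) ^ 2 := by ring
      rw [this]
      have h4 : 1 ≤ th ^ 2 := by nlinarith
      nlinarith [sq_nonneg (p - q)]
    rw [h1] at h3
    nlinarith [sq_nonneg ((m - mt) - (tt - th) * q)]
  rw [div_le_iff₀ hp]
  have h5 : (mt - m) ^ 2 ≤ 101 / 100 * ((mt - m) ^ 2 / m) * p := by
    have h6 : (mt - m) ^ 2 = (mt - m) ^ 2 / m * m := by field_simp
    have h7 : 0 ≤ (mt - m) ^ 2 / m := by positivity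
    calc (mt - m) ^ 2 = (mt - m) ^ 2 / m * m := h6
      _ ≤ (mt - m) ^ 2 / m * (101 / 100 * p) := mul_le_mul_of_nonneg_left hmp h7
      _ = _ := by ring
  have h8 : q ^ 2 * (th - tt) ^ 2 ≤ 188 / 100 * s * p * (th - tt) ^ 2 :=
    mul_le_mul_of_nonneg_right hA (sq_nonneg _)
  nlinarith [h2, h5, h8]

/-- vector fact for one cell -/
theorem star_cell_vector {d : ℕ} (p q s m R : ℝ) (B Bt : E d) (hp : 0 < p) (hq : 0 < q)
    (hpm : p ≤ m) (hmp : m ≤ 101 / 100 * p) (hR : 0 ≤ R) (hB : ‖B‖ ≤ R * m)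
    (hA : q ^ 2 ≤ 188 / 100 * s * p) :
    ‖Bt - B‖ ^ 2 / m ≤ 376 / 100 * (s * ‖p⁻¹ • B - q⁻¹ • Bt‖ ^ 2)
      + 20402 / 10000 * R ^ 2 * ((p - q) ^ 2 / p) := by
  have hm : 0 < m := lt_of_lt_of_le hp hpm
  set D : ℝ := ‖p⁻¹ • B - q⁻¹ • Bt‖ with hD
  have hD0 : 0 ≤ D := norm_nonneg _
  have e : Bt - B = (-q) • (p⁻¹ • B - q⁻¹ • Bt) + (q - p) • (p⁻¹ • B) := by
    rw [smul_sub, smul_smul, smul_smul, smul_smul]
    have e1 : -q * p⁻¹ + (q - p) * p⁻¹ = -1 := by field_simp; ring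
    have e2 : -q * q⁻¹ = -1 := by field_simp
    rw [e2]
    have e3 : (-q * p⁻¹) • B - (-1 : ℝ) • Bt + ((q - p) * p⁻¹) • B
        = (-q * p⁻¹ + (q - p) * p⁻¹) • B - (-1 : ℝ) • Bt := by
      rw [add_smul]; abel
    rw [e3, e1]
    simp only [neg_smul, one_smul]
    abel
  have h1 : ‖Bt - B‖ ≤ q * D + |q - p| * (101 / 100 * R) := by
    rw [e]
    refine (norm_add_le _ _).trans ?_
    rw [norm_smul, norm_smul, norm_smul, Real.norm_eq_abs, Real.norm_eq_abs, Real.norm_eq_abs,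
      abs_neg, abs_of_pos hq, abs_of_pos (inv_pos.mpr hp)]
    have h2 : p⁻¹ * ‖B‖ ≤ 101 / 100 * R := by
      rw [inv_mul_le_iff₀ hp]
      calc ‖B‖ ≤ R * m := hB
        _ ≤ R * (101 / 100 * p) := mul_le_mul_of_nonneg_left hmp hR
        _ = _ := by ring
    have h3 := mul_le_mul_of_nonneg_left h2 (abs_nonneg (q - p))
    linarith
  have h4 : ‖Bt - B‖ ^ 2 ≤ 2 * (q ^ 2 * D ^ 2) + 2 * ((p - q) ^ 2 * (101 / 100 * R) ^ 2) := by
    have h5 : ‖Bt - B‖ ^ 2 ≤ (q * D + |q - p| * (101 / 100 * R)) ^ 2 :=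
      pow_le_pow_left₀ (norm_nonneg _) h1 2
    have h6 : |q - p| ^ 2 = (p - q) ^ 2 := by rw [sq_abs]; ring
    nlinarith [sq_nonneg (q * D - |q - p| * (101 / 100 * R))]
  have h7 : ‖Bt - B‖ ^ 2 / m ≤ ‖Bt - B‖ ^ 2 / p :=
    div_le_div_of_nonneg_left (sq_nonneg _) hp hpm
  refine h7.trans ?_
  rw [div_le_iff₀ hp]
  have h8 : q ^ 2 * D ^ 2 ≤ 188 / 100 * s * p * D ^ 2 :=
    mul_le_mul_of_nonneg_right hA (sq_nonneg _)
  have h9 : (p - q) ^ 2 / p * p = (p - q) ^ 2 := by field_simp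
  nlinarith [h4, h8, h9]

/-- STAR algebra: from the two families of cell inequalities to the moment bound. -/
theorem star_algebra {d N : ℕ} (p q s g m mt : Fin N → ℝ) (B Bt : Fin N → E d) (R a0 a1 : ℝ)
    (hp : ∀ j, 0 < p j) (hq : ∀ j, 0 < q j) (hs0 : ∀ j, 0 ≤ s j)
    (hs : ∀ j, s j ^ 2 = p j * q j)
    (hgp : ∑ j, g j ≤ ∑ j, p j) (hgq : ∑ j, g j ≤ ∑ j, q j)
    (hc0 : ∀ j, s j * (1 + a0 * (m j / p j - mt j / q j) ^ 2) ≤ g j)
    (hc1 : ∀ j, s j * (1 + a1 * ‖(p j)⁻¹ • B j - (q j)⁻¹ • Bt j‖ ^ 2) ≤ g j)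
    (hpm : ∀ j, p j ≤ m j) (hmp : ∀ j, m j ≤ 101 / 100 * p j) (hqm : ∀ j, q j ≤ mt j)
    (hR : 0 ≤ R) (hB : ∀ j, ‖B j‖ ≤ R * m j) (hcl : ∀ j, |mt j - m j| ≤ m j / 2)
    (ha0 : 10 ≤ a0) (ha1 : 0 < a1) :
    ∑ j, ‖Bt j - B j‖ ^ 2 / m j ≤ (5 / a1 + 6 * R ^ 2) * ∑ j, (mt j - m j) ^ 2 / m j := by
  set X : ℝ := ∑ j, (mt j - m j) ^ 2 / m j with hX
  set U : ℝ := ∑ j, s j * (m j / p j - mt j / q j) ^ 2 with hU
  set V : ℝ := ∑ j, s j * ‖(p j)⁻¹ • B j - (q j)⁻¹ • Bt j‖ ^ 2 with hV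
  set P : ℝ := ∑ j, (p j - q j) ^ 2 / p j with hP
  set Hh : ℝ := ∑ j, (p j + q j - 2 * s j) with hH
  have hsc := fun j => star_cell_scalar (p j) (q j) (s j) (m j) (mt j) (hp j) (hq j) (hs0 j) (hs j)
    (hpm j) (hmp j) (hqm j) (hcl j)
  have hU0 : 0 ≤ U := Finset.sum_nonneg fun j _ => mul_nonneg (hs0 j) (sq_nonneg _)
  have hV0 : 0 ≤ V := Finset.sum_nonneg fun j _ => mul_nonneg (hs0 j) (sq_nonneg _)
  have hX0 : 0 ≤ X := Finset.sum_nonneg fun j _ =>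
    div_nonneg (sq_nonneg _) ((hp j).le.trans (hpm j))
  have hHeq : Hh = ∑ j, p j + ∑ j, q j - 2 * ∑ j, s j := by
    rw [hH, Finset.sum_sub_distrib, Finset.sum_add_distrib, Finset.mul_sum]
  have h0 : ∑ j, s j + a0 * U ≤ ∑ j, g j := by
    rw [hU, Finset.mul_sum, ← Finset.sum_add_distrib]
    refine Finset.sum_le_sum fun j _ => ?_
    have := hc0 j
    nlinarith [this]
  have h1 : ∑ j, s j + a1 * V ≤ ∑ j, g j := by
    rw [hV, Finset.mul_sum, ← Finset.sum_add_distrib]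
    refine Finset.sum_le_sum fun j _ => ?_
    have := hc1 j
    nlinarith [this]
  have hUH : a0 * U ≤ Hh / 2 := by rw [hHeq]; linarith
  have hVH : a1 * V ≤ Hh / 2 := by rw [hHeq]; linarith
  have hHP : Hh ≤ P := Finset.sum_le_sum fun j _ => (hsc j).2.1
  have hPX : P ≤ 202 / 100 * X + 376 / 100 * U := by
    rw [hP, hX, hU, Finset.mul_sum, Finset.mul_sum, ← Finset.sum_add_distrib]
    exact Finset.sum_le_sum fun j _ => (hsc j).2.2
  have hU10 : 10 * U ≤ Hh / 2 := le_trans (mul_le_mul_of_nonneg_right ha0 hU0) hUH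
  have hHX : Hh ≤ 249 / 100 * X := by linarith
  have hPX2 : P ≤ 249 / 100 * X := by linarith
  have hVX : V ≤ 1245 / 1000 * X / a1 := by
    rw [le_div_iff₀ ha1]
    linarith
  have hmain : ∑ j, ‖Bt j - B j‖ ^ 2 / m j ≤ 376 / 100 * V + 20402 / 10000 * R ^ 2 * P := by
    rw [hV, hP, Finset.mul_sum, Finset.mul_sum, ← Finset.sum_add_distrib]
    exact Finset.sum_le_sum fun j _ => star_cell_vector (p j) (q j) (s j) (m j) R (B j) (Bt j)
      (hp j) (hq j) (hpm j) (hmp j) hR (hB j) (hsc j).1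
  have hR2 : 0 ≤ R ^ 2 := sq_nonneg R
  have h2 : 20402 / 10000 * R ^ 2 * P ≤ 6 * R ^ 2 * X := by
    have : R ^ 2 * P ≤ R ^ 2 * (249 / 100 * X) := mul_le_mul_of_nonneg_left hPX2 hR2
    have h3 : 0 ≤ R ^ 2 * X := mul_nonneg hR2 hX0
    nlinarith
  have h3 : 376 / 100 * V ≤ 5 / a1 * X := by
    have h4 : 376 / 100 * V ≤ 376 / 100 * (1245 / 1000 * X / a1) :=
      mul_le_mul_of_nonneg_left hVX (by norm_num)
    have h5 : 376 / 100 * (1245 / 1000 * X / a1) = 376 / 100 * (1245 / 1000) * (X / a1) := by ring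
    have h6 : 5 / a1 * X = 5 * (X / a1) := by ring
    have h7 : 0 ≤ X / a1 := div_nonneg hX0 ha1.le
    rw [h6]
    rw [h5] at h4
    nlinarith
  calc ∑ j, ‖Bt j - B j‖ ^ 2 / m j ≤ 376 / 100 * V + 20402 / 10000 * R ^ 2 * P := hmain
    _ ≤ 5 / a1 * X + 6 * R ^ 2 * X := add_le_add h3 h2
    _ = (5 / a1 + 6 * R ^ 2) * X := by ring

end Vale.Agent.Lib.P074
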