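import Vale.Agent.Lib.P074T.Pre25InterpB

/-!
# P074, step (I): interpolation inequality
-/

open MeasureTheory
open scoped ENNReal NNReal RealInnerProductSpace

namespace Vale.Agent.Lib.P074.Pre25

variable {d : ℕ}

/-- The shrunk copy of `K`. -/
noncomputable def shrink (K : Set (E d)) (x0 : E d) (l : ℝ) : Set (E d) :=
  AffineMap.homothety x0 (1 - l) '' K

theorem shrink_isCompact {K : Set (E d)} (hK : IsCompact K) (x0 : E d) (l : ℝ) :
    IsCompact (shrink K x0 l) :=
  hK.image (AffineMap.homothety_continuous x0 (1 - l))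

theorem shrink_add_mem {K : Set (E d)} (hconv : Convex ℝ K) {x0 : E d} {r : ℝ} (hr : 0 < r)
    (hball : Metric.closedBall x0 r ⊆ K) {h : ℝ} (hh0 : 0 < h) (hhr : h ≤ r) {x e : E d}
    (hx : x ∈ shrink K x0 (h / r)) (he : ‖e‖ ≤ h) : x + e ∈ K := by
  obtain ⟨k, hk, rfl⟩ := hx
  have hl0 : 0 < h / r := by positivity
  have hl1 : h / r ≤ 1 := (div_le_one hr).mpr hhr
  have hz : x0 + (r / h) • e ∈ K := by
    apply hball
    rw [Metric.mem_closedBall, dist_eq_norm, add_sub_cancel_left, norm_smul, Real.norm_of_nonneg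
      (by positivity)]
    calc r / h * ‖e‖ ≤ r / h * h := by gcongr
      _ = r := by field_simp
  have := hconv hk hz (sub_nonneg.mpr hl1) hl0.le (by ring)
  convert this using 1
  rw [AffineMap.homothety_apply]
  simp only [vsub_eq_sub, vadd_eq_add, smul_sub, smul_add, smul_smul]
  have h1 : h / r * (r / h) = 1 := by field_simp
  rw [h1, one_smul]
  have h2 : x0 = (1 - h / r) • x0 + (h / r) • x0 := by
    rw [← add_smul]; simp
  nth_rewrite 2 [h2]
  abel

theorem shrink_subset {K : Set (E d)} (hconv : Convex ℝ K) {x0 : E d} {r : ℝ} (hr : 0 < r)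
    (hball : Metric.closedBall x0 r ⊆ K) {h : ℝ} (hh0 : 0 < h) (hhr : h ≤ r) :
    shrink K x0 (h / r) ⊆ K := by
  intro x hx
  have := shrink_add_mem hconv hr hball hh0 hhr hx (e := 0) (by simpa using hh0.le)
  simpa using this

theorem volume_diff_shrink_le {K : Set (E d)} (hK : IsCompact K) (hconv : Convex ℝ K) {x0 : E d}
    {r : ℝ} (hr : 0 < r) (hball : Metric.closedBall x0 r ⊆ K) {h : ℝ} (hh0 : 0 < h)
    (hhr : h ≤ r) :
    (volume (K \ shrink K x0 (h / r))).toReal ≤ d * (h / r) * (volume K).toReal := by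
  have hl0 : 0 < h / r := by positivity
  have hl1 : h / r ≤ 1 := (div_le_one hr).mpr hhr
  have hsub := shrink_subset hconv hr hball hh0 hhr
  have hc := shrink_isCompact hK x0 (h / r)
  have hvol : (volume (shrink K x0 (h / r))).toReal = (1 - h / r) ^ d * (volume K).toReal := by
    unfold shrink
    rw [Measure.addHaar_image_homothety, finrank_euclideanSpace_fin, ENNReal.toReal_mul,
      abs_of_nonneg (by have := sub_nonneg.mpr hl1; positivity),
      ENNReal.toReal_ofReal (by have := sub_nonneg.mpr hl1; positivity)]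
  rw [measure_sdiff hsub hc.measurableSet.nullMeasurableSet hc.measure_lt_top.ne,
    ENNReal.toReal_sub_of_le (measure_mono hsub) hK.measure_lt_top.ne, hvol]
  have hb : 1 + (d : ℝ) * (-(h / r)) ≤ (1 + -(h / r)) ^ d :=
    one_add_mul_le_pow (by linarith) d
  have hv : 0 ≤ (volume K).toReal := ENNReal.toReal_nonneg
  have : (1 - (d : ℝ) * (h / r)) * (volume K).toReal ≤ (1 - h / r) ^ d * (volume K).toReal := by
    apply mul_le_mul_of_nonneg_right _ hv
    have e1 : (1 + -(h / r)) = 1 - h / r := by ring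
    rw [e1] at hb
    linarith
  linarith

/-- Step (I): the `L²` distance of two Brenier maps is controlled by the `L²` distance of their
potentials, at every scale `h`. -/
theorem interp_bound {K : Set (E d)} (hK : IsCompact K) (hconv : Convex ℝ K) {x0 : E d} {r : ℝ}
    (hr : 0 < r) (hball : Metric.closedBall x0 r ⊆ K) (R L : ℝ≥0) (hKR : ∀ x ∈ K, ‖x‖ ≤ R)
    (φ0 φ1 : E d → ℝ) (h0L : LipschitzWith L φ0) (h1L : LipschitzWith L φ1)
    (h0m : ∀ x v, 2 * φ0 x ≤ φ0 (x + v) + φ0 (x - v))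
    (h1m : ∀ x v, 2 * φ1 x ≤ φ1 (x + v) + φ1 (x - v))
    (T S : E d → E d) (hT : Measurable T) (hS : Measurable S)
    (hTs : ∀ᵐ x ∂(unif K), ∀ x', φ0 x + ⟪T x, x' - x⟫ ≤ φ0 x')
    (hSs : ∀ᵐ x ∂(unif K), ∀ x', φ1 x + ⟪S x, x' - x⟫ ≤ φ1 x')
    (hTL : ∀ᵐ x ∂(unif K), ‖T x‖ ≤ L) (hSL : ∀ᵐ x ∂(unif K), ‖S x‖ ≤ L)
    (c h : ℝ) (hh0 : 0 < h) (hh1 : h ≤ 1) (hhr : h ≤ r) :
    ∫ x, ‖T x - S x‖ ^ 2 ∂(unif K) ≤
      8 * d / h ^ 2 * (∫ x, (φ1 x - φ0 x - c) ^ 2 ∂(unif K))
        + (16 * d * (L : ℝ) ^ 2 * Vc K R + 4 * (L : ℝ) ^ 2 * d / r) * h := by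
  have hfin : volume K ≠ ⊤ := hK.measure_lt_top.ne
  have hpos : 0 < volume K :=
    lt_of_lt_of_le (Metric.measure_closedBall_pos volume x0 hr) (measure_mono hball)
  have hv : 0 < (volume K).toReal := ENNReal.toReal_pos hpos.ne' hfin
  have hc0 : (volume K)⁻¹ ≠ 0 := ENNReal.inv_ne_zero.mpr hfin
  have conv : ∀ p : E d → Prop, (∀ᵐ x ∂(unif K), p x) → ∀ᵐ x ∂(volume.restrict K), p x := by
    intro p hp
    unfold unif at hp
    exact (Measure.ae_ennreal_smul_measure_iff hc0).mp hp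
  have hTs' := conv _ hTs
  have hSs' := conv _ hSs
  have hTL' := conv _ hTL
  have hSL' := conv _ hSL
  set K' : Set (E d) := shrink K x0 (h / r) with hK'
  have hK'c : IsCompact K' := shrink_isCompact hK x0 (h / r)
  have hK'm : MeasurableSet K' := hK'c.measurableSet
  have hsub : K' ⊆ K := shrink_subset hconv hr hball hh0 hhr
  set V : ℝ := (volume (Metric.closedBall (0 : E d) ((R : ℝ) + 2))).toReal with hV
  set I : ℝ := ∫ x in K, (φ1 x - φ0 x - c) ^ 2 with hI
  set g : E d → ℝ := fun x => ‖T x - S x‖ ^ 2 with hg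
  have hgm : Measurable g := by
    simp only [hg]
    exact ((hT.sub hS).norm).pow_const 2
  have hgb : ∀ᵐ x ∂(volume.restrict K), g x ≤ 4 * (L : ℝ) ^ 2 := by
    filter_upwards [hTL', hSL'] with x h1 h2
    have : ‖T x - S x‖ ≤ 2 * L := (norm_sub_le _ _).trans (by linarith)
    simp only [hg]
    nlinarith [norm_nonneg (T x - S x)]
  have hg0 : ∀ x, 0 ≤ g x := fun x => by simp only [hg]; positivity
  have hgi : IntegrableOn g K volume := by
    refine Measure.integrableOn_of_bounded hfin hgm.aestronglyMeasurable (M := 4 * (L : ℝ) ^ 2) ?_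
    filter_upwards [hgb] with x hx
    rw [Real.norm_of_nonneg (hg0 x)]
    exact hx
  -- coordinates
  have hcm : ∀ i : Fin d, Measurable fun x => (T x i - S x i) ^ 2 := by
    intro i
    have h1 : Measurable fun x => T x i := (PiLp.continuous_apply 2 _ i).measurable.comp hT
    have h2 : Measurable fun x => S x i := (PiLp.continuous_apply 2 _ i).measurable.comp hS
    exact (h1.sub h2).pow_const 2
  have hgsum : ∀ x, g x = ∑ i : Fin d, (T x i - S x i) ^ 2 := by
    intro x
    simp only [hg]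
    rw [EuclideanSpace.norm_sq_eq]
    refine Finset.sum_congr rfl fun i _ => ?_
    rw [Real.norm_eq_abs, sq_abs]
    rfl
  have hci : ∀ i : Fin d, IntegrableOn (fun x => (T x i - S x i) ^ 2) K' volume := by
    intro i
    refine Measure.integrableOn_of_bounded hK'c.measure_lt_top.ne (hcm i).aestronglyMeasurable
      (M := 4 * (L : ℝ) ^ 2) ?_
    filter_upwards [ae_restrict_of_ae_restrict_of_subset hsub hgb] with x hx
    rw [Real.norm_of_nonneg (sq_nonneg _)]
    refine le_trans ?_ hx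
    rw [hgsum x]
    exact Finset.single_le_sum (f := fun i => (T x i - S x i) ^ 2) (fun j _ => sq_nonneg _)
      (Finset.mem_univ i)
  have hin : h ^ 2 * ∫ x in K', g x ≤ d * (8 * I + 16 * (L : ℝ) ^ 2 * h ^ 3 * V) := by
    have e1 : ∫ x in K', g x = ∑ i : Fin d, ∫ x in K', (T x i - S x i) ^ 2 := by
      rw [← integral_finsetSum _ fun i _ => hci i]
      exact integral_congr_ae (Filter.Eventually.of_forall fun x => hgsum x)
    rw [e1, Finset.mul_sum]
    calc ∑ i : Fin d, h ^ 2 * ∫ x in K', (T x i - S x i) ^ 2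
        ≤ ∑ _i : Fin d, (8 * I + 16 * (L : ℝ) ^ 2 * h ^ 3 * V) := by
          refine Finset.sum_le_sum fun i _ => ?_
          refine interp_coord hK hK'm hsub R L hKR φ0 φ1 h0L h1L h0m h1m T S hTs' hSs' c h hh0 hh1 i
            fun x hx => shrink_add_mem hconv hr hball hh0 hhr hx ?_
          simp [abs_of_pos hh0]
      _ = d * (8 * I + 16 * (L : ℝ) ^ 2 * h ^ 3 * V) := by
          rw [Finset.sum_const, Finset.card_univ, Fintype.card_fin, nsmul_eq_mul]
  have hout : ∫ x in K \ K', g x ≤ 4 * (L : ℝ) ^ 2 * (d * (h / r) * (volume K).toReal) := by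
    have hfin' : volume (K \ K') ≠ ⊤ := (measure_mono Set.sdiff_subset).trans_lt hK.measure_lt_top |>.ne
    have h1 : ∫ x in K \ K', g x ≤ ∫ _x in K \ K', 4 * (L : ℝ) ^ 2 := by
      refine integral_mono_of_nonneg (Filter.Eventually.of_forall hg0) ?_ ?_
      · exact integrableOn_const hfin'
      · exact ae_restrict_of_ae_restrict_of_subset Set.sdiff_subset hgb
    rw [setIntegral_const, smul_eq_mul] at h1
    have h2 := volume_diff_shrink_le hK hconv hr hball hh0 hhr
    have h3 : volume.real (K \ K') = (volume (K \ K')).toReal := rfl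
    rw [h3] at h1
    calc ∫ x in K \ K', g x ≤ (volume (K \ K')).toReal * (4 * (L : ℝ) ^ 2) := h1
      _ ≤ (d * (h / r) * (volume K).toReal) * (4 * (L : ℝ) ^ 2) := by gcongr
      _ = _ := by ring
  have hsplit : ∫ x in K, g x = (∫ x in K', g x) + ∫ x in K \ K', g x := by
    rw [← integral_inter_add_sdiff hK'm hgi, Set.inter_eq_right.mpr hsub]
  rw [integral_unif, integral_unif, hsplit]
  have hh2 : 0 < h ^ 2 := by positivity
  have hin' : ∫ x in K', g x ≤ d * (8 * I + 16 * (L : ℝ) ^ 2 * h ^ 3 * V) / h ^ 2 := by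
    rw [le_div_iff₀ hh2, mul_comm]
    exact hin
  have hvi : 0 < (volume K).toReal⁻¹ := inv_pos.mpr hv
  calc (volume K).toReal⁻¹ * ((∫ x in K', g x) + ∫ x in K \ K', g x)
      ≤ (volume K).toReal⁻¹ * (d * (8 * I + 16 * (L : ℝ) ^ 2 * h ^ 3 * V) / h ^ 2
          + 4 * (L : ℝ) ^ 2 * (d * (h / r) * (volume K).toReal)) := by
        gcongr
    _ = 8 * d / h ^ 2 * ((volume K).toReal⁻¹ * I)
        + (16 * d * (L : ℝ) ^ 2 * Vc K R + 4 * (L : ℝ) ^ 2 * d / r) * h := by
        unfold Vc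
        rw [← hV]
        field_simp
        ring

end Vale.Agent.Lib.P074.Pre25
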