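import Vale.Agent.Lib.P074S.LOne

/-!
# P074, step (I): interpolation between the potentials and the maps
-/

open MeasureTheory
open scoped ENNReal NNReal RealInnerProductSpace

namespace Vale.Agent.Lib.P074.Pre25

variable {d : ℕ}

/-- Second difference. -/
noncomputable def sdiff2 (φ : E d → ℝ) (v x : E d) : ℝ := φ (x + v) + φ (x - v) - 2 * φ x

theorem sdiff2_le (φ : E d → ℝ) (L : ℝ≥0) (hL : LipschitzWith L φ) (v x : E d) :
    sdiff2 φ v x ≤ 2 * L * ‖v‖ := by
  have h1 : φ (x + v) - φ x ≤ L * ‖v‖ := by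
    have := hL.dist_le_mul (x + v) x
    rw [Real.dist_eq, dist_eq_norm, add_sub_cancel_left] at this
    exact (le_abs_self _).trans this
  have h2 : φ (x - v) - φ x ≤ L * ‖v‖ := by
    have := hL.dist_le_mul (x - v) x
    rw [Real.dist_eq, dist_eq_norm, sub_sub_cancel_left, norm_neg] at this
    exact (le_abs_self _).trans this
  unfold sdiff2
  linarith

/-- The pointwise inequality behind the interpolation. -/
theorem interp_pointwise (φ0 φ1 : E d → ℝ) (L : ℝ≥0) (h0L : LipschitzWith L φ0)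
    (h1L : LipschitzWith L φ1) (x t s : E d)
    (ht : ∀ x', φ0 x + ⟪t, x' - x⟫ ≤ φ0 x') (hs : ∀ x', φ1 x + ⟪s, x' - x⟫ ≤ φ1 x')
    (c h : ℝ) (hh : 0 < h) (i : Fin d) :
    h ^ 2 * (t i - s i) ^ 2 ≤
      4 * (φ1 (x + EuclideanSpace.single i h) - φ0 (x + EuclideanSpace.single i h) - c) ^ 2
      + 4 * (φ1 x - φ0 x - c) ^ 2
      + 8 * L * h * (sdiff2 φ0 (EuclideanSpace.single i h) x
          + sdiff2 φ1 (EuclideanSpace.single i h) x) := by
  set e : E d := EuclideanSpace.single i h with he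
  have hn : ‖e‖ = h := by
    simp [he, abs_of_pos hh]
  have t1 := ht (x + e)
  have t2 := ht (x - e)
  have s1 := hs (x + e)
  have s2 := hs (x - e)
  have e2 : ∀ w : E d, ⟪w, e⟫ = h * w i := by
    intro w
    simp [he, EuclideanSpace.inner_single_right]
  have e3 : x - e - x = -e := by abel
  rw [add_sub_cancel_left, e2] at t1 s1
  rw [e3, inner_neg_right, e2] at t2 s2
  have d0 := sdiff2_le φ0 L h0L e x
  have d1 := sdiff2_le φ1 L h1L e x
  rw [hn] at d0 d1
  have p0 : 0 ≤ sdiff2 φ0 e x := by unfold sdiff2; linarith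
  have p1 : 0 ≤ sdiff2 φ1 e x := by unfold sdiff2; linarith
  set Δ : ℝ := sdiff2 φ0 e x + sdiff2 φ1 e x with hΔ
  set a : ℝ := φ1 (x + e) - φ0 (x + e) - c with ha
  set b : ℝ := φ1 x - φ0 x - c with hb
  have hΔ0 : 0 ≤ Δ := by linarith
  have hΔ1 : Δ ≤ 4 * L * h := by linarith
  have u1 : h * (s i - t i) ≤ (a - b) + Δ := by
    simp only [hΔ, ha, hb, sdiff2] at *
    linarith
  have u2 : (a - b) - Δ ≤ h * (s i - t i) := by
    simp only [hΔ, ha, hb, sdiff2] at *
    linarith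
  have hLh : 0 ≤ (L : ℝ) * h := by positivity
  have k1 : (h * (s i - t i)) ^ 2 ≤ 2 * (a - b) ^ 2 + 2 * Δ ^ 2 := by
    have : |h * (s i - t i) - (a - b)| ≤ Δ := abs_le.mpr ⟨by linarith, by linarith⟩
    have h2 : (h * (s i - t i) - (a - b)) ^ 2 ≤ Δ ^ 2 := by
      rw [← sq_abs]
      exact pow_le_pow_left₀ (abs_nonneg _) this 2
    nlinarith [sq_nonneg (h * (s i - t i) - 2 * (a - b))]
  have k2 : (a - b) ^ 2 ≤ 2 * a ^ 2 + 2 * b ^ 2 := by nlinarith [sq_nonneg (a + b)]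
  have k3 : Δ ^ 2 ≤ 4 * L * h * Δ := by nlinarith
  have k4 : h ^ 2 * (t i - s i) ^ 2 = (h * (s i - t i)) ^ 2 := by ring
  rw [k4]
  nlinarith

end Vale.Agent.Lib.P074.Pre25
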