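import Vale.Agent.Lib.P074T.Pre25InterpA

/-!
# P074, step (I): the integrated coordinate estimate
-/

open MeasureTheory
open scoped ENNReal NNReal RealInnerProductSpace

namespace Vale.Agent.Lib.P074.Pre25

variable {d : ℕ}

theorem sdiff2_continuous (φ : E d → ℝ) (hφ : Continuous φ) (v : E d) :
    Continuous (sdiff2 φ v) := by
  unfold sdiff2
  fun_prop

/-- Translating a set integral of a nonnegative function into a larger set. -/
theorem setIntegral_shift_le {K K' : Set (E d)} (hK : IsCompact K) (hK' : MeasurableSet K')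
    (F : E d → ℝ) (hF : Continuous F) (hF0 : ∀ x, 0 ≤ F x) (e : E d)
    (hshift : ∀ x ∈ K', x + e ∈ K) :
    ∫ x in K', F (x + e) ≤ ∫ x in K, F x := by
  have hFi : IntegrableOn F K volume := hF.continuousOn.integrableOn_compact hK
  have hind : Integrable (K.indicator F) volume :=
    (integrable_indicator_iff hK.measurableSet).mpr hFi
  rw [← integral_indicator hK', ← integral_indicator hK.measurableSet,
    ← integral_add_right_eq_self (K.indicator F) e]
  refine integral_mono_of_nonneg ?_ (hind.comp_add_right e) ?_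
  · exact Filter.Eventually.of_forall fun x => Set.indicator_nonneg (fun y _ => hF0 _) x
  · refine Filter.Eventually.of_forall fun x => ?_
    by_cases hx : x ∈ K'
    · simp only [Set.indicator_of_mem hx, Set.indicator_of_mem (hshift x hx)]
      exact le_rfl
    · simp only [Set.indicator_of_notMem hx]
      exact Set.indicator_nonneg (fun y _ => hF0 _) _

theorem interp_coord {K K' : Set (E d)} (hK : IsCompact K) (hK' : MeasurableSet K')
    (hsub : K' ⊆ K) (R L : ℝ≥0) (hKR : ∀ x ∈ K, ‖x‖ ≤ R)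
    (φ0 φ1 : E d → ℝ) (h0L : LipschitzWith L φ0) (h1L : LipschitzWith L φ1)
    (h0m : ∀ x v, 2 * φ0 x ≤ φ0 (x + v) + φ0 (x - v))
    (h1m : ∀ x v, 2 * φ1 x ≤ φ1 (x + v) + φ1 (x - v))
    (T S : E d → E d)
    (hTs : ∀ᵐ x ∂(volume.restrict K), ∀ x', φ0 x + ⟪T x, x' - x⟫ ≤ φ0 x')
    (hSs : ∀ᵐ x ∂(volume.restrict K), ∀ x', φ1 x + ⟪S x, x' - x⟫ ≤ φ1 x')
    (c h : ℝ) (hh0 : 0 < h) (hh1 : h ≤ 1) (i : Fin d)
    (hshift : ∀ x ∈ K', x + EuclideanSpace.single i h ∈ K) :
    h ^ 2 * ∫ x in K', (T x i - S x i) ^ 2 ≤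
      8 * (∫ x in K, (φ1 x - φ0 x - c) ^ 2)
        + 16 * (L : ℝ) ^ 2 * h ^ 3 * (volume (Metric.closedBall (0 : E d) ((R : ℝ) + 2))).toReal := by
  set e : E d := EuclideanSpace.single i h with he
  have hn : ‖e‖ = h := by
    simp [he, abs_of_pos hh0]
  set V : ℝ := (volume (Metric.closedBall (0 : E d) ((R : ℝ) + 2))).toReal with hV
  set F : E d → ℝ := fun x => (φ1 x - φ0 x - c) ^ 2 with hF
  have h0c : Continuous φ0 := h0L.continuous
  have h1c : Continuous φ1 := h1L.continuous
  have hFc : Continuous F := by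
    simp only [hF]; fun_prop
  have hF0 : ∀ x, 0 ≤ F x := fun x => sq_nonneg _
  have hcomp : ∀ g : E d → ℝ, Continuous g → IntegrableOn g K' volume := fun g hg =>
    (hg.continuousOn.integrableOn_compact hK).mono_set hsub
  have hFe : Continuous fun x => F (x + e) := by fun_prop
  have hs0 : Continuous (sdiff2 φ0 e) := sdiff2_continuous φ0 h0c e
  have hs1 : Continuous (sdiff2 φ1 e) := sdiff2_continuous φ1 h1c e
  have step1 : h ^ 2 * ∫ x in K', (T x i - S x i) ^ 2 ≤
      ∫ x in K', (4 * F (x + e) + 4 * F x + 8 * L * h * (sdiff2 φ0 e x + sdiff2 φ1 e x)) := by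
    rw [← integral_const_mul]
    refine integral_mono_of_nonneg ?_ (hcomp _ (by fun_prop)) ?_
    · exact Filter.Eventually.of_forall fun x => by positivity
    · filter_upwards [ae_restrict_of_ae_restrict_of_subset hsub hTs,
        ae_restrict_of_ae_restrict_of_subset hsub hSs] with x hx1 hx2
      exact interp_pointwise φ0 φ1 L h0L h1L x (T x) (S x) hx1 hx2 c h hh0 i
  have step2 : ∫ x in K', (4 * F (x + e) + 4 * F x + 8 * L * h * (sdiff2 φ0 e x + sdiff2 φ1 e x))
      = 4 * (∫ x in K', F (x + e)) + 4 * (∫ x in K', F x)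
        + 8 * L * h * ((∫ x in K', sdiff2 φ0 e x) + ∫ x in K', sdiff2 φ1 e x) := by
    rw [integral_add, integral_add, integral_const_mul, integral_const_mul, integral_const_mul,
      integral_add]
    · exact hcomp _ hs0
    · exact hcomp _ hs1
    · exact hcomp _ (by fun_prop)
    · exact hcomp _ (by fun_prop)
    · exact hcomp _ (by fun_prop)
    · exact hcomp _ (by fun_prop)
  have b1 : ∫ x in K', F (x + e) ≤ ∫ x in K, F x :=
    setIntegral_shift_le hK hK' F hFc hF0 e hshift
  have b2 : ∫ x in K', F x ≤ ∫ x in K, F x :=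
    setIntegral_mono_set (hFc.continuousOn.integrableOn_compact hK)
      (Filter.Eventually.of_forall fun x => hF0 x) (Filter.Eventually.of_forall hsub)
  have b3 : ∫ x in K', sdiff2 φ0 e x ≤ L * h ^ 2 * V := by
    have := integral_second_diff_le φ0 L h0L h0m K' hK' R R.2 (fun x hx => hKR x (hsub hx)) e
      (by rw [hn]; exact hh1)
    rw [hn] at this
    exact this
  have b4 : ∫ x in K', sdiff2 φ1 e x ≤ L * h ^ 2 * V := by
    have := integral_second_diff_le φ1 L h1L h1m K' hK' R R.2 (fun x hx => hKR x (hsub hx)) e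
      (by rw [hn]; exact hh1)
    rw [hn] at this
    exact this
  have hLh : 0 ≤ 8 * (L : ℝ) * h := by positivity
  calc h ^ 2 * ∫ x in K', (T x i - S x i) ^ 2
      ≤ 4 * (∫ x in K', F (x + e)) + 4 * (∫ x in K', F x)
        + 8 * L * h * ((∫ x in K', sdiff2 φ0 e x) + ∫ x in K', sdiff2 φ1 e x) := by
        rw [← step2]; exact step1
    _ ≤ 4 * (∫ x in K, F x) + 4 * (∫ x in K, F x)
        + 8 * L * h * (L * h ^ 2 * V + L * h ^ 2 * V) := by
        have := mul_le_mul_of_nonneg_left (add_le_add b3 b4) hLh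
        linarith
    _ = 8 * (∫ x in K, F x) + 16 * (L : ℝ) ^ 2 * h ^ 3 * V := by ring

end Vale.Agent.Lib.P074.Pre25
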