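import Vale.Agent.Lib.P074T.Pre25Interp

/-!
# P074, step (I): the optimised interpolation inequality
-/

open MeasureTheory
open scoped ENNReal NNReal RealInnerProductSpace

namespace Vale.Agent.Lib.P074.Pre25

variable {d : ℕ}

theorem optimise3 (A F a b c h0 : ℝ) (hF : 0 ≤ F) (ha : 0 ≤ a) (hb : 0 ≤ b) (hc : 0 ≤ c)
    (hh0 : 0 < h0) (hA : A ≤ c) (h : ∀ s, 0 < s → s ≤ h0 → A ≤ a / s ^ 2 * F + b * s) :
    A ≤ (a + b + c / h0) * F ^ (1 / 3 : ℝ) := by
  rcases hF.eq_or_lt with h0F | hpos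
  · subst h0F
    rw [Real.zero_rpow (by norm_num), mul_zero]
    by_contra hcon
    push Not at hcon
    set s : ℝ := min h0 (A / (2 * b + 1)) with hs
    have hs0 : 0 < s := lt_min hh0 (by positivity)
    have h1 := h s hs0 (min_le_left _ _)
    have h2 : s ≤ A / (2 * b + 1) := min_le_right _ _
    have h3 : b * s ≤ b * (A / (2 * b + 1)) := mul_le_mul_of_nonneg_left h2 hb
    have h4 : b * (A / (2 * b + 1)) < A := by
      rw [mul_div_assoc', div_lt_iff₀ (by positivity)]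
      nlinarith
    simp only [mul_zero, zero_add] at h1
    linarith
  · set t : ℝ := F ^ (1 / 3 : ℝ) with ht
    have ht0 : 0 < t := Real.rpow_pos_of_pos hpos _
    have ht3 : t ^ 3 = F := by
      rw [ht, ← Real.rpow_natCast, ← Real.rpow_mul hpos.le]
      norm_num
    have hch : 0 ≤ c / h0 := by positivity
    rcases le_or_gt t h0 with hle | hgt
    · have h1 := h t ht0 hle
      have h2 : a / t ^ 2 * F = a * t := by
        rw [← ht3]
        field_simp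
      rw [h2] at h1
      nlinarith
    · have h1 : c = c / h0 * h0 := by field_simp
      have h2 : c / h0 * h0 ≤ c / h0 * t := mul_le_mul_of_nonneg_left hgt.le hch
      nlinarith

/-- Step (I), optimised: `‖T - S‖²_{L²} ≤ C ‖φ1 - φ0 - c‖_{L²}^{2/3}`. -/
theorem interp_opt {K : Set (E d)} (hK : IsCompact K) (hconv : Convex ℝ K) {x0 : E d} {r : ℝ}
    (hr : 0 < r) (hball : Metric.closedBall x0 r ⊆ K) (R L : ℝ≥0) (hKR : ∀ x ∈ K, ‖x‖ ≤ R)
    (φ0 φ1 : E d → ℝ) (h0L : LipschitzWith L φ0) (h1L : LipschitzWith L φ1)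
    (h0m : ∀ x v, 2 * φ0 x ≤ φ0 (x + v) + φ0 (x - v))
    (h1m : ∀ x v, 2 * φ1 x ≤ φ1 (x + v) + φ1 (x - v))
    (T S : E d → E d) (hT : Measurable T) (hS : Measurable S)
    (hTs : ∀ᵐ x ∂(unif K), ∀ x', φ0 x + ⟪T x, x' - x⟫ ≤ φ0 x')
    (hSs : ∀ᵐ x ∂(unif K), ∀ x', φ1 x + ⟪S x, x' - x⟫ ≤ φ1 x')
    (hTL : ∀ᵐ x ∂(unif K), ‖T x‖ ≤ L) (hSL : ∀ᵐ x ∂(unif K), ‖S x‖ ≤ L) (c : ℝ) :
    ∫ x, ‖T x - S x‖ ^ 2 ∂(unif K) ≤
      (8 * d + (16 * d * (L : ℝ) ^ 2 * Vc K R + 4 * (L : ℝ) ^ 2 * d / r)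
          + 4 * (L : ℝ) ^ 2 / min 1 r)
        * (∫ x, (φ1 x - φ0 x - c) ^ 2 ∂(unif K)) ^ (1 / 3 : ℝ) := by
  have hint : (interior K).Nonempty := by
    refine ⟨x0, ?_⟩
    rw [mem_interior]
    exact ⟨Metric.ball x0 r, Metric.ball_subset_closedBall.trans hball, Metric.isOpen_ball,
      Metric.mem_ball_self hr⟩
  haveI : IsProbabilityMeasure (unif K) := isProbabilityMeasure_unif hK hint
  have hVc : 0 ≤ Vc K R := by unfold Vc; positivity
  refine optimise3 _ _ (8 * d) _ (4 * (L : ℝ) ^ 2) (min 1 r) ?_ (by positivity) (by positivity)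
    (by positivity) (lt_min one_pos hr) ?_ ?_
  · exact integral_nonneg fun x => sq_nonneg _
  · have h1 : ∫ x, ‖T x - S x‖ ^ 2 ∂(unif K) ≤ ∫ _x, 4 * (L : ℝ) ^ 2 ∂(unif K) := by
      refine integral_mono_of_nonneg (Filter.Eventually.of_forall fun x => by positivity)
        (integrable_const _) ?_
      filter_upwards [hTL, hSL] with x h1 h2
      have : ‖T x - S x‖ ≤ 2 * L := (norm_sub_le _ _).trans (by linarith)
      nlinarith [norm_nonneg (T x - S x)]
    simpa using h1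
  · intro s hs0 hs1
    exact interp_bound hK hconv hr hball R L hKR φ0 φ1 h0L h1L h0m h1m T S hT hS hTs hSs hTL hSL c s
      hs0 (hs1.trans (min_le_left _ _)) (hs1.trans (min_le_right _ _))

end Vale.Agent.Lib.P074.Pre25
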