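import Vale.Agent.Lib.P074T.Defs

/-! # P074T duality step: meshes of `[0,1]` which avoid the collisions of the moving sites -/

open Set

namespace Vale.Agent.Lib.P074

variable {d N : ℕ}

/-- The moving sites `y0 j + s • D j` collide for finitely many `s` only. -/
theorem finite_bad (y0 D : Fin N → E d) (hy0 : Function.Injective y0) :
    {s : ℝ | ¬ Function.Injective fun j => y0 j + s • D j}.Finite := by
  have hsub : {s : ℝ | ¬ Function.Injective fun j => y0 j + s • D j}
      ⊆ ⋃ j : Fin N, ⋃ k : Fin N, {s : ℝ | j ≠ k ∧ y0 j + s • D j = y0 k + s • D k} := by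
    intro s hs
    simp only [Function.Injective, Set.mem_ofPred_eq, not_forall] at hs
    obtain ⟨j, k, hjk, hne⟩ := hs
    simp only [Set.mem_iUnion]
    exact ⟨j, k, hne, hjk⟩
  refine Set.Finite.subset (Set.finite_iUnion fun j => Set.finite_iUnion fun k => ?_) hsub
  refine Set.Subsingleton.finite ?_
  intro s hs s' hs'
  by_contra hne
  obtain ⟨hjk, e1⟩ := hs
  obtain ⟨_, e2⟩ := hs'
  have h3 : (s - s') • (D j - D k) = 0 := by
    have h : (y0 j + s • D j) - (y0 j + s' • D j) = (y0 k + s • D k) - (y0 k + s' • D k) := by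
      rw [e1, e2]
    have h' : s • D j - s' • D j = s • D k - s' • D k := by
      simpa using h
    rw [smul_sub, sub_smul, sub_smul, h']
    abel
  have h4 : D j = D k := by
    rcases smul_eq_zero.mp h3 with h | h
    · exact absurd (sub_eq_zero.mp h) hne
    · exact sub_eq_zero.mp h
  apply hjk
  apply hy0
  rw [h4] at e1
  exact add_right_cancel e1

/-- A mesh of `[0,1]` with `n` steps of length at most `2/n` which avoids a finite set. -/
theorem exists_mesh (Bad : Set ℝ) (hB : Bad.Finite) (h0 : (0 : ℝ) ∉ Bad) (h1 : (1 : ℝ) ∉ Bad)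
    (n : ℕ) (hn : 0 < n) :
    ∃ s : ℕ → ℝ, s 0 = 0 ∧ s n = 1 ∧ (∀ i < n, s i < s (i + 1)) ∧
      (∀ i < n, s (i + 1) - s i ≤ 2 / n) ∧ ∀ i ≤ n, s i ∉ Bad := by
  have hn' : (0 : ℝ) < n := by exact_mod_cast hn
  have hex : ∀ i : ℕ, ∃ σ : ℝ, σ ∈ Ioo ((i : ℝ) / n - 1 / (2 * n)) ((i : ℝ) / n) ∧ σ ∉ Bad := by
    intro i
    have hlt : (i : ℝ) / n - 1 / (2 * n) < (i : ℝ) / n := by
      have : (0 : ℝ) < 1 / (2 * n) := by positivity
      linarith
    obtain ⟨σ, hσ⟩ := ((Set.Ioo_infinite hlt).sdiff hB).nonempty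
    exact ⟨σ, hσ.1, hσ.2⟩
  choose σ hσ hσB using hex
  set s : ℕ → ℝ := fun i => if i = 0 then 0 else if i = n then 1 else σ i with hs
  have hs0 : s 0 = 0 := by simp [hs]
  have hsn : s n = 1 := by
    simp [hs, hn.ne']
  have hb : ∀ i : ℕ, (i : ℝ) / n - 1 / (2 * n) < s i ∧ s i ≤ (i : ℝ) / n := by
    intro i
    have hpos : (0 : ℝ) < 1 / (2 * n) := by positivity
    by_cases hi0 : i = 0
    · subst hi0
      rw [hs0]
      simp only [Nat.cast_zero, zero_div, zero_sub, le_refl, and_true]
      linarith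
    · by_cases hin : i = n
      · subst hin
        rw [hsn, div_self hn'.ne']
        exact ⟨by linarith, le_refl _⟩
      · simp only [hs]
        rw [if_neg hi0, if_neg hin]
        exact ⟨(hσ i).1, (hσ i).2.le⟩
  have hstep : ∀ i : ℕ, ((i + 1 : ℕ) : ℝ) / n = (i : ℝ) / n + 2 * (1 / (2 * n)) := by
    intro i
    push_cast
    field_simp
  refine ⟨s, hs0, hsn, fun i _ => ?_, fun i _ => ?_, fun i _ => ?_⟩
  · have a := (hb i).2
    have b := (hb (i + 1)).1
    have hpos : (0 : ℝ) < 1 / (2 * n) := by positivity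
    rw [hstep] at b
    linarith
  · have a := (hb i).1
    have b := (hb (i + 1)).2
    have hpos : (0 : ℝ) < 1 / (2 * n) := by positivity
    have e : (2 : ℝ) / n = 4 * (1 / (2 * n)) := by field_simp; norm_num
    rw [hstep] at b
    rw [e]
    linarith
  · by_cases hi0 : i = 0
    · subst hi0
      rw [hs0]
      exact h0
    · by_cases hin : i = n
      · subst hin
        rw [hsn]
        exact h1
      · simp only [hs]
        rw [if_neg hi0, if_neg hin]
        exact hσB i

end Vale.Agent.Lib.P074
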