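import Vale.Agent.Lib.P074T.FY
import Vale.Agent.Lib.P074T.Pre21Chain
import Vale.Agent.Lib.P074T.Pre21Alg
import Vale.Agent.Lib.P074T.Pre27Mesh

/-! # P074T duality step: the weights are Lipschitz in the sites

The three inputs (existence of weights, continuity of the weights in the masses, the inequality
STAR) enter as hypotheses `hW`, `hWC`, `hStar`. -/

open MeasureTheory Set
open scoped ENNReal NNReal RealInnerProductSpace

namespace Vale.Agent.Lib.P074

variable {d N : ℕ}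

/-- Existence of weights for `N` labels. -/
def HasWeights (N : ℕ) (K : Set (E d)) : Prop :=
  ∀ y : Fin N → E d, Function.Injective y → ∀ m : Fin N → ℝ, (∀ j, 0 < m j) → ∑ j, m j = 1 →
    ∃ c : Fin N → ℝ, ∀ j, lmass K y c j = m j

/-- Continuity of the weights in the masses for `N` labels. -/
def WeightsCont (N : ℕ) (K : Set (E d)) : Prop :=
  ∀ y : Fin N → E d, Function.Injective y → ∀ c : Fin N → ℝ, (∀ j, 0 < lmass K y c j) →
    ∀ ε : ℝ, 0 < ε → ∃ δ : ℝ, 0 < δ ∧ ∀ c2 : Fin N → ℝ,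
      (∀ j, |lmass K y c2 j - lmass K y c j| ≤ δ) → ∀ j k, (c2 j - c j) - (c2 k - c k) ≤ ε

/-- The inequality STAR with the constant `Cs` for `N` labels. -/
def StarIneq (N : ℕ) (K : Set (E d)) (Cs : ℝ) : Prop :=
  ∀ y : Fin N → E d, Function.Injective y → ∀ c c' : Fin N → ℝ, (∀ j, 0 < lmass K y c j) →
    (∀ j, |lmass K y c' j - lmass K y c j| ≤ lmass K y c j / 2) →
    ∑ j, ‖lmom K y c' j - lmom K y c j‖ ^ 2 / lmass K y c j
      ≤ Cs ^ 2 * ∑ j, (lmass K y c' j - lmass K y c j) ^ 2 / lmass K y c j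

/-- The chain inequality along one mesh. -/
theorem dual_mesh_n [NeZero N] {K : Set (E d)} (hK : IsCompact K) (hint : (interior K).Nonempty)
    {R : ℝ} (hR0 : 0 < R) (hR : ∀ x ∈ K, ‖x‖ ≤ R) {Cs : ℝ} (hCs : 0 ≤ Cs)
    (hW : HasWeights N K) (hStar : StarIneq N K Cs)
    (y0 y1 : Fin N → E d) (hy0 : Function.Injective y0) (hy1 : Function.Injective y1)
    (m mt : Fin N → ℝ) (hm : ∀ j, 0 < m j) (hsum : ∑ j, m j = 1) (hmt : ∀ j, 0 < mt j)
    (hsumt : ∑ j, mt j = 1) (hclose : ∀ j, |mt j - m j| ≤ m j / 2)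
    (c0 ct1 : Fin N → ℝ) (hc0 : ∀ j, lmass K y0 c0 j = m j) (hct1 : ∀ j, lmass K y1 ct1 j = mt j)
    (n : ℕ) (hn : 0 < n) :
    ∑ j, (mt j - m j) * (ct1 j - c0 j)
      ≤ Cs * Real.sqrt (∑ j, (mt j - m j) ^ 2 / m j) * Real.sqrt (wsq m y0 y1)
        + 2 / n * (2 * R * Real.sqrt (wsq m y0 y1)) := by
  set D : Fin N → E d := fun j => y1 j - y0 j with hD
  have hbad := finite_bad y0 D hy0
  have hb0 : (0 : ℝ) ∉ {s : ℝ | ¬ Function.Injective fun j => y0 j + s • D j} := by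
    simp only [Set.mem_ofPred_eq, not_not, zero_smul, add_zero]
    exact hy0
  have hb1 : (1 : ℝ) ∉ {s : ℝ | ¬ Function.Injective fun j => y0 j + s • D j} := by
    simp only [Set.mem_ofPred_eq, not_not, one_smul, hD, add_sub_cancel]
    exact hy1
  obtain ⟨s, hs0, hsn, hslt, hsm, hgood⟩ := exists_mesh _ hbad hb0 hb1 n hn
  set ys : ℕ → Fin N → E d := fun i j => y0 j + s i • D j with hys
  have hinj : ∀ i ≤ n, Function.Injective (ys i) := by
    intro i hi
    have := hgood i hi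
    simp only [Set.mem_ofPred_eq, not_not] at this
    exact this
  have hys0 : ys 0 = y0 := by
    funext j
    simp [hys, hs0]
  have hysn : ys n = y1 := by
    funext j
    simp [hys, hsn, hD]
  -- the weights along the mesh
  have hexC : ∀ i, ∃ c : Fin N → ℝ, (i ≤ n → ∀ j, lmass K (ys i) c j = m j) ∧ (i = 0 → c = c0) := by
    intro i
    by_cases hi0 : i = 0
    · subst hi0
      exact ⟨c0, fun _ j => by rw [hys0]; exact hc0 j, fun _ => rfl⟩
    · by_cases hin : i ≤ n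
      · obtain ⟨c, hc⟩ := hW (ys i) (hinj i hin) m hm hsum
        exact ⟨c, fun _ => hc, fun h => absurd h hi0⟩
      · exact ⟨c0, fun h => absurd h hin, fun _ => rfl⟩
  choose C hC hC0 using hexC
  have hexCt : ∀ i, ∃ c : Fin N → ℝ, (i ≤ n → ∀ j, lmass K (ys i) c j = mt j) ∧
      (i = n → c = ct1) := by
    intro i
    by_cases hi0 : i = n
    · subst hi0
      exact ⟨ct1, fun _ j => by rw [hysn]; exact hct1 j, fun _ => rfl⟩
    · by_cases hin : i ≤ n
      · obtain ⟨c, hc⟩ := hW (ys i) (hinj i hin) mt hmt hsumt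
        exact ⟨c, fun _ => hc, fun h => absurd h hi0⟩
      · exact ⟨ct1, fun h => absurd h hin, fun _ => rfl⟩
  choose Ct hCt hCtn using hexCt
  have hC0' : C 0 = c0 := hC0 0 rfl
  have hCtn' : Ct n = ct1 := hCtn n rfl
  set B : ℕ → Fin N → E d := fun i j => lmom K (ys i) (C i) j with hB
  set Bt : ℕ → Fin N → E d := fun i j => lmom K (ys i) (Ct i) j with hBt
  have hwsq : wsq m y0 y1 = ∑ j, m j * ‖D j‖ ^ 2 := rfl
  have ha : ∀ i ≤ n, ∀ k ≤ n, 0 ≤ ∑ j, ⟪B k j - B i j, y0 j + s k • D j⟫ := by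
    intro i hi k hk
    have h := fy hK hint (ys i) (ys k) (hinj i hi) (hinj k hk) (C i) (C k)
    simp only [hC i hi, hC k hk, sub_self, zero_mul, Finset.sum_const_zero] at h
    exact h
  have hb : ∀ i ≤ n, ∀ k ≤ n, 0 ≤ ∑ j, ⟪Bt k j - Bt i j, y0 j + s k • D j⟫ := by
    intro i hi k hk
    have h := fy hK hint (ys i) (ys k) (hinj i hi) (hinj k hk) (Ct i) (Ct k)
    simp only [hCt i hi, hCt k hk, sub_self, zero_mul, Finset.sum_const_zero] at h
    exact h
  have hc : ∑ j, (mt j - m j) * ct1 j ≤ ∑ j, ⟪Bt n j - B n j, y0 j + s n • D j⟫ := by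
    have h := fy hK hint (ys n) (ys n) (hinj n le_rfl) (hinj n le_rfl) (C n) (Ct n)
    simp only [hC n le_rfl, hCt n le_rfl] at h
    rw [← hCtn']
    exact h
  have hd : ∑ j, ⟪Bt 0 j - B 0 j, y0 j + s 0 • D j⟫ ≤ ∑ j, (mt j - m j) * c0 j := by
    have h := fy hK hint (ys 0) (ys 0) (hinj 0 (Nat.zero_le n)) (hinj 0 (Nat.zero_le n))
      (Ct 0) (C 0)
    simp only [hC 0 (Nat.zero_le n), hCt 0 (Nat.zero_le n)] at h
    rw [hC0'] at h
    have e1 : ∑ j, ⟪Bt 0 j - B 0 j, y0 j + s 0 • D j⟫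
        = -∑ j, ⟪lmom K (ys 0) c0 j - lmom K (ys 0) (Ct 0) j, ys 0 j⟫ := by
      rw [← Finset.sum_neg_distrib]
      refine Finset.sum_congr rfl fun j _ => ?_
      rw [← inner_neg_left, neg_sub]
      simp only [hB, hBt, hC0']
      rfl
    have e2 : ∑ j, (mt j - m j) * c0 j = -∑ j, (m j - mt j) * c0 j := by
      rw [← Finset.sum_neg_distrib]
      refine Finset.sum_congr rfl fun j _ => ?_
      ring
    rw [e1, e2]
    linarith
  have he : ∀ i ≤ n, ∑ j, ⟪Bt i j - B i j, D j⟫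
      ≤ Cs * Real.sqrt (∑ j, (mt j - m j) ^ 2 / m j) * Real.sqrt (wsq m y0 y1) := by
    intro i hi
    have h1 := Vale.Agent.Lib.P074T.Pre21.sum_inner_le_sqrt m hm (fun j => Bt i j - B i j) D
    have h2 := hStar (ys i) (hinj i hi) (C i) (Ct i) (fun j => by rw [hC i hi]; exact hm j)
      (fun j => by rw [hC i hi, hCt i hi]; exact hclose j)
    simp only [hC i hi, hCt i hi] at h2
    have h3 : Real.sqrt (∑ j, ‖Bt i j - B i j‖ ^ 2 / m j)
        ≤ Cs * Real.sqrt (∑ j, (mt j - m j) ^ 2 / m j) := by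
      calc Real.sqrt (∑ j, ‖Bt i j - B i j‖ ^ 2 / m j)
          ≤ Real.sqrt (Cs ^ 2 * ∑ j, (mt j - m j) ^ 2 / m j) := Real.sqrt_le_sqrt h2
        _ = Cs * Real.sqrt (∑ j, (mt j - m j) ^ 2 / m j) := by
            rw [Real.sqrt_mul (sq_nonneg Cs), Real.sqrt_sq hCs]
    rw [hwsq]
    exact h1.trans (mul_le_mul_of_nonneg_right h3 (Real.sqrt_nonneg _))
  have hf : ∑ j, ⟪B n j - B 0 j, D j⟫ ≤ 2 * R * Real.sqrt (wsq m y0 y1) := by
    rw [hwsq]
    refine Vale.Agent.Lib.P074T.Pre21.sum_inner_le_of_norm_le m hm hsum (2 * R) (by positivity)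
      (fun j => B n j - B 0 j) D fun j => ?_
    have a1 := norm_lmom_le hK hint hR (ys n) (C n) j
    have a2 := norm_lmom_le hK hint hR (ys 0) (C 0) j
    rw [hC n le_rfl] at a1
    rw [hC 0 (Nat.zero_le n)] at a2
    calc ‖B n j - B 0 j‖ ≤ ‖B n j‖ + ‖B 0 j‖ := norm_sub_le _ _
      _ ≤ R * m j + R * m j := add_le_add a1 a2
      _ = 2 * R * m j := by ring
  have hmain := Vale.Agent.Lib.P074T.Pre21.chain n s (2 / n) _ _ _ _ hs0 hsn (by positivity)
    hslt hsm B Bt y0 D ha hb hc hd he hf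
  have e : ∑ j, (mt j - m j) * (ct1 j - c0 j)
      = ∑ j, (mt j - m j) * ct1 j - ∑ j, (mt j - m j) * c0 j := by
    rw [← Finset.sum_sub_distrib]
    refine Finset.sum_congr rfl fun j _ => ?_
    ring
  rw [e]
  exact hmain

/-- The chain inequality, mesh to zero. -/
theorem dual_mesh [NeZero N] {K : Set (E d)} (hK : IsCompact K) (hint : (interior K).Nonempty)
    {R : ℝ} (hR0 : 0 < R) (hR : ∀ x ∈ K, ‖x‖ ≤ R) {Cs : ℝ} (hCs : 0 ≤ Cs)
    (hW : HasWeights N K) (hStar : StarIneq N K Cs)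
    (y0 y1 : Fin N → E d) (hy0 : Function.Injective y0) (hy1 : Function.Injective y1)
    (m mt : Fin N → ℝ) (hm : ∀ j, 0 < m j) (hsum : ∑ j, m j = 1) (hmt : ∀ j, 0 < mt j)
    (hsumt : ∑ j, mt j = 1) (hclose : ∀ j, |mt j - m j| ≤ m j / 2)
    (c0 ct1 : Fin N → ℝ) (hc0 : ∀ j, lmass K y0 c0 j = m j)
    (hct1 : ∀ j, lmass K y1 ct1 j = mt j) :
    ∑ j, (mt j - m j) * (ct1 j - c0 j)
      ≤ Cs * Real.sqrt (∑ j, (mt j - m j) ^ 2 / m j) * Real.sqrt (wsq m y0 y1) := by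
  refine le_of_forall_pos_le_add fun ε hε => ?_
  set T : ℝ := 2 * R * Real.sqrt (wsq m y0 y1) with hT
  have hT0 : 0 ≤ T := by positivity
  obtain ⟨n, hn⟩ := exists_nat_gt (2 * T / ε)
  have hn0 : (0 : ℝ) < n := lt_of_le_of_lt (by positivity) hn
  have hn' : 0 < n := by exact_mod_cast hn0
  have h := dual_mesh_n hK hint hR0 hR hCs hW hStar y0 y1 hy0 hy1 m mt hm hsum hmt hsumt hclose
    c0 ct1 hc0 hct1 n hn'
  have h2 : 2 / (n : ℝ) * T ≤ ε := by
    rw [div_lt_iff₀ hε] at hn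
    rw [div_mul_eq_mul_div, div_le_iff₀ hn0]
    linarith
  linarith

/-- The duality inequality for one mean zero test vector. -/
theorem dual_test [NeZero N] {K : Set (E d)} (hK : IsCompact K) (hint : (interior K).Nonempty)
    {R : ℝ} (hR0 : 0 < R) (hR : ∀ x ∈ K, ‖x‖ ≤ R) {Cs : ℝ} (hCs : 0 ≤ Cs)
    (hW : HasWeights N K) (hWC : WeightsCont N K) (hStar : StarIneq N K Cs)
    (y0 y1 : Fin N → E d) (hy0 : Function.Injective y0) (hy1 : Function.Injective y1)
    (m : Fin N → ℝ) (hm : ∀ j, 0 < m j) (hsum : ∑ j, m j = 1)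
    (c0 c1 : Fin N → ℝ) (hc0 : ∀ j, lmass K y0 c0 j = m j) (hc1 : ∀ j, lmass K y1 c1 j = m j)
    (h : Fin N → ℝ) (hh : ∑ j, m j * h j = 0) :
    ∑ j, m j * h j * (c1 j - c0 j)
      ≤ Cs * Real.sqrt (wsq m y0 y1) * Real.sqrt (∑ j, m j * h j ^ 2) := by
  refine le_of_forall_pos_le_add fun ε hε => ?_
  set A : ℝ := ∑ j, m j * |h j| with hA
  have hA0 : 0 ≤ A := Finset.sum_nonneg fun j _ => mul_nonneg (hm j).le (abs_nonneg _)
  set ε' : ℝ := ε / (A + 1) with hε'
  have hε'0 : 0 < ε' := by positivity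
  obtain ⟨δ, hδ0, hδ⟩ := hWC y1 hy1 c1 (fun j => by rw [hc1]; exact hm j) ε' hε'0
  set Hm : ℝ := ∑ j, |h j| + 1 with hHm
  have hHm0 : 0 < Hm := by
    have : 0 ≤ ∑ j, |h j| := Finset.sum_nonneg fun j _ => abs_nonneg _
    linarith
  have hhle : ∀ j, |h j| ≤ Hm := by
    intro j
    have : |h j| ≤ ∑ j, |h j| :=
      Finset.single_le_sum (f := fun j => |h j|) (fun j _ => abs_nonneg _) (Finset.mem_univ j)
    linarith
  have hm1 : ∀ j, m j ≤ 1 := by
    intro j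
    rw [← hsum]
    exact Finset.single_le_sum (f := m) (fun j _ => (hm j).le) (Finset.mem_univ j)
  set t : ℝ := min (1 / 2) δ / Hm with ht
  have hmin0 : 0 < min (1 / 2 : ℝ) δ := lt_min (by norm_num) hδ0
  have ht0 : 0 < t := by positivity
  have hth : ∀ j, t * |h j| ≤ min (1 / 2) δ := by
    intro j
    calc t * |h j| ≤ t * Hm := mul_le_mul_of_nonneg_left (hhle j) ht0.le
      _ = min (1 / 2) δ := by rw [ht]; field_simp
  set mt : Fin N → ℝ := fun j => m j * (1 + t * h j) with hmt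
  have hdiff : ∀ j, mt j - m j = t * (m j * h j) := by
    intro j
    simp only [hmt]
    ring
  have habs : ∀ j, |mt j - m j| = m j * (t * |h j|) := by
    intro j
    rw [hdiff, abs_mul, abs_mul, abs_of_pos ht0, abs_of_pos (hm j)]
    ring
  have hmtpos : ∀ j, 0 < mt j := by
    intro j
    have h1 : t * |h j| ≤ 1 / 2 := (hth j).trans (min_le_left _ _)
    have h2 : -(t * |h j|) ≤ t * h j := by
      have := neg_abs_le (h j)
      nlinarith
    exact mul_pos (hm j) (by linarith)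
  have hmtsum : ∑ j, mt j = 1 := by
    have : ∑ j, mt j = ∑ j, m j + t * ∑ j, m j * h j := by
      rw [Finset.mul_sum, ← Finset.sum_add_distrib]
      refine Finset.sum_congr rfl fun j _ => ?_
      simp only [hmt]
      ring
    rw [this, hsum, hh]
    ring
  have hclose : ∀ j, |mt j - m j| ≤ m j / 2 := by
    intro j
    rw [habs]
    have h1 : t * |h j| ≤ 1 / 2 := (hth j).trans (min_le_left _ _)
    have := mul_le_mul_of_nonneg_left h1 (hm j).le
    linarith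
  have hcloseδ : ∀ j, |mt j - m j| ≤ δ := by
    intro j
    rw [habs]
    have h1 : t * |h j| ≤ δ := (hth j).trans (min_le_right _ _)
    have h0 : 0 ≤ t * |h j| := by positivity
    calc m j * (t * |h j|) ≤ 1 * (t * |h j|) := mul_le_mul_of_nonneg_right (hm1 j) h0
      _ ≤ δ := by linarith
  obtain ⟨ct1, hct1⟩ := hW y1 hy1 mt hmtpos hmtsum
  have hosc := hδ ct1 (fun j => by rw [hct1, hc1]; exact hcloseδ j)
  have hmain := dual_mesh hK hint hR0 hR hCs hW hStar y0 y1 hy0 hy1 m mt hm hsum hmtpos hmtsum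
    hclose c0 ct1 hc0 hct1
  -- rewrite the two sides
  have e1 : ∑ j, (mt j - m j) * (ct1 j - c0 j) = t * ∑ j, m j * h j * (ct1 j - c0 j) := by
    rw [Finset.mul_sum]
    refine Finset.sum_congr rfl fun j _ => ?_
    rw [hdiff]
    ring
  have e2 : ∑ j, (mt j - m j) ^ 2 / m j = t ^ 2 * ∑ j, m j * h j ^ 2 := by
    rw [Finset.mul_sum]
    refine Finset.sum_congr rfl fun j _ => ?_
    rw [hdiff]
    have := (hm j).ne'
    field_simp
  have e3 : Real.sqrt (∑ j, (mt j - m j) ^ 2 / m j) = t * Real.sqrt (∑ j, m j * h j ^ 2) := by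
    rw [e2, Real.sqrt_mul (sq_nonneg t), Real.sqrt_sq ht0.le]
  rw [e1, e3] at hmain
  have hmain' : ∑ j, m j * h j * (ct1 j - c0 j)
      ≤ Cs * Real.sqrt (wsq m y0 y1) * Real.sqrt (∑ j, m j * h j ^ 2) := by
    have : t * ∑ j, m j * h j * (ct1 j - c0 j)
        ≤ t * (Cs * Real.sqrt (wsq m y0 y1) * Real.sqrt (∑ j, m j * h j ^ 2)) := by
      calc t * ∑ j, m j * h j * (ct1 j - c0 j)
          ≤ Cs * (t * Real.sqrt (∑ j, m j * h j ^ 2)) * Real.sqrt (wsq m y0 y1) := hmain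
        _ = t * (Cs * Real.sqrt (wsq m y0 y1) * Real.sqrt (∑ j, m j * h j ^ 2)) := by ring
    exact le_of_mul_le_mul_left this ht0
  -- the error term
  set k0 : Fin N := 0 with hk0
  have herr : ∑ j, m j * h j * (c1 j - ct1 j) ≤ A * ε' := by
    have e4 : ∑ j, m j * h j * (c1 j - ct1 j)
        = ∑ j, m j * h j * ((ct1 k0 - c1 k0) - (ct1 j - c1 j)) := by
      have : ∑ j, m j * h j * ((ct1 k0 - c1 k0) - (ct1 j - c1 j))
          = (∑ j, m j * h j) * (ct1 k0 - c1 k0) + ∑ j, m j * h j * (c1 j - ct1 j) := by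
        rw [Finset.sum_mul, ← Finset.sum_add_distrib]
        refine Finset.sum_congr rfl fun j _ => ?_
        ring
      rw [this, hh]
      ring
    rw [e4, hA, Finset.sum_mul]
    refine Finset.sum_le_sum fun j _ => ?_
    have b1 := hosc k0 j
    have b2 := hosc j k0
    have b3 : |(ct1 k0 - c1 k0) - (ct1 j - c1 j)| ≤ ε' := abs_le.mpr ⟨by linarith, b1⟩
    calc m j * h j * ((ct1 k0 - c1 k0) - (ct1 j - c1 j))
        ≤ |m j * h j * ((ct1 k0 - c1 k0) - (ct1 j - c1 j))| := le_abs_self _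
      _ = m j * |h j| * |(ct1 k0 - c1 k0) - (ct1 j - c1 j)| := by
          rw [abs_mul, abs_mul, abs_of_pos (hm j)]
      _ ≤ m j * |h j| * ε' :=
          mul_le_mul_of_nonneg_left b3 (mul_nonneg (hm j).le (abs_nonneg _))
  have hAε : A * ε' ≤ ε := by
    rw [hε', mul_div_assoc', div_le_iff₀ (by linarith)]
    nlinarith
  have e5 : ∑ j, m j * h j * (c1 j - c0 j)
      = ∑ j, m j * h j * (ct1 j - c0 j) + ∑ j, m j * h j * (c1 j - ct1 j) := by
    rw [← Finset.sum_add_distrib]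
    refine Finset.sum_congr rfl fun j _ => ?_
    ring
  rw [e5]
  linarith

/-- DUALITY: the weights are Lipschitz in the sites, in `L^2(m)` up to a constant. -/
theorem weights_lipschitz_of [NeZero N] {K : Set (E d)} (hK : IsCompact K)
    (hint : (interior K).Nonempty)
    {R : ℝ} (hR0 : 0 < R) (hR : ∀ x ∈ K, ‖x‖ ≤ R) {Cs : ℝ} (hCs : 0 ≤ Cs)
    (hW : HasWeights N K) (hWC : WeightsCont N K) (hStar : StarIneq N K Cs)
    (y0 y1 : Fin N → E d) (hy0 : Function.Injective y0) (hy1 : Function.Injective y1)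
    (m : Fin N → ℝ) (hm : ∀ j, 0 < m j) (hsum : ∑ j, m j = 1)
    (c0 c1 : Fin N → ℝ) (hc0 : ∀ j, lmass K y0 c0 j = m j)
    (hc1 : ∀ j, lmass K y1 c1 j = m j) :
    ∃ a : ℝ, ∑ j, m j * (c1 j - c0 j + a) ^ 2 ≤ Cs ^ 2 * wsq m y0 y1 := by
  have hw0 : 0 ≤ wsq m y0 y1 :=
    Finset.sum_nonneg fun j _ => mul_nonneg (hm j).le (sq_nonneg _)
  have h := Vale.Agent.Lib.P074T.Pre21.variance_le_of_tests m (fun j => (hm j).le) hsum
    (fun j => c1 j - c0 j) (Cs * Real.sqrt (wsq m y0 y1)) (by positivity)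
    (fun h hh => dual_test hK hint hR0 hR hCs hW hWC hStar y0 y1 hy0 hy1 m hm hsum c0 c1 hc0 hc1
      h hh)
  refine ⟨-∑ k, m k * (c1 k - c0 k), ?_⟩
  rw [mul_pow, Real.sq_sqrt hw0] at h
  simpa only [sub_eq_add_neg] using h

end Vale.Agent.Lib.P074
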