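import Vale.Agent.Lib.P074T.FY

/-! # P074T step (H): from the weights to the potentials

On the cell of the label `j` for `(y0, c0)` one has `l_j ≤ lpot y1 c1 - lpot y0 c0`, and on the
cell of the label `k` for `(y1, c1)` one has `lpot y1 c1 - lpot y0 c0 ≤ l_k`, where
`l_j x = <x, y1 j - y0 j> - (c1 j - c0 j)`. -/

open MeasureTheory Set
open scoped ENNReal NNReal RealInnerProductSpace

namespace Vale.Agent.Lib.P074

variable {d N : ℕ}

/-- pointwise bound of the affine function of a label on `K`. -/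
theorem sq_affine_le {R : ℝ} {x D : E d} (hx : ‖x‖ ≤ R) (b : ℝ) :
    (⟪x, D⟫ - b) ^ 2 ≤ 2 * R ^ 2 * ‖D‖ ^ 2 + 2 * b ^ 2 := by
  have h1 : |⟪x, D⟫| ≤ ‖x‖ * ‖D‖ := abs_real_inner_le_norm x D
  have h2 : ‖x‖ * ‖D‖ ≤ R * ‖D‖ := mul_le_mul_of_nonneg_right hx (norm_nonneg _)
  have h3 : ⟪x, D⟫ ^ 2 ≤ (R * ‖D‖) ^ 2 := by
    rw [← sq_abs]
    exact pow_le_pow_left₀ (abs_nonneg _) (h1.trans h2) 2
  nlinarith [sq_nonneg (⟪x, D⟫ + b)]

/-- a continuous function which on each cell is at most a constant. -/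
theorem integral_le_sum_lag [NeZero N] {K : Set (E d)} (hK : IsCompact K)
    (hint : (interior K).Nonempty) (y : Fin N → E d) (hy : Function.Injective y) (c : Fin N → ℝ)
    (g : E d → ℝ) (hg : Continuous g) (b : Fin N → ℝ)
    (h : ∀ j, ∀ x ∈ lag K y c j, g x ≤ b j) :
    ∫ x, g x ∂(unif K) ≤ ∑ j, lmass K y c j * b j := by
  have hgi : Integrable g (unif K) := integrable_unif_of_continuous hK hg
  rw [integral_eq_sum_lag hK y hy c _ hgi]
  refine Finset.sum_le_sum fun j _ => ?_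
  rw [← setIntegral_one_lag hK hint]
  have h2 : Integrable (fun _ : E d => b j) (unif K) :=
    integrable_unif_of_continuous hK continuous_const
  exact setIntegral_mono_on hgi.integrableOn h2.integrableOn (measurableSet_lag hK y c j) (h j)

/-- STEP (H). -/
theorem pot_l2_le [NeZero N] {K : Set (E d)} (hK : IsCompact K) (hint : (interior K).Nonempty)
    {R : ℝ} (hR : ∀ x ∈ K, ‖x‖ ≤ R) (y0 y1 : Fin N → E d) (hy0 : Function.Injective y0)
    (hy1 : Function.Injective y1) (c0 c1 : Fin N → ℝ) (m : Fin N → ℝ)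
    (hm0 : ∀ j, lmass K y0 c0 j = m j) (hm1 : ∀ j, lmass K y1 c1 j = m j) (a : ℝ) :
    ∫ x, (lpot y1 c1 x - lpot y0 c0 x - a) ^ 2 ∂(unif K)
      ≤ 4 * R ^ 2 * wsq m y0 y1 + 4 * ∑ j, m j * (c1 j - c0 j + a) ^ 2 := by
  set f : E d → ℝ := fun x => lpot y1 c1 x - lpot y0 c0 x - a with hf
  have hfc : Continuous f := ((continuous_lpot y1 c1).sub (continuous_lpot y0 c0)).sub
    continuous_const
  set b : Fin N → ℝ := fun j => 2 * R ^ 2 * ‖y1 j - y0 j‖ ^ 2 + 2 * (c1 j - c0 j + a) ^ 2 with hb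
  have hPc : Continuous fun x => (max (f x) 0) ^ 2 := (hfc.max continuous_const).pow 2
  have hQc : Continuous fun x => (max (-f x) 0) ^ 2 := (hfc.neg.max continuous_const).pow 2
  have hP : ∫ x, (max (f x) 0) ^ 2 ∂(unif K) ≤ ∑ j, lmass K y1 c1 j * b j := by
    refine integral_le_sum_lag hK hint y1 hy1 c1 _ hPc b fun j x hx => ?_
    have e1 : lpot y1 c1 x = ⟪x, y1 j⟫ - c1 j := lpot_eq_of_mem hx
    have e0 : ⟪x, y0 j⟫ - c0 j ≤ lpot y0 c0 x := le_lpot y0 c0 j x
    have hle : f x ≤ ⟪x, y1 j - y0 j⟫ - (c1 j - c0 j + a) := by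
      rw [inner_sub_right]
      simp only [hf]
      linarith
    have hs := sq_affine_le (D := y1 j - y0 j) (hR x hx.1) (c1 j - c0 j + a)
    refine le_trans ?_ hs
    rcases le_total (f x) 0 with h0 | h0
    · rw [max_eq_right h0]
      simpa using sq_nonneg (⟪x, y1 j - y0 j⟫ - (c1 j - c0 j + a))
    · rw [max_eq_left h0]
      exact pow_le_pow_left₀ h0 hle 2
  have hQ : ∫ x, (max (-f x) 0) ^ 2 ∂(unif K) ≤ ∑ j, lmass K y0 c0 j * b j := by
    refine integral_le_sum_lag hK hint y0 hy0 c0 _ hQc b fun j x hx => ?_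
    have e0 : lpot y0 c0 x = ⟪x, y0 j⟫ - c0 j := lpot_eq_of_mem hx
    have e1 : ⟪x, y1 j⟫ - c1 j ≤ lpot y1 c1 x := le_lpot y1 c1 j x
    have hle : -f x ≤ -(⟪x, y1 j - y0 j⟫ - (c1 j - c0 j + a)) := by
      rw [inner_sub_right]
      simp only [hf]
      linarith
    have hs := sq_affine_le (D := y1 j - y0 j) (hR x hx.1) (c1 j - c0 j + a)
    refine le_trans ?_ hs
    rcases le_total (-f x) 0 with h0 | h0
    · rw [max_eq_right h0]
      simpa using sq_nonneg (⟪x, y1 j - y0 j⟫ - (c1 j - c0 j + a))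
    · rw [max_eq_left h0, ← neg_sq (⟪x, y1 j - y0 j⟫ - (c1 j - c0 j + a))]
      exact pow_le_pow_left₀ h0 hle 2
  have hsplit : ∫ x, (f x) ^ 2 ∂(unif K)
      = ∫ x, (max (f x) 0) ^ 2 ∂(unif K) + ∫ x, (max (-f x) 0) ^ 2 ∂(unif K) := by
    rw [← integral_add (integrable_unif_of_continuous hK hPc)
      (integrable_unif_of_continuous hK hQc)]
    refine integral_congr_ae (Filter.Eventually.of_forall fun x => ?_)
    simp only
    rcases le_total (f x) 0 with h0 | h0
    · rw [max_eq_right h0, max_eq_left (by linarith : (0 : ℝ) ≤ -f x)]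
      ring
    · rw [max_eq_left h0, max_eq_right (by linarith : -f x ≤ (0 : ℝ))]
      ring
  have hsum : ∑ j, m j * b j
      = 2 * R ^ 2 * wsq m y0 y1 + 2 * ∑ j, m j * (c1 j - c0 j + a) ^ 2 := by
    unfold wsq
    rw [Finset.mul_sum, Finset.mul_sum, ← Finset.sum_add_distrib]
    refine Finset.sum_congr rfl fun j _ => ?_
    simp only [hb]
    ring
  simp only [hm0, hm1] at hP hQ
  rw [hsplit]
  linarith

end Vale.Agent.Lib.P074
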