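import Vale.Agent.Lib.P074T.Star
import Vale.Agent.Lib.P074T.EFinal
import Vale.Agent.Lib.P074T.WCont
import Vale.Agent.Lib.P074T.Pre27H
import Vale.Agent.Lib.P074T.Pre27Dual

/-! # P074T: the potentials are Lipschitz in the sites (finite labels) -/

open MeasureTheory Set
open scoped ENNReal NNReal RealInnerProductSpace

namespace Vale.Agent.Lib.P074

variable {d N : ℕ}

theorem hasWeights27 [NeZero N] {K : Set (E d)} (hK : IsCompact K)
    (hint : (interior K).Nonempty) : HasWeights N K :=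
  fun y hy m hm hsum => exists_weights hK hint y hy m hm hsum

theorem weightsCont27 [NeZero N] {K : Set (E d)} (hK : IsCompact K) (hc : Convex ℝ K)
    (hint : (interior K).Nonempty) : WeightsCont N K := by
  intro y hy c hm ε hε
  obtain ⟨δ, hδ0, hδ⟩ := weights_continuous hK hc hint y hy c hm hε
  exact ⟨δ, hδ0, fun c2 h j k => (le_abs_self _).trans (hδ c2 h j k)⟩

theorem starIneq27 [NeZero N] {K : Set (E d)} (hK : IsCompact K) (hc : Convex ℝ K)
    (hint : (interior K).Nonempty) {R : ℝ} (hR0 : 0 < R) (hR : ∀ x ∈ K, ‖x‖ ≤ R) :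
    StarIneq N K (100 * R) :=
  fun y hy c c' hM hMM => star hK hc hint hR0 hR y hy c c' hM hMM

/-- DUALITY with the explicit constant. -/
theorem weights_lipschitz27 [NeZero N] {K : Set (E d)} (hK : IsCompact K) (hc : Convex ℝ K)
    (hint : (interior K).Nonempty) {R : ℝ} (hR0 : 0 < R) (hR : ∀ x ∈ K, ‖x‖ ≤ R)
    (y0 y1 : Fin N → E d) (hy0 : Function.Injective y0) (hy1 : Function.Injective y1)
    (m : Fin N → ℝ) (hm : ∀ j, 0 < m j) (hsum : ∑ j, m j = 1)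
    (c0 c1 : Fin N → ℝ) (hc0 : ∀ j, lmass K y0 c0 j = m j)
    (hc1 : ∀ j, lmass K y1 c1 j = m j) :
    ∃ a : ℝ, ∑ j, m j * (c1 j - c0 j + a) ^ 2 ≤ (100 * R) ^ 2 * wsq m y0 y1 :=
  weights_lipschitz_of hK hint hR0 hR (by positivity) (hasWeights27 hK hint)
    (weightsCont27 hK hc hint) (starIneq27 hK hc hint hR0 hR) y0 y1 hy0 hy1 m hm hsum c0 c1 hc0 hc1

/-- The potentials are Lipschitz in the sites, explicit constant. -/
theorem potential_lipschitz27_R [NeZero N] {K : Set (E d)} (hK : IsCompact K) (hc : Convex ℝ K)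
    (hint : (interior K).Nonempty) {R : ℝ} (hR0 : 0 < R) (hR : ∀ x ∈ K, ‖x‖ ≤ R)
    (y0 y1 : Fin N → E d) (hy0 : Function.Injective y0) (hy1 : Function.Injective y1)
    (m : Fin N → ℝ) (hm : ∀ j, 0 < m j) (hsum : ∑ j, m j = 1)
    (c0 c1 : Fin N → ℝ) (hc0 : ∀ j, lmass K y0 c0 j = m j)
    (hc1 : ∀ j, lmass K y1 c1 j = m j) :
    ∃ a : ℝ, ∫ x, (lpot y1 c1 x - lpot y0 c0 x - a) ^ 2 ∂(unif K)
      ≤ (4 * R ^ 2 + 4 * (100 * R) ^ 2) * wsq m y0 y1 := by
  obtain ⟨a, ha⟩ := weights_lipschitz27 hK hc hint hR0 hR y0 y1 hy0 hy1 m hm hsum c0 c1 hc0 hc1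
  refine ⟨a, (pot_l2_le hK hint hR y0 y1 hy0 hy1 c0 c1 m hc0 hc1 a).trans ?_⟩
  linarith

/-- The potentials are Lipschitz in the sites: a constant which depends on `K` only. -/
theorem potential_lipschitz27 {K : Set (E d)} (hK : IsCompact K) (hc : Convex ℝ K)
    (hint : (interior K).Nonempty) :
    ∃ C : ℝ, 0 ≤ C ∧ ∀ (N : ℕ) [NeZero N] (y0 y1 : Fin N → E d), Function.Injective y0 →
      Function.Injective y1 → ∀ m : Fin N → ℝ, (∀ j, 0 < m j) → ∑ j, m j = 1 →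
      ∀ c0 c1 : Fin N → ℝ, (∀ j, lmass K y0 c0 j = m j) → (∀ j, lmass K y1 c1 j = m j) →
      ∃ a : ℝ, ∫ x, (lpot y1 c1 x - lpot y0 c0 x - a) ^ 2 ∂(unif K) ≤ C * wsq m y0 y1 := by
  obtain ⟨R0, hR0⟩ := hK.isBounded.exists_norm_le
  set R : ℝ := |R0| + 1 with hRdef
  have hRpos : 0 < R := by positivity
  have hR : ∀ x ∈ K, ‖x‖ ≤ R := fun x hx => by
    have := hR0 x hx
    have := le_abs_self R0
    linarith
  refine ⟨4 * R ^ 2 + 4 * (100 * R) ^ 2, by positivity, ?_⟩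
  intro N _ y0 y1 hy0 hy1 m hm hsum c0 c1 hc0 hc1
  exact potential_lipschitz27_R hK hc hint hRpos hR y0 y1 hy0 hy1 m hm hsum c0 c1 hc0 hc1

end Vale.Agent.Lib.P074
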