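import Vale.Agent.Lib.P074S.Unif
import Vale.Agent.Lib.P074S.Defs

/-! # P074T step (I): interpolation between the potentials and the maps (helper3) -/

open MeasureTheory Set
open scoped ENNReal NNReal RealInnerProductSpace

namespace Vale.Agent.Lib.P074

variable {d : ℕ}

theorem shrink_mem {K : Set (E d)} (hc : Convex ℝ K) {x0 : E d} {r : ℝ}
    (hr : 0 < r) (hball : Metric.closedBall x0 r ⊆ K) {η : E d} (hη : ‖η‖ ≤ r) {k : E d}
    (hk : k ∈ K) :
    AffineMap.homothety x0 (1 - ‖η‖ / r) k ∈ K ∧ AffineMap.homothety x0 (1 - ‖η‖ / r) k + η ∈ K := by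
  have hδ0 : 0 ≤ ‖η‖ / r := by positivity
  have hδ1 : ‖η‖ / r ≤ 1 := (div_le_one hr).2 hη
  have hx0 : x0 ∈ K := hball (Metric.mem_closedBall_self hr.le)
  constructor
  · have := hc hk hx0 (sub_nonneg.2 hδ1) hδ0 (by ring)
    convert this using 1
    rw [AffineMap.homothety_apply]
    simp only [vsub_eq_sub, vadd_eq_add, smul_sub, sub_smul, one_smul]
    abel
  · by_cases h0 : η = 0
    · subst h0
      have := hc hk hx0 (sub_nonneg.2 hδ1) hδ0 (by ring)
      convert this using 1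
      rw [AffineMap.homothety_apply]
      simp only [vsub_eq_sub, vadd_eq_add, smul_sub, sub_smul, one_smul]
      simp
    · have hn : 0 < ‖η‖ := norm_pos_iff.2 h0
      have hz : x0 + (r / ‖η‖) • η ∈ K := by
        apply hball
        rw [Metric.mem_closedBall, dist_eq_norm, add_sub_cancel_left, norm_smul, Real.norm_eq_abs,
          abs_of_pos (by positivity)]
        rw [div_mul_cancel₀ _ hn.ne']
      have := hc hk hz (sub_nonneg.2 hδ1) hδ0 (by ring)
      convert this using 1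
      rw [AffineMap.homothety_apply]
      simp only [vsub_eq_sub, vadd_eq_add, smul_sub, sub_smul, one_smul, smul_add, smul_smul]
      have : ‖η‖ / r * (r / ‖η‖) = 1 := by field_simp
      rw [this, one_smul]
      abel

theorem vol_sdiff_le {K : Set (E d)} (hK : IsCompact K) (hc : Convex ℝ K) {x0 : E d} {r : ℝ}
    (hr : 0 < r) (hball : Metric.closedBall x0 r ⊆ K) {η : E d} (hη : ‖η‖ ≤ r) :
    volume.real (K \ {x | x + η ∈ K}) ≤ d * (‖η‖ / r) * volume.real K := by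
  have hδ0 : 0 ≤ ‖η‖ / r := by positivity
  have hδ1 : ‖η‖ / r ≤ 1 := (div_le_one hr).2 hη
  set K' := AffineMap.homothety x0 (1 - ‖η‖ / r) '' K with hK'
  have hK'c : IsCompact K' := hK.image (AffineMap.homothety_continuous _ _)
  have hsub : K' ⊆ K := by
    rintro _ ⟨k, hk, rfl⟩
    exact (shrink_mem hc hr hball hη hk).1
  have hsub2 : K \ {x | x + η ∈ K} ⊆ K \ K' := by
    intro x hx
    refine ⟨hx.1, fun hx' => hx.2 ?_⟩
    obtain ⟨k, hk, rfl⟩ := hx'
    exact (shrink_mem hc hr hball hη hk).2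
  have hfin : volume K ≠ ∞ := hK.measure_lt_top.ne
  have h1 : volume.real (K \ {x | x + η ∈ K}) ≤ volume.real (K \ K') :=
    measureReal_mono hsub2 (ne_top_of_le_ne_top hfin (measure_mono sdiff_subset))
  have h2 : volume.real (K \ K') = volume.real K - volume.real K' := by
    have := measureReal_sdiff_add_inter (μ := volume) (s := K) (t := K') hK'c.measurableSet hfin
    rw [inter_eq_right.2 hsub] at this
    linarith
  have h3 : volume.real K' = (1 - ‖η‖ / r) ^ d * volume.real K := by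
    rw [hK', Measure.real, Measure.addHaar_image_homothety, ENNReal.toReal_mul,
      ENNReal.toReal_ofReal (abs_nonneg _), finrank_euclideanSpace_fin,
      abs_of_nonneg (pow_nonneg (sub_nonneg.2 hδ1) _)]
    rfl
  have h4 : 1 + (d : ℝ) * (-(‖η‖ / r)) ≤ (1 + -(‖η‖ / r)) ^ d :=
    one_add_mul_le_pow (by linarith) d
  have hV : 0 ≤ volume.real K := measureReal_nonneg
  rw [h2, h3] at h1
  refine h1.trans ?_
  have : (1 - (1 - ‖η‖ / r) ^ d) * volume.real K ≤ (d * (‖η‖ / r)) * volume.real K := by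
    apply mul_le_mul_of_nonneg_right _ hV
    have e : (1 + -(‖η‖ / r)) = 1 - ‖η‖ / r := by ring
    rw [e] at h4
    linarith
  linarith

theorem transl_int (K : Set (E d)) (hK : MeasurableSet K) (η : E d) (F : E d → ℝ) :
    ∫ x in K ∩ {x | x + η ∈ K}, F (x + η) = ∫ z in K ∩ {z | z + (-η) ∈ K}, F z := by
  have hm1 : MeasurableSet (K ∩ {x | x + η ∈ K}) :=
    hK.inter ((measurable_add_const η) hK)
  have hm2 : MeasurableSet (K ∩ {z | z + (-η) ∈ K}) :=
    hK.inter ((measurable_add_const (-η)) hK)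
  rw [← integral_indicator hm1, ← integral_indicator hm2,
    ← integral_add_right_eq_self (μ := volume) ((K ∩ {z | z + (-η) ∈ K}).indicator F) η]
  refine integral_congr_ae (Filter.Eventually.of_forall fun x => ?_)
  have hiff : x + η ∈ K ∩ {z | z + (-η) ∈ K} ↔ x ∈ K ∩ {x | x + η ∈ K} := by
    constructor
    · rintro ⟨h1, h2⟩
      have h2' : x + η + -η ∈ K := h2
      rw [add_neg_cancel_right] at h2'
      exact ⟨h2', h1⟩
    · rintro ⟨h1, h2⟩
      refine ⟨h2, ?_⟩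
      show x + η + -η ∈ K
      rw [add_neg_cancel_right]
      exact h1
  beta_reduce
  by_cases h : x ∈ K ∩ {x | x + η ∈ K}
  · rw [indicator_of_mem h, indicator_of_mem (hiff.2 h)]
  · rw [indicator_of_notMem h, indicator_of_notMem (fun h' => h (hiff.1 h'))]

theorem pt_alg {q a1 a0 s1 s0 D1 D0 B : ℝ} (hq : q = (a1 - a0) - s1 + s0)
    (h1 : 0 ≤ s1) (h1' : s1 ≤ D1) (h0 : 0 ≤ s0) (h0' : s0 ≤ D0) (hD1 : D1 ≤ B) (hD0 : D0 ≤ B) :
    q ^ 2 ≤ 6 * a1 ^ 2 + 6 * a0 ^ 2 + 3 * B * (D1 + D0) := by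
  have e1 : q ^ 2 ≤ 3 * ((a1 - a0) ^ 2 + s1 ^ 2 + s0 ^ 2) := by
    rw [hq]
    nlinarith [sq_nonneg ((a1 - a0) + s1), sq_nonneg ((a1 - a0) - s0), sq_nonneg (s1 + s0)]
  have e2 : (a1 - a0) ^ 2 ≤ 2 * a1 ^ 2 + 2 * a0 ^ 2 := by nlinarith [sq_nonneg (a1 + a0)]
  have hB : 0 ≤ B := le_trans (le_trans h1 h1') hD1
  have e3 : s1 ^ 2 ≤ B * D1 := by
    have : s1 * s1 ≤ B * D1 := mul_le_mul (h1'.trans hD1) h1' h1 hB
    nlinarith
  have e4 : s0 ^ 2 ≤ B * D0 := by
    have : s0 * s0 ≤ B * D0 := mul_le_mul (h0'.trans hD0) h0' h0 hB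
    nlinarith
  nlinarith

/-- the good-point predicate -/
def GoodI (K : Set (E d)) (L : ℝ) (φ0 φ1 : E d → ℝ) (T0 T1 : E d → E d) (x : E d) : Prop :=
  ‖T0 x‖ ≤ L ∧ ‖T1 x‖ ≤ L ∧ (∀ x' ∈ K, φ0 x + ⟪T0 x, x' - x⟫ ≤ φ0 x') ∧
    (∀ x' ∈ K, φ1 x + ⟪T1 x, x' - x⟫ ≤ φ1 x')

theorem interp_dir {K : Set (E d)} (hK : IsCompact K) (hc : Convex ℝ K) {x0 : E d} {r : ℝ}
    (hr : 0 < r) (hball : Metric.closedBall x0 r ⊆ K) {L : ℝ} (hL : 0 ≤ L)
    (φ0 φ1 : E d → ℝ) (hφ0 : Continuous φ0) (hφ1 : Continuous φ1)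
    (T0 T1 : E d → E d) (hT0 : Measurable T0) (hT1 : Measurable T1)
    (hP : ∀ᵐ x ∂(volume : Measure (E d)), x ∈ K → GoodI K L φ0 φ1 T0 T1 x)
    (a : ℝ) (η : E d) (hη : ‖η‖ ≤ r) :
    IntegrableOn (fun x => ⟪T1 x - T0 x, η⟫ ^ 2) K ∧
    ∫ x in K, ⟪T1 x - T0 x, η⟫ ^ 2 ≤ 12 * (∫ x in K, (φ1 x - φ0 x - a) ^ 2)
      + 28 * L ^ 2 * ‖η‖ ^ 2 * (d * (‖η‖ / r) * volume.real K) := by
  set h := ‖η‖ with hh
  have hh0 : 0 ≤ h := norm_nonneg _
  set g : E d → ℝ := fun x => φ1 x - φ0 x - a with hg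
  set W : E d → ℝ := fun x => ⟪T1 x, η⟫ + ⟪T0 x, η⟫ with hW
  set Q : E d → ℝ := fun x => ⟪T1 x - T0 x, η⟫ ^ 2 with hQ
  set A : Set (E d) := {x | x + η ∈ K} with hA
  set A' : Set (E d) := {z | z + (-η) ∈ K} with hA'
  have hKm : MeasurableSet K := hK.measurableSet
  have hAm : MeasurableSet A := (measurable_add_const η) hKm
  have hA'm : MeasurableSet A' := (measurable_add_const (-η)) hKm
  have hfin : volume K ≠ ∞ := hK.measure_lt_top.ne
  have hfinA : volume (K ∩ A) ≠ ∞ := ne_top_of_le_ne_top hfin (measure_mono inter_subset_left)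
  have hP' : ∀ᵐ x ∂(volume : Measure (E d)), x + η ∈ K → GoodI K L φ0 φ1 T0 T1 (x + η) :=
    (eventually_add_right_iff volume η (p := fun z => z ∈ K → GoodI K L φ0 φ1 T0 T1 z)).2 hP
  have hgc : Continuous g := (hφ1.sub hφ0).sub continuous_const
  have hWm : Measurable W := (hT1.inner measurable_const).add (hT0.inner measurable_const)
  have hQm : Measurable Q := ((hT1.sub hT0).inner measurable_const).pow_const 2
  have hinner : ∀ v : E d, ‖v‖ ≤ L → |⟪v, η⟫| ≤ L * h := fun v hv =>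
    (abs_real_inner_le_norm v η).trans (mul_le_mul_of_nonneg_right hv hh0)
  -- bounds
  have hWb : ∀ᵐ x ∂(volume : Measure (E d)), x ∈ K → ‖W x‖ ≤ 2 * L * h := by
    filter_upwards [hP] with x hx hxK
    obtain ⟨b0, b1, -, -⟩ := hx hxK
    have := hinner _ b0
    have := hinner _ b1
    rw [Real.norm_eq_abs]
    calc |W x| ≤ |⟪T1 x, η⟫| + |⟪T0 x, η⟫| := abs_add_le _ _
      _ ≤ 2 * L * h := by linarith
  have hQb : ∀ᵐ x ∂(volume : Measure (E d)), x ∈ K → ‖Q x‖ ≤ 4 * L ^ 2 * h ^ 2 := by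
    filter_upwards [hP] with x hx hxK
    obtain ⟨b0, b1, -, -⟩ := hx hxK
    have h0 := hinner _ b0
    have h1 := hinner _ b1
    rw [Real.norm_eq_abs, abs_of_nonneg (sq_nonneg _)]
    have e : ⟪T1 x - T0 x, η⟫ = ⟪T1 x, η⟫ - ⟪T0 x, η⟫ := inner_sub_left _ _ _
    show ⟪T1 x - T0 x, η⟫ ^ 2 ≤ _
    rw [e]
    have h2 : |⟪T1 x, η⟫ - ⟪T0 x, η⟫| ≤ 2 * L * h := by
      calc |⟪T1 x, η⟫ - ⟪T0 x, η⟫| ≤ |⟪T1 x, η⟫| + |⟪T0 x, η⟫| := abs_sub _ _
        _ ≤ 2 * L * h := by linarith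
    have h3 := sq_le_sq' (by linarith [(abs_le.1 h2).1]) (abs_le.1 h2).2
    calc (⟪T1 x, η⟫ - ⟪T0 x, η⟫) ^ 2 ≤ (2 * L * h) ^ 2 := h3
      _ = 4 * L ^ 2 * h ^ 2 := by ring
  have hWi : IntegrableOn W K := Measure.integrableOn_of_bounded hfin hWm.aestronglyMeasurable
    ((ae_restrict_iff' hKm).2 hWb)
  have hQi : IntegrableOn Q K := Measure.integrableOn_of_bounded hfin hQm.aestronglyMeasurable
    ((ae_restrict_iff' hKm).2 hQb)
  have hg2i : IntegrableOn (fun x => g x ^ 2) K := (hgc.pow 2).continuousOn.integrableOn_compact hK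
  have hg2i' : IntegrableOn (fun x => g (x + η) ^ 2) K :=
    ((hgc.comp (continuous_add_const η)).pow 2).continuousOn.integrableOn_compact hK
  have hWsb : ∀ᵐ x ∂(volume : Measure (E d)), x ∈ K ∩ A → ‖W (x + η)‖ ≤ 2 * L * h := by
    have := (eventually_add_right_iff volume η (p := fun z => z ∈ K → ‖W z‖ ≤ 2 * L * h)).2 hWb
    filter_upwards [this] with x hx hxA
    exact hx hxA.2
  have hWsi : IntegrableOn (fun x => W (x + η)) (K ∩ A) :=
    Measure.integrableOn_of_bounded hfinA (hWm.comp (measurable_add_const η)).aestronglyMeasurable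
      ((ae_restrict_iff' (hKm.inter hAm)).2 hWsb)
  refine ⟨hQi, ?_⟩
  -- S1
  have S1 := integral_inter_add_sdiff (μ := volume) hAm hQi
  -- S2
  have hfinD : volume (K \ A) < ∞ := lt_of_le_of_lt (measure_mono sdiff_subset) hK.measure_lt_top
  have hfinD' : volume (K \ A') < ∞ := lt_of_le_of_lt (measure_mono sdiff_subset) hK.measure_lt_top
  have S2 : ∫ x in K \ A, Q x ≤ 4 * L ^ 2 * h ^ 2 * volume.real (K \ A) := by
    refine le_trans (le_abs_self _) ?_
    rw [← Real.norm_eq_abs]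
    refine norm_setIntegral_le_of_norm_le_const_ae' hfinD ?_
    filter_upwards [hQb] with x hx hxD using hx hxD.1
  -- S3
  have hRi : IntegrableOn (fun x => 6 * g (x + η) ^ 2 + 6 * g x ^ 2
      + 6 * L * h * (W (x + η) - W x)) (K ∩ A) :=
    (((hg2i'.mono_set inter_subset_left).const_mul 6).add
      ((hg2i.mono_set inter_subset_left).const_mul 6)).add
      ((hWsi.sub (hWi.mono_set inter_subset_left)).const_mul (6 * L * h))
  have S3 : ∫ x in K ∩ A, Q x ≤ ∫ x in K ∩ A, (6 * g (x + η) ^ 2 + 6 * g x ^ 2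
      + 6 * L * h * (W (x + η) - W x)) := by
    refine setIntegral_mono_on_ae (hQi.mono_set inter_subset_left) hRi (hKm.inter hAm) ?_
    filter_upwards [hP, hP'] with x hx hx' hxA
    obtain ⟨b0, b1, s0, s1⟩ := hx hxA.1
    obtain ⟨b0', b1', s0', s1'⟩ := hx' hxA.2
    have u0 := s0 (x + η) hxA.2
    have u1 := s1 (x + η) hxA.2
    have v0 := s0' x hxA.1
    have v1 := s1' x hxA.1
    rw [add_sub_cancel_left] at u0 u1
    have en : x - (x + η) = -η := by abel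
    rw [en, inner_neg_right] at v0 v1
    have i0 := abs_le.1 (hinner _ b0)
    have i1 := abs_le.1 (hinner _ b1)
    have i0' := abs_le.1 (hinner _ b0')
    have i1' := abs_le.1 (hinner _ b1')
    have e : ⟪T1 x - T0 x, η⟫ = ⟪T1 x, η⟫ - ⟪T0 x, η⟫ := inner_sub_left _ _ _
    have key := pt_alg (q := ⟪T1 x - T0 x, η⟫) (a1 := g (x + η)) (a0 := g x)
      (s1 := φ1 (x + η) - φ1 x - ⟪T1 x, η⟫) (s0 := φ0 (x + η) - φ0 x - ⟪T0 x, η⟫)
      (D1 := ⟪T1 (x + η), η⟫ - ⟪T1 x, η⟫) (D0 := ⟪T0 (x + η), η⟫ - ⟪T0 x, η⟫) (B := 2 * L * h)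
      (by rw [e]; simp only [hg]; ring) (by linarith) (by linarith) (by linarith) (by linarith)
      (by linarith [i1'.2, i1.1]) (by linarith [i0'.2, i0.1])
    show ⟪T1 x - T0 x, η⟫ ^ 2 ≤ _
    refine key.trans (le_of_eq ?_)
    simp only [hW]
    ring
  -- S4
  have S4 : ∫ x in K ∩ A, (6 * g (x + η) ^ 2 + 6 * g x ^ 2 + 6 * L * h * (W (x + η) - W x))
      = 6 * (∫ x in K ∩ A, g (x + η) ^ 2) + 6 * (∫ x in K ∩ A, g x ^ 2)
        + 6 * L * h * ((∫ x in K ∩ A, W (x + η)) - ∫ x in K ∩ A, W x) := by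
    have i1 : Integrable (fun x => 6 * g (x + η) ^ 2) (volume.restrict (K ∩ A)) :=
      (hg2i'.mono_set inter_subset_left).const_mul 6
    have i2 : Integrable (fun x => 6 * g x ^ 2) (volume.restrict (K ∩ A)) :=
      (hg2i.mono_set inter_subset_left).const_mul 6
    have i4 : Integrable (fun x => W x) (volume.restrict (K ∩ A)) :=
      hWi.mono_set inter_subset_left
    have i5 : Integrable (fun x => W (x + η)) (volume.restrict (K ∩ A)) := hWsi
    have i6 : Integrable (fun x => W (x + η) - W x) (volume.restrict (K ∩ A)) := i5.sub i4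
    have i3 : Integrable (fun x => 6 * L * h * (W (x + η) - W x)) (volume.restrict (K ∩ A)) :=
      i6.const_mul _
    have i12 : Integrable (fun x => 6 * g (x + η) ^ 2 + 6 * g x ^ 2) (volume.restrict (K ∩ A)) :=
      i1.add i2
    rw [integral_add i12 i3, integral_add i1 i2, integral_const_mul, integral_const_mul,
      integral_const_mul, integral_sub i5 i4]
  -- S5
  have hg2nn : 0 ≤ᵐ[volume.restrict K] fun x => g x ^ 2 :=
    Filter.Eventually.of_forall fun x => sq_nonneg _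
  have S5 : ∫ x in K ∩ A, g (x + η) ^ 2 ≤ ∫ x in K, g x ^ 2 := by
    rw [transl_int K hKm η (fun z => g z ^ 2)]
    exact setIntegral_mono_set hg2i hg2nn (Filter.Eventually.of_forall inter_subset_left)
  have S5' : ∫ x in K ∩ A, g x ^ 2 ≤ ∫ x in K, g x ^ 2 :=
    setIntegral_mono_set hg2i hg2nn (Filter.Eventually.of_forall inter_subset_left)
  -- S6
  have S6 : ∫ x in K ∩ A, W (x + η) = ∫ z in K ∩ A', W z := transl_int K hKm η W
  have S6a := integral_inter_add_sdiff (μ := volume) hA'm hWi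
  have S6b := integral_inter_add_sdiff (μ := volume) hAm hWi
  have S6c : |∫ x in K \ A', W x| ≤ 2 * L * h * volume.real (K \ A') := by
    rw [← Real.norm_eq_abs]
    refine norm_setIntegral_le_of_norm_le_const_ae' hfinD' ?_
    filter_upwards [hWb] with x hx hxD using hx hxD.1
  have S6d : |∫ x in K \ A, W x| ≤ 2 * L * h * volume.real (K \ A) := by
    rw [← Real.norm_eq_abs]
    refine norm_setIntegral_le_of_norm_le_const_ae' hfinD ?_
    filter_upwards [hWb] with x hx hxD using hx hxD.1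
  -- S7
  have S7 : volume.real (K \ A) ≤ d * (h / r) * volume.real K := vol_sdiff_le hK hc hr hball hη
  have S7' : volume.real (K \ A') ≤ d * (h / r) * volume.real K := by
    have := vol_sdiff_le (η := -η) hK hc hr hball (by rw [norm_neg]; exact hη)
    rw [norm_neg] at this
    exact this
  set V := d * (h / r) * volume.real K with hV
  have hLh : 0 ≤ L * h := mul_nonneg hL hh0
  have c1 := (abs_le.1 S6c).1
  have c2 := (abs_le.1 S6d).2
  have F1 : (∫ x in K ∩ A, W (x + η)) - ∫ x in K ∩ A, W x ≤ 4 * L * h * V := by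
    have t1 : 2 * L * h * volume.real (K \ A') ≤ 2 * L * h * V :=
      mul_le_mul_of_nonneg_left S7' (by linarith)
    have t2 : 2 * L * h * volume.real (K \ A) ≤ 2 * L * h * V :=
      mul_le_mul_of_nonneg_left S7 (by linarith)
    rw [S6]
    linarith
  have F2 : 6 * L * h * ((∫ x in K ∩ A, W (x + η)) - ∫ x in K ∩ A, W x)
      ≤ 6 * L * h * (4 * L * h * V) := mul_le_mul_of_nonneg_left F1 (by linarith)
  have F3 : 4 * L ^ 2 * h ^ 2 * volume.real (K \ A) ≤ 4 * L ^ 2 * h ^ 2 * V :=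
    mul_le_mul_of_nonneg_left S7 (by positivity)
  have F4 : 6 * L * h * (4 * L * h * V) + 4 * L ^ 2 * h ^ 2 * V = 28 * L ^ 2 * h ^ 2 * V := by ring
  linarith

/-- Step (I), with a free step length `h`. -/
theorem interp_h {K : Set (E d)} (hK : IsCompact K) (hc : Convex ℝ K) {x0 : E d} {r : ℝ}
    (hr : 0 < r) (hball : Metric.closedBall x0 r ⊆ K) {L : ℝ} (hL : 0 ≤ L)
    (φ0 φ1 : E d → ℝ) (hφ0 : Continuous φ0) (hφ1 : Continuous φ1)
    (T0 T1 : E d → E d) (hT0 : Measurable T0) (hT1 : Measurable T1)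
    (hb0 : ∀ᵐ x ∂(unif K), ‖T0 x‖ ≤ L) (hb1 : ∀ᵐ x ∂(unif K), ‖T1 x‖ ≤ L)
    (hs0 : ∀ᵐ x ∂(unif K), ∀ x' ∈ K, φ0 x + ⟪T0 x, x' - x⟫ ≤ φ0 x')
    (hs1 : ∀ᵐ x ∂(unif K), ∀ x' ∈ K, φ1 x + ⟪T1 x, x' - x⟫ ≤ φ1 x')
    (a : ℝ) {h : ℝ} (hh0 : 0 < h) (hhr : h ≤ r) :
    ∫ x, ‖T1 x - T0 x‖ ^ 2 ∂(unif K)
      ≤ d * (12 * (∫ x, (φ1 x - φ0 x - a) ^ 2 ∂(unif K)) / h ^ 2 + 28 * L ^ 2 * d * h / r) := by
  have hfin : volume K ≠ ∞ := hK.measure_lt_top.ne
  have hint : (interior K).Nonempty := ⟨x0, mem_interior.2 ⟨Metric.ball x0 r,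
    Metric.ball_subset_closedBall.trans hball, Metric.isOpen_ball, Metric.mem_ball_self hr⟩⟩
  have hVpos : 0 < (volume K).toReal := ENNReal.toReal_pos (volume_pos_of_interior hint).ne' hfin
  have hP : ∀ᵐ x ∂(volume : Measure (E d)), x ∈ K → GoodI K L φ0 φ1 T0 T1 x := by
    have : ∀ᵐ x ∂(unif K), GoodI K L φ0 φ1 T0 T1 x := by
      filter_upwards [hb0, hb1, hs0, hs1] with x a b c d using ⟨a, b, c, d⟩
    unfold unif at this
    rw [Measure.ae_ennreal_smul_measure_iff (ENNReal.inv_ne_zero.2 hfin),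
      ae_restrict_iff' hK.measurableSet] at this
    exact this
  set η : Fin d → E d := fun i => h • EuclideanSpace.single i (1 : ℝ) with hη
  have hηn : ∀ i, ‖η i‖ = h := by
    intro i
    simp [hη, norm_smul, abs_of_pos hh0]
  have hdir := fun i => interp_dir hK hc hr hball hL φ0 φ1 hφ0 hφ1 T0 T1 hT0 hT1 hP a (η i)
    (by rw [hηn]; exact hhr)
  have hsum : ∀ x, h ^ 2 * ‖T1 x - T0 x‖ ^ 2 = ∑ i, ⟪T1 x - T0 x, η i⟫ ^ 2 := by
    intro x
    rw [EuclideanSpace.norm_sq_eq, Finset.mul_sum]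
    refine Finset.sum_congr rfl fun i _ => ?_
    simp only [hη, inner_smul_right, EuclideanSpace.inner_single_right, Real.norm_eq_abs, sq_abs]
    simp
    ring
  rw [integral_unif, integral_unif]
  have e1 : h ^ 2 * ∫ x in K, ‖T1 x - T0 x‖ ^ 2 = ∑ i, ∫ x in K, ⟪T1 x - T0 x, η i⟫ ^ 2 := by
    rw [← integral_const_mul, ← integral_finsetSum _ (fun i _ => (hdir i).1)]
    exact integral_congr_ae (ae_of_all _ hsum)
  have e2 : ∑ i, ∫ x in K, ⟪T1 x - T0 x, η i⟫ ^ 2 ≤ ∑ _i : Fin d,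
      (12 * (∫ x in K, (φ1 x - φ0 x - a) ^ 2)
        + 28 * L ^ 2 * h ^ 2 * (d * (h / r) * volume.real K)) :=
    Finset.sum_le_sum fun i _ => by
      have := (hdir i).2
      rwa [hηn i] at this
  rw [Finset.sum_const, Finset.card_univ, Fintype.card_fin, nsmul_eq_mul, ← e1] at e2
  set X := ∫ x in K, ‖T1 x - T0 x‖ ^ 2 with hX
  set GK := ∫ x in K, (φ1 x - φ0 x - a) ^ 2 with hGK
  have hVe : volume.real K = (volume K).toReal := rfl
  rw [hVe] at e2
  set V := (volume K).toReal with hV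
  have e3 : V⁻¹ * X = (h ^ 2 * X) / (V * h ^ 2) := by field_simp
  rw [e3, div_le_iff₀ (by positivity)]
  refine e2.trans (le_of_eq ?_)
  field_simp

/-- Step (I): `∫ |T1 - T0|^2 ≤ C (∫ (φ1 - φ0 - a)^2)^(1/3)` with `C` depending only on
`d, r, L`. -/
theorem interp {K : Set (E d)} (hK : IsCompact K) (hc : Convex ℝ K) {x0 : E d} {r : ℝ}
    (hr : 0 < r) (hball : Metric.closedBall x0 r ⊆ K) {L : ℝ} (hL : 0 ≤ L)
    (φ0 φ1 : E d → ℝ) (hφ0 : Continuous φ0) (hφ1 : Continuous φ1)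
    (T0 T1 : E d → E d) (hT0 : Measurable T0) (hT1 : Measurable T1)
    (hb0 : ∀ᵐ x ∂(unif K), ‖T0 x‖ ≤ L) (hb1 : ∀ᵐ x ∂(unif K), ‖T1 x‖ ≤ L)
    (hs0 : ∀ᵐ x ∂(unif K), ∀ x' ∈ K, φ0 x + ⟪T0 x, x' - x⟫ ≤ φ0 x')
    (hs1 : ∀ᵐ x ∂(unif K), ∀ x' ∈ K, φ1 x + ⟪T1 x, x' - x⟫ ≤ φ1 x')
    (a : ℝ) :
    ∫ x, ‖T1 x - T0 x‖ ^ 2 ∂(unif K)
      ≤ (d * (12 + 28 * L ^ 2 * d / r) + 4 * L ^ 2 / r)
        * (∫ x, (φ1 x - φ0 x - a) ^ 2 ∂(unif K)) ^ (1 / 3 : ℝ) := by
  have hint : (interior K).Nonempty := ⟨x0, mem_interior.2 ⟨Metric.ball x0 r,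
    Metric.ball_subset_closedBall.trans hball, Metric.isOpen_ball, Metric.mem_ball_self hr⟩⟩
  have := isProbabilityMeasure_unif hK hint
  have main := fun (h : ℝ) (hh0 : 0 < h) (hhr : h ≤ r) =>
    interp_h hK hc hr hball hL φ0 φ1 hφ0 hφ1 T0 T1 hT0 hT1 hb0 hb1 hs0 hs1 a hh0 hhr
  set G := ∫ x, (φ1 x - φ0 x - a) ^ 2 ∂(unif K) with hG
  set X := ∫ x, ‖T1 x - T0 x‖ ^ 2 ∂(unif K) with hX
  have hG0 : 0 ≤ G := integral_nonneg fun x => sq_nonneg _
  set h := G ^ (1 / 3 : ℝ) with hh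
  have hh0 : 0 ≤ h := Real.rpow_nonneg hG0 _
  have hh3 : h ^ 3 = G := by
    rw [hh, ← Real.rpow_natCast, ← Real.rpow_mul hG0]
    norm_num
  have hd0 : (0 : ℝ) ≤ d := Nat.cast_nonneg d
  have hc1 : 0 ≤ (d : ℝ) * (12 + 28 * L ^ 2 * d / r) := by positivity
  have hc2 : 0 ≤ 4 * L ^ 2 / r := by positivity
  rcases lt_or_ge r h with hrh | hrh
  · -- trivial bound
    have hX4 : X ≤ 4 * L ^ 2 := by
      have hb : ∀ᵐ x ∂(unif K), ‖‖T1 x - T0 x‖ ^ 2‖ ≤ 4 * L ^ 2 := by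
        filter_upwards [hb0, hb1] with x b0 b1
        rw [Real.norm_eq_abs, abs_of_nonneg (sq_nonneg _)]
        have : ‖T1 x - T0 x‖ ≤ 2 * L := (norm_sub_le _ _).trans (by linarith)
        calc ‖T1 x - T0 x‖ ^ 2 ≤ (2 * L) ^ 2 := pow_le_pow_left₀ (norm_nonneg _) this 2
          _ = 4 * L ^ 2 := by ring
      have := norm_integral_le_of_norm_le_const hb
      rw [probReal_univ, mul_one] at this
      exact (le_abs_self _).trans this
    have : 4 * L ^ 2 ≤ 4 * L ^ 2 / r * h := by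
      rw [div_mul_eq_mul_div, le_div_iff₀ hr]
      exact mul_le_mul_of_nonneg_left hrh.le (by positivity)
    nlinarith [mul_nonneg hc1 hh0]
  · rcases hh0.eq_or_lt with h0 | hpos
    · -- G = 0
      have hGz : G = 0 := by rw [← hh3, ← h0]; norm_num
      rw [← h0, mul_zero]
      refine le_of_forall_pos_le_add fun ε hε => ?_
      set c := (d : ℝ) * (28 * L ^ 2 * d / r) with hc
      have hc0 : 0 ≤ c := by positivity
      have hm := main (min r (ε / (c + 1))) (lt_min hr (by positivity)) (min_le_left _ _)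
      rw [hGz] at hm
      have h1 : min r (ε / (c + 1)) ≤ ε / (c + 1) := min_le_right _ _
      have h2 : c * (ε / (c + 1)) ≤ ε := by
        rw [mul_div_assoc', div_le_iff₀ (by positivity)]
        nlinarith
      have h3 : (d : ℝ) * (12 * 0 / min r (ε / (c + 1)) ^ 2 + 28 * L ^ 2 * d * min r (ε / (c + 1)) / r)
          = c * min r (ε / (c + 1)) := by
        rw [hc]; ring
      rw [h3] at hm
      have h4 := mul_le_mul_of_nonneg_left h1 hc0
      linarith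
    · have hm := main h hpos hrh
      have e : (d : ℝ) * (12 * G / h ^ 2 + 28 * L ^ 2 * d * h / r)
          = d * (12 + 28 * L ^ 2 * d / r) * h := by
        rw [← hh3]
        field_simp
      rw [e] at hm
      nlinarith [mul_nonneg hc2 hh0]

end Vale.Agent.Lib.P074
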