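import Vale.Agent.Lib.P074T.LagPart

/-! # P074T: the weights of a Laguerre tessellation depend continuously on the masses
(direct gap argument; no compactness). -/

open MeasureTheory Filter Topology
open scoped ENNReal NNReal RealInnerProductSpace

namespace Vale.Agent.Lib.P074.Pre4

variable {d N : ℕ}

/-- A subset of a convex set of positive (outer) measure meets the interior of the convex set. -/
theorem exists_mem_interior_of_pos {K S : Set (E d)} (hK : Convex ℝ K)
    (h : 0 < volume (K ∩ S)) : ∃ x ∈ interior K, x ∈ S := by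
  by_contra hne
  have hsub : K ∩ S ⊆ frontier K := by
    intro x hx
    refine ⟨subset_closure hx.1, fun hxi => hne ⟨x, hxi, hx.2⟩⟩
  have h0 : volume (K ∩ S) = 0 :=
    measure_mono_null hsub (hK.addHaar_frontier volume)
  exact absurd h (by simp [h0])

/-- GAP LEMMA. `K` convex, `D` continuous. If `D ≤ a` on a part of `K` of positive measure and
`b ≤ D` on a part of `K` of positive measure, `a < b`, then the intermediate layer
`{a < D < b}` has positive measure in `K`. -/
theorem pos_measure_between {K : Set (E d)} (hK : Convex ℝ K) {D : E d → ℝ} (hD : Continuous D)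
    {a b : ℝ} (hab : a < b) (h0 : 0 < volume (K ∩ {x | D x ≤ a}))
    (h1 : 0 < volume (K ∩ {x | b ≤ D x})) :
    0 < volume (K ∩ {x | a < D x ∧ D x < b}) := by
  obtain ⟨x0, hx0, hD0⟩ := exists_mem_interior_of_pos hK h0
  obtain ⟨x1, hx1, hD1⟩ := exists_mem_interior_of_pos hK h1
  have hint : Convex ℝ (interior K) := hK.interior
  have hpre : IsPreconnected (interior K) := hint.isPreconnected
  have hD0' : D x0 ≤ a := hD0
  have hD1' : b ≤ D x1 := hD1
  have hmid : (a + b) / 2 ∈ Set.Icc (D x0) (D x1) := by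
    constructor <;> linarith
  obtain ⟨z, hz, hDz⟩ := hpre.intermediate_value hx0 hx1 hD.continuousOn hmid
  have hopen : IsOpen (interior K ∩ {x | a < D x ∧ D x < b}) := by
    refine isOpen_interior.inter ?_
    exact (isOpen_lt continuous_const hD).inter (isOpen_lt hD continuous_const)
  have hzmem : z ∈ interior K ∩ {x | a < D x ∧ D x < b} := by
    refine ⟨hz, ?_, ?_⟩ <;> rw [hDz] <;> linarith
  have hpos : 0 < volume (interior K ∩ {x | a < D x ∧ D x < b}) :=
    hopen.measure_pos volume ⟨z, hzmem⟩
  exact hpos.trans_le (measure_mono (Set.inter_subset_inter_left _ interior_subset))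

theorem unif_apply' {K A : Set (E d)} (hA : MeasurableSet A) :
    unif K A = (volume K)⁻¹ * volume (K ∩ A) := by
  unfold unif
  rw [Measure.smul_apply, Measure.restrict_apply hA, smul_eq_mul, Set.inter_comm]

theorem vol_pos_of_real_pos {K A : Set (E d)} (hA : MeasurableSet A)
    (h : 0 < (unif K).real A) : 0 < volume (K ∩ A) := by
  by_contra hne
  have h0 : volume (K ∩ A) = 0 := by simpa using hne
  have : unif K A = 0 := by rw [unif_apply' hA, h0, mul_zero]
  simp [Measure.real, this] at h

theorem real_pos_of_vol_pos {K A : Set (E d)} (hK : IsCompact K) (hint : (interior K).Nonempty)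
    (hA : MeasurableSet A) (h : 0 < volume (K ∩ A)) : 0 < (unif K).real A := by
  haveI := isProbabilityMeasure_unif hK hint
  have h1 : unif K A ≠ 0 := by
    rw [unif_apply' hA]
    refine mul_ne_zero ?_ h.ne'
    exact ENNReal.inv_ne_zero.2 hK.measure_lt_top.ne
  exact ENNReal.toReal_pos h1 (measure_ne_top _ _)

/-- The masses of a family of cells add up to at most the measure of a set containing them. -/
theorem sum_lmass_le {K : Set (E d)} (hK : IsCompact K) (hint : (interior K).Nonempty)
    (y : Fin N → E d) (hy : Function.Injective y) (c : Fin N → ℝ) (S : Finset (Fin N))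
    {A : Set (E d)} (hA : ∀ j ∈ S, lag K y c j ⊆ A) :
    ∑ j ∈ S, lmass K y c j ≤ (unif K).real A := by
  haveI := isProbabilityMeasure_unif hK hint
  have h1 : (unif K).real (⋃ j ∈ S, lag K y c j) = ∑ j ∈ S, (unif K).real (lag K y c j) := by
    refine measureReal_biUnion_finset₀ ?_ ?_
    · intro j _ k _ hjk
      exact lag_inter_null y hy c hjk
    · intro j _
      exact (measurableSet_lag hK y c j).nullMeasurableSet
  have h2 : ∑ j ∈ S, lmass K y c j = (unif K).real (⋃ j ∈ S, lag K y c j) := by
    rw [h1]; rfl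
  rw [h2]
  exact measureReal_mono (Set.iUnion₂_subset hA)

/-- Pigeonhole: values spread over more than `N g` leave a gap of length `g`. -/
theorem exists_gap (δ : Fin N → ℝ) {g : ℝ} (hg : 0 < g) {a b : Fin N}
    (hab : (N : ℝ) * g < δ a - δ b) :
    ∃ S : Finset (Fin N), a ∈ S ∧ b ∉ S ∧ ∀ j ∈ S, ∀ k ∉ S, δ k + g ≤ δ j := by
  classical
  set S : ℕ → Finset (Fin N) := fun i => Finset.univ.filter (fun j => δ b + i * g < δ j) with hSdef
  have hmem : ∀ i j, j ∈ S i ↔ δ b + i * g < δ j := by
    intro i j
    simp [hSdef]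
  have hanti : ∀ i, S (i + 1) ⊆ S i := by
    intro i j hj
    rw [hmem] at hj ⊢
    push_cast at hj
    nlinarith
  have haS : ∀ i, i ≤ N → a ∈ S i := by
    intro i hi
    rw [hmem]
    have : (i : ℝ) * g ≤ (N : ℝ) * g := by
      have : (i : ℝ) ≤ N := by exact_mod_cast hi
      nlinarith
    linarith
  by_cases hex : ∃ i, i < N ∧ S (i + 1) = S i
  · obtain ⟨i, hiN, hi⟩ := hex
    refine ⟨S i, haS i hiN.le, ?_, ?_⟩
    · rw [hmem]
      have : (0 : ℝ) ≤ (i : ℝ) * g := by positivity
      linarith
    · intro j hj k hk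
      rw [← hi, hmem] at hj
      rw [hmem] at hk
      push_cast at hj
      nlinarith
  · exfalso
    have hex' : ∀ i, i < N → S (i + 1) ≠ S i := fun i hi h => hex ⟨i, hi, h⟩
    have hcard : ∀ i, i ≤ N → (S i).card + i ≤ (S 0).card := by
      intro i
      induction i with
      | zero => intro _; simp
      | succ n ih =>
        intro hn
        have h1 := ih (by omega)
        have hss : S (n + 1) ⊂ S n := (hanti n).ssubset_of_ne (hex' n (by omega))
        have := Finset.card_lt_card hss
        omega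
    have h1 := hcard N le_rfl
    have h2 : 0 < (S N).card := Finset.card_pos.2 ⟨a, haS N le_rfl⟩
    have h3 : (S 0).card ≤ N := by simpa using Finset.card_le_univ (S 0)
    omega

/-- For a fixed splitting `S | Sᶜ` of the labels: if the masses move by less than `δ`, the weights
of `S` cannot all move up by `g` more than the weights of `Sᶜ`. -/
theorem split_bound [NeZero N] {K : Set (E d)} (hK : IsCompact K) (hc : Convex ℝ K)
    (hint : (interior K).Nonempty) (y : Fin N → E d) (hy : Function.Injective y) (c : Fin N → ℝ)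
    (hpos : ∀ j, 0 < lmass K y c j) (S : Finset (Fin N)) (hS : S.Nonempty) (hSc : Sᶜ.Nonempty)
    {g : ℝ} (hg : 0 < g) :
    ∃ δ : ℝ, 0 < δ ∧ ∀ c' : Fin N → ℝ, (∀ j, |lmass K y c' j - lmass K y c j| ≤ δ) →
      ¬ (∀ j ∈ S, ∀ k ∉ S, (c' k - c k) + g ≤ c' j - c j) := by
  classical
  haveI := isProbabilityMeasure_unif hK hint
  set D : E d → ℝ := fun x =>
    S.sup' hS (fun j => ⟪x, y j⟫ - c j) - Sᶜ.sup' hSc (fun k => ⟪x, y k⟫ - c k) with hD
  have hDc : Continuous D := by
    refine Continuous.sub ?_ ?_
    · exact Continuous.finset_sup'_apply hS (fun j _ => by fun_prop)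
    · exact Continuous.finset_sup'_apply hSc (fun j _ => by fun_prop)
  set A1 : Set (E d) := {x | D x ≤ 0} with hA1
  set A2 : Set (E d) := {x | 0 < D x ∧ D x < g} with hA2
  set A3 : Set (E d) := {x | g ≤ D x} with hA3
  have hA1m : MeasurableSet A1 := (isClosed_le hDc continuous_const).measurableSet
  have hA3m : MeasurableSet A3 := (isClosed_le continuous_const hDc).measurableSet
  have hA2m : MeasurableSet A2 :=
    ((isOpen_lt continuous_const hDc).inter (isOpen_lt hDc continuous_const)).measurableSet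
  have htot : (unif K).real A1 + (unif K).real A2 + (unif K).real A3 = 1 := by
    have h12 : Disjoint A1 A2 := by
      rw [Set.disjoint_left]
      intro x h1 h2
      exact absurd h2.1 (not_lt.2 h1)
    have h123 : Disjoint (A1 ∪ A2) A3 := by
      rw [Set.disjoint_left]
      intro x h1 h3
      have h3' : g ≤ D x := h3
      rcases h1 with h1 | h1
      · have h1' : D x ≤ 0 := h1
        linarith
      · have h1' := h1.2
        linarith
    have hu : (A1 ∪ A2) ∪ A3 = Set.univ := by
      ext x
      simp only [Set.mem_union, Set.mem_univ, iff_true]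
      by_cases h1 : D x ≤ 0
      · exact Or.inl (Or.inl h1)
      · by_cases h3 : g ≤ D x
        · exact Or.inr h3
        · exact Or.inl (Or.inr ⟨not_le.1 h1, not_le.1 h3⟩)
    rw [← measureReal_union h12 hA2m, ← measureReal_union h123 hA3m, hu, probReal_univ]
  have hsub1 : ∀ k ∈ Sᶜ, lag K y c k ⊆ A1 := by
    intro k hk x hx
    have h1 : S.sup' hS (fun j => ⟪x, y j⟫ - c j) ≤ ⟪x, y k⟫ - c k :=
      Finset.sup'_le _ _ (fun j _ => hx.2 j)
    have h2 : ⟪x, y k⟫ - c k ≤ Sᶜ.sup' hSc (fun k => ⟪x, y k⟫ - c k) :=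
      Finset.le_sup' (fun k => ⟪x, y k⟫ - c k) hk
    show D x ≤ 0
    simp only [hD]
    linarith
  have hm1 : ∑ k ∈ Sᶜ, lmass K y c k ≤ (unif K).real A1 :=
    sum_lmass_le hK hint y hy c Sᶜ hsub1
  have hsum : ∑ j ∈ S, lmass K y c j + ∑ k ∈ Sᶜ, lmass K y c k = 1 := by
    rw [Finset.sum_add_sum_compl]
    exact sum_lmass hK hint y hy c
  have key : ∀ c' : Fin N → ℝ, (∀ j ∈ S, ∀ k ∉ S, (c' k - c k) + g ≤ c' j - c j) →
      ∑ j ∈ S, lmass K y c' j ≤ (unif K).real A3 := by
    intro c' h
    refine sum_lmass_le hK hint y hy c' S ?_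
    intro j hj x hx
    have h1 : Sᶜ.sup' hSc (fun k => ⟪x, y k⟫ - c k) ≤ ⟪x, y j⟫ - c j - g := by
      refine Finset.sup'_le _ _ (fun k hk => ?_)
      have e1 := h j hj k (Finset.mem_compl.1 hk)
      have e2 := hx.2 k
      linarith
    have h2 : ⟪x, y j⟫ - c j ≤ S.sup' hS (fun j => ⟪x, y j⟫ - c j) :=
      Finset.le_sup' (fun j => ⟪x, y j⟫ - c j) hj
    show g ≤ D x
    simp only [hD]
    linarith
  obtain ⟨j0, hj0⟩ := id hS
  obtain ⟨k0, hk0⟩ := id hSc
  have hN : (0 : ℝ) < N := by exact_mod_cast (NeZero.pos N)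
  by_cases hω : 0 < (unif K).real A2
  · refine ⟨(unif K).real A2 / (2 * N), by positivity, ?_⟩
    intro c' hclose h
    have h3 := key c' h
    have h4 : ∑ j ∈ S, (lmass K y c j - lmass K y c' j)
        ≤ ∑ j ∈ S, (unif K).real A2 / (2 * N) := by
      refine Finset.sum_le_sum (fun j _ => ?_)
      have e := hclose j
      rw [abs_le] at e
      linarith [e.1]
    rw [Finset.sum_sub_distrib, Finset.sum_const, nsmul_eq_mul] at h4
    have h5 : (S.card : ℝ) ≤ N := by
      have e := Finset.card_le_univ S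
      rw [Fintype.card_fin] at e
      exact_mod_cast e
    have h6 : (S.card : ℝ) * ((unif K).real A2 / (2 * N)) ≤ (unif K).real A2 / 2 := by
      calc (S.card : ℝ) * ((unif K).real A2 / (2 * N))
          ≤ (N : ℝ) * ((unif K).real A2 / (2 * N)) := by gcongr
        _ = (unif K).real A2 / 2 := by field_simp
    linarith
  · refine ⟨lmass K y c j0 / 2, by have := hpos j0; positivity, ?_⟩
    intro c' hclose h
    apply hω
    have h3 := key c' h
    have h7 : 0 < lmass K y c' j0 := by
      have e := hclose j0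
      rw [abs_le] at e
      have e2 := hpos j0
      linarith [e.1]
    have h8 : 0 < (unif K).real A3 := by
      refine lt_of_lt_of_le h7 (le_trans ?_ h3)
      exact Finset.single_le_sum (f := fun j => lmass K y c' j)
        (fun j _ => lmass_nonneg K y c' j) hj0
    have h9 : 0 < (unif K).real A1 := by
      refine lt_of_lt_of_le (hpos k0) (le_trans ?_ hm1)
      exact Finset.single_le_sum (f := fun j => lmass K y c j)
        (fun j _ => lmass_nonneg K y c j) hk0
    exact real_pos_of_vol_pos hK hint hA2m (pos_measure_between hc hDc hg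
      (vol_pos_of_real_pos hA1m h9) (vol_pos_of_real_pos hA3m h8))

/-- LEMMA WC: the weights (modulo constants) depend continuously on the masses. -/
theorem weights_continuous4 [NeZero N] {K : Set (E d)} (hK : IsCompact K) (hc : Convex ℝ K)
    (hint : (interior K).Nonempty) (y : Fin N → E d) (hy : Function.Injective y) (c : Fin N → ℝ)
    (hpos : ∀ j, 0 < lmass K y c j) {ε : ℝ} (hε : 0 < ε) :
    ∃ δ : ℝ, 0 < δ ∧ ∀ c' : Fin N → ℝ, (∀ j, |lmass K y c' j - lmass K y c j| ≤ δ) →
      ∀ j k, |(c' j - c j) - (c' k - c k)| ≤ ε := by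
  classical
  have hN : (0 : ℝ) < N := by exact_mod_cast (NeZero.pos N)
  set g : ℝ := ε / N with hgdef
  have hg : 0 < g := by positivity
  have hex : ∀ S : Finset (Fin N), ∃ δ : ℝ, 0 < δ ∧ (S.Nonempty → Sᶜ.Nonempty →
      ∀ c' : Fin N → ℝ, (∀ j, |lmass K y c' j - lmass K y c j| ≤ δ) →
      ¬ (∀ j ∈ S, ∀ k ∉ S, (c' k - c k) + g ≤ c' j - c j)) := by
    intro S
    by_cases h1 : S.Nonempty
    · by_cases h2 : Sᶜ.Nonempty
      · obtain ⟨δ, hδ, h⟩ := split_bound hK hc hint y hy c hpos S h1 h2 hg
        exact ⟨δ, hδ, fun _ _ => h⟩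
      · exact ⟨1, one_pos, fun _ h => absurd h h2⟩
    · exact ⟨1, one_pos, fun h => absurd h h1⟩
  choose δ hδpos hδ using hex
  obtain ⟨S0, -, hS0⟩ := Finset.exists_min_image (Finset.univ : Finset (Finset (Fin N))) δ
    ⟨∅, Finset.mem_univ _⟩
  refine ⟨δ S0, hδpos S0, ?_⟩
  intro c' hclose
  have one : ∀ j k, (c' j - c j) - (c' k - c k) ≤ ε := by
    intro j k
    by_contra hne
    push_neg at hne
    have hab : (N : ℝ) * g < (fun i => c' i - c i) j - (fun i => c' i - c i) k := by
      have e : (N : ℝ) * g = ε := by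
        rw [hgdef]
        field_simp
      rw [e]
      exact hne
    obtain ⟨S, hjS, hkS, hgap⟩ := exists_gap (fun i => c' i - c i) hg hab
    exact hδ S ⟨j, hjS⟩ ⟨k, Finset.mem_compl.2 hkS⟩ c'
      (fun i => (hclose i).trans (hS0 S (Finset.mem_univ _))) hgap
  intro j k
  rw [abs_le]
  constructor
  · have := one k j
    linarith
  · exact one j k

end Vale.Agent.Lib.P074.Pre4
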