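import Vale.Agent.Lib.P074T.LagPart

/-! # P074T: continuity of the weights of a Laguerre tessellation in the masses (lemma WC) -/

open MeasureTheory Set
open scoped ENNReal NNReal RealInnerProductSpace

namespace Vale.Agent.Lib.P074.H5

variable {d N : ℕ}

/-- The region of `K` where `0 < max_S l - max_{S^c} l < g`, `l i x = <x, y i> - c i`. -/
def gapSet (K : Set (E d)) (y : Fin N → E d) (c : Fin N → ℝ) (S : Finset (Fin N)) (g : ℝ) :
    Set (E d) :=
  {x | x ∈ K ∧ (∃ i ∈ S, ∀ k ∉ S, ⟪x, y k⟫ - c k < ⟪x, y i⟫ - c i) ∧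
    ∀ i ∈ S, ∃ k ∉ S, ⟪x, y i⟫ - c i < ⟪x, y k⟫ - c k + g}

/-- Pigeonhole: a family of `N` reals of oscillation `> ε` has a gap `≥ ε / N`. -/
theorem exists_gap (w : Fin N → ℝ) {ε : ℝ} (hε : 0 < ε) (j k : Fin N) (h : ε < w j - w k) :
    ∃ S : Finset (Fin N), j ∈ S ∧ k ∉ S ∧ ∀ i ∈ S, ∀ i' ∉ S, ε / N ≤ w i - w i' := by
  classical
  have hN : 0 < N := Fin.pos j
  have hNr : (0 : ℝ) < N := by exact_mod_cast hN
  set g := ε / N with hgdef
  have hg : 0 < g := by positivity
  have hNg : (N : ℝ) * g = ε := by rw [hgdef]; field_simp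
  let A : ℕ → Finset (Fin N) := fun r => Finset.univ.filter (fun i => w k + r * g < w i)
  have hmem : ∀ r i, i ∈ A r ↔ w k + r * g < w i := by
    intro r i
    simp [A]
  have hmono : ∀ r, A (r + 1) ⊆ A r := by
    intro r i hi
    rw [hmem] at hi ⊢
    push_cast at hi
    nlinarith
  have hex : ∃ r < N, (A r).card ≤ (A (r + 1)).card := by
    by_contra hcon
    push Not at hcon
    have hind : ∀ r ≤ N, (A r).card + r ≤ (A 0).card := by
      intro r
      induction r with
      | zero => intro _; simp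
      | succ r ih =>
        intro hr
        have h1 := ih (by omega)
        have h2 := hcon r (by omega)
        omega
    have h0 : (A 0).card < N := by
      have hk : k ∉ A 0 := by
        rw [hmem]
        simp
      have := Finset.card_lt_univ_of_notMem hk
      simpa using this
    have := hind N le_rfl
    omega
  obtain ⟨r, hr, hcard⟩ := hex
  have heq : A (r + 1) = A r := Finset.eq_of_subset_of_card_le (hmono r) hcard
  have hr' : ((r : ℝ) + 1) ≤ N := by exact_mod_cast hr
  refine ⟨A (r + 1), ?_, ?_, ?_⟩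
  · rw [hmem]
    push_cast
    nlinarith
  · rw [hmem]
    push_cast
    have : 0 ≤ ((r : ℝ) + 1) * g := by positivity
    linarith
  · intro i hi i' hi'
    rw [heq, hmem] at hi'
    rw [hmem] at hi
    push_cast at hi
    nlinarith

/-- The gap region has positive mass. -/
theorem gapSet_pos [NeZero N] {K : Set (E d)} (hK : IsCompact K) (hc : Convex ℝ K)
    (hint : (interior K).Nonempty) (y : Fin N → E d) (hy : Function.Injective y) (c : Fin N → ℝ)
    (hm : ∀ j, 0 < lmass K y c j) (S : Finset (Fin N)) (hS : S.Nonempty) (hS' : Sᶜ.Nonempty)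
    {g : ℝ} (hg : 0 < g) : 0 < (unif K) (gapSet K y c S g) := by
  classical
  set l : Fin N → E d → ℝ := fun i x => ⟪x, y i⟫ - c i with hl
  have hlc : ∀ i, Continuous (l i) := by
    intro i
    simp only [hl]
    fun_prop
  set F : E d → ℝ := fun x => S.sup' hS (fun i => l i x) - Sᶜ.sup' hS' (fun i => l i x) with hF
  have hFc : Continuous F := by
    apply Continuous.sub
    · exact Continuous.finset_sup'_apply hS (fun i _ => hlc i)
    · exact Continuous.finset_sup'_apply hS' (fun i _ => hlc i)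
  have key : ∀ (T T' : Finset (Fin N)) (hT : T.Nonempty) (hT' : T'.Nonempty),
      (∀ i ∈ T, ∀ k ∈ T', i ≠ k) →
      ∃ x ∈ K, T'.sup' hT' (fun i => l i x) < T.sup' hT (fun i => l i x) := by
    intro T T' hT hT' hdis
    by_contra hcon
    push Not at hcon
    obtain ⟨i, hi⟩ := hT
    have hsub : lag K y c i ⊆ ⋃ k ∈ T', (lag K y c i ∩ lag K y c k) := by
      intro x hx
      obtain ⟨k, hk, hkeq⟩ := Finset.exists_mem_eq_sup' hT' (fun i => l i x)
      have h1 := hcon x hx.1
      have h2 : l i x ≤ T.sup' ⟨i, hi⟩ (fun i => l i x) := Finset.le_sup' (fun i => l i x) hi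
      have h3 : l i x ≤ l k x := by
        rw [← hkeq]
        exact h2.trans h1
      simp only [mem_iUnion]
      exact ⟨k, hk, hx, hx.1, fun k' => (hx.2 k').trans h3⟩
    have hnull : (unif K) (⋃ k ∈ T', (lag K y c i ∩ lag K y c k)) = 0 := by
      refine (measure_biUnion_null_iff (Finset.countable_toSet T')).2 ?_
      intro k hk
      exact lag_inter_null y hy c (hdis i hi k hk)
    have h00 : (unif K) (lag K y c i) = 0 := measure_mono_null hsub hnull
    have h0 := hm i
    unfold lmass at h0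
    rw [h00] at h0
    simp at h0
  obtain ⟨x1, hx1K, hx1⟩ := key S Sᶜ hS hS' (by
    intro i hi k hk hik
    rw [Finset.mem_compl] at hk
    exact hk (hik ▸ hi))
  obtain ⟨x2, hx2K, hx2⟩ := key Sᶜ S hS' hS (by
    intro i hi k hk hik
    rw [Finset.mem_compl] at hi
    exact hi (hik ▸ hk))
  have hF1 : 0 < F x1 := sub_pos.2 hx1
  have hF2 : F x2 < 0 := sub_neg.2 hx2
  set v := min g (F x1) / 2 with hv
  have hmin0 : 0 < min g (F x1) := lt_min hg hF1
  have hv0 : 0 < v := by positivity
  have hv1 : v < g := by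
    have := min_le_left g (F x1)
    linarith
  have hv2 : v < F x1 := by
    have := min_le_right g (F x1)
    linarith
  have hcont : ContinuousOn (fun t : ℝ => F ((1 - t) • x2 + t • x1)) (Icc 0 1) := by
    apply Continuous.continuousOn
    exact hFc.comp (by fun_prop)
  have hivt := intermediate_value_Icc (zero_le_one (α := ℝ)) hcont
  have hvmem : v ∈ Icc (F (((1 : ℝ) - 0) • x2 + (0 : ℝ) • x1)) (F (((1 : ℝ) - 1) • x2 + (1 : ℝ) • x1)) := by
    constructor
    · simp only [sub_zero, one_smul, zero_smul, add_zero]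
      linarith
    · simp only [sub_self, one_smul, zero_smul, zero_add]
      linarith
  obtain ⟨t, ht, htv⟩ := hivt hvmem
  set x3 := (1 - t) • x2 + t • x1 with hx3
  have hx3K : x3 ∈ K := hc hx2K hx1K (by linarith [ht.2]) ht.1 (by ring)
  set U : Set (E d) := F ⁻¹' (Ioo 0 g) with hU
  have hUo : IsOpen U := isOpen_Ioo.preimage hFc
  have hx3U : x3 ∈ U := by
    change F x3 ∈ Ioo 0 g
    have : F x3 = v := htv
    rw [this]
    exact ⟨hv0, hv1⟩
  have hcl : x3 ∈ closure (interior K) := by
    rw [hc.closure_interior_eq_closure_of_nonempty_interior hint]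
    exact subset_closure hx3K
  obtain ⟨z, hzU, hzI⟩ := mem_closure_iff.1 hcl U hUo hx3U
  have hpos : 0 < volume (U ∩ interior K) :=
    (hUo.inter isOpen_interior).measure_pos volume ⟨z, hzU, hzI⟩
  have hsub : U ∩ interior K ⊆ gapSet K y c S g := by
    rintro x ⟨hxU, hxI⟩
    have hxU' : 0 < F x ∧ F x < g := hxU
    obtain ⟨i, hi, hieq⟩ := Finset.exists_mem_eq_sup' hS (fun i => l i x)
    obtain ⟨k, hk, hkeq⟩ := Finset.exists_mem_eq_sup' hS' (fun i => l i x)
    simp only [hF] at hxU'
    refine ⟨interior_subset hxI, ⟨i, hi, fun k' hk' => ?_⟩, fun i' hi' => ⟨k, Finset.mem_compl.1 hk, ?_⟩⟩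
    · have h2 : l k' x ≤ Sᶜ.sup' hS' (fun i => l i x) :=
        Finset.le_sup' (fun i => l i x) (Finset.mem_compl.2 hk')
      have h3 : l k' x < l i x := by
        rw [← hieq]
        linarith [hxU'.1]
      exact h3
    · have h2 : l i' x ≤ S.sup' hS (fun i => l i x) := Finset.le_sup' (fun i => l i x) hi'
      have h3 : l i' x < l k x + g := by
        rw [← hkeq]
        linarith [hxU'.2]
      exact h3
  have hpos2 : 0 < (unif K) (U ∩ interior K) := by
    unfold unif
    rw [Measure.smul_apply, Measure.restrict_apply (hUo.inter isOpen_interior).measurableSet,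
      smul_eq_mul]
    have hh : U ∩ interior K ∩ K = U ∩ interior K :=
      inter_eq_left.2 (inter_subset_right.trans interior_subset)
    rw [hh]
    exact ENNReal.mul_pos (ENNReal.inv_ne_zero.2 hK.measure_lt_top.ne) hpos.ne'
  exact lt_of_lt_of_le hpos2 (measure_mono hsub)

/-- If the weight increments have a gap `g` between `S` and its complement, the mass of the gap
region is at most the loss of mass of the cells of `S`. -/
theorem gapSet_le [NeZero N] {K : Set (E d)} (hK : IsCompact K)
    (hint : (interior K).Nonempty) (y : Fin N → E d) (hy : Function.Injective y)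
    (c c' : Fin N → ℝ) (S : Finset (Fin N)) {g : ℝ} (hg : 0 < g)
    (hgap : ∀ i ∈ S, ∀ k ∉ S, g ≤ (c' i - c i) - (c' k - c k)) :
    ((unif K) (gapSet K y c S g)).toReal ≤ ∑ i ∈ S, (lmass K y c i - lmass K y c' i) := by
  classical
  have : IsProbabilityMeasure (unif K) := isProbabilityMeasure_unif hK hint
  set ρ := unif K with hρ
  set Z := gapSet K y c S g with hZ
  set Q : Set (E d) := ⋃ i ∈ S, lag K y c' i with hQ
  set Q' : Set (E d) := ⋃ i ∈ Sᶜ, lag K y c' i with hQ'
  set P : Set (E d) := ⋃ i ∈ S, lag K y c i with hP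
  have hQm : MeasurableSet Q :=
    Finset.measurableSet_biUnion S (fun i _ => measurableSet_lag hK y c' i)
  have hQ'm : MeasurableSet Q' :=
    Finset.measurableSet_biUnion Sᶜ (fun i _ => measurableSet_lag hK y c' i)
  have hlm : ∀ (c'' : Fin N → ℝ) (i : Fin N), ρ.real (lag K y c'' i) = lmass K y c'' i :=
    fun _ _ => rfl
  -- in a cell of `c'` with label in `S`
  have hcell : ∀ i ∈ S, ∀ x ∈ lag K y c' i, ∀ k ∉ S,
      ⟪x, y k⟫ - c k + g ≤ ⟪x, y i⟫ - c i := by
    intro i hi x hx k hk
    have h1 := hx.2 k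
    have h2 := hgap i hi k hk
    linarith
  have hdisj : Disjoint Z Q := by
    rw [Set.disjoint_left]
    intro x hxZ hxQ
    simp only [hQ, mem_iUnion] at hxQ
    obtain ⟨i, hi, hx⟩ := hxQ
    obtain ⟨k, hk, hlt⟩ := hxZ.2.2 i hi
    have := hcell i hi x hx k hk
    linarith
  have hPsub : ∀ x ∈ K, (∃ i ∈ S, ∀ k ∉ S, ⟪x, y k⟫ - c k < ⟪x, y i⟫ - c i) → x ∈ P := by
    intro x hxK hx
    obtain ⟨i, hi, hlt⟩ := hx
    obtain ⟨j0, hj0⟩ := exists_mem_lag K y c hxK
    have hj0S : j0 ∈ S := by
      by_contra hn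
      have h1 := hlt j0 hn
      have h2 := hj0.2 i
      linarith
    simp only [hP, mem_iUnion]
    exact ⟨j0, hj0S, hj0⟩
  have hsub : Z ∪ Q ⊆ P := by
    rintro x (hxZ | hxQ)
    · exact hPsub x hxZ.1 hxZ.2.1
    · simp only [hQ, mem_iUnion] at hxQ
      obtain ⟨i, hi, hx⟩ := hxQ
      refine hPsub x hx.1 ⟨i, hi, fun k hk => ?_⟩
      have := hcell i hi x hx k hk
      linarith
  have h1 : ρ.real (Z ∪ Q) ≤ ρ.real P := measureReal_mono hsub (measure_ne_top _ _)
  have h2 : ρ.real (Z ∪ Q) = ρ.real Z + ρ.real Q :=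
    measureReal_union hdisj hQm (measure_ne_top _ _) (measure_ne_top _ _)
  have h3 : ρ.real P ≤ ∑ i ∈ S, lmass K y c i := by
    exact measureReal_biUnion_finset_le (μ := ρ) S (fun i => lag K y c i)
  have h4 : ρ.real Q' ≤ ∑ i ∈ Sᶜ, lmass K y c' i := by
    exact measureReal_biUnion_finset_le (μ := ρ) Sᶜ (fun i => lag K y c' i)
  have h5 : ρ.real (Q ∪ Q') = 1 := by
    have hnull : ρ (Q ∪ Q')ᶜ = 0 := by
      have hae := ae_mem_unif hK
      rw [ae_iff] at hae
      refine measure_mono_null ?_ hae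
      intro x hx hxK
      apply hx
      obtain ⟨j0, hj0⟩ := exists_mem_lag K y c' hxK
      by_cases hj : j0 ∈ S
      · left
        simp only [hQ, mem_iUnion]
        exact ⟨j0, hj, hj0⟩
      · right
        simp only [hQ', mem_iUnion]
        exact ⟨j0, Finset.mem_compl.2 hj, hj0⟩
    have := (prob_compl_eq_zero_iff (hQm.union hQ'm)).1 hnull
    rw [measureReal_def, this]
    simp
  have h6 : ρ.real (Q ∪ Q') ≤ ρ.real Q + ρ.real Q' := measureReal_union_le Q Q'
  have h7 : ∑ i ∈ S, lmass K y c' i + ∑ i ∈ Sᶜ, lmass K y c' i = 1 := by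
    rw [Finset.sum_add_sum_compl]
    exact sum_lmass hK hint y hy c'
  rw [Finset.sum_sub_distrib]
  change ρ.real Z ≤ _
  linarith

/-- LEMMA WC.  The weights of a Laguerre tessellation (all masses positive, sites distinct, `K`
convex) depend continuously on the masses, up to an additive constant. -/
theorem weights_continuous [NeZero N] {K : Set (E d)} (hK : IsCompact K) (hc : Convex ℝ K)
    (hint : (interior K).Nonempty) (y : Fin N → E d) (hy : Function.Injective y) (c : Fin N → ℝ)
    (hm : ∀ j, 0 < lmass K y c j) {ε : ℝ} (hε : 0 < ε) :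
    ∃ δ > 0, ∀ c' : Fin N → ℝ, (∀ j, |lmass K y c' j - lmass K y c j| ≤ δ) →
      ∀ j k, (c' j - c j) - (c' k - c k) ≤ ε := by
  classical
  have : IsProbabilityMeasure (unif K) := isProbabilityMeasure_unif hK hint
  have hN : 0 < N := NeZero.pos N
  have hNr : (0 : ℝ) < N := by exact_mod_cast hN
  set g := ε / N with hgdef
  have hg : 0 < g := by positivity
  let η : Finset (Fin N) → ℝ := fun S =>
    if S.Nonempty ∧ Sᶜ.Nonempty then ((unif K) (gapSet K y c S g)).toReal else 1
  have hη : ∀ S, 0 < η S := by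
    intro S
    simp only [η]
    split_ifs with h
    · exact ENNReal.toReal_pos (gapSet_pos hK hc hint y hy c hm S h.1 h.2 hg).ne'
        (measure_ne_top _ _)
    · exact one_pos
  obtain ⟨S0, hS0⟩ := Finite.exists_min η
  have hη0 := hη S0
  refine ⟨η S0 / (N + 1), by positivity, ?_⟩
  intro c' hc' j k
  by_contra hlt
  push Not at hlt
  obtain ⟨S, hjS, hkS, hgap⟩ := exists_gap (fun i => c' i - c i) hε j k hlt
  have h1 := gapSet_le hK hint y hy c c' S hg hgap
  have h2 : η S = ((unif K) (gapSet K y c S g)).toReal :=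
    if_pos ⟨⟨j, hjS⟩, ⟨k, Finset.mem_compl.2 hkS⟩⟩
  have h3 : ∑ i ∈ S, (lmass K y c i - lmass K y c' i) ≤ ∑ _i ∈ S, η S0 / (N + 1) := by
    apply Finset.sum_le_sum
    intro i _
    have := hc' i
    rw [abs_le] at this
    linarith [this.1]
  have h4 : ∑ _i ∈ S, η S0 / ((N : ℝ) + 1) ≤ N * (η S0 / (N + 1)) := by
    rw [Finset.sum_const, nsmul_eq_mul]
    apply mul_le_mul_of_nonneg_right _ (by positivity)
    have : S.card ≤ N := by
      have := Finset.card_le_univ S
      simpa using this
    exact_mod_cast this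
  have h5 : N * (η S0 / ((N : ℝ) + 1)) < η S0 := by
    rw [mul_div_assoc', div_lt_iff₀ (by positivity)]
    nlinarith
  have h6 := hS0 S
  linarith

end Vale.Agent.Lib.P074.H5
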