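import Vale.Agent.Lib.P074T.LagPart

/-!
# P074, exponent one third: the weights depend continuously on the masses (lemma WC)
-/

open MeasureTheory
open scoped ENNReal NNReal RealInnerProductSpace

namespace Vale.Agent.Lib.P074.Pre6

variable {d N : ℕ}

/-- Pigeonhole: if two values of `Δ` differ by more than `ε`, the values split into an upper and a
lower group separated by a gap of length `ε / N`. -/
theorem exists_gap (Δ : Fin N → ℝ) {ε : ℝ} (hε : 0 < ε) {a b : Fin N} (hab : ε < Δ a - Δ b) :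
    ∃ S : Finset (Fin N), a ∈ S ∧ b ∉ S ∧ ∀ j ∈ S, ∀ k ∉ S, ε / N ≤ Δ j - Δ k := by
  classical
  have hN : 0 < N := Fin.pos a
  have hNr : (0 : ℝ) < N := by exact_mod_cast hN
  set g : ℝ := ε / N with hg
  have hg0 : 0 < g := div_pos hε hNr
  have hNg : (N : ℝ) * g = ε := by rw [hg]; field_simp
  -- some interval contains no value
  have hex : ∃ i : Fin N, ∀ j, ¬ (Δ b + (i : ℝ) * g < Δ j ∧ Δ j < Δ b + (i : ℝ) * g + g) := by
    by_contra hcon
    push_neg at hcon
    choose σ hσ using hcon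
    have hinj : Function.Injective σ := by
      intro i i' h
      by_contra hne
      rcases lt_or_gt_of_ne (fun h' => hne (Fin.ext h') : (i : ℕ) ≠ (i' : ℕ)) with hlt | hlt
      · have h1 := (hσ i).2
        have h2 := (hσ i').1
        rw [h] at h1
        have : ((i : ℝ) + 1) ≤ (i' : ℝ) := by exact_mod_cast hlt
        nlinarith
      · have h1 := (hσ i').2
        have h2 := (hσ i).1
        rw [h] at h2
        have : ((i' : ℝ) + 1) ≤ (i : ℝ) := by exact_mod_cast hlt
        nlinarith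
    obtain ⟨i, hi⟩ := (Finite.injective_iff_surjective.1 hinj) b
    have h1 := (hσ i).1
    rw [hi] at h1
    have : (0 : ℝ) ≤ (i : ℝ) * g := by positivity
    linarith
  obtain ⟨i, hi⟩ := hex
  refine ⟨Finset.univ.filter fun j => Δ b + (i : ℝ) * g + g ≤ Δ j, ?_, ?_, ?_⟩
  · simp only [Finset.mem_filter, Finset.mem_univ, true_and]
    have : ((i : ℝ) + 1) ≤ (N : ℝ) := by exact_mod_cast i.2
    nlinarith
  · simp only [Finset.mem_filter, Finset.mem_univ, true_and, not_le]
    have : (0 : ℝ) ≤ (i : ℝ) * g := by positivity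
    linarith
  · intro j hj k hk
    simp only [Finset.mem_filter, Finset.mem_univ, true_and] at hj
    simp only [Finset.mem_filter, Finset.mem_univ, true_and, not_le] at hk
    have h3 : Δ k ≤ Δ b + (i : ℝ) * g := by
      by_contra hlt
      exact hi k ⟨not_le.1 hlt, hk⟩
    linarith

/-- `max` over `S` minus `max` over the complement of the affine pieces. -/
noncomputable def FS (y : Fin N → E d) (c : Fin N → ℝ) (S : Finset (Fin N)) (hS : S.Nonempty)
    (hS' : Sᶜ.Nonempty) (x : E d) : ℝ :=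
  S.sup' hS (fun j => ⟪x, y j⟫ - c j) - Sᶜ.sup' hS' (fun k => ⟪x, y k⟫ - c k)

theorem continuous_FS (y : Fin N → E d) (c : Fin N → ℝ) (S : Finset (Fin N)) (hS : S.Nonempty)
    (hS' : Sᶜ.Nonempty) : Continuous (FS y c S hS hS') := by
  unfold FS
  apply Continuous.sub
  · apply Continuous.finset_sup'_apply
    intro j _
    fun_prop
  · apply Continuous.finset_sup'_apply
    intro j _
    fun_prop

theorem unif_null_of_volume_null {K s : Set (E d)} (h : volume s = 0) : (unif K) s = 0 := by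
  unfold unif
  rw [Measure.smul_apply, smul_eq_mul]
  have : (volume.restrict K) s = 0 :=
    le_antisymm ((Measure.restrict_apply_le K s).trans h.le) zero_le
  rw [this, mul_zero]

theorem unif_pos_of_isOpen {K U : Set (E d)} (hK : IsCompact K) (hU : IsOpen U)
    (hne : U.Nonempty) (hUK : U ⊆ K) : 0 < (unif K) U := by
  unfold unif
  rw [Measure.smul_apply, smul_eq_mul, Measure.restrict_apply hU.measurableSet,
    Set.inter_eq_left.2 hUK]
  apply ENNReal.mul_pos
  · exact ENNReal.inv_ne_zero.2 hK.measure_lt_top.ne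
  · exact (hU.measure_pos volume hne).ne'

/-- A cell of positive mass meets the interior of `K` outside any null set. -/
theorem exists_mem_lag_interior {K : Set (E d)} (hK : IsCompact K) (hconv : Convex ℝ K)
    (y : Fin N → E d) (c : Fin N → ℝ) (j : Fin N) (hm : 0 < lmass K y c j) {Z : Set (E d)}
    (hZ : (unif K) Z = 0) : ∃ x ∈ lag K y c j, x ∈ interior K ∧ x ∉ Z := by
  by_contra hcon
  push_neg at hcon
  have hsub : lag K y c j ⊆ frontier K ∪ Z := by
    intro x hx
    by_cases hxi : x ∈ interior K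
    · exact Or.inr (hcon x hx hxi)
    · left
      rw [frontier, hK.isClosed.closure_eq]
      exact ⟨hx.1, hxi⟩
  have h0 : (unif K) (lag K y c j) = 0 := by
    apply measure_mono_null hsub
    apply measure_union_null _ hZ
    exact unif_null_of_volume_null (hconv.addHaar_frontier volume)
  unfold lmass at hm
  rw [h0] at hm
  simp at hm

/-- The layer `{0 < F_S < g}` has positive mass. -/
theorem layer_pos {K : Set (E d)} (hK : IsCompact K) (hconv : Convex ℝ K)
    (y : Fin N → E d) (hy : Function.Injective y) (c : Fin N → ℝ)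
    (hm : ∀ j, 0 < lmass K y c j) (S : Finset (Fin N)) (hS : S.Nonempty) (hS' : Sᶜ.Nonempty)
    {g : ℝ} (hg : 0 < g) :
    0 < (unif K) ({x | x ∈ K ∧ 0 < FS y c S hS hS' x} ∩ {x | x ∈ K ∧ FS y c S hS hS' x < g}) := by
  classical
  obtain ⟨j0, hj0⟩ := hS
  obtain ⟨k0, hk0⟩ := hS'
  -- a point of the interior where `F ≤ 0`
  obtain ⟨a, ha, hai, -⟩ := exists_mem_lag_interior hK hconv y c k0 (hm k0) (Z := ∅) (by simp)
  have hFa : FS y c S ⟨j0, hj0⟩ ⟨k0, hk0⟩ a ≤ 0 := by
    unfold FS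
    have h1 : S.sup' ⟨j0, hj0⟩ (fun j => ⟪a, y j⟫ - c j) ≤ ⟪a, y k0⟫ - c k0 :=
      Finset.sup'_le _ _ fun j _ => ha.2 j
    have h2 : ⟪a, y k0⟫ - c k0 ≤ Sᶜ.sup' ⟨k0, hk0⟩ (fun k => ⟪a, y k⟫ - c k) :=
      Finset.le_sup' (fun k => ⟪a, y k⟫ - c k) hk0
    linarith
  -- a point of the interior where `0 < F`
  have hZ : (unif K) (⋃ k ∈ Sᶜ, (lag K y c j0 ∩ lag K y c k)) = 0 := by
    refine le_antisymm ((measure_biUnion_finset_le Sᶜ _).trans (le_of_eq ?_)) zero_le
    apply Finset.sum_eq_zero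
    intro k hk
    apply lag_inter_null y hy c
    rintro rfl
    exact (Finset.mem_compl.1 hk) hj0
  obtain ⟨b, hb, hbi, hbZ⟩ := exists_mem_lag_interior hK hconv y c j0 (hm j0) hZ
  have hFb : 0 < FS y c S ⟨j0, hj0⟩ ⟨k0, hk0⟩ b := by
    unfold FS
    have h1 : ⟪b, y j0⟫ - c j0 ≤ S.sup' ⟨j0, hj0⟩ (fun j => ⟪b, y j⟫ - c j) :=
      Finset.le_sup' (fun j => ⟪b, y j⟫ - c j) hj0
    obtain ⟨k, hk, hkeq⟩ := Finset.exists_mem_eq_sup' ⟨k0, hk0⟩ (fun k => ⟪b, y k⟫ - c k)
    have h2 : ⟪b, y k⟫ - c k < ⟪b, y j0⟫ - c j0 := by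
      by_contra hle
      apply hbZ
      simp only [Set.mem_iUnion]
      refine ⟨k, hk, hb, hb.1, fun k' => ?_⟩
      exact (hb.2 k').trans (not_lt.1 hle)
    rw [hkeq]
    linarith
  -- intermediate value
  have hpre : IsPreconnected (interior K) := hconv.interior.isPreconnected
  have hcont := continuous_FS y c S ⟨j0, hj0⟩ ⟨k0, hk0⟩
  have hv : min (g / 2) (FS y c S ⟨j0, hj0⟩ ⟨k0, hk0⟩ b) ∈
      Set.Icc (FS y c S ⟨j0, hj0⟩ ⟨k0, hk0⟩ a) (FS y c S ⟨j0, hj0⟩ ⟨k0, hk0⟩ b) :=
    ⟨hFa.trans (le_min (by linarith) hFb.le), min_le_right _ _⟩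
  obtain ⟨x0, hx0i, hx0⟩ := hpre.intermediate_value hai hbi hcont.continuousOn hv
  have hopen : IsOpen (interior K ∩ FS y c S ⟨j0, hj0⟩ ⟨k0, hk0⟩ ⁻¹' Set.Ioo 0 g) :=
    isOpen_interior.inter (isOpen_Ioo.preimage hcont)
  have hne : (interior K ∩ FS y c S ⟨j0, hj0⟩ ⟨k0, hk0⟩ ⁻¹' Set.Ioo 0 g).Nonempty := by
    refine ⟨x0, hx0i, ?_⟩
    rw [Set.mem_preimage, hx0]
    exact ⟨lt_min (by linarith) hFb, (min_le_left _ _).trans_lt (by linarith)⟩
  refine lt_of_lt_of_le (unif_pos_of_isOpen hK hopen hne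
    (Set.inter_subset_left.trans interior_subset)) (measure_mono ?_)
  rintro x ⟨hxi, hx⟩
  exact ⟨⟨interior_subset hxi, hx.1⟩, ⟨interior_subset hxi, hx.2⟩⟩

/-- If the weights of `S` grow by at least `g` more than those of the complement, the layer
`{0 < F_S < g}` is lost by the cells of `S`. -/
theorem layer_le [NeZero N] {K : Set (E d)} (hK : IsCompact K) (hint : (interior K).Nonempty)
    (y : Fin N → E d) (hy : Function.Injective y) (c c2 : Fin N → ℝ)
    (S : Finset (Fin N)) (hS : S.Nonempty) (hS' : Sᶜ.Nonempty) {g : ℝ} (hg : 0 < g)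
    (hgap : ∀ j ∈ S, ∀ k ∉ S, g ≤ (c2 j - c j) - (c2 k - c k)) :
    ((unif K) ({x | x ∈ K ∧ 0 < FS y c S hS hS' x} ∩ {x | x ∈ K ∧ FS y c S hS hS' x < g})).toReal
      ≤ ∑ j ∈ S, (lmass K y c j - lmass K y c2 j) := by
  classical
  haveI := isProbabilityMeasure_unif hK hint
  set P : Set (E d) := {x | x ∈ K ∧ 0 < FS y c S hS hS' x} with hPdef
  set G : Set (E d) := {x | x ∈ K ∧ FS y c S hS hS' x < g} with hGdef
  have hcont := continuous_FS y c S hS hS'
  have hGm : MeasurableSet G :=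
    hK.measurableSet.inter (measurableSet_lt hcont.measurable measurable_const)
  have hP : (unif K) P ≤ ∑ j ∈ S, (unif K) (lag K y c j) := by
    refine (measure_mono ?_).trans (measure_biUnion_finset_le S _)
    rintro x ⟨hxK, hx⟩
    obtain ⟨j, hj, hjeq⟩ := Finset.exists_mem_eq_sup' hS (fun j => ⟪x, y j⟫ - c j)
    simp only [Set.mem_iUnion]
    refine ⟨j, hj, hxK, fun k => ?_⟩
    by_cases hk : k ∈ S
    · rw [← hjeq]
      exact Finset.le_sup' (fun j => ⟪x, y j⟫ - c j) hk
    · have h1 : ⟪x, y k⟫ - c k ≤ Sᶜ.sup' hS' (fun k => ⟪x, y k⟫ - c k) :=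
        Finset.le_sup' (fun k => ⟪x, y k⟫ - c k) (Finset.mem_compl.2 hk)
      unfold FS at hx
      rw [hjeq] at hx
      linarith
  have hG : (unif K) G ≤ ∑ k ∈ Sᶜ, (unif K) (lag K y c2 k) := by
    refine (measure_mono ?_).trans (measure_biUnion_finset_le Sᶜ _)
    rintro x ⟨hxK, hx⟩
    obtain ⟨k0, hk0⟩ := exists_mem_lag K y c2 hxK
    simp only [Set.mem_iUnion]
    refine ⟨k0, ?_, hk0⟩
    rw [Finset.mem_compl]
    intro hk0S
    obtain ⟨k, hk, hkeq⟩ := Finset.exists_mem_eq_sup' hS' (fun k => ⟪x, y k⟫ - c k)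
    have h1 : ⟪x, y k0⟫ - c k0 ≤ S.sup' hS (fun j => ⟪x, y j⟫ - c j) :=
      Finset.le_sup' (fun j => ⟪x, y j⟫ - c j) hk0S
    have h2 := hk0.2 k
    have h3 := hgap k0 hk0S k (Finset.mem_compl.1 hk)
    unfold FS at hx
    rw [hkeq] at hx
    linarith
  have hU : (unif K) (P ∪ G) = 1 := by
    have hPG : P ∪ G = K := by
      ext x
      constructor
      · rintro (h | h)
        · exact h.1
        · exact h.1
      · intro hx
        by_cases h0 : 0 < FS y c S hS hS' x
        · exact Or.inl ⟨hx, h0⟩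
        · exact Or.inr ⟨hx, (not_lt.1 h0).trans_lt hg⟩
    rw [hPG]
    have h1 : (unif K) Kᶜ = 0 := by
      have := ae_mem_unif hK
      rwa [ae_iff] at this
    have h2 := measure_add_measure_compl (μ := unif K) hK.measurableSet
    rw [h1, add_zero, measure_univ] at h2
    exact h2
  have hadd := measure_union_add_inter (μ := unif K) P hGm
  rw [hU] at hadd
  have hfin : ∀ s : Set (E d), (unif K) s ≠ ∞ := fun s => measure_ne_top _ _
  have hreal : 1 + ((unif K) (P ∩ G)).toReal = ((unif K) P).toReal + ((unif K) G).toReal := by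
    rw [← ENNReal.toReal_add (hfin _) (hfin _), ← hadd, ENNReal.toReal_add (by simp) (hfin _)]
    simp
  have hP' : ((unif K) P).toReal ≤ ∑ j ∈ S, lmass K y c j := by
    unfold lmass
    rw [← ENNReal.toReal_sum fun j _ => hfin _]
    exact ENNReal.toReal_mono (ENNReal.sum_ne_top.2 fun j _ => hfin _) hP
  have hG' : ((unif K) G).toReal ≤ ∑ k ∈ Sᶜ, lmass K y c2 k := by
    unfold lmass
    rw [← ENNReal.toReal_sum fun j _ => hfin _]
    exact ENNReal.toReal_mono (ENNReal.sum_ne_top.2 fun j _ => hfin _) hG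
  have hsum := sum_lmass hK hint y hy c2
  rw [← Finset.sum_add_sum_compl S] at hsum
  rw [Finset.sum_sub_distrib]
  linarith

/-- **Lemma WC.** For distinct sites and positive masses the weights (up to an additive constant)
depend continuously on the masses. -/
theorem weights_continuous [NeZero N] {K : Set (E d)} (hK : IsCompact K) (hconv : Convex ℝ K)
    (hint : (interior K).Nonempty) (y : Fin N → E d) (hy : Function.Injective y)
    (c : Fin N → ℝ) (hm : ∀ j, 0 < lmass K y c j) {ε : ℝ} (hε : 0 < ε) :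
    ∃ t0 : ℝ, 0 < t0 ∧ ∀ c2 : Fin N → ℝ, (∀ j, |lmass K y c2 j - lmass K y c j| ≤ t0) →
      ∀ j k, (c2 j - c j) - (c2 k - c k) ≤ ε := by
  classical
  have := isProbabilityMeasure_unif hK hint
  have hN : 0 < N := Nat.pos_of_ne_zero (NeZero.ne N)
  have hNr : (0 : ℝ) < N := by exact_mod_cast hN
  have hg : 0 < ε / N := div_pos hε hNr
  let v : Finset (Fin N) → ℝ := fun S =>
    if h : S.Nonempty ∧ Sᶜ.Nonempty then
      ((unif K) ({x | x ∈ K ∧ 0 < FS y c S h.1 h.2 x} ∩
        {x | x ∈ K ∧ FS y c S h.1 h.2 x < ε / N})).toReal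
    else 1
  have hv : ∀ S, 0 < v S := by
    intro S
    by_cases h : S.Nonempty ∧ Sᶜ.Nonempty
    · simp only [v, dif_pos h]
      exact ENNReal.toReal_pos (layer_pos hK hconv y hy c hm S h.1 h.2 hg).ne'
        (measure_ne_top _ _)
    · simp only [v, dif_neg h]
      exact one_pos
  obtain ⟨S0, hS0⟩ := Finite.exists_min v
  refine ⟨v S0 / (N + 1), div_pos (hv S0) (by positivity), ?_⟩
  intro c2 h j k
  by_contra hlt
  rw [not_le] at hlt
  obtain ⟨S, haS, hbS, hgap⟩ := exists_gap (fun i => c2 i - c i) hε hlt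
  have hS : S.Nonempty := ⟨j, haS⟩
  have hS' : Sᶜ.Nonempty := ⟨k, Finset.mem_compl.2 hbS⟩
  have h1 := layer_le hK hint y hy c c2 S hS hS' hg hgap
  have h2 : ∑ i ∈ S, (lmass K y c i - lmass K y c2 i) ≤ (N : ℝ) * (v S0 / (N + 1)) := by
    calc ∑ i ∈ S, (lmass K y c i - lmass K y c2 i) ≤ ∑ _i ∈ S, v S0 / (N + 1) := by
          apply Finset.sum_le_sum
          intro i _
          have := h i
          rw [abs_le] at this
          linarith [this.1]
      _ = (S.card : ℝ) * (v S0 / (N + 1)) := by rw [Finset.sum_const, nsmul_eq_mul]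
      _ ≤ (N : ℝ) * (v S0 / (N + 1)) := by
          apply mul_le_mul_of_nonneg_right _ (div_pos (hv S0) (by positivity)).le
          have : S.card ≤ N := by simpa using Finset.card_le_univ S
          exact_mod_cast this
  have h3 : v S = ((unif K) ({x | x ∈ K ∧ 0 < FS y c S hS hS' x} ∩
        {x | x ∈ K ∧ FS y c S hS hS' x < ε / N})).toReal := by
    simp only [v, dif_pos (And.intro hS hS')]
  have h4 := hS0 S
  have h5 : (N : ℝ) * (v S0 / (N + 1)) < v S0 := by
    rw [mul_div_assoc', div_lt_iff₀ (by positivity)]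
    nlinarith [hv S0]
  linarith

end Vale.Agent.Lib.P074.Pre6
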