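import Vale.Agent.Lib.P074T.Defs

/-! # P074T task J3: estimates for a labelled coupling -/

open MeasureTheory Set
open scoped ENNReal NNReal RealInnerProductSpace

namespace Vale.Agent.Lib.P074

variable {d N : ℕ}

/-- TASK J3a. The image of `π` under `y ∘ lab` is the atomic measure with masses `π (lab ⁻¹' {j})`. -/
theorem map_comp_lab (π : Measure (E d × E d)) [IsProbabilityMeasure π]
    (lab : E d × E d → Fin N) (hlab : Measurable lab) (y : Fin N → E d) :
    π.map (fun p => y (lab p)) = atom y (fun j => (π (lab ⁻¹' {j})).toReal) := by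
  classical
  have hy : Measurable y := measurable_of_finite y
  have hf : Measurable (fun p => y (lab p)) := hy.comp hlab
  ext s hs
  rw [Measure.map_apply hf hs]
  unfold atom
  rw [Measure.finsetSum_apply]
  simp only [Measure.smul_apply, smul_eq_mul, Measure.dirac_apply' _ hs,
    ENNReal.ofReal_toReal (measure_ne_top π _)]
  have e : (fun p => y (lab p)) ⁻¹' s
      = ⋃ j ∈ Finset.univ.filter (fun j => y j ∈ s), lab ⁻¹' {j} := by
    ext p
    simp
  rw [e, measure_biUnion_finset]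
  · rw [Finset.sum_filter]
    refine Finset.sum_congr rfl fun j _ => ?_
    by_cases hj : y j ∈ s
    · simp [hj]
    · simp [hj]
  · intro i _ j _ hij
    refine Set.disjoint_left.mpr fun p hp hp' => hij ?_
    simp only [mem_preimage, mem_singleton_iff] at hp hp'
    rw [← hp, ← hp']
  · intro j _
    exact hlab (measurableSet_singleton j)

/-- TASK J3b. Coupling `π.map (fun p => (p.1, y (lab p)))` of `μ` and the atomic measure. -/
theorem W1_atom_le_fst (π : Measure (E d × E d)) [IsProbabilityMeasure π] {μ : Measure (E d)}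
    (h1 : π.map Prod.fst = μ) (lab : E d × E d → Fin N) (hlab : Measurable lab) (y : Fin N → E d)
    {ε : ℝ} (hε : 0 ≤ ε) (hclose : ∀ᵐ p ∂π, ‖p.1 - y (lab p)‖ ≤ ε) :
    W1 μ (atom y (fun j => (π (lab ⁻¹' {j})).toReal)) ≤ ENNReal.ofReal ε := by
  have hy : Measurable y := measurable_of_finite y
  have hf : Measurable (fun p : E d × E d => y (lab p)) := hy.comp hlab
  have hF : Measurable (fun p : E d × E d => (p.1, y (lab p))) := measurable_fst.prodMk hf
  have m1 : (π.map (fun p : E d × E d => (p.1, y (lab p)))).map Prod.fst = μ := by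
    rw [Measure.map_map measurable_fst hF, ← h1]
    rfl
  have m2 : (π.map (fun p : E d × E d => (p.1, y (lab p)))).map Prod.snd
      = atom y (fun j => (π (lab ⁻¹' {j})).toReal) := by
    rw [Measure.map_map measurable_snd hF, ← map_comp_lab π lab hlab y]
    rfl
  unfold W1
  refine iInf_le_of_le ⟨π.map (fun p : E d × E d => (p.1, y (lab p))), m1, m2⟩ ?_
  have hmeas : Measurable (fun q : E d × E d => ENNReal.ofReal ‖q.1 - q.2‖) := by fun_prop
  rw [lintegral_map hmeas hF]
  calc ∫⁻ p, ENNReal.ofReal ‖p.1 - y (lab p)‖ ∂π ≤ ∫⁻ _p, ENNReal.ofReal ε ∂π := by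
        refine lintegral_mono_ae ?_
        filter_upwards [hclose] with p hp
        exact ENNReal.ofReal_le_ofReal hp
    _ = ENNReal.ofReal ε := by simp

/-- TASK J3b'. Same for the second marginal. -/
theorem W1_atom_le_snd (π : Measure (E d × E d)) [IsProbabilityMeasure π] {ν : Measure (E d)}
    (h2 : π.map Prod.snd = ν) (lab : E d × E d → Fin N) (hlab : Measurable lab) (y : Fin N → E d)
    {ε : ℝ} (hε : 0 ≤ ε) (hclose : ∀ᵐ p ∂π, ‖p.2 - y (lab p)‖ ≤ ε) :
    W1 ν (atom y (fun j => (π (lab ⁻¹' {j})).toReal)) ≤ ENNReal.ofReal ε := by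
  have hy : Measurable y := measurable_of_finite y
  have hf : Measurable (fun p : E d × E d => y (lab p)) := hy.comp hlab
  have hF : Measurable (fun p : E d × E d => (p.2, y (lab p))) := measurable_snd.prodMk hf
  have m1 : (π.map (fun p : E d × E d => (p.2, y (lab p)))).map Prod.fst = ν := by
    rw [Measure.map_map measurable_fst hF, ← h2]
    rfl
  have m2 : (π.map (fun p : E d × E d => (p.2, y (lab p)))).map Prod.snd
      = atom y (fun j => (π (lab ⁻¹' {j})).toReal) := by
    rw [Measure.map_map measurable_snd hF, ← map_comp_lab π lab hlab y]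
    rfl
  unfold W1
  refine iInf_le_of_le ⟨π.map (fun p : E d × E d => (p.2, y (lab p))), m1, m2⟩ ?_
  have hmeas : Measurable (fun q : E d × E d => ENNReal.ofReal ‖q.1 - q.2‖) := by fun_prop
  rw [lintegral_map hmeas hF]
  calc ∫⁻ p, ENNReal.ofReal ‖p.2 - y (lab p)‖ ∂π ≤ ∫⁻ _p, ENNReal.ofReal ε ∂π := by
        refine lintegral_mono_ae ?_
        filter_upwards [hclose] with p hp
        exact ENNReal.ofReal_le_ofReal hp
    _ = ENNReal.ofReal ε := by simp

/-- integral of a function of the label -/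
theorem integral_comp_lab (π : Measure (E d × E d)) [IsProbabilityMeasure π]
    (lab : E d × E d → Fin N) (hlab : Measurable lab) (g : Fin N → ℝ) :
    ∫ p, g (lab p) ∂π = ∑ j, (π (lab ⁻¹' {j})).toReal * g j := by
  have hg : Measurable g := measurable_of_finite g
  have := Measure.isProbabilityMeasure_map (μ := π) hlab.aemeasurable
  have h1 : ∫ p, g (lab p) ∂π = ∫ j, g j ∂(π.map lab) :=
    (integral_map hlab.aemeasurable hg.aestronglyMeasurable).symm
  rw [h1, integral_fintype Integrable.of_finite]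
  refine Finset.sum_congr rfl fun j _ => ?_
  rw [smul_eq_mul, Measure.real, Measure.map_apply hlab (measurableSet_singleton j)]

/-- TASK J3c. `wsq = ∫ ‖y1 (lab p) - y0 (lab p)‖^2 dπ ≤ ∫ (‖p.1 - p.2‖ + 2 ε)^2 dπ
≤ (A + 2 ε)^2` with `A^2 = ∫ ‖p.1 - p.2‖^2 dπ` (Cauchy-Schwarz `∫ ‖p.1 - p.2‖ ≤ A`, `π` a
probability measure; `‖p.1 - p.2‖ ≤ M` a.e. gives integrability). -/
theorem wsq_le (π : Measure (E d × E d)) [IsProbabilityMeasure π]
    (lab : E d × E d → Fin N) (hlab : Measurable lab) (y0 y1 : Fin N → E d)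
    {ε M : ℝ} (hε : 0 ≤ ε) (hM : ∀ᵐ p ∂π, ‖p.1 - p.2‖ ≤ M)
    (h0 : ∀ᵐ p ∂π, ‖p.1 - y0 (lab p)‖ ≤ ε) (h1 : ∀ᵐ p ∂π, ‖p.2 - y1 (lab p)‖ ≤ ε) :
    wsq (fun j => (π (lab ⁻¹' {j})).toReal) y0 y1
      ≤ (Real.sqrt (∫ p, ‖p.1 - p.2‖ ^ 2 ∂π) + 2 * ε) ^ 2 := by
  unfold wsq
  rw [← integral_comp_lab π lab hlab (fun j => ‖y1 j - y0 j‖ ^ 2)]
  set f : E d × E d → ℝ := fun p => ‖p.1 - p.2‖ with hf
  have hfm : Measurable f := by fun_prop
  have hfi : Integrable f π := by
    refine Integrable.of_bound hfm.aestronglyMeasurable M ?_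
    filter_upwards [hM] with p hp
    rw [Real.norm_eq_abs, abs_of_nonneg (norm_nonneg _)]
    exact hp
  have hf2i : Integrable (fun p => f p ^ 2) π := by
    refine Integrable.of_bound (hfm.pow_const 2).aestronglyMeasurable (M ^ 2) ?_
    filter_upwards [hM] with p hp
    rw [Real.norm_eq_abs, abs_of_nonneg (sq_nonneg _)]
    exact pow_le_pow_left₀ (norm_nonneg _) hp 2
  set c : ℝ := ∫ p, f p ∂π with hc
  set A2 : ℝ := ∫ p, f p ^ 2 ∂π with hA2
  have hc0 : 0 ≤ c := integral_nonneg fun p => norm_nonneg _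
  have hcs : c ^ 2 ≤ A2 := by
    have h2 : 0 ≤ ∫ p, (f p - c) ^ 2 ∂π := integral_nonneg fun p => sq_nonneg _
    have h3 : ∫ p, (f p - c) ^ 2 ∂π = A2 - 2 * c * c + c ^ 2 := by
      have e : (fun p => (f p - c) ^ 2) = fun p => f p ^ 2 - 2 * c * f p + c ^ 2 := by
        funext p; ring
      have i1 : Integrable (fun p => 2 * c * f p) π := hfi.const_mul _
      have i2 : Integrable (fun p => f p ^ 2 - 2 * c * f p) π := hf2i.sub i1
      rw [e, integral_add i2 (integrable_const _), integral_sub hf2i i1, integral_const_mul,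
        integral_const]
      simp [hc, hA2]
    rw [h3] at h2
    nlinarith
  have hcA : c ≤ Real.sqrt A2 := Real.le_sqrt_of_sq_le hcs
  have hA20 : 0 ≤ A2 := le_trans (sq_nonneg c) hcs
  have hint : Integrable (fun p => (f p + 2 * ε) ^ 2) π := by
    have e : (fun p => (f p + 2 * ε) ^ 2) = fun p => f p ^ 2 + 4 * ε * f p + 4 * ε ^ 2 := by
      funext p; ring
    rw [e]
    exact (hf2i.add (hfi.const_mul _)).add (integrable_const _)
  have hle : ∫ p, ‖y1 (lab p) - y0 (lab p)‖ ^ 2 ∂π ≤ ∫ p, (f p + 2 * ε) ^ 2 ∂π := by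
    refine integral_mono_of_nonneg (Filter.Eventually.of_forall fun p => sq_nonneg _) hint ?_
    filter_upwards [h0, h1] with p hp0 hp1
    refine pow_le_pow_left₀ (norm_nonneg _) ?_ 2
    have e : y1 (lab p) - y0 (lab p)
        = (p.1 - y0 (lab p)) - (p.2 - y1 (lab p)) - (p.1 - p.2) := by abel
    rw [e]
    calc ‖(p.1 - y0 (lab p)) - (p.2 - y1 (lab p)) - (p.1 - p.2)‖
        ≤ ‖(p.1 - y0 (lab p)) - (p.2 - y1 (lab p))‖ + ‖p.1 - p.2‖ := norm_sub_le _ _
      _ ≤ (‖p.1 - y0 (lab p)‖ + ‖p.2 - y1 (lab p)‖) + ‖p.1 - p.2‖ := by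
          gcongr
          exact norm_sub_le _ _
      _ ≤ f p + 2 * ε := by simp only [hf]; linarith
  refine hle.trans ?_
  have h4 : ∫ p, (f p + 2 * ε) ^ 2 ∂π = A2 + 4 * ε * c + 4 * ε ^ 2 := by
    have e : (fun p => (f p + 2 * ε) ^ 2) = fun p => f p ^ 2 + 4 * ε * f p + 4 * ε ^ 2 := by
      funext p; ring
    have i1 : Integrable (fun p => 4 * ε * f p) π := hfi.const_mul _
    have i2 : Integrable (fun p => f p ^ 2 + 4 * ε * f p) π := hf2i.add i1
    rw [e, integral_add i2 (integrable_const _), integral_add hf2i i1, integral_const_mul,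
      integral_const]
    simp [hc, hA2]
  rw [h4]
  have h5 : Real.sqrt A2 ^ 2 = A2 := Real.sq_sqrt hA20
  nlinarith [mul_le_mul_of_nonneg_left hcA hε]

end Vale.Agent.Lib.P074
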