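import Vale.Agent.Lib.P074T.Defs

/-! # P074T task J1: a finite valued Borel quantiser of a compact set -/

open MeasureTheory Set
open scoped ENNReal NNReal RealInnerProductSpace

namespace Vale.Agent.Lib.P074

variable {d : ℕ}

/-- TASK J1. Cover `Y` by finitely many balls of radius `ε` centred in `Y`
(`IsCompact.finite_cover_balls`), enumerate the centres by `Fin n` (`n > 0` since `Y` is nonempty),
`idx x` = the least `i` with `‖x - a i‖ ≤ ε` (default `0`); it is measurable because all fibres are
finite Boolean combinations of closed balls (`measurable_to_countable'`). -/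
theorem exists_quantiser {Y : Set (E d)} (hY : IsCompact Y) (hne : Y.Nonempty) {ε : ℝ}
    (hε : 0 < ε) :
    ∃ (n : ℕ) (_ : NeZero n) (idx : E d → Fin n) (a : Fin n → E d), Measurable idx ∧
      (∀ i, a i ∈ Y) ∧ ∀ x ∈ Y, ‖x - a (idx x)‖ ≤ ε := by
  classical
  obtain ⟨t, htY, htfin, hcov⟩ := hY.finite_cover_balls hε
  have htne : t.Nonempty := by
    obtain ⟨x, hx⟩ := hne
    have := hcov hx
    simp only [Set.mem_iUnion] at this
    obtain ⟨c, hc, _⟩ := this
    exact ⟨c, hc⟩
  set s := htfin.toFinset with hs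
  set n := s.card with hn
  have hnpos : 0 < n := Finset.card_pos.2 (by simpa [hs] using htne)
  have hnz : NeZero n := ⟨hnpos.ne'⟩
  let e : s ≃ Fin n := s.equivFin
  let a : Fin n → E d := fun i => (e.symm i : E d)
  have haY : ∀ i, a i ∈ Y := fun i => htY (htfin.mem_toFinset.1 (e.symm i).2)
  let p : E d → ℕ → Prop := fun x k => n ≤ k ∨ ∃ h : k < n, ‖x - a ⟨k, h⟩‖ ≤ ε
  have hp : ∀ x, ∃ k, p x k := fun x => ⟨n, Or.inl le_rfl⟩
  have hm : ∀ k, MeasurableSet {x | p x k} := by
    intro k
    by_cases hk : k < n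
    · have h1 : {x | p x k} = {x | ‖x - a ⟨k, hk⟩‖ ≤ ε} := by
        ext x
        simp only [p, Set.mem_ofPred_eq]
        constructor
        · rintro (h | ⟨_, h⟩)
          · omega
          · exact h
        · intro h
          exact Or.inr ⟨hk, h⟩
      rw [h1]
      exact measurableSet_le (by fun_prop) measurable_const
    · have h1 : {x | p x k} = Set.univ := by
        ext x
        simp only [p, Set.mem_ofPred_eq, Set.mem_univ, iff_true]
        left
        omega
      rw [h1]
      exact MeasurableSet.univ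
  refine ⟨n, hnz, fun x => Fin.ofNat n (Nat.find (hp x)), a, ?_, haY, ?_⟩
  · exact (Measurable.of_discrete (f := fun k : ℕ => Fin.ofNat n k)).comp (measurable_find hp hm)
  · intro x hx
    have hx' := hcov hx
    simp only [Set.mem_iUnion] at hx'
    obtain ⟨c, hc, hxc⟩ := hx'
    let i : Fin n := e ⟨c, htfin.mem_toFinset.2 hc⟩
    have hai : a i = c := by simp [a, i]
    have hpi : p x i.val := by
      refine Or.inr ⟨i.isLt, ?_⟩
      have : (⟨i.val, i.isLt⟩ : Fin n) = i := rfl
      rw [this, hai, ← dist_eq_norm]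
      exact (Metric.mem_ball.1 hxc).le
    have hle : Nat.find (hp x) ≤ i.val := Nat.find_min' (hp x) hpi
    have hlt : Nat.find (hp x) < n := lt_of_le_of_lt hle i.isLt
    rcases Nat.find_spec (hp x) with h | ⟨h, h'⟩
    · omega
    · have h2 : Fin.ofNat n (Nat.find (hp x)) = ⟨Nat.find (hp x), h⟩ := by
        apply Fin.ext
        simp [Fin.ofNat, Nat.mod_eq_of_lt h]
      show ‖x - a (Fin.ofNat n (Nat.find (hp x)))‖ ≤ ε
      rw [h2]
      exact h'

end Vale.Agent.Lib.P074
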