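import Vale.Agent.Lib.P074T.Defs

/-! # P074T task J2: small perturbation making a finite family injective -/

open MeasureTheory Set
open scoped ENNReal NNReal RealInnerProductSpace

namespace Vale.Agent.Lib.P074

variable {d : ℕ}

/-- TASK J2. Fix a unit vector `e` (`EuclideanSpace.single 0 1`, `d ≠ 0`). For `θ ∈ (0,1]` put
`p' j = p j + (θ ε (j+1) / (N+1)) e`. For `j ≠ k` the equality `p' j = p' k` holds for at most one
`θ`; the set of bad `θ` is finite and `Ioc 0 1` is infinite. -/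
theorem exists_injective_perturbation [NeZero d] {N : ℕ} (p : Fin N → E d) {ε : ℝ} (hε : 0 < ε) :
    ∃ p' : Fin N → E d, Function.Injective p' ∧ ∀ j, ‖p' j - p j‖ ≤ ε := by
  classical
  set e : E d := EuclideanSpace.single (0 : Fin d) (1 : ℝ) with he
  have hen : ‖e‖ = 1 := by simp [he]
  have he0 : e ≠ 0 := by
    intro h
    rw [h] at hen
    simp at hen
  have hN : (0 : ℝ) < (N : ℝ) + 1 := by positivity
  set a : Fin N → ℝ := fun j => ε * (((j : ℕ) : ℝ) + 1) / ((N : ℝ) + 1) with ha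
  have ha_inj : Function.Injective a := by
    intro j k hjk
    simp only [ha] at hjk
    rw [div_left_inj' hN.ne'] at hjk
    have h1 := mul_left_cancel₀ hε.ne' hjk
    have h2 : ((j : ℕ) : ℝ) = ((k : ℕ) : ℝ) := by linarith
    exact Fin.ext (by exact_mod_cast h2)
  have ha0 : ∀ j, 0 ≤ a j := by
    intro j
    simp only [ha]
    positivity
  have ha1 : ∀ j, a j ≤ ε := by
    intro j
    simp only [ha]
    rw [div_le_iff₀ hN]
    have h1 : ((j : ℕ) : ℝ) ≤ (N : ℝ) := by exact_mod_cast j.2.le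
    nlinarith
  set bad : Set ℝ := ⋃ jk : Fin N × Fin N,
    {θ : ℝ | jk.1 ≠ jk.2 ∧ p jk.1 + (θ * a jk.1) • e = p jk.2 + (θ * a jk.2) • e} with hbad
  have hfin : bad.Finite := by
    refine Set.finite_iUnion (fun jk => Set.Subsingleton.finite ?_)
    rintro θ ⟨hne, h1⟩ θ' ⟨-, h2⟩
    have h3 : ((θ - θ') * (a jk.1 - a jk.2)) • e = 0 := by
      have h4 : ((θ - θ') * (a jk.1 - a jk.2)) • e
          = ((p jk.1 + (θ * a jk.1) • e) - (p jk.2 + (θ * a jk.2) • e))
            - ((p jk.1 + (θ' * a jk.1) • e) - (p jk.2 + (θ' * a jk.2) • e)) := by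
        module
      rw [h4, h1, h2]
      simp
    rcases smul_eq_zero.1 h3 with h5 | h5
    · rcases mul_eq_zero.1 h5 with h6 | h6
      · linarith
      · exact absurd (ha_inj (by linarith)) hne
    · exact absurd h5 he0
  obtain ⟨θ, hθ, hnb⟩ := (Set.Ioc_infinite (zero_lt_one' ℝ)).exists_notMem_finite hfin
  refine ⟨fun j => p j + (θ * a j) • e, ?_, ?_⟩
  · intro j k hjk
    by_contra hne
    apply hnb
    rw [hbad, Set.mem_iUnion]
    exact ⟨(j, k), hne, hjk⟩
  · intro j
    have h1 : p j + (θ * a j) • e - p j = (θ * a j) • e := by abel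
    rw [h1, norm_smul, hen, mul_one, Real.norm_eq_abs, abs_of_nonneg (mul_nonneg hθ.1.le (ha0 j))]
    have := ha1 j
    have := ha0 j
    nlinarith [hθ.1, hθ.2]

end Vale.Agent.Lib.P074
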