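import Vale.Agent.Lib.P074T.Defs

/-! # P074T task J4: relabelling so that all labels have positive mass -/

open MeasureTheory Set
open scoped ENNReal NNReal RealInnerProductSpace

namespace Vale.Agent.Lib.P074

variable {d : ℕ}

/-- TASK J4. Let `S = {i | π (ℓ ⁻¹' {i}) ≠ 0}` (a nonempty finset since `π` is a probability measure
and `ι` is finite), `N = card S`, `e : Fin N ≃ S`. Put `lab p = e.symm ⟨ℓ p, _⟩` if `ℓ p ∈ S`, a default
label otherwise, and `back j = (e j).1`. The set `{p | ℓ p ∉ S}` is a finite union of null sets. -/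
theorem exists_relabel {ι : Type} [Fintype ι] [DecidableEq ι] [MeasurableSpace ι]
    [MeasurableSingletonClass ι]
    (π : Measure (E d × E d)) [IsProbabilityMeasure π] (ℓ : E d × E d → ι) (hℓ : Measurable ℓ) :
    ∃ (N : ℕ) (_ : NeZero N) (lab : E d × E d → Fin N) (back : Fin N → ι), Measurable lab ∧
      (∀ᵐ p ∂π, back (lab p) = ℓ p) ∧ (∀ j, 0 < (π (lab ⁻¹' {j})).toReal) ∧
      ∑ j, (π (lab ⁻¹' {j})).toReal = 1 := by
  classical
  set S : Finset ι := Finset.univ.filter (fun i => π (ℓ ⁻¹' {i}) ≠ 0) with hS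
  have hmemS : ∀ i, i ∈ S ↔ π (ℓ ⁻¹' {i}) ≠ 0 := fun i => by simp [hS]
  have hsumℓ : ∑ i, π (ℓ ⁻¹' {i}) = 1 := by
    have h := sum_measure_preimage_singleton (μ := π) (Finset.univ : Finset ι) (f := ℓ)
      (fun y _ => hℓ (measurableSet_singleton y))
    rw [h, Finset.coe_univ, preimage_univ, measure_univ]
  have hSne : S.Nonempty := by
    by_contra hne
    rw [Finset.not_nonempty_iff_eq_empty] at hne
    have h0 : ∀ i, π (ℓ ⁻¹' {i}) = 0 := fun i => by
      by_contra hi
      have : i ∈ S := (hmemS i).2 hi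
      rw [hne] at this
      exact absurd this (Finset.notMem_empty i)
    rw [Finset.sum_eq_zero (fun i _ => h0 i)] at hsumℓ
    exact zero_ne_one hsumℓ
  have hpos : 0 < S.card := Finset.card_pos.2 hSne
  let e : S ≃ Fin S.card := S.equivFin
  let j0 : Fin S.card := ⟨0, hpos⟩
  let g : ι → Fin S.card := fun i => if h : i ∈ S then e ⟨i, h⟩ else j0
  have hg : ∀ i (h : i ∈ S), g i = e ⟨i, h⟩ := fun i h => dif_pos h
  have hlabm : Measurable (fun p => g (ℓ p)) := (measurable_of_finite g).comp hℓ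
  refine ⟨S.card, ⟨hpos.ne'⟩, fun p => g (ℓ p), fun j => (e.symm j).1, hlabm, ?_, ?_, ?_⟩
  · have hae : ∀ᵐ p ∂π, ∀ i, i ∉ S → ℓ p ≠ i := by
      rw [ae_all_iff]
      intro i
      by_cases hi : i ∈ S
      · exact Filter.Eventually.of_forall fun p h => absurd hi h
      · have h0 : π (ℓ ⁻¹' {i}) = 0 := by
          by_contra h
          exact hi ((hmemS i).2 h)
        have := measure_eq_zero_iff_ae_notMem.1 h0
        filter_upwards [this] with p hp _ hpi
        exact hp hpi
    filter_upwards [hae] with p hp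
    have hpS : ℓ p ∈ S := by
      by_contra h
      exact hp (ℓ p) h rfl
    simp only [hg _ hpS, Equiv.symm_apply_apply]
  · intro j
    have hsub : ℓ ⁻¹' {(e.symm j).1} ⊆ (fun p => g (ℓ p)) ⁻¹' {j} := by
      intro p hp
      have hp' : ℓ p = (e.symm j).1 := hp
      have hpS : ℓ p ∈ S := hp' ▸ (e.symm j).2
      show g (ℓ p) = j
      rw [hg _ hpS]
      have : (⟨ℓ p, hpS⟩ : S) = e.symm j := Subtype.ext hp'
      rw [this, Equiv.apply_symm_apply]
    have hne : π (ℓ ⁻¹' {(e.symm j).1}) ≠ 0 := (hmemS _).1 (e.symm j).2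
    have hne' : π ((fun p => g (ℓ p)) ⁻¹' {j}) ≠ 0 := fun h =>
      hne (measure_mono_null hsub h)
    exact ENNReal.toReal_pos hne' (measure_ne_top _ _)
  · have h := sum_measure_preimage_singleton (μ := π) (Finset.univ : Finset (Fin S.card))
      (f := fun p => g (ℓ p)) (fun y _ => hlabm (measurableSet_singleton y))
    rw [Finset.coe_univ, preimage_univ, measure_univ] at h
    rw [← ENNReal.toReal_sum (fun a _ => measure_ne_top _ _), h, ENNReal.toReal_one]

end Vale.Agent.Lib.P074
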