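import Vale.Agent.Lib.P074T.QIdx
import Vale.Agent.Lib.P074T.QInj
import Vale.Agent.Lib.P074T.QCore
import Vale.Agent.Lib.P074T.QLab

/-! # P074T task J5: quantisation of a coupling -/

open MeasureTheory Set
open scoped ENNReal NNReal RealInnerProductSpace

namespace Vale.Agent.Lib.P074

variable {d : ℕ}

/-- TASK J5. Assembly. `exists_quantiser` with `ε/2` gives `idx, a`; `ℓ p = (idx p.1, idx p.2)`;
`exists_relabel` gives `N, lab, back`; raw sites `a (back j).1`, `a (back j).2`, made injective by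
`exists_injective_perturbation` with `ε/2`. `π`-a.e. `p.1 ∈ Y`, `p.2 ∈ Y` (marginals). Then
`W1_atom_le_fst/snd`, `wsq_le` (with `M = 2 L`). -/
theorem exists_quantisation [NeZero d] {Y : Set (E d)} (hY : IsCompact Y) {L : ℝ}
    (hL : ∀ y ∈ Y, ‖y‖ ≤ L) {μ ν : Measure (E d)} [IsProbabilityMeasure μ]
    (hμ : μ Yᶜ = 0) (hν : ν Yᶜ = 0)
    (π : Measure (E d × E d)) (h1 : π.map Prod.fst = μ) (h2 : π.map Prod.snd = ν)
    {ε : ℝ} (hε : 0 < ε) (hε1 : ε ≤ 1) :
    ∃ (N : ℕ) (_ : NeZero N) (y0 y1 : Fin N → E d) (m : Fin N → ℝ),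
      Function.Injective y0 ∧ Function.Injective y1 ∧ (∀ j, 0 < m j) ∧ ∑ j, m j = 1 ∧
      (∀ j, ‖y0 j‖ ≤ L + 1) ∧ (∀ j, ‖y1 j‖ ≤ L + 1) ∧
      W1 μ (atom y0 m) ≤ ENNReal.ofReal ε ∧ W1 ν (atom y1 m) ≤ ENNReal.ofReal ε ∧
      wsq m y0 y1 ≤ (Real.sqrt (∫ p, ‖p.1 - p.2‖ ^ 2 ∂π) + 2 * ε) ^ 2 := by
  have hπ : IsProbabilityMeasure π := by
    constructor
    have h := congrArg (fun κ : Measure (E d) => κ univ) h1
    simp only [Measure.map_apply measurable_fst MeasurableSet.univ, preimage_univ,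
      measure_univ] at h
    exact h
  have hne : Y.Nonempty := by
    by_contra hcon
    rw [not_nonempty_iff_eq_empty] at hcon
    rw [hcon, compl_empty, measure_univ] at hμ
    exact one_ne_zero hμ
  have hYm : MeasurableSet Yᶜ := hY.isClosed.measurableSet.compl
  have hε2 : 0 < ε / 2 := by linarith
  obtain ⟨n, hn, idx, a, hidx, haY, hclose⟩ := exists_quantiser hY hne hε2
  set ℓ : E d × E d → Fin n × Fin n := fun p => (idx p.1, idx p.2) with hℓdef
  have hℓ : Measurable ℓ := (hidx.comp measurable_fst).prodMk (hidx.comp measurable_snd)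
  obtain ⟨N, hN, lab, back, hlab, hback, hpos, hsum⟩ := exists_relabel π ℓ hℓ
  obtain ⟨y0, hy0, hy0c⟩ := exists_injective_perturbation (fun j => a (back j).1) hε2
  obtain ⟨y1, hy1, hy1c⟩ := exists_injective_perturbation (fun j => a (back j).2) hε2
  have hae1 : ∀ᵐ p ∂π, p.1 ∈ Y := by
    have h : π (Prod.fst ⁻¹' Yᶜ) = 0 := by
      rw [← Measure.map_apply measurable_fst hYm, h1]
      exact hμ
    filter_upwards [measure_eq_zero_iff_ae_notMem.mp h] with p hp
    by_contra hcon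
    exact hp hcon
  have hae2 : ∀ᵐ p ∂π, p.2 ∈ Y := by
    have h : π (Prod.snd ⁻¹' Yᶜ) = 0 := by
      rw [← Measure.map_apply measurable_snd hYm, h2]
      exact hν
    filter_upwards [measure_eq_zero_iff_ae_notMem.mp h] with p hp
    by_contra hcon
    exact hp hcon
  have hc0 : ∀ᵐ p ∂π, ‖p.1 - y0 (lab p)‖ ≤ ε := by
    filter_upwards [hae1, hback] with p hp hb
    have e1 : (back (lab p)).1 = idx p.1 := by rw [hb]
    have h3 := hy0c (lab p)
    simp only [e1] at h3
    have h4 := hclose p.1 hp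
    have h5 : p.1 - y0 (lab p) = (p.1 - a (idx p.1)) - (y0 (lab p) - a (idx p.1)) := by abel
    rw [h5]
    refine (norm_sub_le _ _).trans ?_
    linarith
  have hc1 : ∀ᵐ p ∂π, ‖p.2 - y1 (lab p)‖ ≤ ε := by
    filter_upwards [hae2, hback] with p hp hb
    have e1 : (back (lab p)).2 = idx p.2 := by rw [hb]
    have h3 := hy1c (lab p)
    simp only [e1] at h3
    have h4 := hclose p.2 hp
    have h5 : p.2 - y1 (lab p) = (p.2 - a (idx p.2)) - (y1 (lab p) - a (idx p.2)) := by abel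
    rw [h5]
    refine (norm_sub_le _ _).trans ?_
    linarith
  have hM : ∀ᵐ p ∂π, ‖p.1 - p.2‖ ≤ 2 * L := by
    filter_upwards [hae1, hae2] with p hp1 hp2
    refine (norm_sub_le _ _).trans ?_
    linarith [hL _ hp1, hL _ hp2]
  refine ⟨N, hN, y0, y1, fun j => (π (lab ⁻¹' {j})).toReal, hy0, hy1, hpos, hsum, ?_, ?_,
    W1_atom_le_fst π h1 lab hlab y0 hε.le hc0, W1_atom_le_snd π h2 lab hlab y1 hε.le hc1,
    wsq_le π lab hlab y0 y1 hε.le hM hc0 hc1⟩
  · intro j
    have h3 := hy0c j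
    have h4 := hL _ (haY (back j).1)
    have h5 : y0 j = (y0 j - a (back j).1) + a (back j).1 := by abel
    rw [h5]
    refine (norm_add_le _ _).trans ?_
    linarith
  · intro j
    have h3 := hy1c j
    have h4 := hL _ (haY (back j).2)
    have h5 : y1 j = (y1 j - a (back j).2) + a (back j).2 := by abel
    rw [h5]
    refine (norm_add_le _ _).trans ?_
    linarith

end Vale.Agent.Lib.P074
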