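import Vale.Agent.Lib.P074.Defs
import Vale.Agent.Lib.P074T.Pre23StarAlg

/-! # P074T task F: the algebra behind (STAR); finite sums of reals and vectors only -/

namespace Vale.Agent.Lib.P074

variable {d N : ℕ}

/-- TASK F.  Notation: `v = M/p`, `v' = M'/q` (both in `[1, Ee]`), `w = X/p`, `w' = X'/q`,
`H = (1/2) ∑ (sqrt p - sqrt q)^2`, `S = ∑ (M'-M)^2/M`.  Proof: the one-cell facts
`star_cell_scalar`, `star_cell_vector` of `Pre23StarAlg.lean`, summed. -/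
theorem star_alg (M M' p q : Fin N → ℝ) (X X' : Fin N → E d) {R Ee : ℝ} (hR : 0 < R)
    (hE1 : 1 ≤ Ee) (hE2 : Ee ≤ 101 / 100)
    (hM : ∀ j, 0 < M j) (hp : ∀ j, 0 < p j) (hq : ∀ j, 0 < q j)
    (hpM : ∀ j, p j ≤ M j) (hMp : ∀ j, M j ≤ Ee * p j)
    (hqM : ∀ j, q j ≤ M' j) (hMq : ∀ j, M' j ≤ Ee * q j)
    (hMM : ∀ j, |M' j - M j| ≤ M j / 2)
    (hX : ∀ j, ‖X j‖ ≤ R * M j)
    (hd : 12 * ∑ j, Real.sqrt (p j * q j) * (M j / p j - M' j / q j) ^ 2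
      ≤ 1 / 2 * ∑ j, (Real.sqrt (p j) - Real.sqrt (q j)) ^ 2)
    (he : ∑ j, Real.sqrt (p j * q j) * ‖(p j)⁻¹ • X j - (q j)⁻¹ • X' j‖ ^ 2
      ≤ 850 * R ^ 2 * (1 / 2 * ∑ j, (Real.sqrt (p j) - Real.sqrt (q j)) ^ 2)) :
    ∑ j, ‖X' j - X j‖ ^ 2 / M j ≤ (100 * R) ^ 2 * ∑ j, (M' j - M j) ^ 2 / M j := by
  have hmp : ∀ j, M j ≤ 101 / 100 * p j := fun j =>
    (hMp j).trans (mul_le_mul_of_nonneg_right hE2 (hp j).le)
  have hs0 : ∀ j, 0 ≤ Real.sqrt (p j * q j) := fun j => Real.sqrt_nonneg _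
  have hs : ∀ j, Real.sqrt (p j * q j) ^ 2 = p j * q j := fun j =>
    Real.sq_sqrt (mul_pos (hp j) (hq j)).le
  have hsq : ∀ j, (Real.sqrt (p j) - Real.sqrt (q j)) ^ 2
      = p j + q j - 2 * Real.sqrt (p j * q j) := by
    intro j
    rw [Real.sqrt_mul (hp j).le]
    have h1 := Real.sq_sqrt (hp j).le
    have h2 := Real.sq_sqrt (hq j).le
    nlinarith [h1, h2]
  simp only [hsq] at hd he
  set S : ℝ := ∑ j, (M' j - M j) ^ 2 / M j with hS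
  set U : ℝ := ∑ j, Real.sqrt (p j * q j) * (M j / p j - M' j / q j) ^ 2 with hU
  set V : ℝ := ∑ j, Real.sqrt (p j * q j) * ‖(p j)⁻¹ • X j - (q j)⁻¹ • X' j‖ ^ 2 with hV
  set P : ℝ := ∑ j, (p j - q j) ^ 2 / p j with hP
  set Hh : ℝ := ∑ j, (p j + q j - 2 * Real.sqrt (p j * q j)) with hH
  have hsc := fun j => star_cell_scalar (p j) (q j) (Real.sqrt (p j * q j)) (M j) (M' j) (hp j)
    (hq j) (hs0 j) (hs j) (hpM j) (hmp j) (hqM j) (hMM j)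
  have hS0 : 0 ≤ S := Finset.sum_nonneg fun j _ => div_nonneg (sq_nonneg _) (hM j).le
  have hHP : Hh ≤ P := Finset.sum_le_sum fun j _ => (hsc j).2.1
  have hPX : P ≤ 202 / 100 * S + 376 / 100 * U := by
    rw [hP, hS, hU, Finset.mul_sum, Finset.mul_sum, ← Finset.sum_add_distrib]
    exact Finset.sum_le_sum fun j _ => (hsc j).2.2
  have hHX : Hh ≤ 249 / 100 * S := by linarith
  have hPX2 : P ≤ 249 / 100 * S := by linarith
  have hmain : ∑ j, ‖X' j - X j‖ ^ 2 / M j ≤ 376 / 100 * V + 20402 / 10000 * R ^ 2 * P := by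
    rw [hV, hP, Finset.mul_sum, Finset.mul_sum, ← Finset.sum_add_distrib]
    exact Finset.sum_le_sum fun j _ => star_cell_vector (p j) (q j) (Real.sqrt (p j * q j)) (M j) R
      (X j) (X' j) (hp j) (hq j) (hpM j) (hmp j) hR.le (hX j) (hsc j).1
  have hR2 : 0 ≤ R ^ 2 := sq_nonneg R
  have h1 : R ^ 2 * P ≤ R ^ 2 * (249 / 100 * S) := mul_le_mul_of_nonneg_left hPX2 hR2
  have h2 : R ^ 2 * Hh ≤ R ^ 2 * (249 / 100 * S) := mul_le_mul_of_nonneg_left hHX hR2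
  have h3 : 0 ≤ R ^ 2 * S := mul_nonneg hR2 hS0
  nlinarith [hmain, he, h1, h2, h3]

end Vale.Agent.Lib.P074
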