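import Vale.Agent.Lib.P074T.CoreSum
import Vale.Agent.Lib.P074T.StarAlg
import Vale.Agent.Lib.P074T.Lip

/-! # P074T task G: (STAR) -/

open MeasureTheory Set
open scoped ENNReal NNReal RealInnerProductSpace

namespace Vale.Agent.Lib.P074

variable {d N : ℕ}

/-- bounded measurable functions are integrable on every set for `unif K` -/
lemma integrableOn_of_bound_K {K : Set (E d)} (hK : IsCompact K) (hint : (interior K).Nonempty)
    {g : E d → ℝ} (hg : Measurable g) {C : ℝ} (hC : ∀ x ∈ K, |g x| ≤ C) (A : Set (E d)) :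
    IntegrableOn g A (unif K) := by
  have := isProbabilityMeasure_unif hK hint
  refine (Integrable.of_bound hg.aestronglyMeasurable C ?_).integrableOn
  filter_upwards [ae_mem_unif hK] with x hx
  rw [Real.norm_eq_abs]
  exact hC x hx

/-- TASK G.  `lam = 1/(100 R^2)`, `Ee = exp (lam R^2/2) = exp (1/200) ≤ 101/100`.
`M = lmass .. c`, `M' = lmass .. c'`, `p = gmass .. c`, `q = gmass .. c'`, `X, X' = lmom`.
`p ≤ M ≤ Ee p` since `1/Ee ≤ kap ≤ 1` on `K`.
`hd`: `core_sum` with `u j = (kap lam)⁻¹` (`∫_A u kap = M`), `L = lam R Ee`: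
`lam/(8 L^2) = 100/(8 Ee^2) ≥ 12`.
`he`: `core_sum` with `u j x = <x, e_j> (kap lam x)⁻¹`, `e_j` the unit vector in the direction of
`X_j/p_j - X'_j/q_j` (`∫_A u kap = <X, e_j>`, `setIntegral_inner_lag`), `L = (1 + lam R^2) Ee`:
`8 L^2/lam ≤ 850 R^2`.  Then `star_alg`. -/
theorem star [NeZero N] {K : Set (E d)} (hK : IsCompact K) (hc : Convex ℝ K)
    (hint : (interior K).Nonempty) {R : ℝ} (hR0 : 0 < R) (hR : ∀ x ∈ K, ‖x‖ ≤ R)
    (y : Fin N → E d) (hy : Function.Injective y) (c c' : Fin N → ℝ)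
    (hM : ∀ j, 0 < lmass K y c j)
    (hMM : ∀ j, |lmass K y c' j - lmass K y c j| ≤ lmass K y c j / 2) :
    ∑ j, ‖lmom K y c' j - lmom K y c j‖ ^ 2 / lmass K y c j
      ≤ (100 * R) ^ 2 * ∑ j, (lmass K y c' j - lmass K y c j) ^ 2 / lmass K y c j := by
  have hprob := isProbabilityMeasure_unif hK hint
  set lam : ℝ := 1 / (100 * R ^ 2) with hlamdef
  have hlam : 0 < lam := by positivity
  have hlamR : lam * R ^ 2 = 1 / 100 := by
    rw [hlamdef]; field_simp
  set Ee : ℝ := Real.exp (lam * R ^ 2 / 2) with hEe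
  have hE1 : 1 ≤ Ee := Real.one_le_exp (by positivity)
  have hE2 : Ee ≤ 101 / 100 := by
    rw [hEe, hlamR]
    have := Real.exp_bound_div_one_sub_of_interval (x := 1 / 100 / 2) (by norm_num) (by norm_num)
    refine this.trans ?_
    norm_num
  have hE0 : 0 < Ee := by linarith
  have hkm : Measurable (kap lam : E d → ℝ) := measurable_kap lam
  have hkint : ∀ A : Set (E d), IntegrableOn (kap lam : E d → ℝ) A (unif K) := fun A =>
    integrableOn_of_bound_K hK hint hkm (C := 1) (fun x _ => by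
      rw [abs_of_pos (kap_pos lam x)]; exact kap_le_one hlam x) A
  have h1int : ∀ A : Set (E d), IntegrableOn (fun _ : E d => (1 : ℝ)) A (unif K) := fun A =>
    (integrable_const _).integrableOn
  have hpM : ∀ (c : Fin N → ℝ) j, gmass K lam y c j ≤ lmass K y c j := by
    intro c j
    have h := setIntegral_mono (hkint (lag K y c j)) (h1int (lag K y c j))
      (fun x => kap_le_one hlam x)
    rw [setIntegral_one_lag hK hint, mul_one] at h
    exact h
  have hMp : ∀ (c : Fin N → ℝ) j, lmass K y c j ≤ Ee * gmass K lam y c j := by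
    intro c j
    have h := setIntegral_mono_on (h1int (lag K y c j)) ((hkint (lag K y c j)).const_mul Ee)
      (measurableSet_lag hK y c j) (fun x hx => by
        have h1 := inv_kap_le hlam (hR x hx.1)
        have h2 := kap_pos lam x
        rw [inv_le_iff_one_le_mul₀ h2] at h1
        exact h1)
    rw [setIntegral_one_lag hK hint, mul_one, integral_const_mul] at h
    exact h
  have hI1 : ∀ (c : Fin N → ℝ) j,
      ∫ x in lag K y c j, (kap lam x)⁻¹ * kap lam x ∂(unif K) = lmass K y c j := by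
    intro c j
    have : (fun x : E d => (kap lam x)⁻¹ * kap lam x) = fun _ => (1 : ℝ) := by
      funext x
      exact inv_mul_cancel₀ (kap_pos lam x).ne'
    rw [this, setIntegral_one_lag hK hint, mul_one]
  have hI2 : ∀ (c : Fin N → ℝ) j (e : E d),
      ∫ x in lag K y c j, (⟪x, e⟫ * (kap lam x)⁻¹) * kap lam x ∂(unif K)
        = ⟪lmom K y c j, e⟫ := by
    intro c j e
    have : (fun x : E d => (⟪x, e⟫ * (kap lam x)⁻¹) * kap lam x) = fun x => ⟪x, e⟫ := by
      funext x
      rw [mul_assoc, inv_mul_cancel₀ (kap_pos lam x).ne', mul_one]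
    rw [this, setIntegral_inner_lag hK hint]
  have hM' : ∀ j, 0 < lmass K y c' j := by
    intro j
    have := (abs_le.1 (hMM j)).1
    have := hM j
    linarith
  have hp : ∀ j, 0 < gmass K lam y c j := by
    intro j
    have h1 := hMp c j
    have h2 := hM j
    by_contra hcon
    push Not at hcon
    nlinarith
  have hq : ∀ j, 0 < gmass K lam y c' j := by
    intro j
    have h1 := hMp c' j
    have h2 := hM' j
    by_contra hcon
    push Not at hcon
    nlinarith
  -- first use of `core_sum`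
  have hd : 12 * ∑ j, Real.sqrt (gmass K lam y c j * gmass K lam y c' j) *
        (lmass K y c j / gmass K lam y c j - lmass K y c' j / gmass K lam y c' j) ^ 2
      ≤ 1 / 2 * ∑ j, (Real.sqrt (gmass K lam y c j) - Real.sqrt (gmass K lam y c' j)) ^ 2 := by
    have h := core_sum hK hc hint y hy c c' hlam (fun _ x => (kap lam x)⁻¹)
      (fun _ => hkm.inv) (L := lam * R * Ee) (Cu := Ee) (by positivity)
      (fun _ x hx z hz => lip_invkap hlam hR0 (hR x hx) (hR z hz))
      (fun _ x hx => by
        rw [abs_of_pos (inv_pos.2 (kap_pos lam x))]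
        exact inv_kap_le hlam (hR x hx)) hp hq
    simp only [hI1] at h
    refine le_trans ?_ h
    apply mul_le_mul_of_nonneg_right
    · have e1 : lam / (8 * (lam * R * Ee) ^ 2) = 100 / (8 * Ee ^ 2) := by
        have : (lam * R * Ee) ^ 2 = lam * (lam * R ^ 2) * Ee ^ 2 := by ring
        rw [this, hlamR]
        field_simp
      rw [e1, le_div_iff₀ (by positivity)]
      nlinarith
    · exact Finset.sum_nonneg fun j _ => mul_nonneg (Real.sqrt_nonneg _) (sq_nonneg _)
  -- second use of `core_sum`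
  set w : Fin N → E d := fun j =>
    (gmass K lam y c j)⁻¹ • lmom K y c j - (gmass K lam y c' j)⁻¹ • lmom K y c' j with hw
  set e : Fin N → E d := fun j => ‖w j‖⁻¹ • w j with he_def
  have hen : ∀ j, ‖e j‖ ≤ 1 := by
    intro j
    rw [he_def]
    simp only [norm_smul, norm_inv, norm_norm]
    by_cases h0 : ‖w j‖ = 0
    · rw [h0]; simp
    · rw [inv_mul_cancel₀ h0]
  have hwe : ∀ j, ⟪w j, e j⟫ = ‖w j‖ := by
    intro j
    rw [he_def]
    simp only [real_inner_smul_right, real_inner_self_eq_norm_sq]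
    by_cases h0 : ‖w j‖ = 0
    · rw [h0]; simp
    · field_simp
  have he : ∑ j, Real.sqrt (gmass K lam y c j * gmass K lam y c' j) *
        ‖(gmass K lam y c j)⁻¹ • lmom K y c j - (gmass K lam y c' j)⁻¹ • lmom K y c' j‖ ^ 2
      ≤ 850 * R ^ 2 *
        (1 / 2 * ∑ j, (Real.sqrt (gmass K lam y c j) - Real.sqrt (gmass K lam y c' j)) ^ 2) := by
    have h := core_sum hK hc hint y hy c c' hlam (fun j x => ⟪x, e j⟫ * (kap lam x)⁻¹)
      (fun j => (by fun_prop : Measurable fun x : E d => ⟪x, e j⟫).mul hkm.inv)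
      (L := (1 + lam * R ^ 2) * Ee) (Cu := R * Ee) (by positivity)
      (fun j x hx z hz => lip_inner_invkap hlam hR0 (hR x hx) (hR z hz) (hen j))
      (fun j x hx => by
        rw [abs_mul, abs_of_pos (inv_pos.2 (kap_pos lam x))]
        apply mul_le_mul _ (inv_kap_le hlam (hR x hx)) (inv_pos.2 (kap_pos lam x)).le hR0.le
        calc |⟪x, e j⟫| ≤ ‖x‖ * ‖e j‖ := abs_real_inner_le_norm _ _
          _ ≤ R * 1 := mul_le_mul (hR x hx) (hen j) (norm_nonneg _) hR0.le
          _ = R := mul_one R) hp hq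
    simp only [hI2] at h
    have hterm : ∀ j, (⟪lmom K y c j, e j⟫ / gmass K lam y c j
        - ⟪lmom K y c' j, e j⟫ / gmass K lam y c' j) ^ 2 = ‖w j‖ ^ 2 := by
      intro j
      rw [← hwe j, hw]
      simp only [inner_sub_left, real_inner_smul_left]
      congr 1
      ring
    simp only [hterm] at h
    set S1 := ∑ j, Real.sqrt (gmass K lam y c j * gmass K lam y c' j) * ‖w j‖ ^ 2 with hS1
    set H1 := 1 / 2 * ∑ j, (Real.sqrt (gmass K lam y c j) - Real.sqrt (gmass K lam y c' j)) ^ 2
      with hH1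
    have hH1nn : 0 ≤ H1 := by
      rw [hH1]
      exact mul_nonneg (by norm_num) (Finset.sum_nonneg fun j _ => sq_nonneg _)
    have hcoef : 0 < lam / (8 * ((1 + lam * R ^ 2) * Ee) ^ 2) := by positivity
    have e2 : S1 ≤ (8 * ((1 + lam * R ^ 2) * Ee) ^ 2 / lam) * H1 := by
      have : S1 = (8 * ((1 + lam * R ^ 2) * Ee) ^ 2 / lam) *
          (lam / (8 * ((1 + lam * R ^ 2) * Ee) ^ 2) * S1) := by
        field_simp
      rw [this]
      exact mul_le_mul_of_nonneg_left h (by positivity)
    refine e2.trans (mul_le_mul_of_nonneg_right ?_ hH1nn)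
    rw [hlamR, hlamdef]
    have : 8 * ((1 + 1 / 100) * Ee) ^ 2 / (1 / (100 * R ^ 2))
        = 800 * (101 / 100) ^ 2 * Ee ^ 2 * R ^ 2 := by
      field_simp
      ring
    rw [this]
    have hEsq : Ee ^ 2 ≤ (101 / 100) ^ 2 := pow_le_pow_left₀ hE0.le hE2 2
    have hR2 : 0 ≤ R ^ 2 := by positivity
    nlinarith
  exact star_alg (fun j => lmass K y c j) (fun j => lmass K y c' j) (fun j => gmass K lam y c j)
    (fun j => gmass K lam y c' j) (fun j => lmom K y c j) (fun j => lmom K y c' j) hR0 hE1 hE2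
    hM hp hq (hpM c) (hMp c) (hpM c') (hMp c') hMM (fun j => norm_lmom_le hK hint hR y c j) hd he

end Vale.Agent.Lib.P074
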