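import Vale.Agent.Lib.P074T.LagBasic

/-! # P074T task W2: the separating function of a set of labels -/

open MeasureTheory Set
open scoped ENNReal NNReal RealInnerProductSpace

namespace Vale.Agent.Lib.P074

variable {d N : ℕ}

/-- `max_{j ∈ S} (<x, y j> - c j) - max_{k ∉ S} (<x, y k> - c k)`. -/
noncomputable def fS (y : Fin N → E d) (c : Fin N → ℝ) (S : Finset (Fin N)) (hS : S.Nonempty)
    (hSc : Sᶜ.Nonempty) (x : E d) : ℝ :=
  S.sup' hS (fun j => ⟪x, y j⟫ - c j) - Sᶜ.sup' hSc (fun k => ⟪x, y k⟫ - c k)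

/-- TASK W2. `Continuous.finset_sup'_apply` (or induction `Finset.Nonempty.cons_induction`). -/
theorem continuous_fS (y : Fin N → E d) (c : Fin N → ℝ) (S : Finset (Fin N)) (hS : S.Nonempty)
    (hSc : Sᶜ.Nonempty) : Continuous (fS y c S hS hSc) := by
  unfold fS
  exact (Continuous.finset_sup'_apply hS (fun j _ => by fun_prop)).sub
    (Continuous.finset_sup'_apply hSc (fun k _ => by fun_prop))

/-- TASK W2. `Finset.le_sup'`, `Finset.sup'_le`. -/
theorem fS_nonneg_of_mem {K : Set (E d)} {y : Fin N → E d} {c : Fin N → ℝ} {S : Finset (Fin N)}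
    (hS : S.Nonempty) (hSc : Sᶜ.Nonempty) {j : Fin N} (hj : j ∈ S) {x : E d}
    (hx : x ∈ lag K y c j) : 0 ≤ fS y c S hS hSc x := by
  unfold fS
  have h1 : ⟪x, y j⟫ - c j ≤ S.sup' hS (fun j => ⟪x, y j⟫ - c j) :=
    Finset.le_sup' (fun j => ⟪x, y j⟫ - c j) hj
  have h2 : Sᶜ.sup' hSc (fun k => ⟪x, y k⟫ - c k) ≤ ⟪x, y j⟫ - c j :=
    Finset.sup'_le hSc _ (fun k _ => hx.2 k)
  linarith

/-- TASK W2. If the weights `c'` exceed `c` on `S` by at least `g` more than off `S`, the cells of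
`c'` with label in `S` lie in `{fS ≥ g}` (`fS` taken for the OLD weights `c`). -/
theorem fS_ge_of_mem_gap {K : Set (E d)} {y : Fin N → E d} {c c' : Fin N → ℝ}
    {S : Finset (Fin N)} (hS : S.Nonempty) (hSc : Sᶜ.Nonempty) {g : ℝ}
    (hgap : ∀ j ∈ S, ∀ k ∉ S, g ≤ (c' j - c j) - (c' k - c k)) {j : Fin N} (hj : j ∈ S) {x : E d}
    (hx : x ∈ lag K y c' j) : g ≤ fS y c S hS hSc x := by
  unfold fS
  have h1 : ⟪x, y j⟫ - c j ≤ S.sup' hS (fun j => ⟪x, y j⟫ - c j) :=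
    Finset.le_sup' (fun j => ⟪x, y j⟫ - c j) hj
  have h2 : Sᶜ.sup' hSc (fun k => ⟪x, y k⟫ - c k) ≤ ⟪x, y j⟫ - c j - g := by
    apply Finset.sup'_le hSc _
    intro k hk
    have hk' : k ∉ S := Finset.mem_compl.1 hk
    have a1 := hx.2 k
    have a2 := hgap j hj k hk'
    linarith
  linarith

/-- TASK W2. take `j ∈ S` attaining the first maximum (`Finset.exists_mem_eq_sup'`). -/
theorem exists_mem_lag_of_fS_nonneg {K : Set (E d)} {y : Fin N → E d} {c : Fin N → ℝ}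
    {S : Finset (Fin N)} (hS : S.Nonempty) (hSc : Sᶜ.Nonempty) {x : E d} (hxK : x ∈ K)
    (hx : 0 ≤ fS y c S hS hSc x) : ∃ j ∈ S, x ∈ lag K y c j := by
  unfold fS at hx
  obtain ⟨j, hj, hjeq⟩ := Finset.exists_mem_eq_sup' hS (fun j => ⟪x, y j⟫ - c j)
  refine ⟨j, hj, hxK, ?_⟩
  intro k
  by_cases hk : k ∈ S
  · have := Finset.le_sup' (fun j => ⟪x, y j⟫ - c j) hk
    rw [hjeq] at this
    exact this
  · have := Finset.le_sup' (fun j => ⟪x, y j⟫ - c j) (Finset.mem_compl.2 hk)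
    rw [hjeq] at hx
    linarith

/-- TASK W2. If `x` is in a cell with label in `S` and in no cell with label off `S` then
`fS x > 0`: let `k ∉ S` attain the second maximum; if `<x,y k> - c k ≥ <x,y j> - c j` then `k` is a
global maximiser, so `x ∈ lag K y c k`. -/
theorem fS_pos_of_mem {K : Set (E d)} {y : Fin N → E d} {c : Fin N → ℝ} {S : Finset (Fin N)}
    (hS : S.Nonempty) (hSc : Sᶜ.Nonempty) {j : Fin N} (hj : j ∈ S) {x : E d}
    (hx : x ∈ lag K y c j) (hx' : ∀ k ∉ S, x ∉ lag K y c k) : 0 < fS y c S hS hSc x := by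
  by_contra hneg
  push Not at hneg
  unfold fS at hneg
  obtain ⟨k, hk, hkeq⟩ := Finset.exists_mem_eq_sup' hSc (fun k => ⟪x, y k⟫ - c k)
  have h1 : ⟪x, y j⟫ - c j ≤ S.sup' hS (fun j => ⟪x, y j⟫ - c j) :=
    Finset.le_sup' (fun j => ⟪x, y j⟫ - c j) hj
  rw [hkeq] at hneg
  apply hx' k (Finset.mem_compl.1 hk)
  refine ⟨hx.1, fun i => ?_⟩
  have := hx.2 i
  linarith

/-- TASK W2. mirror image of `fS_pos_of_mem`. -/
theorem fS_neg_of_mem {K : Set (E d)} {y : Fin N → E d} {c : Fin N → ℝ} {S : Finset (Fin N)}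
    (hS : S.Nonempty) (hSc : Sᶜ.Nonempty) {k : Fin N} (hk : k ∉ S) {x : E d}
    (hx : x ∈ lag K y c k) (hx' : ∀ j ∈ S, x ∉ lag K y c j) : fS y c S hS hSc x < 0 := by
  by_contra hneg
  push Not at hneg
  unfold fS at hneg
  obtain ⟨j, hj, hjeq⟩ := Finset.exists_mem_eq_sup' hS (fun j => ⟪x, y j⟫ - c j)
  have h1 : ⟪x, y k⟫ - c k ≤ Sᶜ.sup' hSc (fun k => ⟪x, y k⟫ - c k) :=
    Finset.le_sup' (fun k => ⟪x, y k⟫ - c k) (Finset.mem_compl.2 hk)
  rw [hjeq] at hneg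
  apply hx' j hj
  refine ⟨hx.1, fun i => ?_⟩
  have := hx.2 i
  linarith

end Vale.Agent.Lib.P074
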