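import Mathlib

/-! # P074T task W1: a finite family of reals with large oscillation has a large gap -/

namespace Vale.Agent.Lib.P074

/-- TASK W1 (pure combinatorics).  If `D a - D b > N g` then the labels split into an upper set
`S ∋ a` and a lower set `∌ b` separated by a gap `≥ g`.
Proof: `f j := ⌊(D j - D b) / g⌋₊`; `f b = 0`, `N ≤ f a`.  The `N - 1` labels `≠ b` cannot hit all
the `N` values of `Finset.Icc 1 N` (`Finset.exists_mem_notMem_of_card_lt_card`, `Finset.card_image_le`),
so some `i ∈ Icc 1 N` is not a value of `f`.  `S := univ.filter (fun j => i < f j)`.  For `j ∈ S`, `k ∉ S`: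
`i + 1 ≤ f j ≤ (D j - D b) / g` and `(D k - D b) / g < f k + 1 ≤ i` (`Nat.floor_le`, `Nat.lt_floor_add_one`;
note `f k ≠ i`). -/
theorem exists_gap_set {N : ℕ} (D : Fin N → ℝ) {g : ℝ} (hg : 0 < g) {a b : Fin N}
    (hab : N * g < D a - D b) :
    ∃ S : Finset (Fin N), a ∈ S ∧ b ∉ S ∧ ∀ j ∈ S, ∀ k ∉ S, g ≤ D j - D k := by
  classical
  set f : Fin N → ℕ := fun j => ⌊(D j - D b) / g⌋₊ with hf
  have hfb : f b = 0 := by simp [hf]
  have hfa : N ≤ f a := by
    apply Nat.le_floor
    rw [le_div_iff₀ hg]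
    exact hab.le
  have hcard : ((Finset.univ.erase b).image f).card < (Finset.Icc 1 N).card := by
    have h1 : ((Finset.univ.erase b).image f).card ≤ (Finset.univ.erase b).card :=
      Finset.card_image_le
    have h2 : (Finset.univ.erase b).card = N - 1 := by
      rw [Finset.card_erase_of_mem (Finset.mem_univ b), Finset.card_univ, Fintype.card_fin]
    have h3 : (Finset.Icc 1 N).card = N := by simp
    have h4 : 0 < N := Fin.pos b
    omega
  obtain ⟨i, hi, hni⟩ := Finset.exists_mem_notMem_of_card_lt_card hcard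
  rw [Finset.mem_Icc] at hi
  have hne : ∀ j, f j ≠ i := by
    intro j hj
    by_cases hjb : j = b
    · rw [hjb, hfb] at hj
      omega
    · apply hni
      rw [Finset.mem_image]
      exact ⟨j, Finset.mem_erase.2 ⟨hjb, Finset.mem_univ j⟩, hj⟩
  refine ⟨Finset.univ.filter (fun j => i < f j), ?_, ?_, ?_⟩
  · rw [Finset.mem_filter]
    refine ⟨Finset.mem_univ a, ?_⟩
    have := hne a
    omega
  · rw [Finset.mem_filter]
    rintro ⟨-, h⟩
    omega
  · intro j hj k hk
    rw [Finset.mem_filter] at hj hk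
    have hj1 : i + 1 ≤ f j := hj.2
    have hk1 : f k + 1 ≤ i := by
      have h1 : ¬ i < f k := fun h => hk ⟨Finset.mem_univ k, h⟩
      have := hne k
      omega
    have hj2 : ((i + 1 : ℕ) : ℝ) ≤ (D j - D b) / g :=
      (Nat.le_floor_iff' (Nat.succ_ne_zero i)).1 hj1
    have hk2 : (D k - D b) / g < (f k : ℝ) + 1 := Nat.lt_floor_add_one _
    have hk3 : ((f k : ℝ) + 1) ≤ (i : ℝ) := by exact_mod_cast hk1
    rw [le_div_iff₀ hg] at hj2
    rw [div_lt_iff₀ hg] at hk2
    push_cast at hj2
    nlinarith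

end Vale.Agent.Lib.P074
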