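import Vale.Agent.Lib.P074T.WFun
import Vale.Agent.Lib.P074T.LagPart

/-! # P074T task W3: interior points on both sides -/

open MeasureTheory Set
open scoped ENNReal NNReal RealInnerProductSpace

namespace Vale.Agent.Lib.P074

variable {d N : ℕ}

theorem unif_frontier_null {K : Set (E d)} (hconv : Convex ℝ K) : (unif K) (frontier K) = 0 := by
  unfold unif
  rw [Measure.smul_apply, smul_eq_mul]
  have h0 : volume.restrict K (frontier K) = 0 :=
    le_antisymm ((Measure.le_iff'.mp Measure.restrict_le_self _).trans
      (hconv.addHaar_frontier volume).le) bot_le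
  rw [h0, mul_zero]

/-- TASK W3.  A cell of positive mass contains a point of `interior K` lying in no other cell.
Proof: `lag K y c j` has positive `unif K` measure (`lmass` is its `toReal`).  Remove the null sets
`lag j ∩ lag k` (`lag_inter_null`, finite union over `k ≠ j`) and `frontier K`
(`Convex.addHaar_frontier`; `unif K ≤ const • volume`, or unfold `unif`); what is left has positive
measure, hence is nonempty; a point of `K` off `frontier K` is in `interior K`
(`K` closed: `hK.isClosed.frontier_eq`, i.e. `K \ interior K`). -/
theorem exists_interior_mem_lag {K : Set (E d)} (hK : IsCompact K) (hconv : Convex ℝ K)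
    (y : Fin N → E d) (hy : Function.Injective y) (c : Fin N → ℝ) (j : Fin N)
    (hm : 0 < lmass K y c j) :
    ∃ x ∈ interior K, x ∈ lag K y c j ∧ ∀ k, k ≠ j → x ∉ lag K y c k := by
  have hpos : 0 < (unif K) (lag K y c j) := (ENNReal.toReal_pos_iff.mp hm).1
  set B : Set (E d) := (⋃ k : {k : Fin N // k ≠ j}, lag K y c j ∩ lag K y c k) ∪ frontier K
    with hB
  have hBnull : (unif K) B = 0 := by
    rw [hB]
    apply measure_union_null
    · rw [measure_iUnion_null_iff]
      intro k
      exact lag_inter_null y hy c (Ne.symm k.2)
    · exact unif_frontier_null hconv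
  have hdiff : (unif K) (lag K y c j \ B) = (unif K) (lag K y c j) := measure_diff_null hBnull
  have hne : (lag K y c j \ B).Nonempty := by
    apply nonempty_of_measure_ne_zero (μ := unif K)
    rw [hdiff]
    exact hpos.ne'
  obtain ⟨x, hxj, hxB⟩ := hne
  refine ⟨x, ?_, hxj, ?_⟩
  · by_contra hint
    apply hxB
    right
    exact ⟨subset_closure hxj.1, hint⟩
  · intro k hk hxk
    apply hxB
    left
    exact mem_iUnion.mpr ⟨⟨k, hk⟩, hxj, hxk⟩

end Vale.Agent.Lib.P074
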