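import Vale.Agent.Lib.P074T.ZPot
import Vale.Agent.Lib.P074T.EFinal
import Vale.Agent.Lib.P074T.Pre25InterpFinal

/-! # P074T task Z1: stability with exponent one third for finitely supported targets with the
same masses -/

open MeasureTheory Set
open scoped ENNReal NNReal RealInnerProductSpace

namespace Vale.Agent.Lib.P074

variable {d : ℕ}

/-- TASK Z1. `CI` from `Pre25.interp_bound_exists hK hconv hint L`, `CP` from
`potential_lipschitz`; `C = CI * CP ^ (1/3)`. `exists_weights_of_brenier` for `T0` and `T1` gives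
`c0, c1`, the subgradient property and `T x = y j` a.e. (so `‖T x‖ ≤ L`); `lipschitzWith_lpot`,
`lpot_midpoint`; `Real.rpow_le_rpow`, `Real.mul_rpow`. -/
theorem stab_atoms {K : Set (E d)} (hK : IsCompact K) (hconv : Convex ℝ K)
    (hint : (interior K).Nonempty) (L : ℝ≥0) :
    ∃ C : ℝ, 0 ≤ C ∧ ∀ (N : ℕ) [NeZero N] (y0 y1 : Fin N → E d) (m : Fin N → ℝ),
      Function.Injective y0 → Function.Injective y1 → (∀ j, 0 < m j) → ∑ j, m j = 1 →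
      (∀ j, ‖y0 j‖ ≤ L) → (∀ j, ‖y1 j‖ ≤ L) →
      ∀ T0 T1 : E d → E d, IsBrenierMap K (atom y0 m) T0 → IsBrenierMap K (atom y1 m) T1 →
        ∫ x, ‖T1 x - T0 x‖ ^ 2 ∂(unif K) ≤ C * (wsq m y0 y1) ^ (1 / 3 : ℝ) := by
  obtain ⟨CI, hCI, hI⟩ := Pre25.interp_bound_exists hK hconv hint L
  obtain ⟨CP, hCP, hP⟩ := potential_lipschitz hK hconv hint
  refine ⟨CI * CP ^ (1 / 3 : ℝ), by positivity, ?_⟩
  intro N _ y0 y1 m hy0 hy1 hm hsum hL0 hL1 T0 T1 hT0 hT1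
  obtain ⟨c0, hc0, hs0, hg0⟩ := exists_weights_of_brenier hK hint y0 hy0 m hm hT0
  obtain ⟨c1, hc1, hs1, hg1⟩ := exists_weights_of_brenier hK hint y1 hy1 m hm hT1
  obtain ⟨a, ha⟩ := hP N y0 y1 m c0 c1 hy0 hy1 hm hsum hc0 hc1
  have hb0 : ∀ᵐ x ∂(unif K), ‖T0 x‖ ≤ L := by
    filter_upwards [hs0] with x hx
    obtain ⟨j, hj, -⟩ := hx
    rw [hj]
    exact hL0 j
  have hb1 : ∀ᵐ x ∂(unif K), ‖T1 x‖ ≤ L := by
    filter_upwards [hs1] with x hx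
    obtain ⟨j, hj, -⟩ := hx
    rw [hj]
    exact hL1 j
  have h1 := hI (lpot y0 c0) (lpot y1 c1) T0 T1 a (lipschitzWith_lpot y0 c0 L hL0)
    (lipschitzWith_lpot y1 c1 L hL1) (lpot_midpoint y0 c0) (lpot_midpoint y1 c1) hT0.1 hT1.1
    hg0 hg1 hb0 hb1
  have hw : 0 ≤ wsq m y0 y1 := by
    unfold wsq
    exact Finset.sum_nonneg fun j _ => mul_nonneg (hm j).le (sq_nonneg _)
  have h2 : (∫ x, (lpot y1 c1 x - lpot y0 c0 x - a) ^ 2 ∂(unif K)) ^ (1 / 3 : ℝ)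
      ≤ (CP * wsq m y0 y1) ^ (1 / 3 : ℝ) :=
    Real.rpow_le_rpow (integral_nonneg fun x => sq_nonneg _) ha (by norm_num)
  rw [Real.mul_rpow hCP hw] at h2
  calc ∫ x, ‖T1 x - T0 x‖ ^ 2 ∂(unif K)
      ≤ CI * (∫ x, (lpot y1 c1 x - lpot y0 c0 x - a) ^ 2 ∂(unif K)) ^ (1 / 3 : ℝ) := h1
    _ ≤ CI * (CP ^ (1 / 3 : ℝ) * wsq m y0 y1 ^ (1 / 3 : ℝ)) :=
        mul_le_mul_of_nonneg_left h2 hCI
    _ = CI * CP ^ (1 / 3 : ℝ) * wsq m y0 y1 ^ (1 / 3 : ℝ) := by ring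

end Vale.Agent.Lib.P074
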