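import Vale.Agent.Lib.P074S.Defs

/-! # P074T task Z5: conversion to `L2dist` and the cost of the coupling -/

open MeasureTheory Set
open scoped ENNReal NNReal RealInnerProductSpace

namespace Vale.Agent.Lib.P074

variable {d : ℕ}

/-- TASK Z5. As `L2dist_le_of_real` in `P074S/Conv.lean`: `ofReal (∫ f) ≤ ∫⁻ ofReal f` for
`f ≥ 0` (also when `f` is not integrable), `ENNReal.ofReal_mul`, `ENNReal.ofReal_rpow_of_nonneg`,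
`ENNReal.mul_rpow_of_nonneg`, `← ENNReal.rpow_mul`, `NNReal.sqrt_eq_rpow`,
`ENNReal.coe_rpow_of_nonneg`; `3 * ofReal CA = ofReal (3 * CA) = ((3 * CA).toNNReal : ℝ≥0∞)`. -/
theorem L2dist_le_of_third {ρ : Measure (E d)} {T S : E d → E d}
    (π : Measure (E d × E d)) (CA : ℝ) (hCA : 0 ≤ CA)
    (h : ∫⁻ x, ENNReal.ofReal (‖T x - S x‖ ^ 2) ∂ρ
      ≤ 3 * ENNReal.ofReal (CA * (∫ p, ‖p.1 - p.2‖ ^ 2 ∂π) ^ (1 / 3 : ℝ))) :
    L2dist ρ T S ≤ ((NNReal.sqrt (3 * CA).toNNReal + 1 : ℝ≥0) : ℝ≥0∞) *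
      (∫⁻ p, ENNReal.ofReal (‖p.1 - p.2‖ ^ 2) ∂π) ^ (1 / 6 : ℝ) := by
  have h2 : ENNReal.ofReal (∫ p, ‖p.1 - p.2‖ ^ 2 ∂π)
      ≤ ∫⁻ p, ENNReal.ofReal (‖p.1 - p.2‖ ^ 2) ∂π := by
    by_cases hi : Integrable (fun p : E d × E d => ‖p.1 - p.2‖ ^ 2) π
    · exact (ofReal_integral_eq_lintegral_ofReal hi
        (Filter.Eventually.of_forall fun p => by positivity)).le
    · rw [integral_undef hi]
      simp
  set J : ℝ := ∫ p, ‖p.1 - p.2‖ ^ 2 ∂π with hJ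
  set W : ℝ≥0∞ := ∫⁻ p, ENNReal.ofReal (‖p.1 - p.2‖ ^ 2) ∂π with hW
  have hJ0 : 0 ≤ J := integral_nonneg fun p => by positivity
  set c : ℝ≥0 := (3 * CA).toNNReal with hc
  have h3 : 3 * ENNReal.ofReal (CA * J ^ (1 / 3 : ℝ)) ≤ (c : ℝ≥0∞) * W ^ (1 / 3 : ℝ) := by
    rw [ENNReal.ofReal_mul hCA, ← mul_assoc]
    have e1 : (3 : ℝ≥0∞) * ENNReal.ofReal CA = (c : ℝ≥0∞) := by
      rw [hc]
      have : (3 : ℝ≥0∞) = ENNReal.ofReal 3 := by simp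
      rw [this, ← ENNReal.ofReal_mul (by norm_num)]
      rfl
    rw [e1, ← ENNReal.ofReal_rpow_of_nonneg hJ0 (by norm_num)]
    gcongr
  unfold L2dist
  calc (∫⁻ x, ENNReal.ofReal (‖T x - S x‖ ^ 2) ∂ρ) ^ (1 / 2 : ℝ)
      ≤ ((c : ℝ≥0∞) * W ^ (1 / 3 : ℝ)) ^ (1 / 2 : ℝ) := by
        apply ENNReal.rpow_le_rpow _ (by norm_num)
        exact h.trans h3
    _ = (c : ℝ≥0∞) ^ (1 / 2 : ℝ) * W ^ (1 / 6 : ℝ) := by
        rw [ENNReal.mul_rpow_of_nonneg _ _ (by norm_num), ← ENNReal.rpow_mul]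
        norm_num
    _ = (NNReal.sqrt c : ℝ≥0) * W ^ (1 / 6 : ℝ) := by
        congr 1
        rw [NNReal.sqrt_eq_rpow, ENNReal.coe_rpow_of_nonneg _ (by norm_num)]
    _ ≤ ((NNReal.sqrt c + 1 : ℝ≥0) : ℝ≥0∞) * W ^ (1 / 6 : ℝ) := by
        gcongr
        exact le_self_add

end Vale.Agent.Lib.P074
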