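import Mathlib

/-! # P074T task Z4: letting the quantisation error tend to zero -/

open Filter Topology
open scoped ENNReal NNReal

namespace Vale.Agent.Lib.P074

/-- TASK Z4. The right side is a continuous function of `ε : ℝ` with values in `ℝ≥0∞`
(`ENNReal.continuous_ofReal`, `ENNReal.continuous_rpow_const`, `ENNReal.continuous_pow`,
`ENNReal.continuous_const_mul` / `ENNReal.Tendsto.const_mul`, `Real.continuous_rpow_const` ...);
`ge_of_tendsto` along `𝓝[>] 0` (eventually `0 < ε ≤ 1`: `Ioc_mem_nhdsGT`); at `ε = 0` the value is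
`3 * (0 + ofReal (CA * (sqrt A ^ 2) ^ (1/3)) + 0)` and `Real.sq_sqrt hA`. -/
theorem le_of_forall_eps (X : ℝ≥0∞) (C : ℝ≥0) (CA A : ℝ) (hCA : 0 ≤ CA) (hA : 0 ≤ A)
    (h : ∀ ε : ℝ, 0 < ε → ε ≤ 1 →
      X ≤ 3 * (((C : ℝ≥0∞) * ENNReal.ofReal ε ^ (1 / 4 : ℝ)) ^ 2
        + ENNReal.ofReal (CA * ((Real.sqrt A + 2 * ε) ^ 2) ^ (1 / 3 : ℝ))
        + ((C : ℝ≥0∞) * ENNReal.ofReal ε ^ (1 / 4 : ℝ)) ^ 2)) :
    X ≤ 3 * ENNReal.ofReal (CA * A ^ (1 / 3 : ℝ)) := by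
  set G : ℝ → ℝ≥0∞ := fun ε =>
    3 * (((C : ℝ≥0∞) * ENNReal.ofReal ε ^ (1 / 4 : ℝ)) ^ 2
        + ENNReal.ofReal (CA * ((Real.sqrt A + 2 * ε) ^ 2) ^ (1 / 3 : ℝ))
        + ((C : ℝ≥0∞) * ENNReal.ofReal ε ^ (1 / 4 : ℝ)) ^ 2) with hG
  have h1 : Continuous fun ε : ℝ => ((C : ℝ≥0∞) * ENNReal.ofReal ε ^ (1 / 4 : ℝ)) ^ 2 := by
    apply (ENNReal.continuous_pow 2).comp
    apply (ENNReal.continuous_const_mul ENNReal.coe_ne_top).comp
    exact ENNReal.continuous_rpow_const.comp ENNReal.continuous_ofReal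
  have h2 : Continuous fun ε : ℝ =>
      ENNReal.ofReal (CA * ((Real.sqrt A + 2 * ε) ^ 2) ^ (1 / 3 : ℝ)) := by
    apply ENNReal.continuous_ofReal.comp
    apply continuous_const.mul
    apply (Real.continuous_rpow_const (by norm_num : (0 : ℝ) ≤ 1 / 3)).comp
    fun_prop
  have hGc : Continuous G := by
    rw [hG]
    exact (ENNReal.continuous_const_mul (by norm_num)).comp ((h1.add h2).add h1)
  have hG0 : G 0 = 3 * ENNReal.ofReal (CA * A ^ (1 / 3 : ℝ)) := by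
    simp only [hG]
    rw [ENNReal.ofReal_zero, ENNReal.zero_rpow_of_pos (by norm_num), mul_zero, mul_zero, add_zero,
      Real.sq_sqrt hA]
    simp
  rw [← hG0]
  have ht : Tendsto G (𝓝[>] 0) (𝓝 (G 0)) := (hGc.tendsto 0).mono_left nhdsWithin_le_nhds
  refine ge_of_tendsto ht ?_
  filter_upwards [Ioc_mem_nhdsGT (zero_lt_one : (0 : ℝ) < 1)] with ε hε
  exact h ε hε.1 hε.2

end Vale.Agent.Lib.P074
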