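import Vale.Agent.Lib.P074S.Defs

/-! # P074T task Z2: triangle inequality with the factor three, and the square of `L2dist` -/

open MeasureTheory Set
open scoped ENNReal NNReal RealInnerProductSpace

namespace Vale.Agent.Lib.P074

variable {d : ℕ}

/-- TASK Z2a. Pointwise `‖a + b + c‖^2 ≤ 3 (‖a‖^2 + ‖b‖^2 + ‖c‖^2)`; `lintegral_mono`,
`ENNReal.ofReal_add`, `ENNReal.ofReal_mul`, `lintegral_add_left`, `lintegral_const_mul`. -/
theorem lintegral_sq_triangle {ρ : Measure (E d)} {T T' S' S : E d → E d} (hT : Measurable T)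
    (hT' : Measurable T') (hS' : Measurable S') (hS : Measurable S) :
    ∫⁻ x, ENNReal.ofReal (‖T x - S x‖ ^ 2) ∂ρ
      ≤ 3 * (∫⁻ x, ENNReal.ofReal (‖T x - T' x‖ ^ 2) ∂ρ
        + ∫⁻ x, ENNReal.ofReal (‖S' x - T' x‖ ^ 2) ∂ρ
        + ∫⁻ x, ENNReal.ofReal (‖S x - S' x‖ ^ 2) ∂ρ) := by
  have m1 : Measurable fun x => ENNReal.ofReal (‖T x - T' x‖ ^ 2) :=
    (((hT.sub hT').norm).pow_const 2).ennreal_ofReal
  have m2 : Measurable fun x => ENNReal.ofReal (‖S' x - T' x‖ ^ 2) :=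
    (((hS'.sub hT').norm).pow_const 2).ennreal_ofReal
  have m3 : Measurable fun x => ENNReal.ofReal (‖S x - S' x‖ ^ 2) :=
    (((hS.sub hS').norm).pow_const 2).ennreal_ofReal
  have hpt : ∀ x, ENNReal.ofReal (‖T x - S x‖ ^ 2)
      ≤ 3 * (ENNReal.ofReal (‖T x - T' x‖ ^ 2) + ENNReal.ofReal (‖S' x - T' x‖ ^ 2)
        + ENNReal.ofReal (‖S x - S' x‖ ^ 2)) := by
    intro x
    have h3 : (3 : ℝ≥0∞) = ENNReal.ofReal 3 := by simp
    rw [← ENNReal.ofReal_add (by positivity) (by positivity),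
      ← ENNReal.ofReal_add (by positivity) (by positivity), h3,
      ← ENNReal.ofReal_mul (by norm_num)]
    apply ENNReal.ofReal_le_ofReal
    have htri : ‖T x - S x‖ ≤ ‖T x - T' x‖ + ‖S' x - T' x‖ + ‖S x - S' x‖ := by
      have e : T x - S x = (T x - T' x) - (S' x - T' x) - (S x - S' x) := by abel
      calc ‖T x - S x‖ = ‖(T x - T' x) - (S' x - T' x) - (S x - S' x)‖ := by rw [← e]
        _ ≤ ‖(T x - T' x) - (S' x - T' x)‖ + ‖S x - S' x‖ := norm_sub_le _ _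
        _ ≤ ‖T x - T' x‖ + ‖S' x - T' x‖ + ‖S x - S' x‖ := by
            gcongr
            exact norm_sub_le _ _
    have h0 : 0 ≤ ‖T x - S x‖ := norm_nonneg _
    set a := ‖T x - T' x‖
    set b := ‖S' x - T' x‖
    set c := ‖S x - S' x‖
    calc ‖T x - S x‖ ^ 2 ≤ (a + b + c) ^ 2 := pow_le_pow_left₀ h0 htri 2
      _ ≤ 3 * (a ^ 2 + b ^ 2 + c ^ 2) := by
          nlinarith [sq_nonneg (a - b), sq_nonneg (b - c), sq_nonneg (a - c)]
  calc ∫⁻ x, ENNReal.ofReal (‖T x - S x‖ ^ 2) ∂ρ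
      ≤ ∫⁻ x, 3 * (ENNReal.ofReal (‖T x - T' x‖ ^ 2) + ENNReal.ofReal (‖S' x - T' x‖ ^ 2)
        + ENNReal.ofReal (‖S x - S' x‖ ^ 2)) ∂ρ := lintegral_mono hpt
    _ = 3 * (∫⁻ x, ENNReal.ofReal (‖T x - T' x‖ ^ 2) ∂ρ
        + ∫⁻ x, ENNReal.ofReal (‖S' x - T' x‖ ^ 2) ∂ρ
        + ∫⁻ x, ENNReal.ofReal (‖S x - S' x‖ ^ 2) ∂ρ) := by
        have m12 : Measurable fun x => ENNReal.ofReal (‖T x - T' x‖ ^ 2)
            + ENNReal.ofReal (‖S' x - T' x‖ ^ 2) := m1.add m2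
        have m123 : Measurable fun x => ENNReal.ofReal (‖T x - T' x‖ ^ 2)
            + ENNReal.ofReal (‖S' x - T' x‖ ^ 2) + ENNReal.ofReal (‖S x - S' x‖ ^ 2) := m12.add m3
        rw [lintegral_const_mul _ m123, lintegral_add_left m12, lintegral_add_left m1]

/-- TASK Z2b. `L2dist = X ^ (1/2)`; `ENNReal.rpow_le_rpow` with exponent two, `ENNReal.rpow_mul`,
`ENNReal.rpow_natCast` / `ENNReal.rpow_two`. -/
theorem lintegral_sq_le_of_L2dist_le {ρ : Measure (E d)} {T S : E d → E d} {b : ℝ≥0∞}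
    (h : L2dist ρ T S ≤ b) : ∫⁻ x, ENNReal.ofReal (‖T x - S x‖ ^ 2) ∂ρ ≤ b ^ 2 := by
  unfold L2dist at h
  have h2 := ENNReal.rpow_le_rpow h (show (0 : ℝ) ≤ 2 by norm_num)
  rw [← ENNReal.rpow_mul, show (1 / 2 : ℝ) * 2 = 1 by norm_num, ENNReal.rpow_one,
    ENNReal.rpow_two] at h2
  exact h2

/-- TASK Z2c. For maps bounded a.e. the `lintegral` is `ofReal` of the integral
(see the beginning of the proof of `L2dist_le_of_real` in `P074S/Conv.lean`). -/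
theorem lintegral_sq_eq_ofReal {ρ : Measure (E d)} [IsProbabilityMeasure ρ] {T S : E d → E d}
    (hT : Measurable T) (hS : Measurable S) (L : ℝ)
    (hTL : ∀ᵐ x ∂ρ, ‖T x‖ ≤ L) (hSL : ∀ᵐ x ∂ρ, ‖S x‖ ≤ L) :
    ∫⁻ x, ENNReal.ofReal (‖T x - S x‖ ^ 2) ∂ρ = ENNReal.ofReal (∫ x, ‖T x - S x‖ ^ 2 ∂ρ) := by
  have hmeas : Measurable fun x => ‖T x - S x‖ ^ 2 := ((hT.sub hS).norm).pow_const 2
  have hint : Integrable (fun x => ‖T x - S x‖ ^ 2) ρ := by
    refine Integrable.of_bound hmeas.aestronglyMeasurable ((2 * L) ^ 2) ?_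
    filter_upwards [hTL, hSL] with x h1 h2
    rw [Real.norm_of_nonneg (by positivity)]
    apply pow_le_pow_left₀ (norm_nonneg _)
    calc ‖T x - S x‖ ≤ ‖T x‖ + ‖S x‖ := norm_sub_le _ _
      _ ≤ 2 * L := by linarith
  exact (ofReal_integral_eq_lintegral_ofReal hint
    (Filter.Eventually.of_forall fun x => by positivity)).symm

end Vale.Agent.Lib.P074
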