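import Vale.Agent.Lib.P074T.ZAtom
import Vale.Agent.Lib.P074T.ZTri
import Vale.Agent.Lib.P074T.ZLim
import Vale.Agent.Lib.P074T.ZConv
import Vale.Agent.Lib.P074T.Quant

/-! # P074T: the exponent one third is admissible -/

open MeasureTheory Set
open scoped ENNReal NNReal RealInnerProductSpace

namespace Vale.Agent.Lib.P074

variable {d : ℕ}

/-- Stability of Brenier maps with exponent one third with respect to `W2`, for a convex compact
source domain. -/
theorem stab_third [NeZero d] {K : Set (E d)} (hK : IsCompact K) (hconv : Convex ℝ K)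
    (hint : (interior K).Nonempty) {Y : Set (E d)} (hY : IsCompact Y) :
    ∃ C : ℝ≥0, ∀ μ ν : Measure (E d), μ Yᶜ = 0 → ν Yᶜ = 0 →
      ∀ T S : E d → E d, IsBrenierMap K μ T → IsBrenierMap K ν S →
        L2dist (unif K) T S ≤ C * W2 μ ν ^ (1 / 3 : ℝ) := by
  obtain ⟨L0, hL0⟩ := hY.isBounded.exists_norm_le
  set L : ℝ≥0 := L0.toNNReal with hL
  have hYL : ∀ y ∈ Y, ‖y‖ ≤ (L : ℝ) := fun y hy => le_trans (hL0 y hy) (Real.le_coe_toNNReal L0)
  have hprobK := isProbabilityMeasure_unif hK hint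
  set Y' : Set (E d) := Metric.closedBall 0 ((L : ℝ) + 1) with hY'
  have hY'c : IsCompact Y' := isCompact_closedBall _ _
  have hmemY' : ∀ y : E d, ‖y‖ ≤ (L : ℝ) + 1 → y ∈ Y' := fun y hy => by
    rw [hY', mem_closedBall_zero_iff]; exact hy
  have hnormY' : ∀ y ∈ Y', ‖y‖ ≤ (L : ℝ) + 1 := fun y hy => by
    rw [hY', mem_closedBall_zero_iff] at hy; exact hy
  have hYY' : Y ⊆ Y' := fun y hy => hmemY' y (by linarith [hYL y hy])
  have hY'ne : Y'.Nonempty := ⟨0, hmemY' 0 (by rw [norm_zero]; positivity)⟩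
  obtain ⟨Cs, hCs⟩ := stab_W1 hK hint hY'c
  obtain ⟨CA, hCA0, hCA⟩ := stab_atoms hK hconv hint (L + 1)
  refine ⟨NNReal.sqrt (3 * CA).toNNReal + 1, ?_⟩
  intro μ ν hμ hν T S hT hS
  have hμp : IsProbabilityMeasure μ := by
    rw [← hT.2.1]; exact Measure.isProbabilityMeasure_map hT.1.aemeasurable
  have hμ' : μ Y'ᶜ = 0 := measure_mono_null (compl_subset_compl.2 hYY') hμ
  have hν' : ν Y'ᶜ = 0 := measure_mono_null (compl_subset_compl.2 hYY') hν
  have hW : W2 μ ν ^ (1 / 3 : ℝ)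
      = (⨅ π : {π : Measure (E d × E d) // π.map Prod.fst = μ ∧ π.map Prod.snd = ν},
          ∫⁻ p, ENNReal.ofReal (‖p.1 - p.2‖ ^ 2) ∂π.1) ^ (1 / 6 : ℝ) := by
    unfold W2
    rw [← ENNReal.rpow_mul]
    norm_num
  rw [hW]
  refine le_mul_iInf_rpow _ _ _ (by positivity) (1 / 6 : ℝ) (by norm_num) ?_
  rintro ⟨π, h1, h2⟩
  apply L2dist_le_of_third π CA hCA0
  apply le_of_forall_eps _ Cs CA _ hCA0 (integral_nonneg fun p => by positivity)
  intro ε hε hε1
  obtain ⟨N, hN, y0, y1, m, hy0, hy1, hm, hsum, hb0, hb1, hw0, hw1, hwsq⟩ :=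
    exists_quantisation hY hYL hμ hν π h1 h2 hε hε1
  haveI := hN
  haveI := isProbabilityMeasure_atom y0 m (fun j => (hm j).le) hsum
  haveI := isProbabilityMeasure_atom y1 m (fun j => (hm j).le) hsum
  have ha0 : atom y0 m Y'ᶜ = 0 :=
    measure_mono_null (compl_subset_compl.2 (range_subset_iff.2 fun j => hmemY' _ (hb0 j)))
      (atom_compl_range y0 m)
  have ha1 : atom y1 m Y'ᶜ = 0 :=
    measure_mono_null (compl_subset_compl.2 (range_subset_iff.2 fun j => hmemY' _ (hb1 j)))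
      (atom_compl_range y1 m)
  obtain ⟨T', hT'⟩ := exists_brenierMap hK hint hY'c hY'ne (atom y0 m) ha0
  obtain ⟨S', hS'⟩ := exists_brenierMap hK hint hY'c hY'ne (atom y1 m) ha1
  have e1 := hCs μ (atom y0 m) hμ' ha0 T T' hT hT'
  have e2 := hCs ν (atom y1 m) hν' ha1 S S' hS hS'
  have e3 := hCA N y0 y1 m hy0 hy1 hm hsum (by simpa using hb0) (by simpa using hb1) T' S' hT' hS'
  have hT'L : ∀ᵐ x ∂(unif K), ‖T' x‖ ≤ (L : ℝ) + 1 := by
    filter_upwards [ae_map_of_ae hT'.1 hT'.2.1 hY'c.measurableSet ha0] with x hx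
    exact hnormY' _ hx
  have hS'L : ∀ᵐ x ∂(unif K), ‖S' x‖ ≤ (L : ℝ) + 1 := by
    filter_upwards [ae_map_of_ae hS'.1 hS'.2.1 hY'c.measurableSet ha1] with x hx
    exact hnormY' _ hx
  have hwsq0 : 0 ≤ wsq m y0 y1 :=
    Finset.sum_nonneg fun j _ => mul_nonneg (hm j).le (by positivity)
  refine (lintegral_sq_triangle hT.1 hT'.1 hS'.1 hS.1).trans ?_
  gcongr
  · apply lintegral_sq_le_of_L2dist_le
    refine e1.trans ?_
    gcongr
  · rw [lintegral_sq_eq_ofReal hS'.1 hT'.1 ((L : ℝ) + 1) hS'L hT'L]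
    apply ENNReal.ofReal_le_ofReal
    refine e3.trans ?_
    gcongr
  · apply lintegral_sq_le_of_L2dist_le
    refine e2.trans ?_
    gcongr

/-- The exponent one third is admissible in every positive dimension. -/
theorem admissible_third [NeZero d] : Admissible d (1 / 3) := by
  intro K hK hconv hint Y hY _
  obtain ⟨C, hC⟩ := stab_third hK hconv hint hY
  refine ⟨C, fun μ ν _ _ hμ hν T S hT hS => ?_⟩
  exact hC μ ν hμ hν T S (IsOptMap.isBrenierMap hK hint hY hμ hT)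
    (IsOptMap.isBrenierMap hK hint hY hν hS)

end Vale.Agent.Lib.P074
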