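import Vale.Agent.Lib.P074T.Pre27PotLip

/-! # P074T task ZP: the potentials depend in a Lipschitz way on the sites (fixed masses) -/

open MeasureTheory Set
open scoped ENNReal NNReal RealInnerProductSpace

namespace Vale.Agent.Lib.P074

variable {d : ℕ}

/-- TASK ZP (DUALITY + H). `weights_lipschitz` + `potdiff_L2` / `pot_l2_le`. Add the imports you
need. -/
theorem potential_lipschitz {K : Set (E d)} (hK : IsCompact K) (hconv : Convex ℝ K)
    (hint : (interior K).Nonempty) :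
    ∃ C : ℝ, 0 ≤ C ∧ ∀ (N : ℕ) [NeZero N] (y0 y1 : Fin N → E d) (m c0 c1 : Fin N → ℝ),
      Function.Injective y0 → Function.Injective y1 → (∀ j, 0 < m j) → ∑ j, m j = 1 →
      (∀ j, lmass K y0 c0 j = m j) → (∀ j, lmass K y1 c1 j = m j) →
      ∃ a : ℝ, ∫ x, (lpot y1 c1 x - lpot y0 c0 x - a) ^ 2 ∂(unif K) ≤ C * wsq m y0 y1 := by
  obtain ⟨C, hC, h⟩ := potential_lipschitz27 hK hconv hint
  exact ⟨C, hC, fun N _ y0 y1 m c0 c1 hy0 hy1 hm hsum hc0 hc1 =>
    h N y0 y1 hy0 hy1 m hm hsum c0 c1 hc0 hc1⟩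

end Vale.Agent.Lib.P074
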